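import Mathlib

/-! Row 181, part (A): abstract theory of an additive integer valued rank function on a class of noetherian
modules: atoms, pushouts. -/

set_option autoImplicit false
open Function

namespace Crest.Agent.R181

/-- an additive integer valued function `ρ` on a class `C` of noetherian modules -/
structure Rho (Γ : Type) [Ring Γ] where
  C : ∀ (M : Type) [AddCommGroup M] [Module Γ M], Prop
  ρ : ∀ (M : Type) [AddCommGroup M] [Module Γ M], ℤ
  C_inj : ∀ {M N : Type} [AddCommGroup M] [Module Γ M] [AddCommGroup N] [Module Γ N] (f : M →ₗ[Γ] N),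
    Injective f → C N → C M
  C_surj : ∀ {M N : Type} [AddCommGroup M] [Module Γ M] [AddCommGroup N] [Module Γ N] (f : M →ₗ[Γ] N),
    Surjective f → C M → C N
  C_prod : ∀ {M N : Type} [AddCommGroup M] [Module Γ M] [AddCommGroup N] [Module Γ N], C M → C N → C (M × N)
  noeth : ∀ {M : Type} [AddCommGroup M] [Module Γ M], C M → IsNoetherian Γ M
  ρ_equiv : ∀ {M N : Type} [AddCommGroup M] [Module Γ M] [AddCommGroup N] [Module Γ N] (_ : M ≃ₗ[Γ] N),
    ρ M = ρ N
  ρ_add : ∀ {M N : Type} [AddCommGroup M] [Module Γ M] [AddCommGroup N] [Module Γ N] (f : M →ₗ[Γ] N),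
    C M → ρ M = ρ (LinearMap.ker f) + ρ (LinearMap.range f)

namespace Rho

variable {Γ : Type} [Ring Γ] (r : Rho Γ)
variable {M N A B X Y O : Type} [AddCommGroup M] [Module Γ M] [AddCommGroup N] [Module Γ N]
  [AddCommGroup A] [Module Γ A] [AddCommGroup B] [Module Γ B] [AddCommGroup X] [Module Γ X]
  [AddCommGroup Y] [Module Γ Y] [AddCommGroup O] [Module Γ O]

/-- `ρ` of a submodule -/
def s (W : Submodule Γ M) : ℤ := r.ρ W

theorem C_sub (h : r.C M) (W : Submodule Γ M) : r.C W := r.C_inj W.subtype W.injective_subtype h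

theorem C_le {W W' : Submodule Γ M} (h : r.C W') (hle : W ≤ W') : r.C W :=
  r.C_inj (Submodule.inclusion hle) (Submodule.inclusion_injective hle) h

theorem C_range (h : r.C M) (f : M →ₗ[Γ] N) : r.C (LinearMap.range f) :=
  r.C_surj f.rangeRestrict f.surjective_rangeRestrict h

theorem C_map {W : Submodule Γ M} (h : r.C W) (f : M →ₗ[Γ] N) : r.C (W.map f) := by
  rw [← LinearMap.range_domRestrict]
  exact r.C_range h _

theorem C_quot (h : r.C M) (W : Submodule Γ M) : r.C (M ⧸ W) := r.C_surj W.mkQ W.mkQ_surjective h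

theorem C_sup {W W' : Submodule Γ M} (h : r.C W) (h' : r.C W') : r.C (W ⊔ W' : Submodule Γ M) := by
  have := r.C_range (r.C_prod h h') (W.subtype.coprod W'.subtype)
  rwa [LinearMap.range_coprod, Submodule.range_subtype, Submodule.range_subtype] at this

theorem ρ_zero [Subsingleton M] (h : r.C M) : r.ρ M = 0 := by
  have h1 := r.ρ_add (LinearMap.id : M →ₗ[Γ] M) h
  rw [r.ρ_equiv (LinearEquiv.ofSubsingleton (LinearMap.ker (LinearMap.id : M →ₗ[Γ] M)) M),
    r.ρ_equiv (LinearEquiv.ofSubsingleton (LinearMap.range (LinearMap.id : M →ₗ[Γ] M)) M)] at h1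
  omega

theorem s_top : r.s (⊤ : Submodule Γ M) = r.ρ M := r.ρ_equiv Submodule.topEquiv

theorem s_bot {W : Submodule Γ M} (h : r.C W) : r.s (⊥ : Submodule Γ M) = 0 := r.ρ_zero (r.C_le h bot_le)

theorem s_map {f : M →ₗ[Γ] N} (hf : Injective f) (W : Submodule Γ M) : r.s (W.map f) = r.s W :=
  (r.ρ_equiv (W.equivMapOfInjective f hf)).symm

theorem s_range {f : M →ₗ[Γ] N} (hf : Injective f) : r.s (LinearMap.range f) = r.ρ M :=
  (r.ρ_equiv (LinearEquiv.ofInjective f hf)).symm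

theorem s_res (f : M →ₗ[Γ] N) {W : Submodule Γ M} (h : r.C W) :
    r.s W = r.s (W ⊓ LinearMap.ker f) + r.s (W.map f) := by
  have h1 := r.ρ_add (f.domRestrict W) h
  have h2 : (LinearMap.ker (f.domRestrict W)).map W.subtype = W ⊓ LinearMap.ker f := by
    rw [LinearMap.ker_domRestrict, Submodule.map_comap_subtype]
  rw [← h2, r.s_map W.injective_subtype, ← LinearMap.range_domRestrict]
  exact h1

theorem s_comap {f : M →ₗ[Γ] N} (hf : Injective f) (W : Submodule Γ N) :
    r.s (W.comap f) = r.s (W ⊓ LinearMap.range f) := by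
  rw [← r.s_map hf, Submodule.map_comap_eq, inf_comm]

theorem s_comap_surj (h : r.C M) {f : M →ₗ[Γ] N} (hf : Surjective f) (W : Submodule Γ N) :
    r.s (W.comap f) = r.s (LinearMap.ker f) + r.s W := by
  rw [r.s_res f (r.C_sub h _), Submodule.map_comap_eq_of_surjective hf, inf_eq_right.2]
  exact Submodule.comap_mono bot_le

theorem ρ_surj (h : r.C M) {f : M →ₗ[Γ] N} (hf : Surjective f) : r.ρ M = r.s (LinearMap.ker f) + r.ρ N := by
  have := r.s_comap_surj h hf ⊤
  rwa [Submodule.comap_top, r.s_top, r.s_top] at this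

theorem ρ_quot (h : r.C M) (W : Submodule Γ M) : r.ρ M = r.s W + r.ρ (M ⧸ W) := by
  have := r.ρ_surj h W.mkQ_surjective
  rwa [Submodule.ker_mkQ] at this

theorem ρ_prod (h : r.C M) (h' : r.C N) : r.ρ (M × N) = r.ρ M + r.ρ N := by
  rw [r.ρ_surj (r.C_prod h h') (LinearMap.snd_surjective (R := Γ)), LinearMap.ker_snd,
    r.s_range LinearMap.inl_injective]

theorem pi_fin (h : r.C M) (n : ℕ) : r.C (Fin n → M) ∧ r.ρ (Fin n → M) = n * r.ρ M := by
  induction n with
  | zero =>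
    have h1 : r.C (Fin 0 → M) := r.C_inj (0 : (Fin 0 → M) →ₗ[Γ] M) (injective_of_subsingleton _) h
    exact ⟨h1, by simpa using r.ρ_zero h1⟩
  | succ n ih =>
    let e := Fin.consLinearEquiv Γ fun _ : Fin (n + 1) => M
    refine ⟨r.C_surj e.toLinearMap e.surjective (r.C_prod h ih.1), ?_⟩
    rw [← r.ρ_equiv e, r.ρ_prod h ih.1, ih.2]
    push_cast
    ring

theorem C_pi (h : r.C M) (Q : Type) [Fintype Q] : r.C (Q → M) :=
  r.C_inj (LinearEquiv.funCongrLeft Γ M (Fintype.equivFin Q).symm).toLinearMap (LinearEquiv.injective _)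
    (r.pi_fin h _).1

theorem ρ_pi (h : r.C M) (Q : Type) [Fintype Q] : r.ρ (Q → M) = Fintype.card Q * r.ρ M :=
  (r.ρ_equiv (LinearEquiv.funCongrLeft Γ M (Fintype.equivFin Q).symm)).trans (r.pi_fin h _).2

/-- all nonzero submodules in the class have positive rank -/
def Pos (M : Type) [AddCommGroup M] [Module Γ M] : Prop := ∀ W : Submodule Γ M, r.C W → W ≠ ⊥ → 0 < r.s W

structure Atom (X : Type) [AddCommGroup X] [Module Γ X] : Prop where
  C : r.C X
  one : r.ρ X = 1
  pos : r.Pos X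

/-- an injection whose cokernel has rank zero and only submodules of nonnegative rank -/
structure SExt (f : A →ₗ[Γ] B) : Prop where
  C : r.C B
  inj : Injective f
  eq : r.ρ B = r.ρ A
  le : ∀ W : Submodule Γ B, LinearMap.range f ≤ W → r.ρ A ≤ r.s W

variable {r}

theorem Pos.nonneg (h : r.Pos M) {W : Submodule Γ M} (hW : r.C W) : 0 ≤ r.s W := by
  by_cases h0 : W = ⊥
  · rw [h0, r.s_bot hW]
  · exact (h W hW h0).le

theorem Pos.of_inj (h : r.Pos N) {f : M →ₗ[Γ] N} (hf : Injective f) : r.Pos M := fun W hW h0 => by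
  rw [← r.s_map hf]
  refine h _ (r.C_map hW f) fun h1 => h0 ?_
  rwa [← Submodule.map_bot f, (Submodule.map_injective_of_injective hf).eq_iff] at h1

theorem Atom.of_equiv (h : r.Atom X) (e : X ≃ₗ[Γ] Y) : r.Atom Y :=
  ⟨r.C_surj e.toLinearMap e.surjective h.C, (r.ρ_equiv e).symm.trans h.one,
    h.pos.of_inj (f := e.symm.toLinearMap) e.symm.injective⟩

theorem Atom.nontrivial (h : r.Atom X) : Nontrivial X := by
  by_contra h0
  haveI := not_nontrivial_iff_subsingleton.1 h0
  have := r.ρ_zero h.C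
  rw [h.one] at this
  exact one_ne_zero this

/-- a nonzero map out of an atom into a positive module is injective -/
theorem Atom.inj (h : r.Atom X) (hM : r.Pos M) {f : X →ₗ[Γ] M} (hf : f ≠ 0) : Injective f := by
  rw [← LinearMap.ker_eq_bot]
  by_contra h0
  have h1 := h.pos _ (r.C_sub h.C _) h0
  have h2 := hM _ (r.C_range h.C f) (by rwa [Ne, LinearMap.range_eq_bot])
  have h3 := r.ρ_add f h.C
  rw [h.one] at h3
  unfold s at h1 h2
  omega

theorem Atom.sExt (h : r.Atom X) (h' : r.Atom Y) {f : X →ₗ[Γ] Y} (hf : f ≠ 0) : r.SExt f :=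
  ⟨h'.C, h.inj h'.pos hf, h'.one.trans h.one.symm, fun W hW => by
    rw [h.one]
    exact h'.pos W (r.C_sub h'.C W) fun h0 => hf (LinearMap.range_eq_bot.1 (le_bot_iff.1 (h0 ▸ hW)))⟩

theorem SExt.uniq {f : A →ₗ[Γ] B} (hf : r.SExt f) (hM : r.Pos M) {g g' : B →ₗ[Γ] M}
    (h : g ∘ₗ f = g' ∘ₗ f) : g = g' := by
  by_contra hne
  have h1 := hM _ (r.C_range hf.C (g - g')) (by rwa [Ne, LinearMap.range_eq_bot, sub_eq_zero])
  have h2 := hf.le (LinearMap.ker (g - g')) (by
    rw [LinearMap.range_le_ker_iff, LinearMap.sub_comp, h, sub_self])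
  have h3 := r.ρ_add (g - g') hf.C
  rw [hf.eq] at h3
  unfold s at h1 h2
  omega

/-- criterion: the cokernel embeds in a module all of whose submodules have nonnegative rank -/
theorem SExt.of_exact {f : A →ₗ[Γ] B} (hB : r.C B) (hf : Injective f) (he : r.ρ B = r.ρ A) (q : B →ₗ[Γ] M)
    (hq : LinearMap.ker q = LinearMap.range f) (hM : ∀ W : Submodule Γ M, r.C W → 0 ≤ r.s W) : r.SExt f :=
  ⟨hB, hf, he, fun W hW => by
    have h1 := r.s_res q (r.C_sub hB W)
    have h2 := hM _ (r.C_map (r.C_sub hB W) q)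
    rw [hq, inf_eq_right.2 hW, r.s_range hf] at h1
    omega⟩

/-- pushout of an atom along an `S`-extension, modulo a maximal submodule of rank zero -/
theorem Atom.pushout (hX : r.Atom X) {f : A →ₗ[Γ] B} (hf : r.SExt f) (g : A →ₗ[Γ] X) :
    ∃ (Z : Type) (_ : AddCommGroup Z) (_ : Module Γ Z) (a : X →ₗ[Γ] Z) (b : B →ₗ[Γ] Z),
      r.Atom Z ∧ Injective a ∧ a ∘ₗ g = b ∘ₗ f := by
  let P : Submodule Γ (X × B) := LinearMap.range (g.prod (-f))
  have hP : Injective (g.prod (-f)) := fun x y h => hf.inj (neg_injective (congrArg Prod.snd h))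
  have hXB := r.C_prod hX.C hf.C
  have hZ : r.C ((X × B) ⧸ P) := r.C_quot hXB P
  have hρ : r.ρ ((X × B) ⧸ P) = 1 := by
    have h1 := r.ρ_quot hXB P
    rw [r.ρ_prod hX.C hf.C, hX.one, hf.eq, r.s_range hP] at h1
    omega
  let a0 : X →ₗ[Γ] (X × B) ⧸ P := P.mkQ ∘ₗ LinearMap.inl Γ X B
  have ha0 : Injective a0 := by
    rw [← LinearMap.ker_eq_bot, eq_bot_iff]
    intro x hx
    obtain ⟨y, hy⟩ : (x, (0 : B)) ∈ P := (Submodule.Quotient.mk_eq_zero P).1 hx
    have h1 : y = 0 := hf.inj (by simpa using congrArg Prod.snd hy)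
    have h2 := congrArg Prod.fst hy
    simp only [h1, map_zero, Prod.fst_zero] at h2
    exact h2.symm
  let q : ((X × B) ⧸ P) →ₗ[Γ] B ⧸ LinearMap.range f :=
    P.liftQ ((LinearMap.range f).mkQ ∘ₗ LinearMap.snd Γ X B) (by
      rintro _ ⟨y, rfl⟩
      simp)
  have hq : LinearMap.ker q = LinearMap.range a0 := by
    ext z
    obtain ⟨⟨x, y⟩, rfl⟩ := P.mkQ_surjective z
    constructor
    · intro h
      obtain ⟨c, rfl⟩ : y ∈ LinearMap.range f := (Submodule.Quotient.mk_eq_zero _).1 h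
      exact ⟨x + g c, (Submodule.Quotient.eq P).2 ⟨c, by simp⟩⟩
    · rintro ⟨x', h⟩
      rw [← h]
      simp [q, a0]
  have hB : ∀ W : Submodule Γ (B ⧸ LinearMap.range f), 0 ≤ r.s W := fun W => by
    have h1 := r.s_comap_surj hf.C (LinearMap.range f).mkQ_surjective W
    have h2 := hf.le (W.comap (LinearMap.range f).mkQ) (Submodule.le_comap_mkQ _ _)
    rw [Submodule.ker_mkQ, r.s_range hf.inj] at h1
    omega
  have hW : ∀ W : Submodule Γ ((X × B) ⧸ P), r.s (W.comap a0) ≤ r.s W := fun W => by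
    have h1 := r.s_res q (r.C_sub hZ W)
    have h2 := hB (W.map q)
    rw [hq, ← r.s_comap ha0] at h1
    omega
  haveI := r.noeth hZ
  obtain ⟨T, hT, hmax⟩ := set_has_maximal_iff_noetherian.2 this {W : Submodule Γ ((X × B) ⧸ P) | r.s W = 0}
    ⟨⊥, r.s_bot (r.C_sub hZ ⊤)⟩
  have hT0 : r.s T = 0 := hT
  have hTa : T.comap a0 = ⊥ := by
    by_contra h0
    have := hX.pos _ (r.C_sub hX.C _) h0
    have := hW T
    omega
  refine ⟨((X × B) ⧸ P) ⧸ T, inferInstance, inferInstance, T.mkQ ∘ₗ a0,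
    T.mkQ ∘ₗ P.mkQ ∘ₗ LinearMap.inr Γ X B, ⟨r.C_quot hZ T, ?_, fun W _ h0 => ?_⟩, ?_, ?_⟩
  · have := r.ρ_quot hZ T
    omega
  · have h1 := r.s_comap_surj hZ T.mkQ_surjective W
    have h2 := (hX.pos.nonneg (r.C_sub hX.C _)).trans (hW (W.comap T.mkQ))
    rw [Submodule.ker_mkQ] at h1
    by_contra h3
    refine hmax (W.comap T.mkQ) (show r.s _ = 0 by omega) (lt_of_le_of_ne (Submodule.le_comap_mkQ _ _) fun h4 => h0 ?_)
    rw [← Submodule.map_comap_eq_of_surjective T.mkQ_surjective W, ← h4, Submodule.mkQ_map_self]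
  · rw [← LinearMap.ker_eq_bot, LinearMap.ker_comp, Submodule.ker_mkQ, hTa]
  · ext y
    simp only [LinearMap.comp_apply, a0]
    congr 1
    exact (Submodule.Quotient.eq P).2 ⟨y, by simp⟩

end Rho

end Crest.Agent.R181
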