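import Crest.Agent.R181.A1

/-! Row 181, part (A): the colimit of all atoms under an atom `O`; its endomorphism ring is a skew field. -/

set_option autoImplicit false
open Function

namespace Crest.Agent.R181

namespace Rho

variable {Γ : Type} [Ring Γ] (r : Rho Γ)
variable {M A B X Y O U : Type} [AddCommGroup M] [Module Γ M]
  [AddCommGroup A] [Module Γ A] [AddCommGroup B] [Module Γ B] [AddCommGroup X] [Module Γ X]
  [AddCommGroup Y] [Module Γ Y] [AddCommGroup O] [Module Γ O] [AddCommGroup U] [Module Γ U]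

structure Hull (ι : O →ₗ[Γ] U) : Prop where
  atom : r.Atom O
  inj : Injective ι
  cover : ∀ s : Finset U, ∃ Y : Submodule Γ U, r.Atom Y ∧ LinearMap.range ι ≤ Y ∧ ∀ x ∈ s, x ∈ Y
  ext : ∀ {A B : Type} [AddCommGroup A] [Module Γ A] [AddCommGroup B] [Module Γ B] (f : A →ₗ[Γ] B),
    r.SExt f → ∀ g : A →ₗ[Γ] U, ∃ g' : B →ₗ[Γ] U, g' ∘ₗ f = g

/-- small models of the atoms under `O` -/
structure Idx (O : Type) [AddCommGroup O] [Module Γ O] where
  n : ℕ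
  N : Submodule Γ (Fin n → Γ)
  g : O →ₗ[Γ] (Fin n → Γ) ⧸ N
  atom : r.Atom ((Fin n → Γ) ⧸ N)
  ne : g ≠ 0

variable {r}

abbrev Idx.Q (i : r.Idx O) : Type := (Fin i.n → Γ) ⧸ i.N

instance : Preorder (r.Idx O) where
  le i j := ∃ f : i.Q →ₗ[Γ] j.Q, f ∘ₗ i.g = j.g
  le_refl i := ⟨LinearMap.id, rfl⟩
  le_trans i j k := fun ⟨f, hf⟩ ⟨f', hf'⟩ => ⟨f' ∘ₗ f, by rw [LinearMap.comp_assoc, hf, hf']⟩

noncomputable def Idx.f (i j : r.Idx O) (h : i ≤ j) : i.Q →ₗ[Γ] j.Q := Classical.choose h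

theorem Idx.f_g (i j : r.Idx O) (h : i ≤ j) : Idx.f i j h ∘ₗ i.g = j.g := Classical.choose_spec h

theorem Idx.uniq (hO : r.Atom O) {i j : r.Idx O} (h : i ≤ j) {f : i.Q →ₗ[Γ] j.Q} (hf : f ∘ₗ i.g = j.g) :
    Idx.f i j h = f :=
  (hO.sExt i.atom i.ne).uniq j.atom.pos ((Idx.f_g i j h).trans hf.symm)

theorem Idx.f_inj (i j : r.Idx O) (h : i ≤ j) : Injective (Idx.f i j h) :=
  i.atom.inj j.atom.pos fun h0 => j.ne (by rw [← Idx.f_g i j h, h0, LinearMap.zero_comp])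

theorem Atom.small (hX : r.Atom X) {g : O →ₗ[Γ] X} (hg : g ≠ 0) :
    ∃ (i : r.Idx O) (e : X ≃ₗ[Γ] i.Q), e.toLinearMap ∘ₗ g = i.g := by
  have := r.noeth hX.C
  obtain ⟨n, f, hf⟩ := Module.Finite.exists_fin' Γ X
  let e := (f.quotKerEquivOfSurjective hf).symm
  refine ⟨⟨n, LinearMap.ker f, e.toLinearMap ∘ₗ g, hX.of_equiv e, fun h0 => hg ?_⟩, e, rfl⟩
  ext x
  exact e.injective ((LinearMap.congr_fun h0 x).trans (map_zero e).symm)

theorem Idx.push (i : r.Idx O) {f : A →ₗ[Γ] B} (hf : r.SExt f) (g : A →ₗ[Γ] i.Q) :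
    ∃ (j : r.Idx O) (a : i.Q →ₗ[Γ] j.Q) (b : B →ₗ[Γ] j.Q), a ∘ₗ i.g = j.g ∧ a ∘ₗ g = b ∘ₗ f := by
  obtain ⟨Z, _, _, a, b, hZ, ha, hab⟩ := i.atom.pushout hf g
  obtain ⟨j, e, he⟩ := hZ.small (g := a ∘ₗ i.g) fun h0 => i.ne (by
    ext x
    exact ha ((LinearMap.congr_fun h0 x).trans (map_zero a).symm))
  exact ⟨j, e.toLinearMap ∘ₗ a, e.toLinearMap ∘ₗ b, he, by rw [LinearMap.comp_assoc, hab]; rfl⟩

theorem exists_hull (hO : r.Atom O) :
    ∃ (U : Type) (_ : AddCommGroup U) (_ : Module Γ U) (ι : O →ₗ[Γ] U), r.Hull ι := by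
  classical
  have := hO.nontrivial
  obtain ⟨i0, -, -⟩ := hO.small (g := LinearMap.id) (fun h => by
    obtain ⟨x, hx⟩ := exists_ne (0 : O)
    exact hx (LinearMap.congr_fun h x))
  have : Nonempty (r.Idx O) := ⟨i0⟩
  have : IsDirectedOrder (r.Idx O) := ⟨fun i j => by
    obtain ⟨k, a, b, h1, h2⟩ := i.push (hO.sExt j.atom j.ne) i.g
    exact ⟨k, ⟨a, h1⟩, ⟨b, h2.symm.trans h1⟩⟩⟩
  have : DirectedSystem (fun i : r.Idx O => i.Q) (Idx.f · · ·) :=
    ⟨fun {i} x => LinearMap.congr_fun (Idx.uniq hO le_rfl (f := LinearMap.id) rfl) x,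
      fun {k j i} hij hjk x => (LinearMap.congr_fun (Idx.uniq hO (hij.trans hjk)
        (f := Idx.f j k hjk ∘ₗ Idx.f i j hij) (by rw [LinearMap.comp_assoc, Idx.f_g, Idx.f_g])) x).symm⟩
  let o := fun i : r.Idx O => Module.DirectLimit.of Γ (r.Idx O) (fun i : r.Idx O => i.Q) Idx.f i
  have ho : ∀ i, Injective (o i) := fun i => (injective_iff_map_eq_zero _).2 fun x hx => by
    obtain ⟨j, hij, h⟩ := Module.DirectLimit.of.zero_exact hx
    exact Idx.f_inj i j hij (h.trans (map_zero _).symm)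
  have hf : ∀ i j (h : i ≤ j), o j ∘ₗ Idx.f i j h = o i := fun i j h =>
    LinearMap.ext fun x => Module.DirectLimit.of_f
  have hg : ∀ i, o i ∘ₗ i.g = o i0 ∘ₗ i0.g := fun i => by
    obtain ⟨k, h1, h2⟩ := exists_ge_ge i i0
    rw [← hf i k h1, ← hf i0 k h2, LinearMap.comp_assoc, LinearMap.comp_assoc, Idx.f_g, Idx.f_g]
  have hc : ∀ s : Finset (Module.DirectLimit (fun i : r.Idx O => i.Q) Idx.f),
      ∃ i, ∀ x ∈ s, x ∈ LinearMap.range (o i) := fun s => by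
    induction s using Finset.induction_on with
    | empty => exact ⟨i0, by simp⟩
    | insert a s _ ih =>
      obtain ⟨i, hi⟩ := ih
      obtain ⟨j, y, rfl⟩ := Module.DirectLimit.exists_of a
      obtain ⟨k, h1, h2⟩ := exists_ge_ge i j
      refine ⟨k, fun x hx => ?_⟩
      rcases Finset.mem_insert.1 hx with rfl | hx
      · exact ⟨Idx.f j k h2 y, Module.DirectLimit.of_f⟩
      · obtain ⟨z, rfl⟩ := hi x hx
        exact ⟨Idx.f i k h1 z, Module.DirectLimit.of_f⟩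
  refine ⟨Module.DirectLimit (fun i : r.Idx O => i.Q) Idx.f, inferInstance, inferInstance, o i0 ∘ₗ i0.g, hO,
    (ho i0).comp (hO.inj i0.atom.pos i0.ne), fun s => ?_, fun {A B} _ _ _ _ f hf' g => ?_⟩
  · obtain ⟨i, hi⟩ := hc s
    refine ⟨_, i.atom.of_equiv (LinearEquiv.ofInjective _ (ho i)), ?_, hi⟩
    rw [← hg i]
    exact LinearMap.range_comp_le_range _ _
  · have := r.noeth (r.C_inj f hf'.inj hf'.C)
    obtain ⟨s, hs⟩ := Module.Finite.fg_top (R := Γ) (M := A)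
    obtain ⟨i, hi⟩ := hc (s.image g)
    have hle : ∀ x, g x ∈ LinearMap.range (o i) := fun x => by
      have : (⊤ : Submodule Γ A) ≤ (LinearMap.range (o i)).comap g := by
        rw [← hs, Submodule.span_le]
        exact fun y hy => hi _ (Finset.mem_image_of_mem _ hy)
      exact this Submodule.mem_top
    let e := LinearEquiv.ofInjective _ (ho i)
    obtain ⟨j, a, b, h1, h2⟩ := i.push hf' (e.symm.toLinearMap ∘ₗ g.codRestrict _ hle)
    refine ⟨o j ∘ₗ b, ?_⟩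
    rw [LinearMap.comp_assoc, ← h2, ← Idx.uniq hO ⟨a, h1⟩ h1, ← LinearMap.comp_assoc, hf]
    ext x
    exact congrArg Subtype.val (e.apply_symm_apply ⟨g x, hle x⟩)

namespace Hull

variable {ι : O →ₗ[Γ] U} (h : r.Hull ι)
include h

theorem cover_fg {W : Submodule Γ U} (hW : W.FG) :
    ∃ Y : Submodule Γ U, r.Atom Y ∧ LinearMap.range ι ≤ Y ∧ W ≤ Y := by
  obtain ⟨s, rfl⟩ := hW
  obtain ⟨Y, h1, h2, h3⟩ := h.cover s
  exact ⟨Y, h1, h2, Submodule.span_le.2 h3⟩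

theorem cover_C {W : Submodule Γ U} (hW : r.C W) :
    ∃ Y : Submodule Γ U, r.Atom Y ∧ LinearMap.range ι ≤ Y ∧ W ≤ Y := by
  have := r.noeth hW
  exact h.cover_fg (Module.Finite.iff_fg.1 inferInstance)

theorem pos : r.Pos U := fun W hW h0 => by
  obtain ⟨Y, h1, -, h3⟩ := h.cover_C hW
  have h4 : (W.comap Y.subtype).map Y.subtype = W := by rw [Submodule.map_comap_subtype, inf_eq_right.2 h3]
  rw [← h4, r.s_map Y.injective_subtype]
  refine h1.pos _ (r.C_sub h1.C _) fun h5 => h0 ?_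
  rw [← h4, h5, Submodule.map_bot]

theorem ne_zero : ι ≠ 0 := fun h0 => by
  have := h.atom.nontrivial
  obtain ⟨x, hx⟩ := exists_ne (0 : O)
  exact hx (h.inj (by rw [h0]; rfl))

theorem sExt {Y : Submodule Γ U} (hY : r.Atom Y) (hι : LinearMap.range ι ≤ Y) :
    r.SExt (ι.codRestrict Y fun x => hι ⟨x, rfl⟩) :=
  h.atom.sExt hY fun h0 => h.ne_zero (LinearMap.ext fun x => congrArg Subtype.val (LinearMap.congr_fun h0 x))

theorem end_ext {φ ψ : U →ₗ[Γ] U} (he : φ ∘ₗ ι = ψ ∘ₗ ι) : φ = ψ := by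
  ext x
  obtain ⟨Y, h1, h2, h3⟩ := h.cover {x}
  exact LinearMap.congr_fun ((h.sExt h1 h2).uniq h.pos (g := φ ∘ₗ Y.subtype) (g' := ψ ∘ₗ Y.subtype) he)
    ⟨x, h3 x (Finset.mem_singleton_self x)⟩

theorem exists_end (g : O →ₗ[Γ] U) : ∃ φ : U →ₗ[Γ] U, φ ∘ₗ ι = g := by
  classical
  choose G hG using fun (Y : {Y : Submodule Γ U // r.Atom Y ∧ LinearMap.range ι ≤ Y}) =>
    h.ext _ (h.sExt Y.2.1 Y.2.2) g
  have hc : ∀ s : Finset U, ∃ Y : {Y : Submodule Γ U // r.Atom Y ∧ LinearMap.range ι ≤ Y}, ∀ x ∈ s, x ∈ Y.1 :=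
    fun s => by
      obtain ⟨Y, h1, h2, h3⟩ := h.cover s
      exact ⟨⟨Y, h1, h2⟩, h3⟩
  have hle : ∀ (Y Y' : {Y : Submodule Γ U // r.Atom Y ∧ LinearMap.range ι ≤ Y}) (hl : Y.1 ≤ Y'.1) x
      (hx : x ∈ Y.1), G Y ⟨x, hx⟩ = G Y' ⟨x, hl hx⟩ := fun Y Y' hl x hx =>
    LinearMap.congr_fun ((h.sExt Y.2.1 Y.2.2).uniq h.pos (g := G Y) (g' := G Y' ∘ₗ Submodule.inclusion hl)
      ((hG Y).trans (hG Y').symm)) ⟨x, hx⟩
  have heq : ∀ Y Y' x (hx : x ∈ Y.1) (hx' : x ∈ Y'.1), G Y ⟨x, hx⟩ = G Y' ⟨x, hx'⟩ := fun Y Y' x hx hx' => by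
    obtain ⟨Z, h1, h2, h3⟩ := h.cover_C (r.C_sup Y.2.1.C Y'.2.1.C)
    exact (hle Y ⟨Z, h1, h2⟩ (le_sup_left.trans h3) x hx).trans
      (hle Y' ⟨Z, h1, h2⟩ (le_sup_right.trans h3) x hx').symm
  choose c hc' using fun x : U => hc {x}
  let φ : U → U := fun x => G (c x) ⟨x, hc' x x (Finset.mem_singleton_self x)⟩
  have hφ : ∀ Y x (hx : x ∈ Y.1), φ x = G Y ⟨x, hx⟩ := fun Y x hx => heq _ _ _ _ _
  refine ⟨⟨⟨φ, fun x y => ?_⟩, fun a x => ?_⟩, LinearMap.ext fun o => ?_⟩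
  · obtain ⟨Y, hY⟩ := hc {x, y}
    have hx := hY x (by simp)
    have hy := hY y (by simp)
    rw [hφ Y x hx, hφ Y y hy, hφ Y _ (add_mem hx hy), ← map_add]
    rfl
  · obtain ⟨Y, hY⟩ := hc {x}
    have hx := hY x (by simp)
    change φ (a • x) = a • φ x
    rw [hφ Y x hx, hφ Y _ (Submodule.smul_mem _ a hx), ← map_smul]
    rfl
  · obtain ⟨Y, -⟩ := hc ∅
    exact (hφ Y _ (Y.2.2 ⟨o, rfl⟩)).trans (LinearMap.congr_fun (hG Y) o)

theorem exists_left_inv {φ : Module.End Γ U} (hφ : φ ≠ 0) : ∃ ψ : Module.End Γ U, ψ * φ = 1 := by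
  have h0 : φ ∘ₗ ι ≠ 0 := fun h0 => hφ (h.end_ext (h0.trans (LinearMap.zero_comp ι).symm))
  obtain ⟨Y, h1, h2, h3⟩ := h.cover_C (r.C_range h.atom.C (φ ∘ₗ ι))
  obtain ⟨g, hg⟩ := h.ext _ (h.atom.sExt h1 (f := (φ ∘ₗ ι).codRestrict Y fun x => h3 ⟨x, rfl⟩) fun h4 =>
    h0 (LinearMap.ext fun x => congrArg Subtype.val (LinearMap.congr_fun h4 x))) ι
  obtain ⟨ψ, hψ⟩ := h.exists_end (g ∘ₗ ι.codRestrict Y fun x => h2 ⟨x, rfl⟩)
  have h5 : ψ ∘ₗ Y.subtype = g := (h.sExt h1 h2).uniq h.pos hψ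
  refine ⟨ψ, h.end_ext (LinearMap.ext fun o => ?_)⟩
  exact (LinearMap.congr_fun h5 ⟨φ (ι o), h3 ⟨o, rfl⟩⟩).trans (LinearMap.congr_fun hg o)

theorem one_ne_zero : (1 : Module.End Γ U) ≠ 0 := fun h0 =>
  h.ne_zero (LinearMap.ext fun x => LinearMap.congr_fun h0 (ι x))

theorem isUnit {φ : Module.End Γ U} (hφ : φ ≠ 0) : IsUnit φ := by
  obtain ⟨ψ, h1⟩ := h.exists_left_inv hφ
  obtain ⟨χ, h2⟩ := h.exists_left_inv (φ := ψ) (by
    rintro rfl
    exact h.one_ne_zero (by rw [← h1, zero_mul]))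
  have h3 : χ = φ := by rw [← mul_one χ, ← h1, ← mul_assoc, h2, one_mul]
  exact ⟨⟨φ, ψ, h3 ▸ h2, h1⟩, rfl⟩

theorem sandwich_aux {Q : Type} [DecidableEq Q] (s : Finset Q) : ∀ (H : Submodule Γ (Q → U)), r.C H →
    (∀ x ∈ H, ∀ q, q ∉ s → x q = 0) → ∀ t : Finset Q, t ⊆ s → (∀ q ∈ t, ∀ o, Pi.single q (ι o) ∈ H) →
    (t.card : ℤ) ≤ r.s H := by
  induction s using Finset.induction_on with
  | empty =>
    intro H hH h0 t ht _
    have h1 : H = ⊥ := eq_bot_iff.2 fun x hx => funext fun q => h0 x hx q (Finset.notMem_empty q)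
    rw [Finset.subset_empty.1 ht, h1, r.s_bot hH]
    simp
  | insert a s ha ih =>
    intro H hH h0 t ht h1
    have h2 := r.s_res (LinearMap.proj a : (Q → U) →ₗ[Γ] U) hH
    have h3 := ih (H ⊓ LinearMap.ker (LinearMap.proj a : (Q → U) →ₗ[Γ] U)) (r.C_le hH inf_le_left)
      (fun x hx q hq => by
        by_cases hqa : q = a
        · rw [hqa]; exact hx.2
        · exact h0 x hx.1 q (by simp [hq, hqa])) (t.erase a) (Finset.subset_insert_iff.1 ht)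
      fun q hq o => ⟨h1 q (Finset.mem_of_mem_erase hq) o,
        Pi.single_eq_of_ne (Finset.ne_of_mem_erase hq).symm _⟩
    have h4 := r.C_map hH (LinearMap.proj a : (Q → U) →ₗ[Γ] U)
    by_cases hat : a ∈ t
    · have h5 := h.pos _ h4 fun h5 => h.ne_zero (LinearMap.ext fun o => by
        have : ι o ∈ H.map (LinearMap.proj a : (Q → U) →ₗ[Γ] U) := ⟨_, h1 a hat o, Pi.single_eq_same _ _⟩
        rw [h5] at this
        exact this)
      have := Finset.card_erase_add_one hat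
      omega
    · have h5 := h.pos.nonneg h4
      rw [Finset.erase_eq_of_notMem hat] at h3
      omega

theorem nonneg_pi {Q : Type} [Fintype Q] (H : Submodule Γ (Q → U)) (hH : r.C H) : 0 ≤ r.s H := by
  classical
  simpa using h.sandwich_aux Finset.univ H hH (fun _ _ q hq => absurd (Finset.mem_univ q) hq) ∅
    (Finset.empty_subset _) (by simp)

/-- a submodule of `U ^ P` which maps onto all the vectors `single q (ι o)` of `U ^ Q` has rank `≥ card Q` -/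
theorem sandwich {P Q : Type} [Fintype P] [Fintype Q] [DecidableEq Q] (H : Submodule Γ (P → U)) (hH : r.C H)
    (b : (P → U) →ₗ[Γ] (Q → U)) (hb : ∀ q o, ∃ x ∈ H, b x = Pi.single q (ι o)) :
    (Fintype.card Q : ℤ) ≤ r.s H := by
  have h1 := r.s_res b hH
  have h2 := h.nonneg_pi _ (r.C_le hH (inf_le_left (b := LinearMap.ker b)))
  have h3 := h.sandwich_aux Finset.univ _ (r.C_map hH b) (fun _ _ q hq => absurd (Finset.mem_univ q) hq)
    Finset.univ le_rfl fun q _ o => hb q o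
  rw [Finset.card_univ] at h3
  omega

end Hull

end Rho

end Crest.Agent.R181
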