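import Mathlib

/-! Row 181, part (A): graded modules over a graded ring `Λ` as modules over one ring `Γ`. -/

set_option autoImplicit false
open Function

namespace Crest.Agent.R181

/-- a `ℤ`-grading of a ring, given by its projections -/
structure Grd (Λ : Type) [Ring Λ] where
  pr : ℤ → Λ →+ Λ
  pr_pr : ∀ i x, pr i (pr i x) = pr i x
  pr_ne : ∀ i j x, i ≠ j → pr i (pr j x) = 0
  fin : ∀ x, ∃ s : Finset ℤ, ∑ i ∈ s, pr i x = x
  one : pr 0 1 = 1
  mul : ∀ i j x y, pr i x = x → pr j y = y → pr (i + j) (x * y) = x * y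

namespace Grd

variable {Λ : Type} [Ring Λ] (g : Grd Λ)

theorem pr_of_ne {i j : ℤ} {x : Λ} (h : g.pr j x = x) (hij : i ≠ j) : g.pr i x = 0 := by
  rw [← h, g.pr_ne i j x hij]

theorem induction {p : Λ → Prop} (h0 : p 0) (hadd : ∀ x y, p x → p y → p (x + y))
    (h : ∀ i x, g.pr i x = x → p x) (x : Λ) : p x := by
  obtain ⟨s, hs⟩ := g.fin x
  rw [← hs]
  exact Finset.sum_induction _ p hadd h0 fun i _ => h i _ (g.pr_pr i x)

theorem pr_mul_right {e : ℤ} {x : Λ} (h : g.pr e x = x) (i : ℤ) (y : Λ) :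
    g.pr (i + e) (y * x) = g.pr i y * x := by
  induction y using g.induction with
  | h0 => simp
  | hadd y z h1 h2 => rw [add_mul, map_add, map_add, add_mul, h1, h2]
  | h j y hy =>
    by_cases hij : i = j
    · rw [hij, g.mul j e y x hy h, hy]
    · rw [g.pr_of_ne (g.mul j e y x hy h) (by omega), g.pr_of_ne hy hij, zero_mul]

theorem pr_mul_left {e : ℤ} {x : Λ} (h : g.pr e x = x) (i : ℤ) (y : Λ) :
    g.pr (i + e) (x * y) = x * g.pr i y := by
  induction y using g.induction with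
  | h0 => simp
  | hadd y z h1 h2 => rw [mul_add, map_add, map_add, mul_add, h1, h2]
  | h j y hy =>
    by_cases hij : i = j
    · rw [hij, add_comm, g.mul e j x y h hy, hy]
    · rw [g.pr_of_ne (g.mul e j x y h hy) (by omega), g.pr_of_ne hy hij, mul_zero]

/-- families of additive maps `Λ(-k) → Λ(-k)` which commute with the degree preserving right multiplications -/
def Γ : Subring (ℤ → AddMonoid.End Λ) where
  carrier := {γ | ∀ k l x, g.pr (k - l) x = x → ∀ y, γ l (y * x) = γ k y * x}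
  mul_mem' {a b} ha hb k l x hx y := by
    change a l (b l (y * x)) = a k (b k y) * x
    rw [hb k l x hx, ha k l x hx]
  one_mem' _ _ _ _ _ := rfl
  add_mem' {a b} ha hb k l x hx y := by
    change a l (y * x) + b l (y * x) = (a k y + b k y) * x
    rw [hb k l x hx, ha k l x hx, add_mul]
  zero_mem' _ _ x _ _ := (zero_mul x).symm
  neg_mem' {a} ha k l x hx y := by
    change -(a l (y * x)) = -(a k y) * x
    rw [ha k l x hx, neg_mul]

/-- left multiplication -/
def ℓ : Λ →+* g.Γ where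
  toFun x := ⟨fun _ => AddMonoidHom.mulLeft x, fun _ _ z _ y => (mul_assoc x y z).symm⟩
  map_one' := Subtype.ext (funext fun _ => AddMonoidHom.ext fun y => one_mul y)
  map_mul' x x' := Subtype.ext (funext fun _ => AddMonoidHom.ext fun y => mul_assoc x x' y)
  map_zero' := Subtype.ext (funext fun _ => AddMonoidHom.ext fun y => zero_mul y)
  map_add' x x' := Subtype.ext (funext fun _ => AddMonoidHom.ext fun y => add_mul x x' y)

/-- projection on the degree `i` -/
def π (i : ℤ) : g.Γ := ⟨fun k => g.pr (i - k), fun k l x hx y => by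
  have := g.pr_mul_right hx (i - k) y
  rwa [show i - k + (k - l) = i - l by ring] at this⟩

variable {g}

theorem Γ_ext {a b : g.Γ} (h : ∀ k y, a.1 k y = b.1 k y) : a = b :=
  Subtype.ext (funext fun k => AddMonoidHom.ext (h k))

theorem mul_apply (a b : g.Γ) (k : ℤ) (y : Λ) : (a * b).1 k y = a.1 k (b.1 k y) := rfl
theorem ℓ_apply (x : Λ) (k : ℤ) (y : Λ) : (g.ℓ x).1 k y = x * y := rfl
theorem π_apply (i k : ℤ) (y : Λ) : (g.π i).1 k y = g.pr (i - k) y := rfl

theorem π_π (i : ℤ) : g.π i * g.π i = g.π i := Γ_ext fun _ _ => g.pr_pr _ _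

theorem π_ne {i j : ℤ} (h : i ≠ j) : g.π i * g.π j = 0 := Γ_ext fun _ _ => g.pr_ne _ _ _ (by omega)

theorem π_ℓ {e : ℤ} {x : Λ} (h : g.pr e x = x) (i : ℤ) : g.π (i + e) * g.ℓ x = g.ℓ x * g.π i :=
  Γ_ext fun k y => by
    have := g.pr_mul_left h (i - k) y
    rwa [show i - k + e = i + e - k by ring] at this

theorem mul_ℓ_π (γ : g.Γ) (x : Λ) (k : ℤ) : γ * g.ℓ x * g.π k = g.ℓ (γ.1 k x) * g.π k :=
  Γ_ext fun l _ => γ.2 k l _ (g.pr_pr _ _) x

theorem mul_π (γ : g.Γ) (k : ℤ) : γ * g.π k = g.ℓ (γ.1 k 1) * g.π k := by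
  rw [← mul_ℓ_π, map_one, mul_one]

theorem apply_hom (γ : g.Γ) {e : ℤ} {x : Λ} (h : g.pr e x = x) (k : ℤ) (y : Λ) :
    γ.1 k (y * x) = γ.1 (k + e) y * x := γ.2 (k + e) k x (by rwa [add_sub_cancel_left]) y

theorem commute_ℓ {x : Λ} (h : g.pr 0 x = x) (hc : ∀ y, y * x = x * y) (γ : g.Γ) : Commute (g.ℓ x) γ :=
  Γ_ext fun k y => by
    rw [mul_apply, mul_apply, ℓ_apply, ℓ_apply, ← hc, ← hc, apply_hom γ h, add_zero]

variable (g)

/-- the free module with generator in degree `k` -/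
def Sh (_ : Grd Λ) (_ : ℤ) : Type := Λ

instance (k : ℤ) : AddCommGroup (g.Sh k) := inferInstanceAs (AddCommGroup Λ)

instance (k : ℤ) : Module g.Γ (g.Sh k) where
  smul γ y := γ.1 k y
  one_smul _ := rfl
  mul_smul _ _ _ := rfl
  smul_zero γ := map_zero (γ.1 k)
  smul_add γ := map_add (γ.1 k)
  add_smul _ _ _ := rfl
  zero_smul _ := rfl

/-- the identity map `Λ → Sh k` -/
def sh (k : ℤ) : Λ ≃+ g.Sh k := AddEquiv.refl Λ

variable {g}

theorem smul_sh (γ : g.Γ) (k : ℤ) (y : Λ) : γ • g.sh k y = g.sh k (γ.1 k y) := rfl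
theorem ℓ_smul_sh (x : Λ) (k : ℤ) (y : Λ) : g.ℓ x • g.sh k y = g.sh k (x * y) := rfl
theorem π_smul_sh (i k : ℤ) (y : Λ) : g.π i • g.sh k y = g.sh k (g.pr (i - k) y) := rfl

variable {M : Type} [AddCommGroup M] [Module g.Γ M]

/-- universal property of `Sh k` -/
def lift {k : ℤ} (x : M) (hx : g.π k • x = x) : g.Sh k →ₗ[g.Γ] M where
  toFun y := g.ℓ ((g.sh k).symm y) • x
  map_add' y z := by rw [map_add, map_add, add_smul]
  map_smul' γ y := by
    change g.ℓ (γ.1 k ((g.sh k).symm y)) • x = γ • g.ℓ ((g.sh k).symm y) • x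
    rw [← hx, ← mul_smul, ← mul_smul, ← mul_smul, mul_ℓ_π]

theorem lift_sh {k : ℤ} (x : M) (hx : g.π k • x = x) (y : Λ) : lift x hx (g.sh k y) = g.ℓ y • x := rfl

theorem π_smul_one (k : ℤ) : g.π k • g.sh k 1 = g.sh k 1 := by rw [π_smul_sh, sub_self, g.one]

theorem map_sh {k : ℤ} (f : g.Sh k →ₗ[g.Γ] M) (y : Λ) : f (g.sh k y) = g.ℓ y • f (g.sh k 1) := by
  rw [← map_smul, ℓ_smul_sh, mul_one]

theorem smul_hom {k : ℤ} {x : M} (hx : g.π k • x = x) (γ : g.Γ) : γ • x = g.ℓ (γ.1 k 1) • x := by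
  rw [← hx, ← mul_smul, ← mul_smul, mul_π]

theorem π_smul_ℓ {e : ℤ} {y : Λ} (h : g.pr e y = y) {i : ℤ} {x : M} (hx : g.π i • x = x) :
    g.π (i + e) • g.ℓ y • x = g.ℓ y • x := by
  rw [← mul_smul, π_ℓ h, mul_smul, hx]

theorem π_smul_π (i : ℤ) (x : M) : g.π i • g.π i • x = g.π i • x := by rw [← mul_smul, π_π]

theorem π_smul_ne {i j : ℤ} {x : M} (hx : g.π j • x = x) (h : i ≠ j) : g.π i • x = 0 := by
  rw [← hx, ← mul_smul, π_ne h]
  exact zero_smul g.Γ x

variable (g) in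
/-- every element is the sum of its homogeneous components -/
def Disc (M : Type) [AddCommGroup M] [Module g.Γ M] : Prop := ∀ x : M, ∃ s : Finset ℤ, ∑ i ∈ s, g.π i • x = x

theorem Disc.induction (hM : g.Disc M) {p : M → Prop} (h0 : p 0) (hadd : ∀ x y, p x → p y → p (x + y))
    (h : ∀ i x, g.π i • x = x → p x) (x : M) : p x := by
  obtain ⟨s, hs⟩ := hM x
  rw [← hs]
  exact Finset.sum_induction _ p hadd h0 fun i _ => h i _ (π_smul_π i x)

theorem sum_π_mono {x : M} {s t : Finset ℤ} (hs : ∑ i ∈ s, g.π i • x = x) (hst : s ⊆ t) :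
    ∑ i ∈ t, g.π i • x = x := by
  refine Eq.trans (Finset.sum_subset hst fun j _ hj => ?_).symm hs
  rw [← hs, Finset.smul_sum]
  exact Finset.sum_eq_zero fun i hi => π_smul_ne (π_smul_π i x) fun h => hj (h ▸ hi)

theorem disc_of_induction (h : ∀ p : M → Prop, p 0 → (∀ x y, p x → p y → p (x + y)) →
    (∀ i x, g.π i • x = x → p x) → ∀ x, p x) : g.Disc M := by
  classical
  refine h _ ⟨∅, by simp⟩ ?_ fun i x hx => ⟨{i}, by simpa using hx⟩
  rintro x y ⟨s, hs⟩ ⟨t, ht⟩
  refine ⟨s ∪ t, ?_⟩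
  simp only [smul_add, Finset.sum_add_distrib]
  rw [sum_π_mono hs Finset.subset_union_left, sum_π_mono ht Finset.subset_union_right]

theorem disc_Sh (k : ℤ) : g.Disc (g.Sh k) := disc_of_induction fun p h0 hadd h x =>
  g.induction (p := fun y => p (g.sh k y)) h0 (fun x y => hadd _ _)
    (fun i y hy => h (i + k) _ (by rw [π_smul_sh, add_sub_cancel_right, hy])) x

variable {N : Type} [AddCommGroup N] [Module g.Γ N]

theorem Disc.of_inj (h : g.Disc N) (f : M →ₗ[g.Γ] N) (hf : Injective f) : g.Disc M := fun x => by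
  obtain ⟨s, hs⟩ := h (f x)
  exact ⟨s, hf (by simpa only [map_sum, map_smul] using hs)⟩

theorem Disc.of_surj (h : g.Disc M) (f : M →ₗ[g.Γ] N) (hf : Surjective f) : g.Disc N := fun y => by
  obtain ⟨x, rfl⟩ := hf y
  obtain ⟨s, hs⟩ := h x
  exact ⟨s, by simpa only [map_sum, map_smul] using congrArg f hs⟩

theorem Disc.prod (h : g.Disc M) (h' : g.Disc N) : g.Disc (M × N) := fun x => by
  classical
  obtain ⟨s, hs⟩ := h x.1
  obtain ⟨t, ht⟩ := h' x.2
  refine ⟨s ∪ t, Prod.ext ?_ ?_⟩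
  · simpa only [Prod.fst_sum, Prod.smul_fst] using sum_π_mono hs Finset.subset_union_left
  · simpa only [Prod.snd_sum, Prod.smul_snd] using sum_π_mono ht Finset.subset_union_right

/-- a finitely generated graded module has finitely many homogeneous generators -/
theorem Disc.exists_gen (h : g.Disc M) [Module.Finite g.Γ M] :
    ∃ (n : ℕ) (d : Fin n → ℤ) (x : Fin n → M), (∀ a, g.π (d a) • x a = x a) ∧
      ∀ y : M, ∃ c : Fin n → Λ, y = ∑ a, g.ℓ (c a) • x a := by
  classical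
  obtain ⟨s, hs⟩ := Module.Finite.fg_top (R := g.Γ) (M := M)
  choose t ht using h
  let T := (y : s) × t y.1
  let e := Fintype.equivFin T
  have key : ∀ y : M, ∃ c : T → Λ, y = ∑ a, g.ℓ (c a) • g.π a.2.1 • a.1.1 := fun y => by
    obtain ⟨c, hc⟩ := (Submodule.mem_span_finset'.1 (hs ▸ Submodule.mem_top : y ∈ Submodule.span g.Γ (s : Set M)))
    refine ⟨fun a => (c a.1).1 a.2.1 1, ?_⟩
    rw [← hc, Fintype.sum_sigma]
    refine Finset.sum_congr rfl fun z _ => ?_
    conv_lhs => rw [← ht z.1, Finset.smul_sum, ← Finset.sum_coe_sort]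
    exact Finset.sum_congr rfl fun i _ => smul_hom (π_smul_π _ _) _
  refine ⟨_, fun a => (e.symm a).2.1, fun a => g.π (e.symm a).2.1 • (e.symm a).1.1, fun a => π_smul_π _ _,
    fun y => ?_⟩
  obtain ⟨c, hc⟩ := key y
  exact ⟨fun a => c (e.symm a), hc.trans (e.symm.sum_comp _).symm⟩

/-- a homogeneous left ideal as a submodule of `Sh k` -/
def idealSub (k : ℤ) (J : Ideal Λ) (hJ : ∀ i, ∀ x ∈ J, g.pr i x ∈ J) : Submodule g.Γ (g.Sh k) where
  carrier := {y | (g.sh k).symm y ∈ J}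
  add_mem' := J.add_mem
  zero_mem' := J.zero_mem
  smul_mem' γ y hy := by
    obtain ⟨s, hs⟩ := g.fin ((g.sh k).symm y)
    change γ.1 k ((g.sh k).symm y) ∈ J
    rw [← hs, map_sum]
    refine J.sum_mem fun i _ => ?_
    rw [← one_mul (g.pr i _), apply_hom γ (g.pr_pr _ _)]
    exact J.mul_mem_left _ (hJ i _ hy)

theorem span_graded (T : Set Λ) (hT : ∀ t ∈ T, ∃ e, g.pr e t = t) :
    ∀ i, ∀ x ∈ Ideal.span T, g.pr i x ∈ Ideal.span T := by
  have key : ∀ x ∈ Ideal.span T, ∀ y i, g.pr i (y * x) ∈ Ideal.span T := by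
    intro x hx
    induction hx using Submodule.span_induction with
    | mem t ht =>
      intro y i
      obtain ⟨e, he⟩ := hT t ht
      rw [← sub_add_cancel i e, g.pr_mul_right he]
      exact Ideal.mul_mem_left _ _ (Ideal.subset_span ht)
    | zero => simp
    | add a b _ _ ha hb =>
      intro y i
      rw [mul_add, map_add]
      exact add_mem (ha y i) (hb y i)
    | smul a b _ hb =>
      intro y i
      rw [smul_eq_mul, ← mul_assoc]
      exact hb _ i
  intro i x hx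
  simpa using key x hx 1 i

/-- a graded `Λ`-submodule as a `Γ`-submodule -/
def toSub (h : g.Disc M) (Z : AddSubgroup M) (h1 : ∀ y, ∀ x ∈ Z, g.ℓ y • x ∈ Z) (h2 : ∀ i, ∀ x ∈ Z, g.π i • x ∈ Z) :
    Submodule g.Γ M where
  carrier := Z
  add_mem' := Z.add_mem
  zero_mem' := Z.zero_mem
  smul_mem' γ x hx := by
    obtain ⟨s, hs⟩ := h x
    rw [← hs, Finset.smul_sum]
    exact Z.sum_mem fun i _ => by
      rw [smul_hom (π_smul_π i x)]
      exact h1 _ _ (h2 i x hx)

theorem noeth_Sh [IsNoetherianRing Λ] (k : ℤ) : IsNoetherian g.Γ (g.Sh k) := by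
  let F : Submodule g.Γ (g.Sh k) → Ideal Λ := fun W =>
    { carrier := {y | g.sh k y ∈ W}
      add_mem' := W.add_mem
      zero_mem' := W.zero_mem
      smul_mem' := fun c _ hy => W.smul_mem (g.ℓ c) hy }
  have hF : StrictMono F := fun W W' h => lt_of_le_of_ne (fun y hy => h.le hy) fun he =>
    h.ne (Submodule.ext fun y => Iff.of_eq (congrArg (fun I : Ideal Λ => (g.sh k).symm y ∈ I) he))
  exact isNoetherian_mk hF.wellFoundedGT

end Grd

end Crest.Agent.R181
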