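import Crest.Agent.R181.A2
import Crest.Agent.R181.A3

/-! Row 181, part (A): Hilbert functions of graded modules and the rank function. -/

set_option autoImplicit false
open Function Filter

namespace Crest.Agent.R181

/-- a graded ring with a division ring of constants -/
structure GrdD (D Λ : Type) [DivisionRing D] [Ring Λ] extends Grd Λ where
  cD : D →+* Λ
  cD_hom : ∀ d, pr 0 (cD d) = cD d

/-- `h` is eventually `ρ * (δ x + e) + σ * δ` with `θ = ρ - σ` -/
def Th (δ e : ℤ) (h : ℤ → ℤ) (θ : ℤ) : Prop :=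
  ∃ ρ σ : ℤ, θ = ρ - σ ∧ ∀ᶠ x in atTop, h x = ρ * (δ * x + e) + σ * δ

theorem Th.coeff {δ e ρ σ ρ' σ' : ℤ} (hδ : 0 < δ)
    (h : ∀ᶠ x in atTop, ρ * (δ * x + e) + σ * δ = ρ' * (δ * x + e) + σ' * δ) : ρ = ρ' ∧ σ = σ' := by
  obtain ⟨x, hx⟩ := eventually_atTop.1 h
  have h1 := hx x le_rfl
  have h2 := hx (x + 1) (by omega)
  have h3 : ρ = ρ' := mul_right_cancel₀ hδ.ne' (by linarith)
  exact ⟨h3, mul_right_cancel₀ hδ.ne' (by rw [h3] at h1; linarith)⟩

theorem Th.uniq {δ e : ℤ} (hδ : 0 < δ) {h : ℤ → ℤ} {θ θ' : ℤ} (h1 : Th δ e h θ) (h2 : Th δ e h θ') : θ = θ' := by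
  obtain ⟨ρ, σ, rfl, h1⟩ := h1
  obtain ⟨ρ', σ', rfl, h2⟩ := h2
  obtain ⟨rfl, rfl⟩ := Th.coeff hδ ((h1.and h2).mono fun x hx => hx.1.symm.trans hx.2)
  rfl

theorem Th.add {δ e : ℤ} {h h' : ℤ → ℤ} {θ θ' : ℤ} (h1 : Th δ e h θ) (h2 : Th δ e h' θ') :
    Th δ e (fun x => h x + h' x) (θ + θ') := by
  obtain ⟨ρ, σ, rfl, h1⟩ := h1
  obtain ⟨ρ', σ', rfl, h2⟩ := h2
  exact ⟨ρ + ρ', σ + σ', by ring, (h1.and h2).mono fun x hx => by beta_reduce; rw [hx.1, hx.2]; ring⟩

namespace GrdD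

variable {D Λ : Type} [DivisionRing D] [Ring Λ] (g : GrdD D Λ)
variable {M N : Type} [AddCommGroup M] [Module g.Γ M] [AddCommGroup N] [Module g.Γ N]

/-- the degree `i` piece -/
def Pc (M : Type) [AddCommGroup M] [Module g.Γ M] (i : ℤ) : AddSubgroup M where
  carrier := {x | g.π i • x = x}
  add_mem' {a b} ha hb := by
    change g.π i • (a + b) = a + b
    rw [smul_add, ha, hb]
  zero_mem' := smul_zero _
  neg_mem' {a} ha := by
    change g.π i • (-a) = -a
    rw [smul_neg, ha]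

variable {g} in
theorem π_cD {i : ℤ} {x : M} (hx : g.π i • x = x) (d : D) : g.π i • g.ℓ (g.cD d) • x = g.ℓ (g.cD d) • x := by
  have := Grd.π_smul_ℓ (g.cD_hom d) hx
  rwa [add_zero] at this

instance (i : ℤ) : Module D (g.Pc M i) where
  smul d x := ⟨g.ℓ (g.cD d) • x.1, π_cD x.2 d⟩
  one_smul x := Subtype.ext (by
    change g.ℓ (g.cD 1) • x.1 = x.1
    rw [map_one, map_one, one_smul])
  mul_smul a b x := Subtype.ext (by
    change g.ℓ (g.cD (a * b)) • x.1 = g.ℓ (g.cD a) • g.ℓ (g.cD b) • x.1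
    rw [map_mul, map_mul, mul_smul])
  smul_zero _ := Subtype.ext (smul_zero _)
  smul_add _ _ _ := Subtype.ext (smul_add _ _ _)
  add_smul a b x := Subtype.ext (by
    change g.ℓ (g.cD (a + b)) • x.1 = g.ℓ (g.cD a) • x.1 + g.ℓ (g.cD b) • x.1
    rw [map_add, map_add, add_smul])
  zero_smul x := Subtype.ext (by
    change g.ℓ (g.cD 0) • x.1 = 0
    rw [map_zero, map_zero]
    exact zero_smul g.Γ x.1)

variable {g}

theorem mem_Pc {i : ℤ} {x : M} : x ∈ g.Pc M i ↔ g.π i • x = x := Iff.rfl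

theorem coe_smul {i : ℤ} (d : D) (x : g.Pc M i) : ((d • x : g.Pc M i) : M) = g.ℓ (g.cD d) • (x : M) := rfl

/-- the map induced on the pieces -/
def pmap (f : M →ₗ[g.Γ] N) (i : ℤ) : g.Pc M i →ₗ[D] g.Pc N i where
  toFun x := ⟨f x.1, by rw [mem_Pc, ← map_smul, x.2]⟩
  map_add' x y := Subtype.ext (map_add f x.1 y.1)
  map_smul' d x := Subtype.ext (map_smul f _ x.1)

theorem pmap_inj {f : M →ₗ[g.Γ] N} (hf : Injective f) (i : ℤ) : Injective (pmap f i) :=
  fun _ _ h => Subtype.ext (hf (congrArg Subtype.val h))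

theorem pmap_surj {f : M →ₗ[g.Γ] N} (hf : Surjective f) (i : ℤ) : Surjective (pmap f i) := fun y => by
  obtain ⟨x, hx⟩ := hf y.1
  exact ⟨⟨g.π i • x, Grd.π_smul_π i x⟩, Subtype.ext (by
    change f (g.π i • x) = y.1
    rw [map_smul, hx, y.2])⟩

variable (g) in
/-- Hilbert function -/
noncomputable def h (M : Type) [AddCommGroup M] [Module g.Γ M] (i : ℤ) : ℤ := Module.finrank D (g.Pc M i)

theorem h_equiv (e : M ≃ₗ[g.Γ] N) : g.h M = g.h N := funext fun i => congrArg Nat.cast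
  (LinearEquiv.ofBijective (pmap e.toLinearMap i) ⟨pmap_inj e.injective i, pmap_surj e.surjective i⟩).finrank_eq

theorem h_add (f : M →ₗ[g.Γ] N) (i : ℤ) [Module.Finite D (g.Pc M i)] :
    g.h M i = g.h (LinearMap.ker f) i + g.h (LinearMap.range f) i := by
  have h1 := (pmap f.rangeRestrict i).finrank_range_add_finrank_ker
  have h2 : LinearMap.ker (pmap f.rangeRestrict i) = LinearMap.range (pmap (LinearMap.ker f).subtype i) := by
    ext x
    constructor
    · intro hx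
      exact ⟨⟨⟨x.1, congrArg (fun z : g.Pc (LinearMap.range f) i => z.1.1) hx⟩, Subtype.ext x.2⟩, rfl⟩
    · rintro ⟨y, rfl⟩
      exact Subtype.ext (Subtype.ext y.1.2)
  rw [LinearMap.range_eq_top.2 (pmap_surj f.surjective_rangeRestrict i), finrank_top, h2,
    LinearMap.finrank_range_of_inj (pmap_inj (Submodule.injective_subtype _) i)] at h1
  unfold h
  omega

variable (g) in
/-- finitely generated graded modules killed by `J` -/
structure Cl (J : Ideal Λ) (M : Type) [AddCommGroup M] [Module g.Γ M] : Prop where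
  noeth : IsNoetherian g.Γ M
  disc : g.Disc M
  kill : ∀ y ∈ J, ∀ x : M, g.ℓ y • x = 0

variable (g) in
/-- integrality -/
def Int1 (J : Ideal Λ) (δ e : ℤ) : Prop := ∀ (M : Type) [AddCommGroup M] [Module g.Γ M], g.Cl J M →
  (∀ i, Module.Finite D (g.Pc M i)) ∧ ∃ θ, Th δ e (g.h M) θ

variable {J : Ideal Λ} {δ e : ℤ}

theorem Cl.of_inj (h : g.Cl J N) (f : M →ₗ[g.Γ] N) (hf : Injective f) : g.Cl J M :=
  ⟨have := h.noeth; isNoetherian_of_injective f hf, h.disc.of_inj f hf,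
    fun y hy x => hf (by rw [map_smul, h.kill y hy, map_zero])⟩

theorem Cl.of_surj (h : g.Cl J M) (f : M →ₗ[g.Γ] N) (hf : Surjective f) : g.Cl J N :=
  ⟨have := h.noeth; isNoetherian_of_surjective f (LinearMap.range_eq_top.2 hf), h.disc.of_surj f hf,
    fun y hy x => by
      obtain ⟨x, rfl⟩ := hf x
      rw [← map_smul, h.kill y hy, map_zero]⟩

open Classical in
/-- the rank function -/
noncomputable def rho (hδ : 0 < δ) (hI : g.Int1 J δ e) : Rho g.Γ where
  C M := g.Cl J M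
  ρ M := if h : ∃ θ, Th δ e (g.h M) θ then h.choose else 0
  C_inj f hf h := h.of_inj f hf
  C_surj f hf h := h.of_surj f hf
  C_prod h h' := ⟨have := h.noeth; have := h'.noeth; inferInstance, h.disc.prod h'.disc,
    fun y hy x => Prod.ext (h.kill y hy x.1) (h'.kill y hy x.2)⟩
  noeth h := h.noeth
  ρ_equiv e := by rw [h_equiv e]
  ρ_add f h := by
    have h1 := (hI _ h).2
    have h2 := (hI _ (h.of_inj _ (LinearMap.ker f).injective_subtype)).2
    have h3 := (hI _ (h.of_surj _ f.surjective_rangeRestrict)).2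
    rw [dif_pos h1, dif_pos h2, dif_pos h3]
    refine h1.choose_spec.uniq hδ ?_
    have h4 := h2.choose_spec.add h3.choose_spec
    rwa [← funext fun i => have := (hI _ h).1 i; h_add f i] at h4

theorem rho_C (hδ : 0 < δ) (hI : g.Int1 J δ e) : (rho hδ hI).C M ↔ g.Cl J M := Iff.rfl

theorem rho_eq (hδ : 0 < δ) (hI : g.Int1 J δ e) {θ : ℤ} (h : Th δ e (g.h M) θ) : (rho hδ hI).ρ M = θ := by
  have h1 : ∃ θ, Th δ e (g.h M) θ := ⟨θ, h⟩
  exact (dif_pos h1).trans (h1.choose_spec.uniq hδ h)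

theorem th_rho (hδ : 0 < δ) (hI : g.Int1 J δ e) (h : g.Cl J M) : Th δ e (g.h M) ((rho hδ hI).ρ M) := by
  obtain ⟨θ, hθ⟩ := (hI M h).2
  rwa [rho_eq hδ hI hθ]

end GrdD

end Crest.Agent.R181
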