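import Crest.Agent.R181.A4

/-! Row 181, part (A): the structure sheaf is an atom; degree `0`, `1` and independence in the colimit. -/

set_option autoImplicit false
open Function Filter

namespace Crest.Agent.R181

theorem a5_lin {A B : ℤ} (h : ∀ᶠ x : ℤ in atTop, 0 ≤ A * x + B) : 0 ≤ A := by
  by_contra h0
  obtain ⟨x, h1, h2⟩ := (h.and (eventually_ge_atTop (|B| + 1))).exists
  have h3 := le_abs_self B
  have h4 := abs_nonneg B
  nlinarith

theorem a5_hb {Γ Q : Type} [Ring Γ] [AddCommGroup Q] [Module Γ Q] {u u' : Γ} (hc : Commute u u')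
    (r1 : ∀ a : Q, u • a = 0 → a = 0) (r2 : ∀ a b : Q, u' • a = u • b → ∃ w, a = u • w) (j : ℕ) :
    ∀ y : ℕ → Q, (∀ i < j, u' • y (i + 1) = u • y i) → ∃ z : Q, ∀ i ≤ j, y i = (u ^ i * u' ^ (j - i)) • z := by
  have r3 : ∀ (m : ℕ) (a b : Q), u' ^ m • a = u • b → ∃ w, a = u • w := by
    intro m
    induction m with
    | zero => exact fun a b h => ⟨b, by simpa using h⟩
    | succ m ih =>
      intro a b h
      rw [pow_succ', mul_smul] at h
      obtain ⟨w, hw⟩ := r2 _ _ h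
      exact ih a w hw
  induction j with
  | zero => exact fun y _ => ⟨y 0, fun i hi => by simp [Nat.le_zero.1 hi]⟩
  | succ j ih =>
    intro y hy
    obtain ⟨z, hz⟩ := ih (fun i => y (i + 1)) fun i hi => hy (i + 1) (by omega)
    have h1 : u' ^ (j + 1) • z = u • y 0 := by
      rw [← hy 0 (by omega), hz 0 (by omega), pow_succ', mul_smul]
      simp
    obtain ⟨w, rfl⟩ := r3 _ _ _ h1
    refine ⟨w, fun i hi => ?_⟩
    rcases i with _ | i
    · refine sub_eq_zero.1 (r1 _ ?_)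
      rw [smul_sub, ← h1, ← mul_smul, ← mul_smul, pow_zero, one_mul, Nat.sub_zero, (hc.pow_right _).eq, sub_self]
    · rw [hz i (by omega), ← mul_smul, Nat.add_sub_add_right, mul_assoc, ← (hc.pow_right _).eq, pow_succ, mul_assoc]

theorem Rho.nonneg_fin {Γ : Type} [Ring Γ] {r : Rho Γ} {M : Type} [AddCommGroup M] [Module Γ M]
    (h : ∀ W : Submodule Γ M, r.C W → 0 ≤ r.s W) {Q : Type} [Fintype Q] (H : Submodule Γ (Q → M)) (hH : r.C H) :
    0 ≤ r.s H := by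
  classical
  have key : ∀ (s : Finset Q) (H : Submodule Γ (Q → M)), r.C H → (∀ x ∈ H, ∀ q, q ∉ s → x q = 0) → 0 ≤ r.s H := by
    intro s
    induction s using Finset.induction_on with
    | empty =>
      intro H hH h0
      have h1 : H = ⊥ := eq_bot_iff.2 fun x hx => funext fun q => h0 x hx q (Finset.notMem_empty q)
      rw [h1, r.s_bot hH]
    | insert a s ha ih =>
      intro H hH h0
      have h2 := r.s_res (LinearMap.proj a : (Q → M) →ₗ[Γ] M) hH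
      have h3 := ih (H ⊓ LinearMap.ker (LinearMap.proj a : (Q → M) →ₗ[Γ] M)) (r.C_le hH inf_le_left)
        fun x hx q hq => by
          by_cases hqa : q = a
          · rw [hqa]; exact hx.2
          · exact h0 x hx.1 q (by simp [hq, hqa])
      have h4 := h _ (r.C_map hH (LinearMap.proj a : (Q → M) →ₗ[Γ] M))
      omega
  exact key Finset.univ H hH fun _ _ q hq => absurd (Finset.mem_univ q) hq

variable {D Λ : Type} [DivisionRing D] [Ring Λ]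

/-- the data of a curve over `D` -/
structure Cur (g : GrdD D Λ) where
  J : Ideal Λ
  hJ : ∀ i, ∀ x ∈ J, g.pr i x ∈ J
  hJr : ∀ x, ∀ y ∈ J, y * x ∈ J
  δ : ℤ
  e : ℤ
  hδ : 0 < δ
  u : Λ
  u' : Λ
  hu : g.pr 1 u = u
  hu' : g.pr 1 u' = u'
  cu : ∀ y, y * u = u * y
  cu' : ∀ y, y * u' = u' * y
  noeth : IsNoetherianRing Λ
  int : g.Int1 J δ e
  hO : ∀ k, ∀ᶠ x in atTop, g.h (g.Sh k ⧸ Grd.idealSub k J hJ) x = δ * (x - k) + e
  r1 : ∀ y, u * y ∈ J → y ∈ J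
  r2 : ∀ y z, u' * y - u * z ∈ J → ∃ w, y - u * w ∈ J
  ind : ∀ y, y ∉ J → ∀ (j : ℕ) (r : ℕ → D),
    ∑ i ∈ Finset.range (j + 1), g.cD (r i) * (u ^ i * u' ^ (j - i) * y) ∈ J → ∀ i ≤ j, r i = 0

namespace Cur

variable {g : GrdD D Λ} (C : Cur g)

def O (k : ℤ) : Type := g.Sh k ⧸ Grd.idealSub k C.J C.hJ

instance (k : ℤ) : AddCommGroup (C.O k) := inferInstanceAs (AddCommGroup (g.Sh k ⧸ Grd.idealSub k C.J C.hJ))

instance (k : ℤ) : Module g.Γ (C.O k) := inferInstanceAs (Module g.Γ (g.Sh k ⧸ Grd.idealSub k C.J C.hJ))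

noncomputable abbrev r : Rho g.Γ := GrdD.rho C.hδ C.int

def cl (k : ℤ) (y : Λ) : C.O k := Submodule.Quotient.mk (g.sh k y)

theorem cl_surj (k : ℤ) : Surjective (C.cl k) := fun x => Submodule.Quotient.mk_surjective _ x

theorem cl_eq_zero {k : ℤ} {y : Λ} : C.cl k y = 0 ↔ y ∈ C.J := Submodule.Quotient.mk_eq_zero _

theorem cl_eq {k : ℤ} {y z : Λ} : C.cl k y = C.cl k z ↔ y - z ∈ C.J := Submodule.Quotient.eq _

theorem ℓ_mk (k : ℤ) (x y : Λ) : g.ℓ x • C.cl k y = C.cl k (x * y) := rfl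

theorem π_mk (i k : ℤ) (y : Λ) : g.π i • C.cl k y = C.cl k (g.pr (i - k) y) := rfl

theorem π_one (k : ℤ) : g.π k • C.cl k 1 = C.cl k 1 := by rw [π_mk, sub_self, g.one]

theorem cl_O (k : ℤ) : g.Cl C.J (C.O k) :=
  ⟨have := C.noeth; have := Grd.noeth_Sh (g := g.toGrd) k
    inferInstanceAs (IsNoetherian g.Γ (g.Sh k ⧸ Grd.idealSub k C.J C.hJ)),
    (Grd.disc_Sh k).of_surj _ (Submodule.mkQ_surjective _), fun y hy x => by
      obtain ⟨x, rfl⟩ := C.cl_surj k x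
      rw [ℓ_mk, cl_eq_zero]
      exact C.hJr x y hy⟩

theorem hO' (k : ℤ) : ∀ᶠ x in atTop, g.h (C.O k) x = C.δ * (x - k) + C.e := C.hO k

theorem ρ_O (k : ℤ) : C.r.ρ (C.O k) = 1 + k :=
  GrdD.rho_eq _ _ ⟨1, -k, by ring, (C.hO' k).mono fun x hx => by rw [hx]; ring⟩

variable {M : Type} [AddCommGroup M] [Module g.Γ M]

def lift {k : ℤ} (x : M) (hx : g.π k • x = x) (hk : ∀ y ∈ C.J, g.ℓ y • x = 0) : C.O k →ₗ[g.Γ] M :=
  Submodule.liftQ _ (Grd.lift x hx) fun _ hy => hk _ hy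

theorem lift_mk {k : ℤ} (x : M) (hx : g.π k • x = x) (hk : ∀ y ∈ C.J, g.ℓ y • x = 0) (y : Λ) :
    C.lift x hx hk (C.cl k y) = g.ℓ y • x := rfl

theorem map_mk {k : ℤ} (f : C.O k →ₗ[g.Γ] M) (y : Λ) : f (C.cl k y) = g.ℓ y • f (C.cl k 1) := by
  rw [← map_smul, ℓ_mk, mul_one]

theorem O_ext {k : ℤ} {f f' : C.O k →ₗ[g.Γ] M} (h : f (C.cl k 1) = f' (C.cl k 1)) : f = f' :=
  LinearMap.ext fun x => by
    obtain ⟨y, rfl⟩ := C.cl_surj k x
    rw [map_mk, h, ← map_mk]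

theorem pr_mono (i j : ℕ) : g.pr ((i + j : ℕ) : ℤ) (C.u ^ i * C.u' ^ j) = C.u ^ i * C.u' ^ j := by
  have key : ∀ x : Λ, g.pr 1 x = x → ∀ n : ℕ, g.pr n (x ^ n) = x ^ n := fun x hx n => by
    induction n with
    | zero => simpa using g.one
    | succ n ih => rw [pow_succ, Nat.cast_succ, g.mul _ _ _ _ ih hx]
  rw [Nat.cast_add, g.mul _ _ _ _ (key _ C.hu i) (key _ C.hu' j)]

theorem growth (k : ℤ) (W : Submodule g.Γ (C.O k)) (hW : W ≠ ⊥) : ∃ c : ℤ, ∀ᶠ x in atTop, x - c ≤ g.h W x := by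
  have hC : g.Cl C.J W := (C.cl_O k).of_inj _ W.injective_subtype
  obtain ⟨d, w, hw, hw0⟩ : ∃ (d : ℤ) (w : W), g.π d • w = w ∧ w ≠ 0 := by
    by_contra h0
    push Not at h0
    exact hW (eq_bot_iff.2 fun x hx => congrArg Subtype.val (hC.disc.induction (p := fun w => w = 0) rfl
      (fun a b ha hb => by rw [ha, hb, add_zero]) h0 ⟨x, hx⟩))
  obtain ⟨y, hy⟩ := C.cl_surj k w.1
  have hyJ : y ∉ C.J := fun h => hw0 (Subtype.ext (hy.symm.trans (C.cl_eq_zero.2 h)))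
  refine ⟨d, (eventually_ge_atTop d).mono fun x hx => ?_⟩
  obtain ⟨j, rfl⟩ : ∃ j : ℕ, x = d + j := ⟨(x - d).toNat, by omega⟩
  have := (C.int W hC).1 (d + j)
  let v : Fin (j + 1) → g.Pc W (d + j) := fun i => ⟨g.ℓ (C.u ^ i.1 * C.u' ^ (j - i.1)) • w, by
    have h1 := Grd.π_smul_ℓ (M := W) (i := d) (x := w) (C.pr_mono i.1 (j - i.1)) (by exact hw)
    rwa [show i.1 + (j - i.1) = j by omega] at h1⟩
  have hv : LinearIndependent D v := Fintype.linearIndependent_iff.2 fun a ha i => by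
    have h1 := C.ind y hyJ j (fun i => if h : i < j + 1 then a ⟨i, h⟩ else 0) ?_ i.1 (by omega)
    · simpa [i.2] using h1
    · have h2 := congrArg (fun z : g.Pc W (d + j) => (z.1.1 : C.O k)) ha
      simp only [AddSubmonoidClass.coe_finsetSum, GrdD.coe_smul, v, Submodule.coe_smul, ← hy, ℓ_mk,
        ZeroMemClass.coe_zero] at h2
      rw [Finset.sum_range, ← C.cl_eq_zero (k := k), ← h2]
      simp only [Fin.is_lt, dif_pos, Fin.eta]
      exact map_sum ((Submodule.mkQ _).toAddMonoidHom.comp (g.sh k).toAddMonoidHom) _ _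
  have h3 := hv.fintype_card_le_finrank
  rw [Fintype.card_fin] at h3
  unfold GrdD.h
  omega

theorem le_s (k : ℤ) (W : Submodule g.Γ (C.O k)) (hW : W ≠ ⊥) : 1 + k ≤ C.r.s W := by
  have hδ := C.hδ
  obtain ⟨c, hc⟩ := C.growth k W hW
  have h1 := GrdD.th_rho C.hδ C.int ((C.cl_O k).of_inj _ W.injective_subtype)
  have h2 := GrdD.th_rho C.hδ C.int ((C.cl_O k).of_surj _ W.mkQ_surjective)
  have h3 := C.r.ρ_quot (C.cl_O k) W
  have h4 : ∀ x, g.h (C.O k) x = g.h W x + g.h (C.O k ⧸ W) x := fun x => by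
    have := (C.int _ (C.cl_O k)).1 x
    rw [GrdD.h_add W.mkQ x, GrdD.h_equiv (LinearEquiv.ofEq _ _ W.ker_mkQ),
      GrdD.h_equiv (LinearEquiv.ofTop _ W.range_mkQ)]
  obtain ⟨ρ1, σ1, e1, h1⟩ := h1
  obtain ⟨ρ2, σ2, e2, h2⟩ := h2
  have h5 : 1 = ρ1 + ρ2 := (Th.coeff (e := C.e) (σ := -k) (σ' := σ1 + σ2) hδ (by
    filter_upwards [C.hO' k, h1, h2] with x a b c
    have := h4 x
    rw [a, b, c] at this
    linarith)).1
  have h6 : 0 ≤ ρ1 * C.δ - 1 := a5_lin (B := ρ1 * C.e + σ1 * C.δ + c) (by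
    filter_upwards [hc, h1] with x a b
    rw [b] at a
    linarith)
  have h7 : ∀ᶠ x in atTop, 0 ≤ ρ2 * (C.δ * x + C.e) + σ2 * C.δ := h2.mono fun x hx => hx ▸ Nat.cast_nonneg _
  have h8 : 0 ≤ ρ2 * C.δ := a5_lin (B := ρ2 * C.e + σ2 * C.δ) (h7.mono fun x hx => by linarith)
  have h9 : ρ2 = 0 := by
    have := nonneg_of_mul_nonneg_left h8 hδ
    have : 0 < ρ1 := by
      by_contra h10
      nlinarith
    omega
  obtain ⟨x, hx⟩ := h7.exists
  rw [h9, zero_mul, zero_add] at hx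
  have := nonneg_of_mul_nonneg_left hx hδ
  rw [C.ρ_O] at h3
  change C.r.ρ (C.O k ⧸ W) = _ at e2
  omega

theorem atom_O : C.r.Atom (C.O 0) :=
  ⟨C.cl_O 0, C.ρ_O 0, fun W _ hW => by have := C.le_s 0 W hW; omega⟩

theorem nonneg_O (W : Submodule g.Γ (C.O (-1))) (hW : C.r.C W) : 0 ≤ C.r.s W := by
  by_cases h : W = ⊥
  · rw [h, C.r.s_bot hW]
  · have := C.le_s (-1) W h
    omega

/-- right multiplication by a homogeneous element -/
def rmul (k l : ℤ) (x : Λ) (hx : g.pr (k - l) x = x) : C.O k →ₗ[g.Γ] C.O l :=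
  C.lift (C.cl l x) (by rw [π_mk, hx]) fun y hy => (C.cl_O l).kill y hy _

theorem rmul_cl (k l : ℤ) (x : Λ) (hx : g.pr (k - l) x = x) (y : Λ) :
    C.rmul k l x hx (C.cl k y) = C.cl l (y * x) := rfl

theorem comm_mono (i j : ℕ) (y : Λ) : y * (C.u ^ i * C.u' ^ j) = C.u ^ i * C.u' ^ j * y :=
  (((Commute.pow_right (C.cu y) i).mul_right (Commute.pow_right (C.cu' y) j))).eq

def mono (j : ℕ) : C.O j →ₗ[g.Γ] (Fin (j + 1) → C.O 0) :=
  LinearMap.pi fun i => C.rmul j 0 (C.u ^ i.1 * C.u' ^ (j - i.1)) (by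
    have := C.pr_mono i.1 (j - i.1)
    rwa [show i.1 + (j - i.1) = j by omega, ← sub_zero (j : ℤ)] at this)

theorem mono_cl (j : ℕ) (y : Λ) (i : Fin (j + 1)) :
    C.mono j (C.cl j y) i = g.ℓ (C.u ^ i.1 * C.u' ^ (j - i.1)) • C.cl 0 y :=
  congrArg (C.cl 0) (C.comm_mono _ _ y)

def hbm (j : ℕ) : (Fin (j + 1) → C.O 0) →ₗ[g.Γ] (Fin j → C.O (-1)) :=
  LinearMap.pi fun i => C.rmul 0 (-1) C.u' (by exact C.hu') ∘ₗ LinearMap.proj i.succ -
    C.rmul 0 (-1) C.u (by exact C.hu) ∘ₗ LinearMap.proj i.castSucc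

theorem hbm_eq_zero (j : ℕ) (y : Fin (j + 1) → C.O 0) (i : Fin j) :
    C.hbm j y i = 0 ↔ g.ℓ C.u' • y i.succ = g.ℓ C.u • y i.castSucc := by
  obtain ⟨a, ha⟩ := C.cl_surj 0 (y i.succ)
  obtain ⟨b, hb⟩ := C.cl_surj 0 (y i.castSucc)
  change C.rmul 0 (-1) C.u' (by exact C.hu') (y i.succ) - C.rmul 0 (-1) C.u (by exact C.hu) (y i.castSucc) = 0 ↔ _
  rw [← ha, ← hb, sub_eq_zero, rmul_cl, rmul_cl, ℓ_mk, ℓ_mk, cl_eq, cl_eq, C.cu, C.cu']

theorem r1' (a : C.O 0) (h : g.ℓ C.u • a = 0) : a = 0 := by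
  obtain ⟨y, rfl⟩ := C.cl_surj 0 a
  exact C.cl_eq_zero.2 (C.r1 y (C.cl_eq_zero.1 h))

theorem sExt_mono (j : ℕ) : C.r.SExt (C.mono j) := by
  have hc : Commute (g.ℓ C.u) (g.ℓ C.u') := Commute.map (C.cu' C.u) g.ℓ
  refine Rho.SExt.of_exact (C.r.C_pi (C.cl_O 0) _) ((injective_iff_map_eq_zero _).2 fun x hx => ?_) ?_ (C.hbm j)
    (le_antisymm (fun y hy => ?_) ?_) (Rho.nonneg_fin C.nonneg_O)
  · obtain ⟨y, rfl⟩ := C.cl_surj j x
    have h1 := congrFun hx (Fin.last j)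
    rw [mono_cl, Fin.val_last, Nat.sub_self, pow_zero, mul_one, map_pow] at h1
    have h2 : ∀ (n : ℕ) (a : C.O 0), g.ℓ C.u ^ n • a = 0 → a = 0 := fun n => by
      induction n with
      | zero => simp
      | succ n ih => exact fun a h => C.r1' a (ih _ (by rwa [pow_succ, mul_smul] at h))
    exact C.cl_eq_zero.2 (C.cl_eq_zero.1 (h2 j _ h1))
  · rw [C.r.ρ_pi (C.cl_O 0), C.ρ_O, C.ρ_O, Fintype.card_fin]
    push_cast
    ring
  · obtain ⟨z, hz⟩ := a5_hb hc C.r1' (fun a b h => by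
        obtain ⟨a, rfl⟩ := C.cl_surj 0 a
        obtain ⟨b, rfl⟩ := C.cl_surj 0 b
        obtain ⟨w, hw⟩ := C.r2 a b (C.cl_eq.1 h)
        exact ⟨C.cl 0 w, C.cl_eq.2 hw⟩) j (fun i => if h : i < j + 1 then y ⟨i, h⟩ else 0) fun i hi => by
      rw [dif_pos (by omega), dif_pos (by omega)]
      exact (C.hbm_eq_zero j y ⟨i, hi⟩).1 (congrFun hy ⟨i, hi⟩)
    obtain ⟨z, rfl⟩ := C.cl_surj 0 z
    refine ⟨C.cl j z, funext fun i => ?_⟩
    have := hz i.1 (by omega)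
    rw [dif_pos i.2] at this
    rw [mono_cl, map_mul, map_pow, map_pow, ← this]
  · rintro _ ⟨x, rfl⟩
    obtain ⟨y, rfl⟩ := C.cl_surj j x
    refine funext fun i => (C.hbm_eq_zero j _ i).2 ?_
    rw [mono_cl, mono_cl, ← mul_smul, ← mul_smul, ← map_mul, ← map_mul, Fin.val_succ, Fin.val_castSucc,
      show j - i.1 = j - (i.1 + 1) + 1 by omega, ← C.cu', pow_succ' C.u, pow_succ C.u']
    simp only [mul_assoc]

variable {C} {U : Type} [AddCommGroup U] [Module g.Γ U] {ι : C.O 0 →ₗ[g.Γ] U} (h : C.r.Hull ι)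
include h

theorem kill (y : Λ) (hy : y ∈ C.J) (x : U) : g.ℓ y • x = 0 := by
  obtain ⟨Y, h1, -, h3⟩ := h.cover {x}
  exact congrArg Subtype.val (h1.C.kill y hy ⟨x, h3 x (Finset.mem_singleton_self x)⟩)

theorem disc : g.Disc U := fun x => by
  obtain ⟨Y, h1, -, h3⟩ := h.cover {x}
  obtain ⟨s, hs⟩ := h1.C.disc ⟨x, h3 x (Finset.mem_singleton_self x)⟩
  exact ⟨s, by simpa using congrArg Subtype.val hs⟩

omit h in
theorem π_u0 : g.π 0 • ι (C.cl 0 1) = ι (C.cl 0 1) := by rw [← map_smul, π_one]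

theorem u0_ne : ι (C.cl 0 1) ≠ 0 := fun h0 => h.ne_zero (C.O_ext h0)

theorem zero_surj (y : U) (hy : g.π 0 • y = y) : ∃ φ : Module.End g.Γ U, y = φ (ι (C.cl 0 1)) := by
  obtain ⟨φ, hφ⟩ := h.exists_end (C.lift y hy fun z hz => kill h z hz y)
  refine ⟨φ, Eq.trans ?_ (LinearMap.congr_fun hφ (C.cl 0 1)).symm⟩
  rw [lift_mk, map_one, one_smul]

theorem end_eq_zero {φ : Module.End g.Γ U} (h0 : φ (ι (C.cl 0 1)) = 0) : φ = 0 :=
  h.end_ext (C.O_ext h0)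

theorem one_surj (y : U) (hy : g.π 1 • y = y) : ∃ φ ψ : Module.End g.Γ U,
    y = g.ℓ C.u • φ (ι (C.cl 0 1)) + g.ℓ C.u' • ψ (ι (C.cl 0 1)) := by
  obtain ⟨G, hG⟩ := h.ext _ (C.sExt_mono 1) (C.lift (k := (1 : ℕ)) y hy fun z hz => kill h z hz y)
  have hs : ∀ i : Fin 2, g.π 0 • G (Pi.single i (C.cl 0 1)) = G (Pi.single i (C.cl 0 1)) := fun i => by
    rw [← map_smul, ← Pi.single_smul, π_one]
  obtain ⟨φ, hφ⟩ := zero_surj h _ (hs 1)
  obtain ⟨ψ, hψ⟩ := zero_surj h _ (hs 0)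
  refine ⟨φ, ψ, ?_⟩
  have h1 := LinearMap.congr_fun hG (C.cl (1 : ℕ) 1)
  rw [lift_mk, map_one, one_smul] at h1
  rw [← hφ, ← hψ, ← map_smul, ← map_smul, ← map_add, ← h1]
  refine congrArg G (funext fun i => ?_)
  rw [mono_cl]
  fin_cases i <;> simp

theorem indep (j : ℕ) (φ : ℕ → Module.End g.Γ U)
    (h0 : ∑ i ∈ Finset.range (j + 1), g.ℓ (C.u ^ i * C.u' ^ (j - i)) • φ i (ι (C.cl 0 1)) = 0) :
    ∀ i ≤ j, φ i = 0 := by
  let G : (Fin (j + 1) → C.O 0) →ₗ[g.Γ] U := ∑ i : Fin (j + 1), φ i.1 ∘ₗ ι ∘ₗ LinearMap.proj i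
  have hG : G = 0 := (C.sExt_mono j).uniq h.pos (C.O_ext (by
    rw [Finset.sum_range] at h0
    simpa only [G, LinearMap.comp_apply, LinearMap.sum_apply, LinearMap.proj_apply, mono_cl, map_smul,
      LinearMap.zero_apply] using h0))
  intro i hi
  refine end_eq_zero h ?_
  have h1 := LinearMap.congr_fun hG (Pi.single ⟨i, by omega⟩ (C.cl 0 1))
  simp only [G, LinearMap.comp_apply, LinearMap.sum_apply, LinearMap.proj_apply, LinearMap.zero_apply] at h1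
  rw [Finset.sum_eq_single ⟨i, by omega⟩ (fun b _ hb => by rw [Pi.single_eq_of_ne hb, map_zero, map_zero])
    (by simp), Pi.single_eq_same] at h1
  exact h1

end Cur

end Crest.Agent.R181
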