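import Crest.Agent.R181.GDefs

/-! # Triangular change of basis for polynomials with pure-power leading monomials (prefix `box_`) -/

set_option autoImplicit false

namespace Crest.Agent.R181

open MvPolynomial

section tri

variable {D M W : Type*} [DivisionRing D] [LinearOrder W] [WellFoundedLT W]

/-- the linear map with prescribed values on monomials -/
noncomputable def box_lin (ψ : M → AddMonoidAlgebra D M) :
    AddMonoidAlgebra D M →ₗ[D] AddMonoidAlgebra D M :=
  Finsupp.linearCombination D ψ ∘ₗ (AddMonoidAlgebra.coeffLinearEquiv D).toLinearMap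

theorem box_lin_single (ψ : M → AddMonoidAlgebra D M) (n : M) (c : D) :
    box_lin ψ (AddMonoidAlgebra.single n c) = c • ψ n := by
  simp [box_lin]

theorem box_lin_coeff (ψ : M → AddMonoidAlgebra D M) (p : AddMonoidAlgebra D M) (m : M) :
    (box_lin ψ p).coeff m = ∑ n ∈ p.coeff.support, p.coeff n * (ψ n).coeff m := by
  simp [box_lin, Finsupp.linearCombination_apply, Finsupp.sum]

/-- a triangular family is a basis -/
theorem box_lin_bij (r : M → W) (ψ : M → AddMonoidAlgebra D M) (h0 : ∀ n, (ψ n).coeff n ≠ 0)
    (h1 : ∀ n m, (ψ n).coeff m ≠ 0 → m ≠ n → r m < r n) : Function.Bijective (box_lin ψ) := by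
  classical
  constructor
  · rw [injective_iff_map_eq_zero]
    intro p hp
    by_contra hne
    have hs : p.coeff.support.Nonempty := by
      rw [Finsupp.support_nonempty_iff]
      intro h
      exact hne (by ext m; simp [h])
    obtain ⟨n, hn, hmax⟩ := Finset.exists_max_image _ r hs
    have h2 := box_lin_coeff ψ p n
    rw [hp, Finset.sum_eq_single n] at h2
    · exact mul_ne_zero (Finsupp.mem_support_iff.1 hn) (h0 n) (by simpa using h2.symm)
    · intro m hm hmn
      by_contra h3
      exact absurd (h1 m n (right_ne_zero_of_mul h3) hmn.symm) (not_lt.2 (hmax m hm))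
    · intro h
      exact absurd hn h
  · have key : ∀ w : W, ∀ n, r n = w →
        AddMonoidAlgebra.single n (1 : D) ∈ LinearMap.range (box_lin ψ) := by
      intro w
      induction w using WellFoundedLT.induction with
      | ind w ih =>
        intro n hn
        have h2 : ψ n ∈ LinearMap.range (box_lin ψ) :=
          ⟨AddMonoidAlgebra.single n 1, by rw [box_lin_single, one_smul]⟩
        have h3 : ψ n - AddMonoidAlgebra.single n ((ψ n).coeff n) ∈ LinearMap.range (box_lin ψ) := by
          have h4 : ψ n - AddMonoidAlgebra.single n ((ψ n).coeff n) ∈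
              AddMonoidAlgebra.supported D D {m | r m < w} := by
            rw [AddMonoidAlgebra.mem_supported']
            intro m hm
            by_cases hmn : m = n
            · subst hmn
              simp
            · have : (ψ n).coeff m = 0 := by
                by_contra h5
                exact hm (hn ▸ h1 n m h5 hmn)
              simp [this, Ne.symm hmn]
          rw [AddMonoidAlgebra.supported_eq_span_single] at h4
          refine (Submodule.span_le.2 ?_) h4
          rintro _ ⟨m, hm, rfl⟩
          exact ih _ hm m rfl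
        have h5 := Submodule.smul_mem _ ((ψ n).coeff n)⁻¹ (Submodule.sub_mem _ h2 h3)
        rwa [sub_sub_cancel, AddMonoidAlgebra.smul_single, smul_eq_mul, inv_mul_cancel₀ (h0 n)] at h5
    rw [← LinearMap.range_eq_top, eq_top_iff]
    intro p _
    induction p using AddMonoidAlgebra.induction_linear with
    | zero => exact Submodule.zero_mem _
    | add p q hp hq => exact Submodule.add_mem _ (hp trivial) (hq trivial)
    | single n c =>
      have := Submodule.smul_mem _ c (key _ n rfl)
      rwa [AddMonoidAlgebra.smul_single, smul_eq_mul, mul_one] at this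

end tri

section main

variable {K D σ : Type*} [Field K] [DivisionRing D] [Algebra K D]

theorem box_coeff_io (p : MvPolynomial σ K) (m : σ →₀ ℕ) :
    (io K D σ p).coeff m = algebraMap K D (coeff m p) :=
  AddMonoidAlgebra.coeff_mapRingHom _ _ _

theorem box_io_monomial (n : σ →₀ ℕ) :
    io K D σ (monomial n 1) = AddMonoidAlgebra.single n 1 := by
  classical
  ext m
  rw [box_coeff_io, coeff_monomial, AddMonoidAlgebra.coeff_single, Finsupp.single_apply]
  split_ifs <;> simp

theorem box_io_X (v : σ) : io K D σ (X v) = xs D v := box_io_monomial _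

variable [Fintype σ]

/-- `x^(n mod A) * ∏ G_v^(n_v / A_v)` -/
noncomputable def box_phi (A : σ → ℕ) (G : σ → MvPolynomial σ K) (n : σ →₀ ℕ) : MvPolynomial σ K :=
  monomial (Finsupp.equivFunOnFinite.symm fun v => n v % A v) 1 * ∏ v, G v ^ (n v / A v)

theorem box_phi_box (A : σ → ℕ) (G : σ → MvPolynomial σ K) (n : σ →₀ ℕ)
    (hn : ∀ v, A v ≠ 0 → n v < A v) : box_phi A G n = monomial n 1 := by
  have h1 : ∀ v, n v / A v = 0 := fun v => by
    by_cases h : A v = 0
    · simp [h]
    · exact Nat.div_eq_of_lt (hn v h)
  have h2 : (Finsupp.equivFunOnFinite.symm fun v => n v % A v) = n := by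
    ext v
    by_cases h : A v = 0
    · simp [h]
    · simpa using Nat.mod_eq_of_lt (hn v h)
  simp [box_phi, h1, h2]

theorem box_phi_add (A : σ → ℕ) (G : σ → MvPolynomial σ K) (n : σ →₀ ℕ) (v : σ) (hv : A v ≠ 0) :
    box_phi A G (n + Finsupp.single v (A v)) = box_phi A G n * G v := by
  classical
  have h2 : (Finsupp.equivFunOnFinite.symm fun w => (n + Finsupp.single v (A v) : σ →₀ ℕ) w % A w) =
      Finsupp.equivFunOnFinite.symm fun w => n w % A w := by
    ext w
    by_cases h : v = w
    · subst h
      simp
    · simp [Finsupp.single_apply, h]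
  have h1 : ∀ w, G w ^ ((n + Finsupp.single v (A v) : σ →₀ ℕ) w / A w) =
      G w ^ (n w / A w) * if w = v then G w else 1 := fun w => by
    by_cases h : w = v
    · subst h
      simp [Nat.add_div_right _ (Nat.pos_of_ne_zero hv), pow_succ]
    · simp [h]
  unfold box_phi
  rw [h2]
  simp only [h1]
  rw [Finset.prod_mul_distrib, Finset.prod_ite_eq', if_pos (Finset.mem_univ _), mul_assoc]

theorem box_phi_degree (mo : MonomialOrder σ) (A : σ → ℕ) (G : σ → MvPolynomial σ K)
    (hG : ∀ v, A v ≠ 0 → G v ≠ 0 ∧ mo.degree (G v) = Finsupp.single v (A v)) (n : σ →₀ ℕ) :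
    box_phi A G n ≠ 0 ∧ mo.degree (box_phi A G n) = n := by
  classical
  have h1 : ∀ v, G v ^ (n v / A v) ≠ 0 := fun v => by
    by_cases h : A v = 0
    · simp [h]
    · exact pow_ne_zero _ (hG v h).1
  have h2 : ∀ v, mo.degree (G v ^ (n v / A v)) = Finsupp.single v (A v * (n v / A v)) := fun v => by
    by_cases h : A v = 0
    · simp [h]
    · rw [mo.degree_pow, (hG v h).2, Finsupp.smul_single, smul_eq_mul, mul_comm]
  have h3 : (monomial (Finsupp.equivFunOnFinite.symm fun v => n v % A v) (1 : K)) ≠ 0 := by simp
  have h4 : ∏ v, G v ^ (n v / A v) ≠ 0 := Finset.prod_ne_zero_iff.2 fun v _ => h1 v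
  refine ⟨mul_ne_zero h3 h4, ?_⟩
  unfold box_phi
  rw [mo.degree_mul h3 h4, mo.degree_prod fun v _ => h1 v, mo.degree_monomial, if_neg one_ne_zero]
  ext w
  simp [h2, Finsupp.single_apply, Nat.mod_add_div]

theorem box_main (D : Type*) [DivisionRing D] [Algebra K D] (mo : MonomialOrder σ) (A : σ → ℕ)
    (G : σ → MvPolynomial σ K)
    (hG : ∀ v, A v ≠ 0 → G v ≠ 0 ∧ mo.degree (G v) = Finsupp.single v (A v)) :
    ∃ Φ : PS D σ ≃ₗ[D] PS D σ,
      (∀ q ∈ AddMonoidAlgebra.supported D D {n : σ →₀ ℕ | ∀ v, A v ≠ 0 → n v < A v}, Φ q = q) ∧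
      (∀ v, A v ≠ 0 → ∀ q, Φ (q * AddMonoidAlgebra.single (Finsupp.single v (A v)) 1) =
        Φ q * io K D σ (G v)) ∧
      ∀ S : Set σ, (∀ v ∈ S, A v ≠ 0) → ∀ q,
        Φ q ∈ Ideal.span ((fun v => io K D σ (G v)) '' S) ↔
          q ∈ AddMonoidAlgebra.supported D D {m : σ →₀ ℕ | ∃ v ∈ S, A v ≤ m v} := by
  classical
  have hb : Function.Bijective (box_lin fun n => io K D σ (box_phi A G n)) := by
    refine box_lin_bij mo.toSyn _ (fun n => ?_) fun n m hm hmn => ?_
    · rw [box_coeff_io, map_ne_zero]
      have := (mo.coeff_degree_ne_zero_iff).2 (box_phi_degree mo A G hG n).1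
      rwa [(box_phi_degree mo A G hG n).2] at this
    · rw [box_coeff_io, map_ne_zero] at hm
      have := mo.le_degree (mem_support_iff.2 hm)
      rw [(box_phi_degree mo A G hG n).2] at this
      exact lt_of_le_of_ne this fun h => hmn (mo.toSyn.injective h)
  set Φ : PS D σ ≃ₗ[D] PS D σ := LinearEquiv.ofBijective _ hb with hΦ
  have hs : ∀ n c, Φ (AddMonoidAlgebra.single n c) = c • io K D σ (box_phi A G n) := fun n c =>
    box_lin_single _ n c
  have h2 : ∀ v, A v ≠ 0 → ∀ q, Φ (q * AddMonoidAlgebra.single (Finsupp.single v (A v)) 1) =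
      Φ q * io K D σ (G v) := by
    intro v hv q
    induction q using AddMonoidAlgebra.induction_linear with
    | zero => simp
    | add p q hp hq => rw [add_mul, map_add, hp, hq, map_add, add_mul]
    | single n c =>
      rw [AddMonoidAlgebra.single_mul_single, mul_one, hs, hs, box_phi_add A G n v hv, map_mul,
        smul_mul_assoc]
  refine ⟨Φ, fun q hq => ?_, h2, fun S hS q => ⟨fun hq => ?_, fun hq => ?_⟩⟩
  · rw [AddMonoidAlgebra.supported_eq_span_single] at hq
    induction hq using Submodule.span_induction with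
    | mem x hx =>
      obtain ⟨n, hn, rfl⟩ := hx
      rw [hs, one_smul, box_phi_box A G n hn, box_io_monomial]
    | zero => simp
    | add x y _ _ hx hy => rw [map_add, hx, hy]
    | smul c x _ hx => rw [map_smul, hx]
  · have key : ∀ x ∈ Ideal.span ((fun v => io K D σ (G v)) '' S), ∀ r : PS D σ,
        Φ.symm (r * x) ∈ AddMonoidAlgebra.supported D D {m : σ →₀ ℕ | ∃ v ∈ S, A v ≤ m v} := by
      intro x hx
      induction hx using Submodule.span_induction with
      | mem x hx =>
        obtain ⟨v, hv, rfl⟩ := hx
        intro r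
        obtain ⟨q, rfl⟩ := Φ.surjective r
        rw [← h2 v (hS v hv), LinearEquiv.symm_apply_apply, AddMonoidAlgebra.mem_supported']
        intro m hm
        refine AddMonoidAlgebra.coeff_mul_single_of_forall_add_ne _ _ fun d hd => hm ⟨v, hv, ?_⟩
        rw [← hd]
        simp
      | zero => simp
      | add x y _ _ hx hy =>
        intro r
        rw [mul_add, map_add]
        exact Submodule.add_mem _ (hx r) (hy r)
      | smul c x _ hx =>
        intro r
        rw [smul_eq_mul, ← mul_assoc]
        exact hx _
    simpa using key _ hq 1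
  · rw [AddMonoidAlgebra.supported_eq_span_single] at hq
    induction hq using Submodule.span_induction with
    | mem x hx =>
      obtain ⟨n, ⟨v, hv, hn⟩, rfl⟩ := hx
      have h3 : n = (n - Finsupp.single v (A v)) + Finsupp.single v (A v) :=
        (tsub_add_cancel_of_le (Finsupp.single_le_iff.2 hn)).symm
      have h4 : (AddMonoidAlgebra.single n (1 : D) : PS D σ) =
          AddMonoidAlgebra.single (n - Finsupp.single v (A v)) 1 *
            AddMonoidAlgebra.single (Finsupp.single v (A v)) 1 := by
        rw [AddMonoidAlgebra.single_mul_single, mul_one, ← h3]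
      beta_reduce
      rw [h4, h2 v (hS v hv)]
      exact Ideal.mul_mem_left _ _ (Ideal.subset_span ⟨v, hv, rfl⟩)
    | zero => simp
    | add x y _ _ hx hy =>
      rw [map_add]
      exact Ideal.add_mem _ hx hy
    | smul c x _ hx =>
      rw [map_smul]
      exact Submodule.smul_of_tower_mem _ c hx

end main

end Crest.Agent.R181
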