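import Crest.Agent.R181.GDefs
import Crest.Agent.R181.GBoxAux1

/-! # Standard monomials for triangular equations (prefix `box_`)

For `T ⊆ τ` the products `x^m * ∏ E_t^(k t)` (`m (inr t) < a t` for `t ∈ T`, `k : T →₀ ℕ`) have pairwise
different leading monomials `x^m ∏ x_t^(a t * k t)` (lex order refining `rk`, outputs before inputs) which
exhaust all monomials; so they form a `K`-basis of `K[σ]` and (extend the coordinate map) a `D`-basis of
`D[σ]`.  The left ideal of the `E t` is spanned by the members with `k ≠ 0`. -/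

set_option autoImplicit false

namespace Crest.Agent.R181

open MvPolynomial

namespace Blocks

variable {K : Type} [Field K] {ι τ : Type} [Fintype ι] [DecidableEq ι] [Fintype τ] [DecidableEq τ]
  (N : Blocks K ι τ) (D : Type) [DivisionRing D] [Algebra K D]

omit [Fintype ι] [DecidableEq ι] [Fintype τ] [DecidableEq τ] in
theorem box_supp {s : Set (Var ι τ)} {g : MvPolynomial (Var ι τ) K} (hg : g ∈ supported K s)
    {d : Var ι τ →₀ ℕ} (hd : coeff d g ≠ 0) {v : Var ι τ} (hv : d v ≠ 0) : v ∈ s :=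
  mem_supported.1 hg ((mem_vars_iff_mem_support v).2
    ⟨d, mem_support_iff.2 hd, Finsupp.mem_support_iff.2 hv⟩)

omit [DecidableEq τ] in
theorem box_dg_apply (m : Var ι τ →₀ ℕ) (c : ι) :
    N.dg m c = ∑ v, if N.blk v = c then (m v : ℤ) else 0 := by
  unfold dg
  rw [Finsupp.weight_eq_sum, Finset.sum_apply]
  refine Finset.sum_congr rfl fun v _ => ?_
  simp [wt, Pi.single_apply, eq_comm]

omit [DecidableEq τ] in
theorem box_dg_apply' (m : Var ι τ →₀ ℕ) (c : ι) :
    N.dg m c = m (Sum.inl (c, 0)) + m (Sum.inl (c, 1)) +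
      ∑ t, ((if N.ob t = c then m (Sum.inr t) else 0 : ℕ) : ℤ) := by
  rw [box_dg_apply, Fintype.sum_sum_type, Fintype.sum_prod_type, Finset.sum_comm, Fin.sum_univ_two]
  have h : ∀ b : Fin 2, ∑ x : ι, (if N.blk (Sum.inl (x, b)) = c then (m (Sum.inl (x, b)) : ℤ) else 0) =
      m (Sum.inl (c, b)) := fun b => by
    rw [Finset.sum_eq_single c, if_pos (show N.blk (Sum.inl (c, b)) = c from rfl)]
    · exact fun x _ hx => if_neg hx
    · simp
  rw [h, h]
  congr 1
  refine Finset.sum_congr rfl fun t _ => ?_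
  by_cases ht : N.ob t = c
  · rw [if_pos ht, if_pos (show N.blk (Sum.inr t) = c from ht)]
  · rw [if_neg ht, if_neg (show ¬ N.blk (Sum.inr t) = c from ht), Nat.cast_zero]

omit [DecidableEq τ] in
theorem box_le_dg (m : Var ι τ →₀ ℕ) (v : Var ι τ) : (m v : ℤ) ≤ N.dg m (N.blk v) := by
  rw [box_dg_apply]
  have := Finset.single_le_sum (f := fun w => if N.blk w = N.blk v then (m w : ℤ) else 0)
    (s := Finset.univ) (fun w _ => by split_ifs <;> positivity) (Finset.mem_univ v)
  simpa using this

omit [DecidableEq ι] [DecidableEq τ] in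
/-- a monomial order in which `x_t ^ a t` is the leading monomial of `E t` -/
theorem box_order : ∃ mo : MonomialOrder.{0, 0} (Var ι τ), ∀ t,
    N.E t ≠ 0 ∧ mo.degree (N.E t) = Finsupp.single (Sum.inr t) (N.a t) := by
  classical
  let w : Var ι τ → ℕ := Sum.elim (fun _ => 0) fun t => N.rk t + 1
  let f : Var ι τ → ℕᵒᵈ ×ₗ Fin (Fintype.card (Var ι τ)) := fun v =>
    toLex (OrderDual.toDual (w v), Fintype.equivFin _ v)
  have hf : Function.Injective f := fun v v' h =>
    (Fintype.equivFin _).injective (congrArg (fun p => (ofLex p).2) h)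
  let _ : LinearOrder (Var ι τ) := LinearOrder.lift' f hf
  have hw : ∀ v v' : Var ι τ, v < v' → w v' ≤ w v := fun v v' h => by
    have h1 : f v < f v' := h
    rcases (Prod.Lex.toLex_lt_toLex.1 h1) with h2 | h2
    · exact (OrderDual.toDual_lt_toDual.1 h2).le
    · exact (OrderDual.toDual_inj.1 h2.1).ge
  refine ⟨MonomialOrder.lex, fun t => ?_⟩
  obtain ⟨c, g, hc, hE, hg⟩ := N.E_tri t
  have ha := N.a_pos t
  have h1 : C c * X (Sum.inr t : Var ι τ) ^ N.a t =
      monomial (Finsupp.single (Sum.inr t) (N.a t)) c := by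
    rw [X_pow_eq_monomial, C_mul_monomial, mul_one]
  have h2 : MonomialOrder.lex.degree (C c * X (Sum.inr t : Var ι τ) ^ N.a t) =
      Finsupp.single (Sum.inr t) (N.a t) := by
    rw [h1, MonomialOrder.degree_monomial, if_neg hc]
  have h3 : ∀ d : Var ι τ →₀ ℕ, (∀ v, d v ≠ 0 → w v < w (Sum.inr t)) →
      toLex d < toLex (Finsupp.single (Sum.inr t : Var ι τ) (N.a t)) := fun d hd => by
    refine Finsupp.Lex.lt_iff.2 ⟨Sum.inr t, fun v hv => ?_, ?_⟩
    · have h4 : d v = 0 := by
        by_contra h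
        exact absurd (hd v h) (not_lt.2 (hw _ _ hv))
      simp [h4, hv.ne]
    · have h4 : d (Sum.inr t) = 0 := by
        by_contra h
        exact lt_irrefl _ (hd _ h)
      simpa [h4] using Nat.lt_of_succ_le ha
  have h4 : MonomialOrder.lex.toSyn (MonomialOrder.lex.degree g) <
      MonomialOrder.lex.toSyn (MonomialOrder.lex.degree (C c * X (Sum.inr t : Var ι τ) ^ N.a t)) := by
    rw [h2]
    refine MonomialOrder.lex_lt_iff.2 (h3 _ fun v hv => ?_)
    by_cases hg0 : g = 0
    · simp [hg0] at hv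
    · have h5 := box_supp hg (MonomialOrder.coeff_degree_ne_zero_iff.2 hg0) hv
      rcases v with v | t'
      · simp [w]
      · simpa [w] using h5.2 t' rfl
  have h5 : MonomialOrder.lex.degree (N.E t) = Finsupp.single (Sum.inr t) (N.a t) := by
    rw [hE, MonomialOrder.degree_add_of_lt h4, h2]
  refine ⟨MonomialOrder.ne_zero_of_degree_ne_zero (m := MonomialOrder.lex) ?_, h5⟩
  rw [h5, Ne, Finsupp.single_eq_zero]
  omega

theorem dd_pos (c : ι) : 0 < N.dd c := by
  unfold dd
  refine Int.natCast_pos.2 (Finset.card_pos.2 ⟨0, Fintype.mem_piFinset.2 fun t => ?_⟩)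
  have := N.a_pos t
  split_ifs <;> simp
  omega

/-- the equations are multihomogeneous -/
theorem E_whom (t : τ) : (N.E t).IsWeightedHomogeneous N.wt (Pi.single (N.ob t) (N.a t : ℤ)) := by
  intro d hd
  obtain ⟨c, g, hc, hE, hg⟩ := N.E_tri t
  have h1 : N.E t ∈ supported K {v | N.blk v = N.ob t} := by
    rw [hE]
    have h3 : (X (Sum.inr t) : MvPolynomial (Var ι τ) K) ∈ supported K {v | N.blk v = N.ob t} := by
      rw [X_mem_supported]
      rfl
    have h4 : (C c : MvPolynomial (Var ι τ) K) ∈ supported K {v | N.blk v = N.ob t} := by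
      rw [← algebraMap_eq]
      exact Subalgebra.algebraMap_mem _ c
    have h5 : g ∈ supported K {v | N.blk v = N.ob t} := supported_mono (fun v hv => hv.1) hg
    exact add_mem (mul_mem h4 (pow_mem h3 _)) h5
  have h2 := N.E_hom t hd
  rw [Finsupp.weight_eq_sum] at h2
  funext c'
  change N.dg d c' = _
  rw [box_dg_apply, ← h2]
  by_cases hc' : c' = N.ob t
  · subst hc'
    rw [Pi.single_eq_same]
    push_cast
    refine Finset.sum_congr rfl fun v _ => ?_
    by_cases hv : d v = 0
    · simp [hv]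
    · simp [show N.blk v = N.ob t from box_supp h1 hd hv]
  · rw [Pi.single_eq_of_ne hc']
    refine Finset.sum_eq_zero fun v _ => ?_
    by_cases hv : d v = 0
    · simp [hv]
    · rw [show N.blk v = N.ob t from box_supp h1 hd hv, if_neg (Ne.symm hc')]

/-- the standard monomials are a complement of the ideal -/
theorem isCompl_box (s : Finset ι) :
    IsCompl (AddMonoidAlgebra.supported D D (N.boxS s)) ((N.idS D s).restrictScalars D) := by
  classical
  obtain ⟨mo, hmo⟩ := N.box_order
  let A : Var ι τ → ℕ := fun v => if N.blk v ∈ s then Sum.elim (fun _ => 0) N.a v else 1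
  let G : Var ι τ → MvPolynomial (Var ι τ) K := fun v =>
    if N.blk v ∈ s then Sum.elim (fun _ => 1) N.E v else X v
  have hG : ∀ v, A v ≠ 0 → G v ≠ 0 ∧ mo.degree (G v) = Finsupp.single v (A v) := fun v hv => by
    by_cases h : N.blk v ∈ s
    · rcases v with v | t
      · simp [A, h] at hv
      · simpa [A, G, h] using hmo t
    · simp [A, G, h, MonomialOrder.degree_X]
  obtain ⟨Φ, h1, -, h3⟩ := box_main D mo A G hG
  have hB : {n : Var ι τ →₀ ℕ | ∀ v, A v ≠ 0 → n v < A v} = N.boxS s := by
    ext n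
    constructor
    · intro h
      refine ⟨fun t ht => ?_, fun v hv => ?_⟩
      · have ht' : N.blk (Sum.inr t) ∈ s := ht
        have := N.a_pos t
        have h4 := h (Sum.inr t)
        simp only [A, if_pos ht', Sum.elim_inr] at h4
        exact h4 (by omega)
      · have h4 := h v
        simp only [A, if_neg hv] at h4
        omega
    · intro h v hv
      by_cases hs : N.blk v ∈ s
      · rcases v with v | t
        · simp [A, hs] at hv
        · simpa [A, hs] using h.1 t hs
      · simp [A, hs, h.2 v hs]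
  have hI : (fun v => io K D _ (G v)) '' {v | A v ≠ 0} =
      (fun t => io K D _ (N.E t)) '' {t | N.ob t ∈ s} ∪ xs D '' {v | N.blk v ∉ s} := by
    ext x
    constructor
    · rintro ⟨v, hv, rfl⟩
      by_cases hs : N.blk v ∈ s
      · rcases v with v | t
        · simp [A, hs] at hv
        · exact Or.inl ⟨t, hs, by simp [G, hs]⟩
      · exact Or.inr ⟨v, hs, by simp [G, hs, box_io_X]⟩
    · rintro (⟨t, ht, rfl⟩ | ⟨v, hv, rfl⟩)
      · have ht' : N.blk (Sum.inr t) ∈ s := ht
        have := N.a_pos t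
        refine ⟨Sum.inr t, ?_, by simp [G, ht']⟩
        simp only [A, Set.mem_ofPred_eq, if_pos ht', Sum.elim_inr]
        omega
      · have hv' : N.blk v ∉ s := hv
        exact ⟨v, by simp [A, hv'], by simp [G, hv', box_io_X]⟩
  have hC : {m : Var ι τ →₀ ℕ | ∃ v ∈ {v | A v ≠ 0}, A v ≤ m v} = (N.boxS s)ᶜ := by
    rw [← hB]
    ext m
    simp only [Set.mem_ofPred_eq, Set.mem_compl_iff, not_forall, not_lt, exists_prop]
  have h4 := h3 {v | A v ≠ 0} fun v hv => hv
  rw [hI, hC] at h4
  rw [hB] at h1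
  constructor
  · rw [Submodule.disjoint_def]
    intro x hx hx'
    have h5 := (h4 x).1 (by rw [h1 x hx]; exact hx')
    rw [AddMonoidAlgebra.mem_supported'] at hx h5
    ext m
    by_cases hm : m ∈ N.boxS s
    · simpa using h5 m (by simpa using hm)
    · simpa using hx m hm
  · rw [codisjoint_iff, eq_top_iff]
    intro y _
    obtain ⟨q, rfl⟩ := Φ.surjective y
    have h5 : q ∈ AddMonoidAlgebra.supported D D (N.boxS s) ⊔
        AddMonoidAlgebra.supported D D (N.boxS s)ᶜ := by
      rw [AddMonoidAlgebra.supported_eq_span_single, AddMonoidAlgebra.supported_eq_span_single,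
        ← Submodule.span_union, ← Set.image_union, Set.union_compl_self,
        ← AddMonoidAlgebra.supported_eq_span_single]
      exact AddMonoidAlgebra.mem_supported.2 (Set.subset_univ _)
    obtain ⟨b, hb, b', hb', rfl⟩ := Submodule.mem_sup.1 h5
    rw [map_add, h1 b hb]
    exact Submodule.add_mem_sup hb ((h4 b').2 hb')

/-- the equations form a regular sequence in any order -/
theorem reg_E (T : Set τ) (t : τ) (ht : t ∉ T) (x : PS D (Var ι τ))
    (hx : x * io K D _ (N.E t) ∈ Ideal.span ((fun t => io K D _ (N.E t)) '' T)) :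
    x ∈ Ideal.span ((fun t => io K D _ (N.E t)) '' T) := by
  classical
  obtain ⟨mo, hmo⟩ := N.box_order
  let A : Var ι τ → ℕ := Sum.elim (fun _ => 0) N.a
  let G : Var ι τ → MvPolynomial (Var ι τ) K := Sum.elim (fun _ => 1) N.E
  have hG : ∀ v, A v ≠ 0 → G v ≠ 0 ∧ mo.degree (G v) = Finsupp.single v (A v) := fun v hv => by
    rcases v with v | t
    · simp [A] at hv
    · exact hmo t
  obtain ⟨Φ, -, h2, h3⟩ := box_main D mo A G hG
  have hA : ∀ t, A (Sum.inr t) ≠ 0 := fun t => Nat.one_le_iff_ne_zero.1 (N.a_pos t)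
  have h4 := h3 (Sum.inr '' T) (by rintro _ ⟨t, -, rfl⟩; exact hA t)
  rw [Set.image_image] at h4
  obtain ⟨q, rfl⟩ := Φ.surjective x
  have h5 := h2 (Sum.inr t) (hA t) q
  have h6 := (h4 _).1 (h5 ▸ hx)
  refine (h4 q).2 ?_
  rw [AddMonoidAlgebra.mem_supported'] at h6 ⊢
  intro m hm
  have h7 := h6 (m + Finsupp.single (Sum.inr t) (A (Sum.inr t))) (by
    rintro ⟨_, ⟨t', ht', rfl⟩, h⟩
    refine hm ⟨_, ⟨t', ht', rfl⟩, ?_⟩
    have : t' ≠ t := fun h => ht (h ▸ ht')
    simpa [this] using h)
  rwa [AddMonoidAlgebra.coeff_mul_single_add, mul_one] at h7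

theorem finite_dg (j : ι → ℤ) : {m : Var ι τ →₀ ℕ | N.dg m = j}.Finite := by
  refine (Set.finite_Icc (0 : Var ι τ →₀ ℕ)
    (Finsupp.equivFunOnFinite.symm fun v => (j (N.blk v)).toNat)).subset fun m hm => ?_
  refine ⟨zero_le, fun v => ?_⟩
  have h1 := N.box_le_dg m v
  rw [show N.dg m = j from hm] at h1
  simp only [Finsupp.equivFunOnFinite_symm_apply_apply]
  omega

/-- component of multidegree `j` -/
noncomputable def box_cmp (j : ι → ℤ) : PS D (Var ι τ) →ₗ[D] PS D (Var ι τ) where
  toFun x := AddMonoidAlgebra.ofCoeff (x.coeff.filter fun m => N.dg m = j)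
  map_add' x y := by
    ext m
    simp
  map_smul' c x := by
    ext m
    simp [Finsupp.filter_apply]

omit [Fintype τ] [DecidableEq τ] [Algebra K D] in
theorem box_cmp_coeff (j : ι → ℤ) (x : PS D (Var ι τ)) (m : Var ι τ →₀ ℕ) :
    (N.box_cmp D j x).coeff m = if N.dg m = j then x.coeff m else 0 :=
  Finsupp.filter_apply _ _ _

omit [Fintype τ] [DecidableEq τ] [Algebra K D] in
theorem box_cmp_of_mem {i : ι → ℤ} {x : PS D (Var ι τ)} (hx : x ∈ N.pc1 D i) (j : ι → ℤ) :
    N.box_cmp D j x = if i = j then x else 0 := by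
  have hx' := AddMonoidAlgebra.mem_supported'.1 hx
  ext m
  rw [box_cmp_coeff]
  by_cases hm : N.dg m = i
  · rw [hm]
    split_ifs <;> simp
  · have := hx' m hm
    split_ifs <;> simp [this]

omit [Fintype ι] [Fintype τ] [Algebra K D] in
theorem box_mul_mem {i j : ι → ℤ} {x y : PS D (Var ι τ)} (hx : x ∈ N.pc1 D i) (hy : y ∈ N.pc1 D j) :
    x * y ∈ N.pc1 D (i + j) := by
  refine AddMonoidAlgebra.mem_supported.2 fun m hm => ?_
  obtain ⟨a, ha, b, hb, rfl⟩ :=
    Finset.mem_add.1 (AddMonoidAlgebra.support_coeff_mul_subset x y (Finset.mem_coe.1 hm))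
  have h1 : N.dg a = i := AddMonoidAlgebra.mem_supported.1 hx ha
  have h2 : N.dg b = j := AddMonoidAlgebra.mem_supported.1 hy hb
  change N.dg (a + b) = _
  rw [← h1, ← h2]
  exact map_add _ _ _

omit [Fintype ι] [Fintype τ] [DecidableEq τ] [Algebra K D] in
theorem box_single_mem (m : Var ι τ →₀ ℕ) (c : D) :
    AddMonoidAlgebra.single m c ∈ N.pc1 D (N.dg m) := by
  refine AddMonoidAlgebra.mem_supported.2 fun m' hm => ?_
  have := Finsupp.support_single_subset (Finset.mem_coe.1 hm)
  rw [Finset.mem_singleton.1 this]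
  rfl

theorem box_E_mem (t : τ) : io K D _ (N.E t) ∈ N.pc1 D (Pi.single (N.ob t) (N.a t : ℤ)) := by
  refine AddMonoidAlgebra.mem_supported'.2 fun m hm => ?_
  rw [box_coeff_io, map_eq_zero]
  by_contra h
  exact hm (N.E_whom t h)

/-- the ideal is multigraded -/
theorem idS_graded (s : Finset ι) (x : PS D (Var ι τ)) (hx : x ∈ N.idS D s) (j : ι → ℤ) :
    AddMonoidAlgebra.ofCoeff (x.coeff.filter fun m => N.dg m = j) ∈ N.idS D s := by
  have key : ∀ x ∈ N.idS D s, ∀ r : PS D (Var ι τ), N.box_cmp D j (r * x) ∈ N.idS D s := by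
    intro x hx
    induction hx using Submodule.span_induction with
    | mem x hx =>
      have h1 : ∃ i, x ∈ N.pc1 D i := by
        rcases hx with ⟨t, -, rfl⟩ | ⟨v, -, rfl⟩
        · exact ⟨_, N.box_E_mem D t⟩
        · exact ⟨_, N.box_single_mem D _ _⟩
      obtain ⟨i, hi⟩ := h1
      intro r
      induction r using AddMonoidAlgebra.induction_linear with
      | zero => simp
      | add p q hp hq =>
        rw [add_mul, map_add]
        exact Ideal.add_mem _ hp hq
      | single n c =>
        rw [N.box_cmp_of_mem D (N.box_mul_mem D (N.box_single_mem D n c) hi)]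
        split_ifs
        · exact Ideal.mul_mem_left _ _ (Ideal.subset_span hx)
        · exact Ideal.zero_mem _
    | zero => simp
    | add x y _ _ hx hy =>
      intro r
      rw [mul_add, map_add]
      exact Ideal.add_mem _ (hx r) (hy r)
    | smul c x _ hx =>
      intro r
      rw [smul_eq_mul, ← mul_assoc]
      exact hx _
  have := key x hx 1
  rwa [one_mul] at this

/-- Hilbert function of `D[σ]/idS s` -/
theorem finrank_box (s : Finset ι) (j : ι → ℤ) :
    Module.finrank D ↥(N.pc1 D j) =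
      Module.finrank D ↥(N.pc1 D j ⊓ (N.idS D s).restrictScalars D) +
        {m | m ∈ N.boxS s ∧ N.dg m = j}.ncard := by
  have hfin := N.finite_dg j
  have : Module.Finite D (N.pc1 D j) := by
    unfold pc1
    rw [AddMonoidAlgebra.supported_eq_span_single]
    exact Module.Finite.span_of_finite D (hfin.image _)
  have hc := N.isCompl_box D s
  set B := AddMonoidAlgebra.supported D D {m | m ∈ N.boxS s ∧ N.dg m = j} with hB
  have hB1 : B ≤ N.pc1 D j := AddMonoidAlgebra.supported_mono fun m hm => hm.2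
  have hB2 : B ≤ AddMonoidAlgebra.supported D D (N.boxS s) :=
    AddMonoidAlgebra.supported_mono fun m hm => hm.1
  have : Module.Finite D B := Submodule.finiteDimensional_of_le hB1
  have : Module.Finite D ↥(N.pc1 D j ⊓ (N.idS D s).restrictScalars D) :=
    Submodule.finiteDimensional_of_le inf_le_left
  have h1 := Submodule.finrank_sup_add_finrank_inf_eq (N.pc1 D j ⊓ (N.idS D s).restrictScalars D) B
  have h2 : (N.pc1 D j ⊓ (N.idS D s).restrictScalars D) ⊓ B = ⊥ :=
    disjoint_iff.1 (hc.disjoint.symm.mono inf_le_right hB2)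
  have h3 : (N.pc1 D j ⊓ (N.idS D s).restrictScalars D) ⊔ B = N.pc1 D j := by
    refine le_antisymm (sup_le inf_le_left hB1) fun x hx => ?_
    obtain ⟨b, hb, y, hy, rfl⟩ := Submodule.mem_sup.1
      (hc.sup_eq_top.ge (Submodule.mem_top (x := x)))
    have h4 := N.box_cmp_of_mem D hx j
    rw [if_pos rfl, map_add, add_comm] at h4
    rw [← h4]
    refine Submodule.add_mem_sup ⟨?_, N.idS_graded D s y hy j⟩ ?_
    · refine AddMonoidAlgebra.mem_supported'.2 fun m hm => ?_
      rw [box_cmp_coeff, if_neg (show ¬ N.dg m = j from hm)]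
    · refine AddMonoidAlgebra.mem_supported'.2 fun m hm => ?_
      rw [box_cmp_coeff]
      split_ifs with h
      · exact AddMonoidAlgebra.mem_supported'.1 hb m fun h' => hm ⟨h', h⟩
      · rfl
  have h5 : Module.finrank D B = {m | m ∈ N.boxS s ∧ N.dg m = j}.ncard := by
    have := (hfin.subset (fun m hm => hm.2 : {m | m ∈ N.boxS s ∧ N.dg m = j} ⊆ _)).fintype
    have e := AddMonoidAlgebra.supportedEquivFinsupp (R := D) (S := D)
      {m | m ∈ N.boxS s ∧ N.dg m = j}
    rw [e.finrank_eq, Module.finrank_finsupp_self, ← Nat.card_eq_fintype_card, Nat.card_coe_set_eq]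
  rw [h2, h3, finrank_bot, add_zero, h5] at h1
  exact h1

omit [Fintype ι] in
theorem box_mem_bx {c : ι} {μ : τ → ℕ} :
    μ ∈ N.bx c ↔ ∀ t, (N.ob t = c → μ t < N.a t) ∧ (N.ob t ≠ c → μ t = 0) := by
  unfold bx
  rw [Fintype.mem_piFinset]
  refine forall_congr' fun t => ?_
  split_ifs with h <;> simp [h]

/-- counting standard monomials: a standard monomial of multidegree `j` is given by, for every `c ∈ s`,
an element `m` of `bx c` and an exponent `0 ≤ i ≤ j c - |m|` of `inl (c,0)` -/
theorem ncard_box (s : Finset ι) : ∃ J : ℤ, ∀ j : ι → ℤ, (∀ c ∈ s, J ≤ j c) → (∀ c, c ∉ s → j c = 0) →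
    (({m | m ∈ N.boxS s ∧ N.dg m = j}.ncard : ℕ) : ℤ) = N.hs s j := by
  refine ⟨∑ t, (N.a t : ℤ), fun j hj hj0 => ?_⟩
  let F : ι → Finset (Σ _ : τ → ℕ, ℕ) := fun c =>
    if c ∈ s then (N.bx c).sigma fun μ => Finset.range (j c + 1 - ∑ t, (μ t : ℤ)).toNat else {⟨0, 0⟩}
  let Ψ : (Var ι τ →₀ ℕ) → ι → (Σ _ : τ → ℕ, ℕ) := fun m c =>
    ⟨fun t => if N.ob t = c then m (Sum.inr t) else 0, m (Sum.inl (c, 0))⟩
  have hbij : Set.BijOn Ψ {m | m ∈ N.boxS s ∧ N.dg m = j} (Fintype.piFinset F) := by
    refine ⟨fun m hm => ?_, fun m hm m' hm' h => ?_, fun f hf => ?_⟩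
    · refine Finset.mem_coe.2 (Fintype.mem_piFinset.2 fun c => ?_)
      by_cases hc : c ∈ s
      · simp only [F, Ψ, if_pos hc, Finset.mem_sigma, Finset.mem_range]
        refine ⟨N.box_mem_bx.2 fun t => ⟨fun h => ?_, fun h => if_neg h⟩, ?_⟩
        · rw [if_pos h]
          exact hm.1.1 t (h ▸ hc)
        · have h1 := N.box_dg_apply' m c
          rw [hm.2] at h1
          omega
      · simp only [F, Ψ, if_neg hc, Finset.mem_singleton]
        congr 1
        · funext t
          split_ifs with h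
          · exact hm.1.2 (Sum.inr t) (by rw [← h] at hc; exact hc)
          · rfl
        · exact hm.1.2 (Sum.inl (c, 0)) hc
    · have h1 : ∀ t, m (Sum.inr t) = m' (Sum.inr t) := fun t => by
        simpa [Ψ] using congrArg (fun f : ι → (Σ _ : τ → ℕ, ℕ) => (f (N.ob t)).1 t) h
      have h2 : ∀ c, m (Sum.inl (c, 0)) = m' (Sum.inl (c, 0)) := fun c =>
        congrArg (fun f : ι → (Σ _ : τ → ℕ, ℕ) => (f c).2) h
      ext v
      rcases v with ⟨c, b⟩ | t
      · fin_cases b
        · exact h2 c
        · have h3 := N.box_dg_apply' m c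
          have h4 := N.box_dg_apply' m' c
          rw [hm.2] at h3
          rw [hm'.2] at h4
          simp only [h1, h2] at h3
          have : m (Sum.inl (c, 1)) = m' (Sum.inl (c, 1)) := by omega
          exact this
      · exact h1 t
    · have hf' := Fintype.mem_piFinset.1 (Finset.mem_coe.1 hf)
      have h1 : ∀ c ∈ s, (f c).1 ∈ N.bx c ∧ ((f c).2 : ℤ) + ∑ t, ((f c).1 t : ℤ) ≤ j c := fun c hc => by
        have := hf' c
        simp only [F, if_pos hc, Finset.mem_sigma, Finset.mem_range] at this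
        exact ⟨this.1, by omega⟩
      have h2 : ∀ c, c ∉ s → f c = ⟨0, 0⟩ := fun c hc => by
        simpa [F, hc] using hf' c
      have h3 : ∀ c t, N.ob t ≠ c → (f c).1 t = 0 := fun c t h => by
        by_cases hc : c ∈ s
        · exact (N.box_mem_bx.1 (h1 c hc).1 t).2 h
        · simp [h2 c hc]
      have h4 : ∀ c, ((f c).2 : ℤ) + ∑ t, ((f c).1 t : ℤ) ≤ j c := fun c => by
        by_cases hc : c ∈ s
        · exact (h1 c hc).2
        · simp [h2 c hc, hj0 c hc]
      let m : Var ι τ →₀ ℕ := Finsupp.equivFunOnFinite.symm (Sum.elim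
        (fun p => if p.2 = 0 then (f p.1).2 else (j p.1 - (f p.1).2 - ∑ t, ((f p.1).1 t : ℤ)).toNat)
        fun t => (f (N.ob t)).1 t)
      have m0 : ∀ c, m (Sum.inl (c, 0)) = (f c).2 := fun c => by simp [m]
      have m1 : ∀ c, m (Sum.inl (c, 1)) = (j c - (f c).2 - ∑ t, ((f c).1 t : ℤ)).toNat := fun c => by
        simp [m]
      have m2 : ∀ t, m (Sum.inr t) = (f (N.ob t)).1 t := fun t => by simp [m]
      have h5 : ∀ c t, (if N.ob t = c then m (Sum.inr t) else 0) = (f c).1 t := fun c t => by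
        split_ifs with h
        · rw [m2, h]
        · exact (h3 c t h).symm
      refine ⟨m, ⟨⟨fun t ht => ?_, fun v hv => ?_⟩, ?_⟩, ?_⟩
      · rw [m2]
        exact (N.box_mem_bx.1 (h1 _ ht).1 t).1 rfl
      · rcases v with ⟨c, b⟩ | t
        · have hc : c ∉ s := hv
          fin_cases b
          · exact (m0 c).trans (by simp [h2 c hc])
          · exact (m1 c).trans (by simp [h2 c hc, hj0 c hc])
        · have hc : N.ob t ∉ s := hv
          simp [m2, h2 _ hc]
      · funext c
        rw [box_dg_apply', m0, m1]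
        simp only [h5]
        have := h4 c
        omega
      · funext c
        simp only [Ψ, h5, m0]
  rw [← hbij.injOn.ncard_image, hbij.image_eq, Set.ncard_coe_finset,
    Fintype.card_piFinset, ← Finset.prod_mul_prod_compl s]
  rw [Finset.prod_eq_one (s := sᶜ) fun c hc => by simp [F, Finset.mem_compl.1 hc], mul_one]
  unfold hs
  push_cast
  refine Finset.prod_congr rfl fun c hc => ?_
  simp only [F, if_pos hc, Finset.card_sigma, Finset.card_range]
  unfold hb dd ee
  push_cast
  rw [Finset.card_eq_sum_ones]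
  push_cast
  rw [Finset.sum_mul, ← Finset.sum_add_distrib]
  refine Finset.sum_congr rfl fun μ hμ => ?_
  have h1 : ∑ t, (μ t : ℤ) ≤ ∑ t, (N.a t : ℤ) := Finset.sum_le_sum fun t _ => by
    have := N.box_mem_bx.1 hμ t
    by_cases h : N.ob t = c
    · exact_mod_cast (this.1 h).le
    · simp [this.2 h]
  have := hj c hc
  omega

end Blocks

end Crest.Agent.R181
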