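import Crest.Agent.R181.GDefs

/-! # Hilbert's basis theorem over a division ring (prefix `noeth_`) -/

set_option autoImplicit false

namespace Crest.Agent.R181

open MvPolynomial

/-- the reduction step: an element whose leading exponent dominates that of `g ≠ 0` can be reduced
by a left multiple of `g` -/
theorem noeth_reduce {D : Type*} [DivisionRing D] {σ : Type*} [LinearOrder σ] (f g : PS D σ)
    (hf : f ≠ 0) (hg : g ≠ 0)
    (hle : ofLex (g.supDegree toLex) ≤ ofLex (f.supDegree toLex)) :
    ∃ c : PS D σ, (f - c * g).supDegree toLex < f.supDegree toLex ∨ f = c * g := by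
  have hD : Function.Injective (toLex : (σ →₀ ℕ) → Lex (σ →₀ ℕ)) := toLex.injective
  have hadd : ∀ a1 a2 : σ →₀ ℕ, toLex (a1 + a2) = toLex a1 + toLex a2 := fun _ _ => rfl
  have hlf : f.leadingCoeff toLex ≠ 0 := (AddMonoidAlgebra.leadingCoeff_ne_zero hD).2 hf
  have hlg : g.leadingCoeff toLex ≠ 0 := (AddMonoidAlgebra.leadingCoeff_ne_zero hD).2 hg
  set r : D := f.leadingCoeff toLex * (g.leadingCoeff toLex)⁻¹ with hr
  have hr0 : r ≠ 0 := mul_ne_zero hlf (inv_ne_zero hlg)
  set m : σ →₀ ℕ := ofLex (f.supDegree toLex) - ofLex (g.supDegree toLex) with hm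
  refine ⟨AddMonoidAlgebra.single m r, ?_⟩
  have hlc : (AddMonoidAlgebra.single m r : PS D σ).leadingCoeff toLex = r :=
    AddMonoidAlgebra.leadingCoeff_single hD m r
  have hne : (AddMonoidAlgebra.single m r : PS D σ) ≠ 0 := by
    rw [← AddMonoidAlgebra.leadingCoeff_ne_zero hD, hlc]; exact hr0
  apply AddMonoidAlgebra.supDegree_sub_lt_of_leadingCoeff_eq hD
  · rw [AddMonoidAlgebra.supDegree_mul hD hadd (by rw [hlc]; exact mul_ne_zero hr0 hlg) hne hg,
      AddMonoidAlgebra.supDegree_single_ne_zero _ hr0]
    have h1 : m + ofLex (g.supDegree toLex) = ofLex (f.supDegree toLex) := tsub_add_cancel_of_le hle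
    have h2 := congrArg toLex h1
    rw [hadd] at h2
    exact h2.symm
  · rw [AddMonoidAlgebra.leadingCoeff_mul hD hadd, hlc, hr, mul_assoc, inv_mul_cancel₀ hlg, mul_one]

/-- Left ideals of `D[σ]` are finitely generated.  Proof: use the linear well-order `toLex` (or a
`MonomialOrder`) on exponents; the set of leading exponents of a left ideal `I` is an upper set for the
componentwise order, by Dickson's lemma (`Finsupp.isPWO` / `Set.IsPWO`, minimal elements form a
finite antichain) it is generated by finitely many leading exponents of `g₁ … g_r ∈ I`; a minimal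
counterexample `g ∈ I ∖ (g₁ … g_r)` is reduced by subtracting `single m d * g_i`. -/
theorem isNoetherianRing_PS (D : Type*) [DivisionRing D] (σ : Type*) [Finite σ] :
    IsNoetherianRing (PS D σ) := by
  classical
  let : LinearOrder σ := linearOrderOfSTO WellOrderingRel
  have : WellFoundedLT (Lex (σ →₀ ℕ)) := Finsupp.Lex.wellFoundedLT_of_finite
  rw [isNoetherianRing_iff_ideal_fg]
  intro I
  let S : (σ →₀ ℕ) → Prop := fun a => ∃ g ∈ I, g ≠ 0 ∧ ofLex (g.supDegree toLex) = a
  have hfin : {a | Minimal S a}.Finite :=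
    WellQuasiOrderedLE.finite_of_isAntichain (setOfPred_minimal_antichain S)
  have hch : ∀ a : {a | Minimal S a}, ∃ g ∈ I, g ≠ 0 ∧ ofLex (g.supDegree toLex) = a.1 :=
    fun a => a.2.prop
  choose G hGI hG0 hGd using hch
  have : Finite {a | Minimal S a} := hfin.to_subtype
  refine Submodule.fg_def.2 ⟨Set.range G, Set.finite_range G, le_antisymm ?_ ?_⟩
  · rw [Submodule.span_le]
    rintro _ ⟨a, rfl⟩
    exact hGI a
  · have key : ∀ b : Lex (σ →₀ ℕ), ∀ f ∈ I, f.supDegree toLex = b →
        f ∈ Submodule.span (PS D σ) (Set.range G) := by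
      intro b
      induction b using WellFoundedLT.induction with
      | ind b ih =>
        intro f hfI hb
        by_cases hf : f = 0
        · rw [hf]; exact Submodule.zero_mem _
        have hS : S (ofLex (f.supDegree toLex)) := ⟨f, hfI, hf, rfl⟩
        obtain ⟨a, hale, hamin⟩ := exists_minimal_le_of_wellFoundedLT S _ hS
        have hGa : G ⟨a, hamin⟩ ∈ Submodule.span (PS D σ) (Set.range G) :=
          Submodule.subset_span ⟨_, rfl⟩
        obtain ⟨c, hc⟩ := noeth_reduce f (G ⟨a, hamin⟩) hf (hG0 _) (by rw [hGd]; exact hale)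
        have hcG : c * G ⟨a, hamin⟩ ∈ Submodule.span (PS D σ) (Set.range G) :=
          Submodule.smul_mem _ c hGa
        rcases hc with hc | hc
        · have h1 : f - c * G ⟨a, hamin⟩ ∈ I := I.sub_mem hfI (I.mul_mem_left c (hGI _))
          have h2 := ih _ (hb ▸ hc) _ h1 rfl
          have h3 := Submodule.add_mem _ h2 hcG
          rwa [sub_add_cancel] at h3
        · rw [hc]; exact hcG
    intro f hf
    exact key _ f hf rfl

end Crest.Agent.R181
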