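import Crest.Agent.R181.A4
import Crest.Agent.R181.GBox
import Crest.Agent.R181.GNoeth

/-! Row 181, part (A): the grading of `D[σ]` by the degree in the block `c`. -/

set_option autoImplicit false
set_option linter.unusedSectionVars false
open Function Filter

namespace Crest.Agent.R181

open MvPolynomial

namespace Blocks

variable {K : Type} [Field K] {ι τ : Type} [Fintype ι] [DecidableEq ι] [Fintype τ] [DecidableEq τ]
  (N : Blocks K ι τ) (D : Type) [DivisionRing D] [Algebra K D] (c : ι)

/-- component of degree `i` in the variables of the block `c` -/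
noncomputable def prc (i : ℤ) : PS D (Var ι τ) →+ PS D (Var ι τ) where
  toFun x := AddMonoidAlgebra.ofCoeff (x.coeff.filter fun m => N.dg m c = i)
  map_zero' := by ext; simp [Finsupp.filter_apply]
  map_add' x y := by
    rw [AddMonoidAlgebra.coeff_add, Finsupp.filter_add]
    rfl

theorem coeff_prc (i : ℤ) (x : PS D (Var ι τ)) (m : Var ι τ →₀ ℕ) :
    (N.prc D c i x).coeff m = if N.dg m c = i then x.coeff m else 0 := Finsupp.filter_apply _ _ _

theorem prc_eq_iff (i : ℤ) (x : PS D (Var ι τ)) :
    N.prc D c i x = x ↔ ∀ m, x.coeff m ≠ 0 → N.dg m c = i := by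
  constructor
  · intro h m hm
    by_contra h0
    exact hm (by rw [← h, coeff_prc, if_neg h0])
  · intro h
    ext m
    rw [coeff_prc]
    split_ifs with h0
    · rfl
    · exact (not_not.1 fun h1 => h0 (h m h1)).symm

theorem dg_add (m m' : Var ι τ →₀ ℕ) : N.dg (m + m') = N.dg m + N.dg m' := map_add _ _ _

theorem dg_zero : N.dg 0 = 0 := map_zero _

theorem dg_single (v : Var ι τ) (k : ℕ) : N.dg (Finsupp.single v k) = k • N.wt v := Finsupp.weight_single _ _ _

theorem prc_single (m : Var ι τ →₀ ℕ) (d : D) :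
    N.prc D c (N.dg m c) (AddMonoidAlgebra.single m d) = AddMonoidAlgebra.single m d :=
  (N.prc_eq_iff D c _ _).2 fun m' hm => by
    rw [AddMonoidAlgebra.coeff_single] at hm
    rw [(Finsupp.single_apply_ne_zero.1 hm).1]

/-- the graded ring `D[σ]` -/
noncomputable def grd : GrdD D (PS D (Var ι τ)) where
  pr := N.prc D c
  pr_pr i x := by
    ext m
    simp only [coeff_prc]
    split_ifs <;> rfl
  pr_ne i j x h := by
    ext m
    simp only [coeff_prc]
    split_ifs with h1 h2
    · exact absurd (h1.symm.trans h2) h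
    · rfl
    · rfl
  fin x := ⟨x.coeff.support.image fun m => N.dg m c, by
    ext m
    rw [AddMonoidAlgebra.coeff_sum, Finsupp.finsetSum_apply]
    simp only [coeff_prc]
    rw [Finset.sum_ite_eq]
    split_ifs with h
    · rfl
    · exact (not_not.1 fun h1 => h (Finset.mem_image_of_mem _ (Finsupp.mem_support_iff.2 h1))).symm⟩
  one := by
    have := N.prc_single D c 0 1
    rwa [dg_zero] at this
  mul i j x y hx hy := by
    classical
    rw [prc_eq_iff] at hx hy ⊢
    intro m hm
    obtain ⟨a, ha, b, hb, rfl⟩ := Finset.mem_add.1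
      (AddMonoidAlgebra.support_coeff_mul_subset x y (Finsupp.mem_support_iff.2 hm))
    rw [dg_add, Pi.add_apply, hx a (Finsupp.mem_support_iff.1 ha), hy b (Finsupp.mem_support_iff.1 hb)]
  cD := AddMonoidAlgebra.singleZeroRingHom
  cD_hom d := by
    have := N.prc_single D c 0 d
    rwa [dg_zero] at this

theorem grd_pr (i : ℤ) : (N.grd D c).pr i = N.prc D c i := rfl

theorem grd_cD (d : D) : (N.grd D c).cD d = AddMonoidAlgebra.single 0 d := rfl

theorem cD_mul (d : D) (x : PS D (Var ι τ)) : (N.grd D c).cD d * x = d • x := by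
  ext m
  rw [grd_cD, AddMonoidAlgebra.coeff_single_zero_mul, AddMonoidAlgebra.coeff_smul_apply, smul_eq_mul]

omit [Fintype ι] [DecidableEq ι] [Fintype τ] [DecidableEq τ] in
theorem xs_comm (v : Var ι τ) (y : PS D (Var ι τ)) : y * xs D v = xs D v * y :=
  (AddMonoidAlgebra.single_commute (fun _ => add_comm _ _) (fun r => Commute.one_left r) y).symm.eq

omit [Fintype ι] [DecidableEq ι] [Fintype τ] [DecidableEq τ] in
theorem io_comm (p : MvPolynomial (Var ι τ) K) (y : PS D (Var ι τ)) : y * io K D _ p = io K D _ p * y := by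
  induction p using AddMonoidAlgebra.induction_linear with
  | zero => simp
  | add a b ha hb => rw [map_add, mul_add, add_mul, ha, hb]
  | single m r =>
    rw [io, AddMonoidAlgebra.mapRingHom_single]
    exact (AddMonoidAlgebra.single_commute (fun _ => add_comm _ _) (fun d => Algebra.commutes r d) y).symm.eq

theorem prc_xs (v : Var ι τ) : N.prc D c (if N.blk v = c then 1 else 0) (xs D v) = xs D v := by
  have := N.prc_single D c (Finsupp.single v 1) (1 : D)
  rwa [dg_single, one_smul, wt, Pi.single_apply, if_congr eq_comm rfl rfl] at this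

theorem prc_E (t : τ) (ht : N.ob t = c) : N.prc D c (N.a t) (io K D _ (N.E t)) = io K D _ (N.E t) :=
  (N.prc_eq_iff D c _ _).2 fun m hm => by
    have h1 : coeff m (N.E t) ≠ 0 := fun h0 => hm (by
      rw [io, AddMonoidAlgebra.coeff_mapRingHom]
      exact (congrArg (algebraMap K D) h0).trans (map_zero _))
    have h2 : N.dg m = _ := N.E_whom t h1
    rw [h2, ht, Pi.single_eq_same]

theorem idS_prc : ∀ i, ∀ x ∈ N.idS D {c}, (N.grd D c).pr i x ∈ N.idS D {c} :=
  Grd.span_graded _ (by
    rintro _ (⟨t, ht, rfl⟩ | ⟨v, -, rfl⟩)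
    · exact ⟨_, N.prc_E D c t (by simpa using ht)⟩
    · exact ⟨_, N.prc_xs D c v⟩)

theorem idS_mul_right (x : PS D (Var ι τ)) : ∀ y ∈ N.idS D {c}, y * x ∈ N.idS D {c} := by
  intro y hy
  induction hy using Submodule.span_induction with
  | mem t ht =>
    have : t * x = x * t := by
      rcases ht with ⟨t, -, rfl⟩ | ⟨v, -, rfl⟩
      · exact (io_comm D _ x).symm
      · exact (xs_comm D _ x).symm
    rw [this]
    exact Ideal.mul_mem_left _ _ (Ideal.subset_span ht)
  | zero => simp
  | add a b _ _ ha hb => rw [add_mul]; exact add_mem ha hb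
  | smul a b _ hb => rw [smul_eq_mul, mul_assoc]; exact Ideal.mul_mem_left _ _ hb

end Blocks

end Crest.Agent.R181
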