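import Crest.Agent.R181.A6

/-! Row 181, part (A): integrality and the Hilbert function of `O` in terms of `Γ`-modules (prefix `a7_`). -/

set_option autoImplicit false
set_option linter.unusedSectionVars false
open Function Filter

namespace Crest.Agent.R181

open MvPolynomial

namespace Blocks

variable {K : Type} [Field K] {ι τ : Type} [Fintype ι] [DecidableEq ι] [Fintype τ] [DecidableEq τ]
  (N : Blocks K ι τ) (D : Type) [DivisionRing D] [Algebra K D] (c : ι)

theorem a7_mono (m : Var ι τ →₀ ℕ) (r : D) (h : N.dg m ≠ Pi.single c (N.dg m c)) :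
    AddMonoidAlgebra.single m r ∈ N.idS D {c} := by
  obtain ⟨v, hv, hc⟩ : ∃ v ∈ m.support, N.blk v ≠ c := by
    by_contra h0
    push Not at h0
    refine h (funext fun c' => ?_)
    by_cases hc : c' = c
    · rw [hc, Pi.single_eq_same]
    · rw [Pi.single_eq_of_ne hc, dg, Finsupp.weight_apply, Finsupp.sum, Finset.sum_apply]
      refine Finset.sum_eq_zero fun v hv => ?_
      rw [Pi.smul_apply, wt, h0 v hv, Pi.single_eq_of_ne hc, smul_zero]
  have h1 : m = (m - Finsupp.single v 1) + Finsupp.single v 1 :=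
    (tsub_add_cancel_of_le (Finsupp.single_le_iff.2
      (Nat.one_le_iff_ne_zero.2 (Finsupp.mem_support_iff.1 hv)))).symm
  have h2 : AddMonoidAlgebra.single m r =
      AddMonoidAlgebra.single (m - Finsupp.single v 1) r * xs D v := by
    rw [xs, AddMonoidAlgebra.single_mul_single, ← h1, mul_one]
  rw [h2]
  exact Ideal.mul_mem_left _ _ (Ideal.subset_span (Or.inr ⟨v, by simpa using hc, rfl⟩))

theorem a7_key {M : Type} [AddCommGroup M] [Module (N.grd D c).Γ M]
    (hJ : ∀ y ∈ N.idS D {c}, ∀ x : M, (N.grd D c).ℓ y • x = 0) (d : ℤ) (x : M)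
    (hx : (N.grd D c).π d • x = x) (j : ι → ℤ) (y : PS D (Var ι τ)) :
    (N.grd D c).ℓ (AddMonoidAlgebra.ofCoeff (y.coeff.filter fun m => Pi.single c d + N.dg m = j)) • x =
      if j = Pi.single c (j c) then (N.grd D c).π (j c) • (N.grd D c).ℓ y • x else 0 := by
  have hz : (N.grd D c).ℓ 0 • x = 0 := hJ 0 (zero_mem _) x
  induction y using AddMonoidAlgebra.induction_linear with
  | zero =>
    rw [AddMonoidAlgebra.coeff_zero, Finsupp.filter_zero, AddMonoidAlgebra.ofCoeff_zero, hz, smul_zero,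
      ite_self]
  | add a b ha hb =>
    rw [AddMonoidAlgebra.coeff_add, Finsupp.filter_add, AddMonoidAlgebra.ofCoeff_add, map_add, add_smul,
      ha, hb, map_add, add_smul, smul_add]
    split_ifs
    · rfl
    · exact add_zero _
  | single m r =>
    have h1 : (N.grd D c).π (d + N.dg m c) • (N.grd D c).ℓ (AddMonoidAlgebra.single m r) • x =
        (N.grd D c).ℓ (AddMonoidAlgebra.single m r) • x := Grd.π_smul_ℓ (N.prc_single D c m r) hx
    have hpos : Pi.single c d + N.dg m = j →
        (Finsupp.single m r).filter (fun m => Pi.single c d + N.dg m = j) = Finsupp.single m r :=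
      fun h => Finsupp.filter_single_of_pos _ h
    have hneg : ¬ Pi.single c d + N.dg m = j →
        (Finsupp.single m r).filter (fun m => Pi.single c d + N.dg m = j) = 0 :=
      fun h => Finsupp.filter_single_of_neg _ h
    rw [AddMonoidAlgebra.coeff_single]
    by_cases hm : N.dg m = Pi.single c (N.dg m c)
    · by_cases hj : Pi.single c d + N.dg m = j
      · have h2 : j c = d + N.dg m c := by rw [← hj, Pi.add_apply, Pi.single_eq_same]
        rw [hpos hj, if_pos, h2, h1]
        · rfl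
        · rw [h2, Pi.single_add, ← hm, hj]
      · rw [hneg hj, AddMonoidAlgebra.ofCoeff_zero, hz]
        split_ifs with h2
        · refine (Grd.π_smul_ne h1 fun h3 => hj ?_).symm
          rw [h2, h3, Pi.single_add, ← hm]
        · rfl
    · have h2 := hJ _ (N.a7_mono D c m r hm) x
      rw [h2, smul_zero, ite_self]
      by_cases hj : Pi.single c d + N.dg m = j
      · rw [hpos hj]
        exact h2
      · rw [hneg hj, AddMonoidAlgebra.ofCoeff_zero, hz]

theorem a7_cmp_mem {P : Type} (sh : P → ι → ℤ) (j : ι → ℤ) (z : P → PS D (Var ι τ)) :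
    N.cmp D sh j z ∈ N.piece D sh j := fun _ _ =>
  AddMonoidAlgebra.mem_supported'.2 fun _ hm => Finsupp.filter_apply_neg _ _ hm

theorem a7_cmp_eq {P : Type} (sh : P → ι → ℤ) (j : ι → ℤ) {z : P → PS D (Var ι τ)}
    (hz : z ∈ N.piece D sh j) : N.cmp D sh j z = z := by
  funext k
  ext m
  change (Finsupp.filter _ (z k).coeff) m = _
  rw [Finsupp.filter_apply]
  split_ifs with h
  · rfl
  · exact (AddMonoidAlgebra.mem_supported'.1 (hz k (Set.mem_univ k)) m h).symm

theorem a7_fin {P : Type} [Fintype P] (sh : P → ι → ℤ) (j : ι → ℤ) :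
    Module.Finite D (N.piece D sh j) := by
  refine Module.Finite.iff_fg.2 (Submodule.fg_pi fun k => Module.Finite.iff_fg.1 ?_)
  have h1 : {m : Var ι τ →₀ ℕ | sh k + N.dg m = j}.Finite :=
    (N.finite_dg (j - sh k)).subset fun m hm => eq_sub_of_add_eq' hm
  have := h1.to_subtype
  exact Module.Finite.equiv (AddMonoidAlgebra.supportedEquivFinsupp (R := D) (S := D) _).symm

/-- Presentation.  Let `Φ z = ∑ k, ℓ (z k) • x k`.  On monomials (`AddMonoidAlgebra.induction_linear`,
`Grd.π_smul_ℓ`, `Grd.π_smul_ne`, `prc_single`; a monomial containing a variable outside the block is in `idS {c}`,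
otherwise `dg m = Pi.single c (dg m c)`): `Φ (cmp sh j z) = π (j c) • Φ z` if `j = Pi.single c (j c)` and `= 0`
otherwise.  So `W = ker Φ` is multigraded, `Φ` restricts to a surjective `D`-linear map
`piece sh (Pi.single c i) → Pc M i` with kernel `piece ⊓ W`; `piece` is finite dimensional (`finite_dg`). -/
theorem grd_pres {M : Type} [AddCommGroup M] [Module (N.grd D c).Γ M]
    (hJ : ∀ y ∈ N.idS D {c}, ∀ x : M, (N.grd D c).ℓ y • x = 0) {P : Type} [Fintype P] (d : P → ℤ) (x : P → M)
    (hx : ∀ k, (N.grd D c).π (d k) • x k = x k)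
    (hs : ∀ y : M, ∃ z : P → PS D (Var ι τ), y = ∑ k, (N.grd D c).ℓ (z k) • x k)
    (W : Submodule (PS D (Var ι τ)) (P → PS D (Var ι τ)))
    (hW : ∀ z, z ∈ W ↔ ∑ k, (N.grd D c).ℓ (z k) • x k = 0) :
    (∀ z ∈ W, ∀ j, N.cmp D (fun k => Pi.single c (d k)) j z ∈ W) ∧ ∀ i : ℤ,
      Module.Finite D ((N.grd D c).Pc M i) ∧
      (N.grd D c).h M i = N.hq D (fun k => Pi.single c (d k)) W (Pi.single c i) := by
  have key : ∀ j z, ∑ k, (N.grd D c).ℓ (N.cmp D (fun k => Pi.single c (d k)) j z k) • x k =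
      if j = Pi.single c (j c) then (N.grd D c).π (j c) • ∑ k, (N.grd D c).ℓ (z k) • x k else 0 := by
    intro j z
    rw [Finset.smul_sum]
    refine (Finset.sum_congr rfl fun k _ => N.a7_key D c hJ (d k) (x k) (hx k) j (z k)).trans ?_
    split_ifs
    · rfl
    · exact Finset.sum_const_zero
  have key' : ∀ (i : ℤ) z,
      ∑ k, (N.grd D c).ℓ (N.cmp D (fun k => Pi.single c (d k)) (Pi.single c i) z k) • x k =
      (N.grd D c).π i • ∑ k, (N.grd D c).ℓ (z k) • x k := by
    intro i z
    rw [key, Pi.single_eq_same, if_pos rfl]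
  refine ⟨fun z hz j => ?_, fun i => ?_⟩
  · rw [hW] at hz ⊢
    rw [key, hz, smul_zero, ite_self]
  have := N.a7_fin D (fun k => Pi.single c (d k)) (Pi.single c i)
  let φ : N.piece D (fun k => Pi.single c (d k)) (Pi.single c i) →ₗ[D] (N.grd D c).Pc M i :=
    { toFun := fun z => ⟨∑ k, (N.grd D c).ℓ (z.1 k) • x k, by
        rw [GrdD.mem_Pc, ← key', N.a7_cmp_eq D _ _ z.2]⟩
      map_add' := fun a b => Subtype.ext (by
        change ∑ k, (N.grd D c).ℓ (a.1 k + b.1 k) • x k =
          ∑ k, (N.grd D c).ℓ (a.1 k) • x k + ∑ k, (N.grd D c).ℓ (b.1 k) • x k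
        rw [← Finset.sum_add_distrib]
        exact Finset.sum_congr rfl fun k _ => by rw [map_add, add_smul])
      map_smul' := fun r a => Subtype.ext (by
        change ∑ k, (N.grd D c).ℓ (r • a.1 k) • x k =
          (N.grd D c).ℓ ((N.grd D c).cD r) • ∑ k, (N.grd D c).ℓ (a.1 k) • x k
        rw [Finset.smul_sum]
        exact Finset.sum_congr rfl fun k _ => by rw [← N.cD_mul D c, map_mul, mul_smul]) }
  have hφ : Surjective φ := fun y => by
    obtain ⟨z, hz⟩ := hs y.1
    refine ⟨⟨_, N.a7_cmp_mem D _ _ z⟩, Subtype.ext ?_⟩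
    change ∑ k, (N.grd D c).ℓ (N.cmp D (fun k => Pi.single c (d k)) (Pi.single c i) z k) • x k = y.1
    rw [key', ← hz]
    exact y.2
  refine ⟨Module.Finite.of_surjective φ hφ, ?_⟩
  have h1 := φ.finrank_range_add_finrank_ker
  have h2 : LinearMap.ker φ = (W.restrictScalars D).comap (Submodule.subtype _) := by
    ext z
    rw [LinearMap.mem_ker, Subtype.ext_iff]
    exact (hW z.1).symm
  rw [LinearMap.range_eq_top.2 hφ, finrank_top, h2, ← Submodule.finrank_map_subtype_eq,
    Submodule.map_comap_subtype] at h1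
  unfold GrdD.h hq
  omega

/-- `Grd.Disc.exists_gen`, `grd_pres`, `hs {c} (Pi.single c i - r) = dd * (i - r c) + ee` -/
theorem grd_int1 (hint : N.INT D {c}) : (N.grd D c).Int1 (N.idS D {c}) (N.dd c) (N.ee c) := by
  intro M _ _ hM
  have := hM.noeth
  obtain ⟨n, d, x, hx, hs⟩ := hM.disc.exists_gen
  have hsm : ∀ (a : PS D (Var ι τ)) (z : Fin n → PS D (Var ι τ)),
      ∑ k, (N.grd D c).ℓ ((a • z) k) • x k = (N.grd D c).ℓ a • ∑ k, (N.grd D c).ℓ (z k) • x k := by
    intro a z
    rw [Finset.smul_sum]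
    exact Finset.sum_congr rfl fun k _ => by rw [Pi.smul_apply, smul_eq_mul, map_mul, mul_smul]
  let W : Submodule (PS D (Var ι τ)) (Fin n → PS D (Var ι τ)) :=
    { carrier := {z | ∑ k, (N.grd D c).ℓ (z k) • x k = 0}
      add_mem' := fun {a b} ha hb => by
        change ∑ k, (N.grd D c).ℓ (a k + b k) • x k = 0
        simp only [map_add, add_smul, Finset.sum_add_distrib]
        rw [ha, hb, add_zero]
      zero_mem' := Finset.sum_eq_zero fun k _ => hM.kill 0 (zero_mem _) _
      smul_mem' := fun a z hz => by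
        change ∑ k, (N.grd D c).ℓ ((a • z) k) • x k = 0
        rw [hsm, hz, smul_zero] }
  obtain ⟨h1, h2⟩ := N.grd_pres D c hM.kill d x hx hs W fun _ => Iff.rfl
  refine ⟨fun i => (h2 i).1, ?_⟩
  obtain ⟨u, J, hu⟩ := hint (Fin n) (fun k => Pi.single c (d k)) W
    (fun k c' hc => Pi.single_eq_of_ne (by simpa using hc) _) h1 fun t ht z => by
      change ∑ k, (N.grd D c).ℓ ((io K D _ (N.E t) • z) k) • x k = 0
      rw [hsm]
      exact hM.kill _ (Ideal.subset_span (Or.inl ⟨t, ht, rfl⟩)) _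
  refine ⟨_, u.sum fun _ z => z, u.sum fun r z => - (z * r c), rfl, eventually_atTop.2 ⟨J, fun i hi => ?_⟩⟩
  rw [(h2 i).2, hu (Pi.single c i) (by simpa using hi)
    (fun c' hc => Pi.single_eq_of_ne (by simpa using hc) _)]
  simp only [Finsupp.sum, Finset.sum_mul, ← Finset.sum_add_distrib]
  refine Finset.sum_congr rfl fun r _ => ?_
  rw [Blocks.hs, Finset.prod_singleton, hb, Pi.sub_apply, Pi.single_eq_same]
  ring

/-- Hilbert function of `O(-k)`: `grd_pres` with `P = Unit` (or directly `isCompl_box`), `finrank_box`,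
`ncard_box`; it is `dd * (i - k) + ee = 1 * (dd * i + ee) + (-k) * dd` for large `i`. -/
theorem grd_h_O (k : ℤ) : ∀ᶠ x in atTop,
    (N.grd D c).h ((N.grd D c).Sh k ⧸ Grd.idealSub k (N.idS D {c}) (N.idS_prc D c)) x =
      N.dd c * (x - k) + N.ee c := by
  have hmk : ∀ y w : PS D (Var ι τ), (N.grd D c).ℓ y •
      (Submodule.Quotient.mk ((N.grd D c).sh k w) :
        (N.grd D c).Sh k ⧸ Grd.idealSub k (N.idS D {c}) (N.idS_prc D c)) =
      Submodule.Quotient.mk ((N.grd D c).sh k (y * w)) := fun _ _ => rfl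
  have hz : ∀ y : PS D (Var ι τ), (Submodule.Quotient.mk ((N.grd D c).sh k y) :
        (N.grd D c).Sh k ⧸ Grd.idealSub k (N.idS D {c}) (N.idS_prc D c)) = 0 ↔ y ∈ N.idS D {c} :=
    fun _ => Submodule.Quotient.mk_eq_zero _
  obtain ⟨-, h2⟩ := N.grd_pres D c
    (M := (N.grd D c).Sh k ⧸ Grd.idealSub k (N.idS D {c}) (N.idS_prc D c))
    (fun y hy x => by
      obtain ⟨w, rfl⟩ := Submodule.Quotient.mk_surjective _ x
      exact (hmk y w).trans ((hz _).2 (N.idS_mul_right D c w y hy)))
    (P := Unit) (fun _ => k) (fun _ => Submodule.Quotient.mk ((N.grd D c).sh k 1))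
    (fun _ => by rw [← Submodule.Quotient.mk_smul, Grd.π_smul_one])
    (fun y => by
      obtain ⟨w, rfl⟩ := Submodule.Quotient.mk_surjective _ y
      refine ⟨fun _ => ((N.grd D c).sh k).symm w, ?_⟩
      rw [Fintype.sum_unique, hmk, mul_one, AddEquiv.apply_symm_apply])
    (Submodule.pi Set.univ fun _ => N.idS D {c})
    (fun z => by
      rw [Fintype.sum_unique, hmk, mul_one, hz]
      exact ⟨fun h => h _ (Set.mem_univ _), fun h _ _ => h⟩)
  obtain ⟨J, hJ⟩ := N.ncard_box {c}
  refine eventually_atTop.2 ⟨J + k, fun i hi => ?_⟩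
  have e0 : {m : Var ι τ →₀ ℕ | Pi.single c k + N.dg m = Pi.single c i} =
      {m | N.dg m = Pi.single c (i - k)} := by
    ext m
    rw [Set.mem_ofPred_eq, Set.mem_ofPred_eq, Pi.single_sub, eq_sub_iff_add_eq']
  have e1 : (N.piece D (fun _ : Unit => Pi.single c k) (Pi.single c i)).map
      (LinearEquiv.funUnique Unit D (PS D (Var ι τ))).toLinearMap = N.pc1 D (Pi.single c (i - k)) := by
    rw [Submodule.map_equiv_eq_comap_symm, piece, e0]
    ext y
    exact ⟨fun h => h () (Set.mem_univ _), fun h _ _ => h⟩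
  have e2 : (N.piece D (fun _ : Unit => Pi.single c k) (Pi.single c i) ⊓
      (Submodule.pi Set.univ fun _ : Unit => N.idS D {c}).restrictScalars D).map
      (LinearEquiv.funUnique Unit D (PS D (Var ι τ))).toLinearMap =
      N.pc1 D (Pi.single c (i - k)) ⊓ (N.idS D {c}).restrictScalars D := by
    rw [Submodule.map_equiv_eq_comap_symm, piece, e0]
    ext y
    exact ⟨fun h => ⟨h.1 () (Set.mem_univ _), h.2 () (Set.mem_univ _)⟩,
      fun h => ⟨fun _ _ => h.1, fun _ _ => h.2⟩⟩
  have h3 := N.finrank_box D {c} (Pi.single c (i - k))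
  have h4 := hJ (Pi.single c (i - k)) (by simpa using le_sub_iff_add_le.2 hi)
    (fun c' hc => Pi.single_eq_of_ne (by simpa using hc) _)
  rw [← e2, ← e1, LinearEquiv.finrank_map_eq, LinearEquiv.finrank_map_eq] at h3
  rw [hs, Finset.prod_singleton, hb, Pi.single_eq_same] at h4
  rw [(h2 i).2, hq, h3]
  push_cast
  rw [h4]
  ring

end Blocks

end Crest.Agent.R181
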