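import Crest.Agent.R181.A6

/-! Row 181, part (A): the two inputs `u, u'` of a block are a regular sequence modulo `idS {c}` (prefix `a8_`).

Let `nf` be the projection onto `supported (boxS {c})` along `idS {c}` (`isCompl_box`,
`Submodule.linearProjOfIsCompl`).  `boxS {c}` is stable under adding exponents of the inputs `inl (c, b)`, so
`nf (u * y) = u * nf y` (both sides lie in the box and differ by an element of the ideal); `D[σ]` has no zero
divisors (`AddMonoidAlgebra` over `UniqueSums`). -/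

set_option autoImplicit false
open Function Filter

namespace Crest.Agent.R181

open MvPolynomial

namespace Blocks

variable {K : Type} [Field K] {ι τ : Type} [Fintype ι] [DecidableEq ι] [Fintype τ] [DecidableEq τ]
  (N : Blocks K ι τ) (D : Type) [DivisionRing D] [Algebra K D] (c : ι)

theorem a8_nf (y : PS D (Var ι τ)) :
    ∃ y' ∈ AddMonoidAlgebra.supported D D (N.boxS {c}), y - y' ∈ N.idS D {c} := by
  have h : y ∈ AddMonoidAlgebra.supported D D (N.boxS {c}) ⊔ (N.idS D {c}).restrictScalars D := by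
    rw [(N.isCompl_box D {c}).sup_eq_top]
    trivial
  obtain ⟨a, ha, b, hb, rfl⟩ := Submodule.mem_sup.1 h
  exact ⟨a, ha, by rwa [add_sub_cancel_left]⟩

theorem a8_zero {y : PS D (Var ι τ)} (h1 : y ∈ AddMonoidAlgebra.supported D D (N.boxS {c}))
    (h2 : y ∈ N.idS D {c}) : y = 0 :=
  Submodule.disjoint_def.1 (N.isCompl_box D {c}).disjoint y h1 h2

theorem a8_mul (b : Fin 2) {y : PS D (Var ι τ)} (h : y ∈ AddMonoidAlgebra.supported D D (N.boxS {c})) :
    xs D (Sum.inl (c, b) : Var ι τ) * y ∈ AddMonoidAlgebra.supported D D (N.boxS {c}) := by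
  rw [AddMonoidAlgebra.mem_supported'] at h ⊢
  intro m hm
  by_cases hd : ∃ d, Finsupp.single (Sum.inl (c, b) : Var ι τ) 1 + d = m
  · obtain ⟨d, rfl⟩ := hd
    rw [xs, AddMonoidAlgebra.coeff_single_mul_add, one_mul]
    refine h d fun hd => hm ⟨fun t ht => ?_, fun v hv => ?_⟩
    · simpa using hd.1 t ht
    · have hne : (Sum.inl (c, b) : Var ι τ) ≠ v := by
        rintro rfl
        exact hv (Finset.mem_singleton_self c)
      rw [Finsupp.add_apply, hd.2 v hv, Finsupp.single_eq_of_ne hne.symm]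
  · exact AddMonoidAlgebra.coeff_single_mul_of_forall_add_ne _ _ fun d h' => hd ⟨d, h'⟩

theorem a8_pow (b : Fin 2) (k : ℕ) {y : PS D (Var ι τ)} (h : y ∈ AddMonoidAlgebra.supported D D (N.boxS {c})) :
    xs D (Sum.inl (c, b) : Var ι τ) ^ k * y ∈ AddMonoidAlgebra.supported D D (N.boxS {c}) := by
  induction k with
  | zero => rwa [pow_zero, one_mul]
  | succ k ih => rw [pow_succ', mul_assoc]; exact N.a8_mul D c b ih

theorem reg_one (y : PS D (Var ι τ)) (h : xs D (Sum.inl (c, 0) : Var ι τ) * y ∈ N.idS D {c}) :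
    y ∈ N.idS D {c} := by
  obtain ⟨y', h1, h2⟩ := N.a8_nf D c y
  have h3 : xs D (Sum.inl (c, 0) : Var ι τ) * y' ∈ N.idS D {c} := by
    have := sub_mem h (Ideal.mul_mem_left _ (xs D (Sum.inl (c, 0) : Var ι τ)) h2)
    rwa [mul_sub, sub_sub_cancel] at this
  rcases mul_eq_zero.1 (N.a8_zero D c (N.a8_mul D c 0 h1) h3) with h0 | h0
  · exact absurd (AddMonoidAlgebra.single_eq_zero.1 h0) one_ne_zero
  · rwa [h0, sub_zero] at h2

/-- `u' * nf y = u * nf z` in `D[σ]` forces every monomial of `nf y` to contain `u` -/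
theorem reg_two (y z : PS D (Var ι τ))
    (h : xs D (Sum.inl (c, 1) : Var ι τ) * y - xs D (Sum.inl (c, 0) : Var ι τ) * z ∈ N.idS D {c}) :
    ∃ w, y - xs D (Sum.inl (c, 0) : Var ι τ) * w ∈ N.idS D {c} := by
  obtain ⟨y', h1, h2⟩ := N.a8_nf D c y
  obtain ⟨z', h3, h4⟩ := N.a8_nf D c z
  have h5 : xs D (Sum.inl (c, 1) : Var ι τ) * y' - xs D (Sum.inl (c, 0) : Var ι τ) * z' ∈ N.idS D {c} := by
    have := add_mem (sub_mem h (Ideal.mul_mem_left _ (xs D (Sum.inl (c, 1) : Var ι τ)) h2))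
      (Ideal.mul_mem_left _ (xs D (Sum.inl (c, 0) : Var ι τ)) h4)
    convert this using 1
    rw [mul_sub, mul_sub]
    abel
  have h6 := sub_eq_zero.1 (N.a8_zero D c (sub_mem (N.a8_mul D c 1 h1) (N.a8_mul D c 0 h3)) h5)
  have h7 : y' ∈ AddMonoidAlgebra.supported D D {m : Var ι τ →₀ ℕ | m (Sum.inl (c, 0)) ≠ 0} := by
    rw [AddMonoidAlgebra.mem_supported']
    intro m hm
    have hm0 : m (Sum.inl (c, 0)) = 0 := not_not.1 hm
    have h8 := congrArg (fun p : PS D (Var ι τ) => p.coeff (Finsupp.single (Sum.inl (c, 1)) 1 + m)) h6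
    simp only [xs] at h8
    rw [AddMonoidAlgebra.coeff_single_mul_add, one_mul,
      AddMonoidAlgebra.coeff_single_mul_of_forall_add_ne] at h8
    · exact h8
    · intro d hd
      have := DFunLike.congr_fun hd (Sum.inl (c, 0))
      simp [hm0] at this
  have h8 : y' ∈ LinearMap.range (LinearMap.mulRight D (xs D (Sum.inl (c, 0) : Var ι τ))) := by
    rw [AddMonoidAlgebra.supported_eq_span_single] at h7
    refine Submodule.span_le.2 ?_ h7
    rintro _ ⟨m, hm, rfl⟩
    refine ⟨AddMonoidAlgebra.single (m - Finsupp.single (Sum.inl (c, 0)) 1) 1, ?_⟩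
    rw [LinearMap.mulRight_apply, xs, AddMonoidAlgebra.single_mul_single, mul_one,
      Finsupp.sub_add_single_one_cancel hm]
  obtain ⟨w, hw⟩ := h8
  refine ⟨w, ?_⟩
  rw [← xs_comm, ← LinearMap.mulRight_apply (R := D), hw]
  exact h2

/-- `(∑ r i u^i u'^(j-i)) * nf y = 0` in the domain `D[σ]`; compare coefficients -/
theorem reg_ind (y : PS D (Var ι τ)) (hy : y ∉ N.idS D {c}) (j : ℕ) (r : ℕ → D)
    (h : ∑ i ∈ Finset.range (j + 1), r i • (xs D (Sum.inl (c, 0) : Var ι τ) ^ i *
      xs D (Sum.inl (c, 1) : Var ι τ) ^ (j - i) * y) ∈ N.idS D {c}) : ∀ i ≤ j, r i = 0 := by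
  obtain ⟨y', h1, h2⟩ := N.a8_nf D c y
  set P : PS D (Var ι τ) := ∑ i ∈ Finset.range (j + 1), r i • (xs D (Sum.inl (c, 0) : Var ι τ) ^ i *
      xs D (Sum.inl (c, 1) : Var ι τ) ^ (j - i)) with hP
  have e : ∀ x, P * x = ∑ i ∈ Finset.range (j + 1), r i • (xs D (Sum.inl (c, 0) : Var ι τ) ^ i *
      xs D (Sum.inl (c, 1) : Var ι τ) ^ (j - i) * x) := fun x => by
    rw [hP, Finset.sum_mul]
    exact Finset.sum_congr rfl fun i _ => smul_mul_assoc _ _ _
  rw [← e] at h
  have h3 : P * y' ∈ N.idS D {c} := by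
    have := sub_mem h (Ideal.mul_mem_left _ P h2)
    rwa [mul_sub, sub_sub_cancel] at this
  have h4 : P * y' ∈ AddMonoidAlgebra.supported D D (N.boxS {c}) := by
    rw [e]
    refine Submodule.sum_mem _ fun i _ => Submodule.smul_mem _ _ ?_
    rw [mul_assoc]
    exact N.a8_pow D c 0 _ (N.a8_pow D c 1 _ h1)
  rcases mul_eq_zero.1 (N.a8_zero D c h4 h3) with h0 | h0
  · intro i hi
    have h5 := congrArg (fun p : PS D (Var ι τ) => p.coeff
      (i • Finsupp.single (Sum.inl (c, 0)) 1 + (j - i) • Finsupp.single (Sum.inl (c, 1)) 1)) h0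
    simp only [hP, xs, AddMonoidAlgebra.single_pow, AddMonoidAlgebra.single_mul_single, one_pow, mul_one,
      AddMonoidAlgebra.smul_single, smul_eq_mul] at h5
    rw [AddMonoidAlgebra.coeff_sum, Finsupp.finsetSum_apply, Finset.sum_eq_single i] at h5
    · simpa using h5
    · intro k _ hk
      rw [AddMonoidAlgebra.coeff_single]
      refine Finsupp.single_eq_of_ne fun hd => hk ?_
      have := DFunLike.congr_fun hd (Sum.inl (c, 0))
      simpa using this.symm
    · intro hi'
      exact absurd (Finset.mem_range.2 (by omega)) hi'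
  · rw [h0, sub_zero] at h2
    exact absurd h2 hy

end Blocks

end Crest.Agent.R181
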