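import Crest.Agent.R181.A5

/-! Row 181, part (A): the new skew field and the comparison of the module structures. -/

set_option autoImplicit false
open Function Filter

namespace Crest.Agent.R181

variable {D Λ : Type} [DivisionRing D] [Ring Λ] {g : GrdD D Λ}

theorem Grd.Disc.pi {g : Grd Λ} {M : Type} [AddCommGroup M] [Module g.Γ M] (h : g.Disc M) (Q : Type) [Fintype Q] :
    g.Disc (Q → M) := fun x => by
  classical
  choose s hs using fun q => h (x q)
  refine ⟨Finset.univ.biUnion s, funext fun q => ?_⟩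
  rw [Finset.sum_apply]
  exact Grd.sum_π_mono (hs q) (Finset.subset_biUnion_of_mem s (Finset.mem_univ q))

theorem GrdD.finrank_eq_h {M : Type} [AddCommGroup M] [Module g.Γ M] [Module D M]
    (hD : ∀ (d : D) (y : M), d • y = g.ℓ (g.cD d) • y) (Z : Submodule g.Γ M) (S : Submodule D M) (i : ℤ)
    (hS : ∀ y, y ∈ S ↔ y ∈ Z ∧ g.π i • y = y) : (Module.finrank D S : ℤ) = g.h Z i :=
  congrArg Nat.cast (LinearEquiv.finrank_eq
    { toFun := fun y => ⟨⟨y.1, ((hS _).1 y.2).1⟩, Subtype.ext ((hS _).1 y.2).2⟩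
      invFun := fun y => ⟨y.1.1, (hS _).2 ⟨y.1.2, congrArg Subtype.val y.2⟩⟩
      map_add' := fun _ _ => rfl
      map_smul' := fun d y => Subtype.ext (Subtype.ext (hD d y.1))
      left_inv := fun _ => rfl
      right_inv := fun _ => rfl : S ≃ₗ[D] g.Pc Z i })

/-- a central element of `Γ` as an endomorphism -/
def smulEnd {Γ : Type} [Ring Γ] (U : Type) [AddCommGroup U] [Module Γ U] (γ : Γ) (hγ : ∀ γ', Commute γ γ') :
    Module.End Γ U where
  toFun y := γ • y
  map_add' := smul_add γ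
  map_smul' γ' y := by rw [← mul_smul, (hγ γ').eq, mul_smul, RingHom.id_apply]

namespace Cur

variable {C : Cur g} {U : Type} [AddCommGroup U] [Module g.Γ U] {ι : C.O 0 →ₗ[g.Γ] U} (h : C.r.Hull ι)

/-- the new skew field -/
def Dv (_ : C.r.Hull ι) : Type := (Module.End g.Γ U)ᵐᵒᵖ

instance : Ring (Dv h) := inferInstanceAs (Ring (Module.End g.Γ U)ᵐᵒᵖ)

instance : Nontrivial (Dv h) := ⟨⟨1, 0, fun h0 => h.one_ne_zero (congrArg MulOpposite.unop h0)⟩⟩

noncomputable instance : DivisionRing (Dv h) := DivisionRing.ofIsUnitOrEqZero fun a => by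
  by_cases h0 : a = 0
  · exact Or.inr h0
  · exact Or.inl (h.isUnit (φ := MulOpposite.unop a) fun h1 => h0 (congrArg MulOpposite.op h1)).op

/-- the right action of the new skew field -/
@[reducible] noncomputable def modOp : Module (Dv h)ᵐᵒᵖ U :=
  Module.compHom U ((RingEquiv.opOp (Module.End g.Γ U)).symm.toRingHom : (Dv h)ᵐᵒᵖ →+* Module.End g.Γ U)

variable {K : Type} [Field K] [Algebra K D] (hK : ∀ k y, y * g.cD (algebraMap K D k) = g.cD (algebraMap K D k) * y)

/-- the central subfield -/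
noncomputable def algHom : K →+* Dv h where
  toFun k := MulOpposite.op (smulEnd U (g.ℓ (g.cD (algebraMap K D k))) (Grd.commute_ℓ (g.cD_hom _) (hK k)))
  map_one' := congrArg MulOpposite.op (LinearMap.ext fun y => by
    change g.ℓ (g.cD (algebraMap K D 1)) • y = y
    rw [map_one, map_one, map_one, one_smul])
  map_mul' a b := congrArg MulOpposite.op (LinearMap.ext fun y => by
    change g.ℓ (g.cD (algebraMap K D (a * b))) • y =
      g.ℓ (g.cD (algebraMap K D b)) • g.ℓ (g.cD (algebraMap K D a)) • y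
    rw [mul_comm, map_mul, map_mul, map_mul, mul_smul])
  map_zero' := congrArg MulOpposite.op (LinearMap.ext fun y => by
    change g.ℓ (g.cD (algebraMap K D 0)) • y = 0
    rw [map_zero, map_zero, map_zero]
    exact zero_smul g.Γ y)
  map_add' a b := congrArg MulOpposite.op (LinearMap.ext fun y => by
    change g.ℓ (g.cD (algebraMap K D (a + b))) • y =
      g.ℓ (g.cD (algebraMap K D a)) • y + g.ℓ (g.cD (algebraMap K D b)) • y
    rw [map_add, map_add, map_add, add_smul])

@[reducible] noncomputable def alg : Algebra K (Dv h) := (algHom h hK).toAlgebra' fun _ x =>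
  congrArg MulOpposite.op (LinearMap.ext fun y => map_smul (MulOpposite.unop x) _ y)

include h in
/-- finitely generated graded submodules of `U ^ Q` -/
theorem sandwich' {Q : Type} [Fintype Q] [DecidableEq Q] (Z : Submodule g.Γ (Q → U)) (s : Finset (Q → U))
    (hs : ∀ Y : Submodule g.Γ U, (∀ x ∈ s, ∀ q, x q ∈ Y) → ∀ x ∈ Z, ∀ q, x q ∈ Y) (t : Finset Q)
    (ht : ∀ q ∈ t, Pi.single q (ι (C.cl 0 1)) ∈ Z) {θ : ℤ} (hθ : Th C.δ C.e (g.h Z) θ) : (t.card : ℤ) ≤ θ := by
  classical
  obtain ⟨Y, h1, -, h3⟩ := h.cover (s.biUnion fun x => Finset.univ.image x)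
  have h4 := hs Y fun x hx q => h3 _ (Finset.mem_biUnion.2 ⟨x, hx, Finset.mem_image_of_mem _ (Finset.mem_univ q)⟩)
  have hC : C.r.C Z := C.r.C_le (C.r.C_range (C.r.C_pi h1.C Q) (Y.subtype.compLeft Q)) fun x hx =>
    ⟨fun q => ⟨x q, h4 x hx q⟩, rfl⟩
  have h5 := h.sandwich_aux Finset.univ Z hC (fun _ _ q hq => absurd (Finset.mem_univ q) hq) t
    (Finset.subset_univ t) fun q hq o => by
      obtain ⟨y, rfl⟩ := C.cl_surj 0 o
      rw [C.map_mk, Pi.single_smul]
      exact Z.smul_mem _ (ht q hq)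
  rwa [Rho.s, GrdD.rho_eq _ _ hθ] at h5

section P

variable [Module D U] [Module Λ U] [Module D Λ] [IsScalarTower D Λ U]
  (eD : ∀ (d : D) (y : U), d • y = g.ℓ (g.cD d) • y) (eP : ∀ (p : Λ) (y : U), p • y = g.ℓ p • y)
  (π : ℤ → U →ₗ[D] U) (eπ : ∀ i y, π i y = g.π i • y)
include h eD eP eπ

omit h eD eP [Module Λ U] [Module D Λ] [IsScalarTower D Λ U] in
theorem mem_range_π (i : ℤ) (y : U) : y ∈ LinearMap.range (π i) ↔ g.π i • y = y :=
  ⟨fun ⟨z, hz⟩ => by rw [← hz, eπ, Grd.π_smul_π], fun hy => ⟨y, (eπ i y).trans hy⟩⟩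

theorem sandwichP (Q : Type) [Fintype Q] [DecidableEq Q] (Z : Submodule Λ (Q → U)) (hZf : Z.FG)
    (hZ : ∀ y ∈ Z, ∀ j, (fun r => π j (y r)) ∈ Z) (t : Finset Q) (ht : ∀ r ∈ t, Pi.single r (ι (C.cl 0 1)) ∈ Z)
    (θ : ℤ) (hθ : Th C.δ C.e (fun x => (Module.finrank D
      ↥(Z.restrictScalars D ⊓ Submodule.pi Set.univ fun _ => LinearMap.range (π x)) : ℤ)) θ) :
    (t.card : ℤ) ≤ θ := by
  obtain ⟨s, hs⟩ := hZf
  let Z' : Submodule g.Γ (Q → U) := Grd.toSub ((disc h).pi Q) Z.toAddSubgroup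
    (fun y x hx => by
      have : g.ℓ y • x = y • x := funext fun q => (eP y (x q)).symm
      rw [this]
      exact Z.smul_mem y hx)
    fun i x hx => by
      have : g.π i • x = fun r => π i (x r) := funext fun q => (eπ i (x q)).symm
      rw [this]
      exact hZ x hx i
  refine sandwich' h Z' s (fun Y hY x hx => ?_) t ht ?_
  · have hx' : x ∈ Submodule.span Λ (s : Set (Q → U)) := hs ▸ hx
    clear hx
    induction hx' using Submodule.span_induction with
    | mem x hx => exact hY x hx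
    | zero => exact fun _ => Y.zero_mem
    | add a b _ _ ha hb => exact fun q => Y.add_mem (ha q) (hb q)
    | smul a b _ hb =>
      intro q
      rw [Pi.smul_apply, eP]
      exact Y.smul_mem _ (hb q)
  · rw [← funext fun i => GrdD.finrank_eq_h (fun d y => funext fun q => eD d (y q)) Z'
      (Z.restrictScalars D ⊓ Submodule.pi Set.univ fun _ => LinearMap.range (π i)) i fun y =>
        and_congr Iff.rfl ⟨fun hy => funext fun q => (mem_range_π π eπ i _).1 (hy q (Set.mem_univ q)),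
          fun hy q _ => (mem_range_π π eπ i _).2 (congrFun hy q)⟩]
    exact hθ

theorem thetaP (S : Finset U) : ∃ Y : Submodule Λ U, Y.FG ∧ (∀ y ∈ Y, ∀ j, π j y ∈ Y) ∧ ι (C.cl 0 1) ∈ Y ∧
    (∀ y ∈ S, y ∈ Y) ∧ Th C.δ C.e (fun x => (Module.finrank D
      ↥(Y.restrictScalars D ⊓ LinearMap.range (π x)) : ℤ)) 1 := by
  obtain ⟨Y, h1, h2, h3⟩ := h.cover S
  let Y' : Submodule Λ U :=
    { carrier := Y
      add_mem' := Y.add_mem
      zero_mem' := Y.zero_mem
      smul_mem' := fun p y hy => by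
        rw [eP]
        exact Y.smul_mem _ hy }
  refine ⟨Y', ?_, fun y hy j => by rw [eπ]; exact Y.smul_mem _ hy, h2 ⟨_, rfl⟩, h3, ?_⟩
  · have := h1.C.noeth
    obtain ⟨n, d, x, -, hx⟩ := h1.C.disc.exists_gen
    refine Submodule.fg_def.2 ⟨Set.range fun a => (x a : U), Set.finite_range _, le_antisymm
      (Submodule.span_le.2 (by rintro _ ⟨a, rfl⟩; exact (x a).2)) fun y hy => ?_⟩
    obtain ⟨z, hz⟩ := hx ⟨y, hy⟩
    have h4 : y = ∑ a, g.ℓ (z a) • (x a : U) :=
      (congrArg Subtype.val hz).trans (AddSubmonoidClass.coe_finsetSum _ _)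
    rw [h4]
    exact Submodule.sum_mem _ fun a _ => eP (z a) _ ▸ Submodule.smul_mem _ _ (Submodule.subset_span ⟨a, rfl⟩)
  · have h4 : Th C.δ C.e (g.h Y) (C.r.ρ Y) := GrdD.th_rho _ C.int h1.C
    rw [h1.one, ← funext fun i => GrdD.finrank_eq_h eD Y (Y'.restrictScalars D ⊓ LinearMap.range (π i)) i
      fun y => and_congr Iff.rfl (mem_range_π π eπ i y)] at h4
    exact h4

end P

end Cur

end Crest.Agent.R181
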