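import Crest.Agent.R181.GBox
import Crest.Agent.R181.GNoeth

/-! # Part (B), independent version, file 1: matrices over `D'` acting on powers of `U` (helper60) -/

set_option autoImplicit false
set_option linter.unusedSectionVars false

namespace Crest.Agent.R181.BX

open MulOpposite Module

section
variable {R D' U : Type} [Ring R] [DivisionRing D'] [AddCommGroup U] [Module R U] [Module D'ᵐᵒᵖ U]
  [SMulCommClass R D'ᵐᵒᵖ U] {I J L : Type} [Fintype I] [DecidableEq I] [Fintype J] [DecidableEq J]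

/-- `u ⊗ x` -/
def tn {I : Type} (u : U) (x : I → D') : I → U := fun i => op (x i) • u

variable (R U) in
/-- `U ⊗ f` -/
def xt {J : Type} (f : (I → D') →ₗ[D'] (J → D')) : (I → U) →ₗ[R] (J → U) where
  toFun z j := ∑ i, op (f (Pi.single i 1) j) • z i
  map_add' z z' := by funext j; simp [Finset.sum_add_distrib]
  map_smul' r z := by funext j; simp [Finset.smul_sum, smul_comm r]

theorem xt_apply {J : Type} (f : (I → D') →ₗ[D'] (J → D')) (z : I → U) (j : J) :
    xt R U f z j = ∑ i, op (f (Pi.single i 1) j) • z i := rfl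

theorem lin_eq (l : (I → D') →ₗ[D'] D') (x : I → D') : l x = ∑ i, x i * l (Pi.single i 1) := by
  conv_lhs => rw [pi_eq_sum_univ' x, map_sum]
  simp only [map_smul, smul_eq_mul]

theorem op_lin (l : (I → D') →ₗ[D'] D') (x : I → D') (u : U) :
    op (l x) • u = ∑ i, op (l (Pi.single i 1)) • op (x i) • u := by
  rw [lin_eq, Finset.op_sum, Finset.sum_smul]
  simp only [op_mul, mul_smul]

theorem xt_tn {J : Type} (f : (I → D') →ₗ[D'] (J → D')) (u : U) (x : I → D') : xt R U f (tn u x) = tn u (f x) :=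
  funext fun j => (op_lin (LinearMap.proj (R := D') (φ := fun _ : J => D') j ∘ₗ f) x u).symm

theorem xt_comp (g : (J → D') →ₗ[D'] (L → D')) (f : (I → D') →ₗ[D'] (J → D')) (z : I → U) :
    xt R U g (xt R U f z) = xt R U (g ∘ₗ f) z := by
  funext l
  simp only [xt_apply, Finset.smul_sum]
  rw [Finset.sum_comm]
  exact Finset.sum_congr rfl fun i _ => (op_lin (LinearMap.proj l ∘ₗ g) (f (Pi.single i 1)) (z i)).symm

theorem xt_id (z : I → U) : xt R U (LinearMap.id : (I → D') →ₗ[D'] (I → D')) z = z := by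
  funext j
  rw [xt_apply, Finset.sum_eq_single j (fun i _ h => by simp [Pi.single_eq_of_ne' h]) (by simp)]
  simp

omit [Fintype I] in
theorem tn_single (u : U) (i : I) : tn u (Pi.single i (1 : D')) = Pi.single i u := by
  funext j
  by_cases h : j = i
  · subst h; simp [tn]
  · simp [tn, Pi.single_eq_of_ne h]

end

theorem rn {D V V' : Type} [DivisionRing D] [AddCommGroup V] [Module D V] [AddCommGroup V'] [Module D V']
    (f : V →ₗ[D] V') (S : Submodule D V) [Module.Finite D S] :
    finrank D S = finrank D ↥(S ⊓ LinearMap.ker f) + finrank D (S.map f) := by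
  rw [← (f.domRestrict S).finrank_range_add_finrank_ker, LinearMap.range_domRestrict, LinearMap.ker_domRestrict,
    add_comm, ← Submodule.finrank_map_subtype_eq, Submodule.map_comap_subtype]

theorem finrank_pi {D V I : Type} [DivisionRing D] [AddCommGroup V] [Module D V] [Fintype I]
    (S : Submodule D V) (h : Module.Finite D (Submodule.pi Set.univ fun _ : I => S)) :
    finrank D (Submodule.pi Set.univ fun _ : I => S) = Fintype.card I * finrank D S := by
  let e : (Submodule.pi Set.univ fun _ : I => S) ≃ₗ[D] (I → S) :=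
    { toFun := fun x i => ⟨x.1 i, x.2 i trivial⟩
      invFun := fun x => ⟨fun i => x i, fun i _ => (x i).2⟩
      map_add' := fun _ _ => rfl
      map_smul' := fun _ _ => rfl
      left_inv := fun _ => rfl
      right_inv := fun _ => rfl }
  have := Module.Finite.equiv e
  have : ∀ _ : I, Module.Finite D S := fun i =>
    Module.Finite.of_surjective (LinearMap.proj (R := D) (φ := fun _ : I => S) i) (LinearMap.proj_surjective i)
  rw [e.finrank_eq, Module.finrank_pi_fintype D (M := fun _ : I => S)]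
  simp

variable {K : Type} [Field K] {ι τ : Type} [Fintype ι] [DecidableEq ι] [Fintype τ] [DecidableEq τ]
  {N : Blocks K ι τ} {D : Type} [DivisionRing D] [Algebra K D]
  {c : ι} {D' : Type} [DivisionRing D'] [Algebra K D'] {U : Type} [AddCommGroup U]
  [Module D U] [Module (PS D (Var ι τ)) U] [IsScalarTower D (PS D (Var ι τ)) U]
  [Module D'ᵐᵒᵖ U] [SMulCommClass (PS D (Var ι τ)) D'ᵐᵒᵖ U] (H : N.Univ D c D' U)

/-- degree `x` part of `I → U` -/
def pp (I : Type) (x : ℤ) : Submodule D (I → U) := Submodule.pi Set.univ fun _ => LinearMap.range (H.π x)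

/-- graded submodules -/
def Gr {I : Type} (Z : Submodule (PS D (Var ι τ)) (I → U)) : Prop := ∀ y ∈ Z, ∀ j, (fun r => H.π j (y r)) ∈ Z

/-- Hilbert function -/
noncomputable def hz {I : Type} (Z : Submodule (PS D (Var ι τ)) (I → U)) (x : ℤ) : ℤ :=
  finrank D ↥(Z.restrictScalars D ⊓ pp H I x)

theorem mem_pp {I : Type} {x : ℤ} {z : I → U} : z ∈ pp H I x ↔ (fun r => H.π x (z r)) = z := by
  refine ⟨fun h => funext fun r => ?_, fun h r _ => ⟨_, congrFun h r⟩⟩
  obtain ⟨u, hu⟩ := h r trivial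
  rw [← hu, H.π_π, if_pos rfl]

theorem π_mem_pp {I : Type} (x : ℤ) (z : I → U) : (fun r => H.π x (z r)) ∈ pp H I x := fun _ _ => ⟨_, rfl⟩

variable {I J : Type} [Fintype I] [DecidableEq I]

theorem π_xt (f : (I → D') →ₗ[D'] (J → D')) (z : I → U) (x : ℤ) :
    (fun r => H.π x (xt (PS D (Var ι τ)) U f z r)) = xt (PS D (Var ι τ)) U f fun r => H.π x (z r) := by
  funext r
  simp only [xt_apply, map_sum, H.π_op]

theorem Gr.map {Z : Submodule (PS D (Var ι τ)) (I → U)} (hZ : Gr H Z) (f : (I → D') →ₗ[D'] (J → D')) :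
    Gr H (Z.map (xt _ U f)) := by
  rintro _ ⟨z, hz, rfl⟩ j
  exact ⟨_, hZ z hz j, (π_xt H f z j).symm⟩

theorem map_pp {Z : Submodule (PS D (Var ι τ)) (I → U)} (hZ : Gr H Z) (f : (I → D') →ₗ[D'] (J → D')) (x : ℤ) :
    (Z.map (xt _ U f)).restrictScalars D ⊓ pp H J x =
      (Z.restrictScalars D ⊓ pp H I x).map ((xt (PS D (Var ι τ)) U f).restrictScalars D) := by
  ext w
  constructor
  · rintro ⟨⟨z, hz, rfl⟩, h⟩
    exact ⟨_, ⟨hZ z hz x, π_mem_pp H x z⟩, (π_xt H f z x).symm.trans ((mem_pp H).1 h)⟩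
  · rintro ⟨z, ⟨hz, h⟩, rfl⟩
    refine ⟨⟨z, hz, rfl⟩, (mem_pp H).2 ((π_xt H f z x).trans ?_)⟩
    rw [(mem_pp H).1 h]
    rfl

theorem sw {Z : Submodule (PS D (Var ι τ)) (I → U)} (hZ : Z.FG) (hg : Gr H Z) (G : Set (I → D'))
    (hG : ∀ v ∈ G, tn H.u0 v ∈ Z) {θ : ℤ} (hθ : N.Theta c (hz H Z) θ) :
    (finrank D' (Submodule.span D' G) : ℤ) ≤ θ := by
  classical
  obtain ⟨b, hb, hsp, hli⟩ := exists_linearIndependent D' G
  have := hli.finite
  have := Fintype.ofFinite b
  let v := Fintype.linearCombination D' ((↑) : b → I → D')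
  obtain ⟨γ, hγ⟩ := v.exists_leftInverse_of_injective (LinearMap.ker_eq_bot.2 hli.fintypeLinearCombination_injective)
  let δ : (I → D') →ₗ[D'] (b ⊕ I → D') := LinearMap.pi
    (Sum.elim (fun q => LinearMap.proj q ∘ₗ γ) fun i => LinearMap.proj i ∘ₗ (LinearMap.id - v ∘ₗ γ))
  let ε : (b ⊕ I → D') →ₗ[D'] (I → D') := LinearMap.funLeft D' D' Sum.inr + v ∘ₗ LinearMap.funLeft D' D' Sum.inl
  have h1 : ε ∘ₗ δ = LinearMap.id := LinearMap.ext fun x => sub_add_cancel x (v (γ x))
  have h2 : Function.Injective (xt (PS D (Var ι τ)) U δ) :=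
    Function.LeftInverse.injective (g := xt (PS D (Var ι τ)) U ε) fun z => by rw [xt_comp, h1, xt_id]
  have h3 : hz H (Z.map (xt _ U δ)) = hz H Z := funext fun x => by
    rw [hz, hz, map_pp H hg,
      (Submodule.equivMapOfInjective ((xt (PS D (Var ι τ)) U δ).restrictScalars D) h2 _).finrank_eq]
  have h4 := H.sandwich' (b ⊕ I) (Z.map (xt _ U δ)) (hZ.map _) (hg.map H δ) (Finset.univ.map ⟨Sum.inl, Sum.inl_injective⟩)
    (fun r hr => ?_) θ (by rw [← h3] at hθ; exact hθ)
  · rw [← hsp, ← Subtype.range_coe (s := b), finrank_span_eq_card hli]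
    simpa using h4
  · obtain ⟨q, -, rfl⟩ := Finset.mem_map.1 hr
    refine ⟨_, hG _ (hb q.2), ?_⟩
    have h5 : v (Pi.single q 1) = q.1 := by simp [v]
    have h6 : γ q.1 = Pi.single q 1 := by rw [← h5]; exact LinearMap.congr_fun hγ _
    rw [xt_tn, ← tn_single (D' := D')]
    congr 1
    funext s
    rcases s with s | s
    · simp [δ, h6, Pi.single_apply]
    · simp [δ, h6, h5]

end Crest.Agent.R181.BX
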