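import Crest.Agent.R181.BX1

/-! # Part (B), independent version, file 2: the pairing `Lam` and the submodule `Wt` (helper60) -/

set_option autoImplicit false
set_option linter.unusedSectionVars false

namespace Crest.Agent.R181.BX

open MulOpposite Module AddMonoidAlgebra

theorem ind {D M Q : Type} [Semiring D] [Finite Q] [DecidableEq Q] {p : (Q → AddMonoidAlgebra D M) → Prop}
    (h0 : p 0) (ha : ∀ x y, p x → p y → p (x + y)) (hs : ∀ q m d, p (Pi.single q (single m d)))
    (x : Q → AddMonoidAlgebra D M) : p x := by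
  induction x using Pi.single_induction with
  | zero => exact h0
  | add x y hx hy => exact ha x y hx hy
  | single q r =>
    induction r using AddMonoidAlgebra.induction_linear with
    | zero => rwa [Pi.single_zero]
    | add x y hx hy => rw [Pi.single_add]; exact ha _ _ hx hy
    | single m d => exact hs q m d

theorem io_mon {K D σ : Type} [Field K] [DivisionRing D] [Algebra K D] (ν : σ →₀ ℕ) (k : K) :
    io K D σ (MvPolynomial.monomial ν k) = single ν (algebraMap K D k) := mapRingHom_single _ _ _

theorem io_smul {K D σ : Type} [Field K] [DivisionRing D] [Algebra K D] (e : MvPolynomial σ K) (d : D)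
    (r : PS D σ) : io K D σ e * d • r = d • (io K D σ e * r) := by
  induction e using MvPolynomial.induction_on' with
  | add x y hx hy => rw [map_add, add_mul, add_mul, hx, hy, smul_add]
  | monomial ν k =>
    induction r using AddMonoidAlgebra.induction_linear with
    | zero => simp
    | add x y hx hy => rw [smul_add, mul_add, mul_add, hx, hy, smul_add]
    | single m d' =>
      rw [io_mon, smul_single, single_mul_single, single_mul_single, smul_single, smul_eq_mul, smul_eq_mul,
        ← mul_assoc, Algebra.commutes, mul_assoc]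

/-- multiplication by a polynomial with coefficients in `K` -/
noncomputable def T {K : Type} (D : Type) {σ : Type} (P : Type) [Field K] [DivisionRing D] [Algebra K D]
    (e : MvPolynomial σ K) : (P → PS D σ) →ₗ[D] (P → PS D σ) where
  toFun x := io K D σ e • x
  map_add' _ _ := smul_add _ _ _
  map_smul' d x := funext fun k => io_smul e d (x k)

variable {K : Type} [Field K] {ι τ : Type} [Fintype ι] [DecidableEq ι] [Fintype τ] [DecidableEq τ]
  (N : Blocks K ι τ) (D : Type) [DivisionRing D] [Algebra K D]

/-- the linear map `cmp` -/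
noncomputable def cL {P : Type} (sh : P → ι → ℤ) (j : ι → ℤ) : (P → PS D (Var ι τ)) →ₗ[D] (P → PS D (Var ι τ)) where
  toFun := N.cmp D sh j
  map_add' x y := by
    funext k
    ext m
    simp [Blocks.cmp]
  map_smul' d x := by
    funext k
    ext m
    simp [Blocks.cmp, Finsupp.filter_apply]

theorem cL_coeff {P : Type} (sh : P → ι → ℤ) (j : ι → ℤ) (x : P → PS D (Var ι τ)) (k : P) (m : Var ι τ →₀ ℕ) :
    (cL N D sh j x k).coeff m = if sh k + N.dg m = j then (x k).coeff m else 0 := Finsupp.filter_apply _ _ _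

theorem cL_single {P : Type} [DecidableEq P] (sh : P → ι → ℤ) (j : ι → ℤ) (k : P) (m : Var ι τ →₀ ℕ) (d : D) :
    cL N D sh j (Pi.single k (single m d)) = if sh k + N.dg m = j then Pi.single k (single m d) else 0 := by
  funext k'
  ext m'
  rw [cL_coeff]
  by_cases h : k' = k
  · subst h
    by_cases h' : m = m'
    · subst h'; split_ifs <;> simp
    · split_ifs <;> simp [h']
  · split_ifs <;> simp [h]

theorem mem_piece {P : Type} {sh : P → ι → ℤ} {j : ι → ℤ} {x : P → PS D (Var ι τ)} :
    x ∈ N.piece D sh j ↔ cL N D sh j x = x := by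
  refine ⟨fun h => funext fun k => AddMonoidAlgebra.ext (Finsupp.ext fun m => ?_), fun h k _ => mem_supported'.2 fun m hm => ?_⟩
  · rw [cL_coeff]
    split_ifs with h'
    · rfl
    · exact (mem_supported'.1 (h k trivial) m h').symm
  · rw [← h, cL_coeff, if_neg (show ¬ sh k + N.dg m = j from hm)]

theorem cL_mem {P : Type} (sh : P → ι → ℤ) (j : ι → ℤ) (x : P → PS D (Var ι τ)) : cL N D sh j x ∈ N.piece D sh j :=
  fun k _ => mem_supported'.2 fun m hm => by rw [cL_coeff, if_neg (show ¬ sh k + N.dg m = j from hm)]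

theorem fin_piece {P : Type} [Fintype P] (sh : P → ι → ℤ) (j : ι → ℤ) : Module.Finite D (N.piece D sh j) := by
  refine Module.Finite.iff_fg.2 (Submodule.fg_pi fun k => ?_)
  rw [supported_eq_span_single]
  exact Submodule.fg_span (((N.finite_dg (j - sh k)).subset fun m hm => eq_sub_of_add_eq' hm).image _)

variable (c : ι)

/-- part of a monomial in the block `c` -/
noncomputable def mC (m : Var ι τ →₀ ℕ) : Var ι τ →₀ ℕ := m.filter fun v => N.blk v = c

/-- part of a monomial outside the block `c` -/
noncomputable def mT (m : Var ι τ →₀ ℕ) : Var ι τ →₀ ℕ := m.filter fun v => ¬ N.blk v = c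

theorem mC_add (m m' : Var ι τ →₀ ℕ) : mC N c (m + m') = mC N c m + mC N c m' := Finsupp.filter_add

theorem mT_add (m m' : Var ι τ →₀ ℕ) : mT N c (m + m') = mT N c m + mT N c m' := Finsupp.filter_add

theorem mC_mT (m : Var ι τ →₀ ℕ) : mC N c m + mT N c m = m := Finsupp.filter_add_filter_not _ _

theorem dg_mT (m : Var ι τ →₀ ℕ) : N.dg (mT N c m) = Function.update (N.dg m) c 0 := by
  funext c'
  rw [N.box_dg_apply]
  by_cases h : c' = c
  · subst h
    rw [Function.update_self]
    exact Finset.sum_eq_zero fun v _ => by split_ifs with h <;> simp [mT, h]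
  · rw [Function.update_of_ne h, N.box_dg_apply]
    refine Finset.sum_congr rfl fun v _ => ?_
    split_ifs with h'
    · simp [mT, h', h]
    · rfl

variable {N D c} {D' : Type} [DivisionRing D'] [Algebra K D'] {U : Type} [AddCommGroup U]
  [Module D U] [Module (PS D (Var ι τ)) U] [IsScalarTower D (PS D (Var ι τ)) U]
  [Module D'ᵐᵒᵖ U] [SMulCommClass (PS D (Var ι τ)) D'ᵐᵒᵖ U] (H : N.Univ D c D' U)

theorem sm1 (m : Var ι τ →₀ ℕ) (d : D) (u : U) :
    (single m d : PS D (Var ι τ)) • u = d • (single m 1 : PS D (Var ι τ)) • u := by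
  rw [← smul_assoc, smul_single, smul_eq_mul, mul_one]

theorem sm2 (m : Var ι τ →₀ ℕ) (d : D) (u : U) :
    (single m 1 : PS D (Var ι τ)) • d • u = d • (single m 1 : PS D (Var ι τ)) • u := by
  have h : ∀ z : U, d • z = (single 0 d : PS D (Var ι τ)) • z := fun z => by rw [sm1, ← one_def, one_smul]
  rw [h, h, ← mul_smul, ← mul_smul, single_mul_single, single_mul_single]
  simp

theorem sm3 (m m' : Var ι τ →₀ ℕ) (u : U) : (single (m + m') 1 : PS D (Var ι τ)) • u =
    (single m 1 : PS D (Var ι τ)) • (single m' 1 : PS D (Var ι τ)) • u := by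
  rw [← mul_smul, single_mul_single, mul_one]

include H in
theorem sm4 (d : D) (e : D'ᵐᵒᵖ) (u : U) : d • e • u = e • d • u := by
  have h : ∀ z : U, d • z = (d • (1 : PS D (Var ι τ))) • z := fun z => by rw [smul_assoc, one_smul]
  rw [h, smul_comm, ← h]

include H in
theorem sm5 (a d : D) (h : a * d = d * a) (e : D'ᵐᵒᵖ) (m : Var ι τ →₀ ℕ) (u : U) :
    (a * d) • e • (single m 1 : PS D (Var ι τ)) • u = (single m 1 : PS D (Var ι τ)) • d • e • a • u := by
  rw [sm2, smul_comm (single m 1 : PS D (Var ι τ)) e, sm2, ← sm4 H a, ← mul_smul d, h]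

theorem π_mon (m : Var ι τ →₀ ℕ) : ∀ (i : ℤ) (u : U), H.π (i + N.dg m c) ((single (mC N c m) 1 : PS D (Var ι τ)) • u) =
    (single (mC N c m) 1 : PS D (Var ι τ)) • H.π i u := by
  induction m using Finsupp.induction_linear with
  | zero =>
    intro i u
    rw [mC, Finsupp.filter_zero, ← one_def]
    simp [Blocks.dg]
  | add m m' h h' =>
    intro i u
    rw [mC_add, sm3, sm3, ← h', ← h, Blocks.dg, map_add, Pi.add_apply, add_assoc, add_comm (N.dg m' c)]
    rfl
  | single v n =>
    by_cases hv : N.blk v = c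
    · rw [mC, Finsupp.filter_single_of_pos (p := fun v => N.blk v = c) hv, Blocks.dg, Finsupp.weight_single, Blocks.wt, hv]
      induction n with
      | zero => simp [← one_def]
      | succ n ih =>
        intro i u
        rw [add_comm n, Finsupp.single_add, sm3, sm3, ← ih]
        refine Eq.trans ?_ (H.π_xs v hv _ _)
        congr 2
        simp only [Pi.smul_apply, Pi.single_eq_same, nsmul_eq_mul]
        push_cast
        ring
    · rw [mC, Finsupp.filter_single_of_neg (p := fun v => N.blk v = c) hv, Blocks.dg, Finsupp.weight_single, Blocks.wt]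
      simp [← one_def, Pi.single_eq_of_ne' hv]

variable {P A : Type} [Fintype P] [DecidableEq P] [Fintype A] [DecidableEq A]

variable (N D c) in
/-- the pairing -/
noncomputable def Lam (y : A → U) (l : (P → PS D' (Var ι τ)) →ₗ[D'] D') : (P × A → PS D (Var ι τ)) →ₗ[D] U :=
  ∑ p, (Finsupp.linearCombination D (fun m => op (l (Pi.single p.1 (single (mT N c m) 1))) •
    (single (mC N c m) 1 : PS D (Var ι τ)) • y p.2) ∘ₗ (coeffLinearEquiv D).toLinearMap) ∘ₗ LinearMap.proj p

variable (y : A → U)

theorem Lam_single (l : (P → PS D' (Var ι τ)) →ₗ[D'] D') (p : P × A) (m : Var ι τ →₀ ℕ) (d : D) :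
    Lam N D c y l (Pi.single p (single m d)) =
      d • op (l (Pi.single p.1 (single (mT N c m) 1))) • (single (mC N c m) 1 : PS D (Var ι τ)) • y p.2 := by
  rw [Lam, LinearMap.sum_apply, Finset.sum_eq_single p (fun q _ h => by simp [Pi.single_eq_of_ne h]) (by simp)]
  simp

theorem Lam_sum {β : Type} (s : Finset β) (l : β → (P → PS D' (Var ι τ)) →ₗ[D'] D') (x : P × A → PS D (Var ι τ)) :
    Lam N D c y (∑ b ∈ s, l b) x = ∑ b ∈ s, Lam N D c y (l b) x := by
  induction x using ind with
  | h0 => simp
  | ha x x' h h' => simp only [map_add, h, h', Finset.sum_add_distrib]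
  | hs p m d => simp only [Lam_single, LinearMap.sum_apply, Finset.op_sum, Finset.sum_smul, Finset.smul_sum]

theorem Lam_zero (x : P × A → PS D (Var ι τ)) : Lam N D c y (0 : (P → PS D' (Var ι τ)) →ₗ[D'] D') x = 0 := by
  simpa using Lam_sum (D := D) (N := N) (c := c) (D' := D') (β := Unit) y ∅ (fun _ => 0) x

include H in
theorem Lam_comp {I : Type} [Fintype I] [DecidableEq I] (f : (P → PS D' (Var ι τ)) →ₗ[D'] (I → D'))
    (l : (I → D') →ₗ[D'] D') (x : P × A → PS D (Var ι τ)) : Lam N D c y (l ∘ₗ f) x =
      ∑ i, op (l (Pi.single i 1)) • Lam N D c y (LinearMap.proj (R := D') (φ := fun _ : I => D') i ∘ₗ f) x := by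
  induction x using ind with
  | h0 => simp
  | ha x x' h h' => simp only [map_add, h, h', smul_add, Finset.sum_add_distrib]
  | hs p m d =>
    rw [Lam_single, LinearMap.comp_apply, op_lin l, Finset.smul_sum]
    refine Finset.sum_congr rfl fun i _ => ?_
    rw [Lam_single, sm4 H d]
    rfl

include H in
theorem Lam_mon (l : (P → PS D' (Var ι τ)) →ₗ[D'] D') (ν : Var ι τ →₀ ℕ) (k : K) (x : P × A → PS D (Var ι τ)) :
    Lam N D c y l (io K D _ (MvPolynomial.monomial ν k) • x) = (single (mC N c ν) 1 : PS D (Var ι τ)) •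
      Lam N D c y (l ∘ₗ T D' P (MvPolynomial.monomial (mT N c ν) k)) x := by
  induction x using ind with
  | h0 => simp
  | ha x x' h h' => simp only [map_add, h, h', smul_add]
  | hs p m d =>
    have e : T D' P (MvPolynomial.monomial (mT N c ν) k) (Pi.single p.1 (single (mT N c m) 1)) =
        algebraMap K D' k • Pi.single p.1 (single (mT N c ν + mT N c m) 1) := by
      change io K D' (Var ι τ) (MvPolynomial.monomial (mT N c ν) k) •
        (Pi.single p.1 (single (mT N c m) 1) : P → PS D' (Var ι τ)) = _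
      rw [← Pi.single_smul, ← Pi.single_smul, io_mon, smul_eq_mul, single_mul_single, smul_single, smul_eq_mul]
    rw [← Pi.single_smul, io_mon, smul_eq_mul, single_mul_single, Lam_single, Lam_single, LinearMap.comp_apply, e,
      map_smul, smul_eq_mul, op_mul, mul_smul (op _), ← H.K_op, mT_add, mC_add, sm3,
      sm5 H _ _ (Algebra.commutes k d)]

theorem Lam_cL {sh : P → ι → ℤ} (hsh : ∀ k, sh k c = 0) {e : A → ℤ} (hy : ∀ a, H.π (e a) (y a) = y a)
    (l : (P → PS D' (Var ι τ)) →ₗ[D'] D') (j : ι → ℤ) (x : P × A → PS D (Var ι τ)) :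
    Lam N D c y l (cL N D (fun p : P × A => sh p.1 + Pi.single c (e p.2)) j x) =
      H.π (j c) (Lam N D c y (l ∘ₗ cL N D' sh (Function.update j c 0)) x) := by
  induction x using ind with
  | h0 => simp
  | ha x x' h h' => simp only [map_add, h, h']
  | hs p m d =>
    have e1 : H.π (j c) ((single (mC N c m) 1 : PS D (Var ι τ)) • y p.2) =
        if e p.2 + N.dg m c = j c then (single (mC N c m) 1 : PS D (Var ι τ)) • y p.2 else 0 := by
      have h := π_mon H m (e p.2) (y p.2)
      rw [hy] at h
      rw [← h, H.π_π]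
      simp only [eq_comm]
    have e2 : sh p.1 + Pi.single c (e p.2) + N.dg m = j ↔
        (sh p.1 + N.dg (mT N c m) = Function.update j c 0 ∧ e p.2 + N.dg m c = j c) := by
      rw [dg_mT]
      refine ⟨fun h => ⟨funext fun c' => ?_, by simpa [hsh] using congrFun h c⟩, fun h => funext fun c' => ?_⟩
      · by_cases hc : c' = c
        · subst hc; simp [hsh]
        · simpa [hc] using congrFun h c'
      · by_cases hc : c' = c
        · subst hc; simpa [hsh] using h.2
        · simpa [hc] using congrFun h.1 c'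
    rw [cL_single, Lam_single, LinearMap.comp_apply, cL_single, map_smul, H.π_op, e1]
    simp only [e2]
    by_cases h1 : sh p.1 + N.dg (mT N c m) = Function.update j c 0 <;> by_cases h2 : e p.2 + N.dg m c = j c <;>
      simp [h1, h2, Lam_single]

/-- the relations of `U ⊗ F/W` -/
noncomputable def Wt (W : Submodule (PS D' (Var ι τ)) (P → PS D' (Var ι τ))) :
    Submodule (PS D (Var ι τ)) (P × A → PS D (Var ι τ)) where
  carrier := {x | ∀ l : (P → PS D' (Var ι τ)) →ₗ[D'] D', (∀ w ∈ W, l w = 0) → Lam N D c y l x = 0}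
  zero_mem' l _ := map_zero _
  add_mem' hx hx' l hl := by rw [map_add, hx l hl, hx' l hl, add_zero]
  smul_mem' r x hx l hl := by
    induction r using AddMonoidAlgebra.induction_linear with
    | zero => simp
    | add r r' h h' => rw [add_smul, map_add, h, h', add_zero]
    | single ν d =>
      have e : (single ν d : PS D (Var ι τ)) • x = d • io K D _ (MvPolynomial.monomial ν 1) • x := by
        rw [io_mon, map_one, ← smul_assoc, smul_single, smul_eq_mul, mul_one]
      have := hx (l ∘ₗ T D' P (MvPolynomial.monomial (mT N c ν) (1 : K))) fun w hw => hl _ (W.smul_mem _ hw)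
      rw [e, map_smul, Lam_mon H, this, smul_zero, smul_zero]

theorem E_supp {t : τ} {ν : Var ι τ →₀ ℕ} (h : ν ∈ (N.E t).support) {v : Var ι τ} (hv : N.blk v ≠ N.ob t) :
    ν v = 0 := by
  have h1 := N.box_le_dg ν v
  rw [show N.dg ν = _ from N.E_whom t (MvPolynomial.mem_support_iff.1 h), Pi.single_eq_of_ne hv] at h1
  omega

theorem E_mem (W : Submodule (PS D' (Var ι τ)) (P → PS D' (Var ι τ))) (t : τ)
    (ht : N.ob t = c ∨ N.ob t ≠ c ∧ ∀ x, io K D' _ (N.E t) • x ∈ W) (x : P × A → PS D (Var ι τ)) :
    io K D _ (N.E t) • x ∈ Wt H y W := by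
  intro l hl
  rw [(N.E t).as_sum, map_sum, Finset.sum_smul, map_sum]
  rcases ht with ht | ⟨ht, hW⟩
  · rw [← H.E_zero t ht (Lam N D c y l x)]
    conv_rhs => rw [(N.E t).as_sum, map_sum, Finset.sum_smul]
    refine Finset.sum_congr rfl fun ν hν => ?_
    have e1 : mC N c ν = ν := (Finsupp.filter_eq_self_iff _ _).2 fun v hv => by
      by_contra h
      exact hv (E_supp hν (ht ▸ h))
    have e2 : mT N c ν = 0 := by simpa [e1] using mC_mT N c ν
    have e3 : ∀ k, io K D _ (MvPolynomial.monomial ν k) = algebraMap K D k • io K D _ (MvPolynomial.monomial ν 1) :=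
      fun k => by rw [io_mon, io_mon, smul_single, map_one, smul_eq_mul, mul_one]
    have e4 : l ∘ₗ T D' P (MvPolynomial.monomial (0 : Var ι τ →₀ ℕ) (1 : K)) = l := LinearMap.ext fun w => by
      change l (io K D' (Var ι τ) 1 • w) = _
      rw [map_one, one_smul]
    rw [e3, smul_assoc, smul_assoc, map_smul, Lam_mon H, e1, e2, e4, io_mon, map_one]
  · have e0 : ∑ ν ∈ (N.E t).support, l ∘ₗ T D' P (MvPolynomial.monomial ν (MvPolynomial.coeff ν (N.E t))) = 0 :=
      LinearMap.ext fun w => by
        rw [LinearMap.zero_apply, ← hl _ (hW w), LinearMap.sum_apply]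
        conv_rhs => rw [(N.E t).as_sum, map_sum, Finset.sum_smul, map_sum]
        rfl
    rw [← Lam_zero (N := N) (c := c) (D' := D') y x, ← e0, Lam_sum]
    refine Finset.sum_congr rfl fun ν hν => ?_
    have e1 : mT N c ν = ν := (Finsupp.filter_eq_self_iff _ _).2 fun v hv h => hv (E_supp hν (h ▸ ht.symm))
    have e2 : mC N c ν = 0 := by simpa [e1] using mC_mT N c ν
    rw [Lam_mon H, e1, e2, ← one_def, one_smul]

end Crest.Agent.R181.BX
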