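import Crest.Agent.R181.BX2

/-! # Part (B), independent version, file 3: integrality is inherited (helper60) -/

set_option autoImplicit false
set_option linter.unusedSectionVars false

namespace Crest.Agent.R181.BX

open MulOpposite Module AddMonoidAlgebra

variable {K : Type} [Field K] {ι τ : Type} [Fintype ι] [DecidableEq ι] [Fintype τ] [DecidableEq τ]
  {N : Blocks K ι τ} {D : Type} [DivisionRing D] [Algebra K D]
  {c : ι} {D' : Type} [DivisionRing D'] [Algebra K D'] {U : Type} [AddCommGroup U]
  [Module D U] [Module (PS D (Var ι τ)) U] [IsScalarTower D (PS D (Var ι τ)) U]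
  [Module D'ᵐᵒᵖ U] [SMulCommClass (PS D (Var ι τ)) D'ᵐᵒᵖ U] (H : N.Univ D c D' U)
  {P A : Type} [Fintype P] [DecidableEq P] [Fintype A] [DecidableEq A]

include H in
theorem mon_zero {m : Var ι τ →₀ ℕ} (h : mT N c m ≠ 0) (u : U) : (single m 1 : PS D (Var ι τ)) • u = 0 := by
  obtain ⟨v, hv⟩ := Finsupp.support_nonempty_iff.2 h
  rw [mT, Finsupp.support_filter, Finset.mem_filter] at hv
  rw [← Finsupp.sub_add_single_one_cancel (Finsupp.mem_support_iff.1 hv.1), add_comm, sm3]
  exact H.xs_zero v hv.2 _

theorem deg {sh : P → ι → ℤ} (hsh : ∀ k, sh k c = 0) {W : Submodule (PS D' (Var ι τ)) (P → PS D' (Var ι τ))}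
    (hW : ∀ x ∈ W, ∀ j, N.cmp D' sh j x ∈ W) {y : A → U} {e : A → ℤ} (hy : ∀ a, H.π (e a) (y a) = y a)
    {Y : Submodule (PS D (Var ι τ)) U} (hY : Submodule.span _ (Set.range y) = Y) (hYg : ∀ y ∈ Y, ∀ j, H.π j y ∈ Y)
    (hu : H.u0 ∈ Y) (hsp : ∀ w ∈ W, w ∈ Submodule.span D' {w | w ∈ W ∧ ∀ k m, op ((w k).coeff m) • H.u0 ∈ Y})
    (h1 : N.Theta c (fun x => (finrank D ↥(Y.restrictScalars D ⊓ LinearMap.range (H.π x)) : ℤ)) 1)
    {j : ι → ℤ} (hj : j c = 0) {θ : ℤ}
    (hθ : N.Theta c (fun x => N.hq D (fun p : P × A => sh p.1 + Pi.single c (e p.2)) (Wt H y W)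
      (Function.update j c x)) θ) : N.hq D' sh W j = θ := by
  classical
  have := isNoetherianRing_PS D (Var ι τ)
  let I := {p : P × (Var ι τ →₀ ℕ) // sh p.1 + N.dg p.2 = j}
  have : Finite I := Set.Finite.to_subtype ((Set.finite_iUnion fun k : P =>
    (N.finite_dg (j - sh k)).image (Prod.mk k)).subset fun p hp =>
      Set.mem_iUnion.2 ⟨p.1, p.2, eq_sub_of_add_eq' hp, rfl⟩)
  have := Fintype.ofFinite I
  let res : (P → PS D' (Var ι τ)) →ₗ[D'] (I → D') :=
    { toFun := fun x p => (x p.1.1).coeff p.1.2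
      map_add' := fun x x' => by funext p; simp
      map_smul' := fun d x => by funext p; simp }
  let emb : (I → D') →ₗ[D'] (P → PS D' (Var ι τ)) :=
    Fintype.linearCombination D' fun p => Pi.single p.1.1 (single p.1.2 1)
  have r1 : ∀ k m (p : I), res (Pi.single k (single m 1)) p = if (k, m) = p.1 then 1 else 0 := fun k m p => by
    change ((Pi.single k (single m 1) : P → PS D' (Var ι τ)) p.1.1).coeff p.1.2 = _
    by_cases h : p.1.1 = k
    · rw [h, Pi.single_eq_same, coeff_single, Finsupp.single_apply]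
      simp [Prod.ext_iff, h]
    · rw [Pi.single_eq_of_ne h, if_neg fun h' => h (by rw [← h'])]
      rfl
  have r2 : ∀ p : I, res (Pi.single p.1.1 (single p.1.2 1)) = Pi.single p 1 := fun p => funext fun p' => by
    rw [r1, Pi.single_apply]
    exact if_congr ⟨fun h => (Subtype.ext h).symm, fun h => by rw [h]⟩ rfl rfl
  have re : ∀ v, res (emb v) = v := fun v => by
    rw [Fintype.linearCombination_apply, map_sum]
    simp only [map_smul, r2]
    exact (pi_eq_sum_univ' v).symm
  have rc : ∀ x, res (cL N D' sh j x) = res x := fun x => funext fun p => (cL_coeff ..).trans (if_pos p.2)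
  have er : ∀ x, emb (res x) = cL N D' sh j x := fun x => by
    induction x using ind with
    | h0 => simp
    | ha x x' h h' => simp only [map_add, h, h']
    | hs k m d =>
      have e : (Pi.single k (single m d) : P → PS D' (Var ι τ)) = d • Pi.single k (single m 1) := by
        rw [← Pi.single_smul, smul_single, smul_eq_mul, mul_one]
      rw [e, map_smul, map_smul, map_smul, cL_single]
      congr 1
      split_ifs with h
      · rw [r2 ⟨(k, m), h⟩, Fintype.linearCombination_apply_single, one_smul]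
      · rw [show res (Pi.single k (single m 1)) = 0 from funext fun p => (r1 ..).trans
          (if_neg fun h' => h (by have := p.2; rwa [← h'] at this)), map_zero]
  have ei : Function.Injective emb := Function.LeftInverse.injective re
  have rg : LinearMap.range emb = N.piece D' sh j := by
    refine le_antisymm ?_ fun x hx => ⟨_, (er x).trans ((mem_piece N D').1 hx)⟩
    rintro _ ⟨v, rfl⟩
    rw [mem_piece, ← er, re]
  let WI := (W.restrictScalars D').comap emb
  let q := finrank D' ((I → D') ⧸ WI)
  let b : (I → D') →ₗ[D'] (Fin q → D') := (Module.finBasis D' ((I → D') ⧸ WI)).equivFun.toLinearMap ∘ₗ WI.mkQ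
  have bk : ∀ v, b v = 0 ↔ v ∈ WI := fun v => by simp [b]
  have bs : Function.Surjective b := (Module.finBasis D' ((I → D') ⧸ WI)).equivFun.surjective.comp WI.mkQ_surjective
  have bW : ∀ w ∈ W, res w ∈ WI := fun w hw => by
    change emb (res w) ∈ W
    rw [er]
    exact hW w hw j
  have d1 : q + finrank D' WI = Fintype.card I := by
    rw [WI.finrank_quotient_add_finrank, finrank_fintype_fun_eq_card]
  have d2 : N.hq D' sh W j = q := by
    rw [Blocks.hq, ← rg, ← Submodule.map_comap_eq, ← (Submodule.equivMapOfInjective emb ei WI).finrank_eq,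
      LinearMap.finrank_range_of_inj ei, finrank_fintype_fun_eq_card, ← d1]
    simp
  let Ψ : (P × A → PS D (Var ι τ)) →ₗ[D] (I → U) :=
    LinearMap.pi fun p => Lam N D c y (LinearMap.proj (R := D') (φ := fun _ : I => D') p ∘ₗ res)
  let YI : Submodule (PS D (Var ι τ)) (I → U) := Submodule.pi Set.univ fun _ => Y
  let sh' : P × A → ι → ℤ := fun p => sh p.1 + Pi.single c (e p.2)
  have g1 : Gr H YI := fun z hz x r _ => hYg _ (hz r trivial) x
  have uj : ∀ x, Function.update (Function.update j c x) c 0 = j := fun x => by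
    rw [Function.update_idem, ← hj, Function.update_eq_self]
  have p1 : ∀ x z, Ψ (cL N D sh' (Function.update j c x) z) = fun p => H.π x (Ψ z p) := fun x z => funext fun p => by
    refine (Lam_cL H y hsh hy _ _ z).trans ?_
    rw [Function.update_self, uj]
    rw [show (LinearMap.proj (R := D') (φ := fun _ : I => D') p ∘ₗ res) ∘ₗ cL N D' sh j =
      LinearMap.proj (R := D') (φ := fun _ : I => D') p ∘ₗ res from LinearMap.ext fun w => congrFun (rc w) p]
    rfl
  have p2 : ∀ z, Ψ z ∈ YI := fun z => by
    induction z using ind with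
    | h0 => simp
    | ha x x' h h' => rw [map_add]; exact add_mem h h'
    | hs k m d =>
      intro p _
      change Lam N D c y _ _ ∈ Y
      rw [Lam_single, LinearMap.comp_apply, LinearMap.proj_apply, r1]
      have := Y.smul_mem (single (mC N c m) d) (show y k.2 ∈ Y from hY ▸ Submodule.subset_span (Set.mem_range_self _))
      rw [sm1] at this
      split_ifs <;> simp [this]
  have p3 : ∀ (p : I), ∀ u ∈ Y, ∃ z, Ψ z = Pi.single p u := fun p u hu => by
    rw [← hY] at hu
    induction hu using Submodule.span_induction with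
    | mem u hu =>
      obtain ⟨a, rfl⟩ := hu
      have e0 : N.dg p.1.2 c = 0 := by simpa [hsh, hj] using congrFun p.2 c
      have e1 : mC N c p.1.2 = 0 := (Finsupp.filter_eq_zero_iff _ _).2 fun v hv => by
        have := N.box_le_dg p.1.2 v
        rw [hv, e0] at this
        omega
      have e2 : mT N c p.1.2 = p.1.2 := by simpa [e1] using mC_mT N c p.1.2
      refine ⟨Pi.single (p.1.1, a) (single p.1.2 1), funext fun p' => ?_⟩
      change Lam N D c y _ _ = _
      rw [Lam_single, LinearMap.comp_apply, LinearMap.proj_apply, e1, e2, r2, ← one_def, one_smul, one_smul]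
      exact congrFun (tn_single (D' := D') (y a) p) p'
    | zero => exact ⟨0, by simp⟩
    | add u u' _ _ h h' =>
      obtain ⟨z, h⟩ := h
      obtain ⟨z', h'⟩ := h'
      exact ⟨z + z', by rw [map_add, h, h', Pi.single_add]⟩
    | smul r u _ h =>
      obtain ⟨z, h⟩ := h
      induction r using AddMonoidAlgebra.induction_linear with
      | zero => exact ⟨0, by simp⟩
      | add r r' h h' =>
        obtain ⟨z, h⟩ := h
        obtain ⟨z', h'⟩ := h'
        exact ⟨z + z', by rw [map_add, h, h', add_smul, Pi.single_add]⟩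
      | single ν d =>
        by_cases hν : mT N c ν = 0
        · have e1 : mC N c ν = ν := by simpa [hν] using mC_mT N c ν
          refine ⟨d • io K D _ (MvPolynomial.monomial ν 1) • z, ?_⟩
          rw [map_smul, sm1, Pi.single_smul, Pi.single_smul, ← h]
          congr 1
          funext p'
          refine (Lam_mon H y _ ν 1 z).trans ?_
          rw [e1, hν, show (LinearMap.proj (R := D') (φ := fun _ : I => D') p' ∘ₗ res) ∘ₗ
            T D' P (MvPolynomial.monomial (0 : Var ι τ →₀ ℕ) (1 : K)) =
            LinearMap.proj (R := D') (φ := fun _ : I => D') p' ∘ₗ res from LinearMap.ext fun w => by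
              change res (io K D' (Var ι τ) 1 • w) p' = _
              rw [map_one, one_smul]
              rfl]
          rfl
        · exact ⟨0, by rw [sm1, mon_zero H hν]; simp⟩
  have p4 : ∀ x, (N.piece D sh' (Function.update j c x)).map Ψ = YI.restrictScalars D ⊓ pp H I x := fun x => by
    refine le_antisymm ?_ fun w hw => ?_
    · rintro _ ⟨z, hz, rfl⟩
      exact ⟨p2 z, (mem_pp H).2 (by rw [← p1, (mem_piece N D).1 hz])⟩
    · choose z hz using fun p => p3 p (w p) (hw.1 p trivial)
      refine ⟨_, cL_mem N D _ _ (∑ p, z p), ?_⟩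
      rw [p1, map_sum]
      simp only [hz, Finset.univ_sum_single]
      exact (mem_pp H).1 hw.2
  let B := (xt (PS D (Var ι τ)) U b).restrictScalars D
  have p5 : ∀ x, N.piece D sh' (Function.update j c x) ⊓ (Wt H y W).restrictScalars D =
      N.piece D sh' (Function.update j c x) ⊓ LinearMap.ker (B ∘ₗ Ψ) := fun x => by
    ext z
    refine and_congr_right fun hz => ⟨fun h => funext fun r => ?_, fun h l hl => ?_⟩
    · refine Eq.trans ?_ (h ((LinearMap.proj (R := D') (φ := fun _ : Fin q => D') r ∘ₗ b) ∘ₗ res) fun w hw =>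
        congrFun ((bk _).2 (bW w hw)) r)
      exact (Lam_comp H y res (LinearMap.proj (R := D') (φ := fun _ : Fin q => D') r ∘ₗ b) z).symm
    · obtain ⟨l', hl'⟩ : ∃ l' : (Fin q → D') →ₗ[D'] D', l' ∘ₗ b = l ∘ₗ emb := by
        obtain ⟨g, hg⟩ := b.exists_rightInverse_of_surjective (LinearMap.range_eq_top.2 bs)
        refine ⟨l ∘ₗ emb ∘ₗ g, LinearMap.ext fun v => ?_⟩
        have : g (b v) - v ∈ WI := (bk _).1 (by rw [map_sub, sub_eq_zero]; exact LinearMap.congr_fun hg _)
        exact sub_eq_zero.1 (by simpa using hl _ this)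
      have e1 : l ∘ₗ cL N D' sh j = l' ∘ₗ (b ∘ₗ res) := by
        rw [← LinearMap.comp_assoc, hl']
        exact LinearMap.ext fun w => by simp [er]
      rw [← (mem_piece N D).1 hz, Lam_cL H y hsh hy, uj, e1, Lam_comp H, Finset.sum_eq_zero fun r _ => ?_, map_zero]
      rw [← LinearMap.comp_assoc, Lam_comp H]
      exact (congrArg _ (congrFun h r)).trans (smul_zero _)
  let Z := YI.map (xt (PS D (Var ι τ)) U b)
  let Ke := YI ⊓ LinearMap.ker (xt (PS D (Var ι τ)) U b)
  have fY : YI.FG := Submodule.fg_pi fun _ => hY ▸ Submodule.fg_span (Set.finite_range y)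
  have p6 : ∀ x, N.hq D sh' (Wt H y W) (Function.update j c x) = hz H Z x := fun x => by
    have := fin_piece N D sh' (Function.update j c x)
    rw [Blocks.hq, p5, rn (B ∘ₗ Ψ), Submodule.map_comp, p4, hz, map_pp H g1]
    simp [B]
  have p7 : ∀ x, hz H Ke x =
      Fintype.card I * (finrank D ↥(Y.restrictScalars D ⊓ LinearMap.range (H.π x)) : ℤ) - hz H Z x := fun x => by
    have := fin_piece N D sh' (Function.update j c x)
    have h : Module.Finite D ↥(YI.restrictScalars D ⊓ pp H I x) := p4 x ▸ inferInstance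
    have e1 : YI.restrictScalars D ⊓ pp H I x =
        Submodule.pi Set.univ fun _ : I => Y.restrictScalars D ⊓ LinearMap.range (H.π x) := by
      ext w
      exact ⟨fun h i _ => ⟨h.1 i trivial, h.2 i trivial⟩, fun h => ⟨fun i _ => (h i trivial).1, fun i _ => (h i trivial).2⟩⟩
    have e2 : Ke.restrictScalars D ⊓ pp H I x = YI.restrictScalars D ⊓ pp H I x ⊓ LinearMap.ker B := by
      ext w
      exact ⟨fun h => ⟨⟨h.1.1, h.2⟩, h.1.2⟩, fun h => ⟨⟨h.1.1, h.2⟩, h.1.2⟩⟩
    have e3 := rn B (YI.restrictScalars D ⊓ pp H I x)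
    have e4 := finrank_pi _ (e1 ▸ h)
    rw [← e1] at e4
    rw [hz, hz, map_pp H g1, e2, ← Nat.cast_mul, ← e4, e3]
    simp [B]
  simp only [show ∀ x, N.hq D (fun p : P × A => sh p.1 + Pi.single c (e p.2)) (Wt H y W) (Function.update j c x) =
    hz H Z x from p6] at hθ
  have s1 := sw H (fY.map _) (g1.map H b) (Set.range fun p => b (Pi.single p 1)) (by
    rintro _ ⟨p, rfl⟩
    refine ⟨tn H.u0 (Pi.single p (1 : D')), fun i _ => ?_, xt_tn ..⟩
    rw [tn_single, Pi.single_apply]
    split_ifs <;> simp [hu]) hθ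
  have s2 := sw H (Z := Ke) (fY.of_le inf_le_left)
    (fun z hz x => ⟨g1 z hz.1 x, by
      rw [SetLike.mem_coe, LinearMap.mem_ker, ← π_xt H, show xt (PS D (Var ι τ)) U b z = 0 from hz.2]
      funext r
      simp⟩)
    (res '' {w | w ∈ W ∧ ∀ k m, op ((w k).coeff m) • H.u0 ∈ Y}) (θ := Fintype.card I - θ) (by
      rintro _ ⟨w, hw, rfl⟩
      refine ⟨fun p _ => hw.2 _ _, ?_⟩
      rw [SetLike.mem_coe, LinearMap.mem_ker, xt_tn, (bk _).2 (bW w hw.1)]
      funext r
      simp [tn]) (by
      obtain ⟨ρ, σ, e1, e2⟩ := h1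
      obtain ⟨ρ', σ', e1', e2'⟩ := hθ
      refine ⟨Fintype.card I * ρ - ρ', Fintype.card I * σ - σ', by linear_combination Fintype.card I * e1 - e1', ?_⟩
      filter_upwards [e2, e2'] with x h h'
      rw [p7, h, h']
      ring)
  have s3 : Submodule.span D' (Set.range fun p => b (Pi.single p 1)) = ⊤ := by
    rw [eq_top_iff]
    intro v _
    obtain ⟨v, rfl⟩ := bs v
    rw [pi_eq_sum_univ' v, map_sum]
    exact Submodule.sum_mem _ fun p _ => by
      rw [map_smul]; exact Submodule.smul_mem _ _ (Submodule.subset_span ⟨p, rfl⟩)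
  have s4 : WI ≤ Submodule.span D' (res '' {w | w ∈ W ∧ ∀ k m, op ((w k).coeff m) • H.u0 ∈ Y}) := fun v hv => by
    rw [← re v, ← Submodule.map_span]
    exact ⟨_, hsp _ hv, rfl⟩
  have s5 := Submodule.finrank_mono s4
  rw [s3, finrank_top, finrank_fintype_fun_eq_card, Fintype.card_fin] at s1
  omega

include H in
theorem int (s : Finset ι) (hc : c ∉ s) (hint : N.INT D (insert c s)) : N.INT D' s := by
  intro P _ sh W hsh hW hE
  classical
  have := isNoetherianRing_PS D' (Var ι τ)
  obtain ⟨T0, hT0⟩ : W.FG := IsNoetherian.noetherian W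
  obtain ⟨Y, ⟨T1, hT1⟩, hYg, hu, hS, h1⟩ := H.theta_one
    (T0.biUnion fun w => Finset.univ.biUnion fun k => (w k).coeff.support.image (w k).coeff)
  choose S hS' using H.π_fin
  let y : (Σ u : T1, S u) → U := fun a => H.π a.2 a.1
  have hy : ∀ a : (Σ u : T1, S u), H.π a.2 (y a) = y a := fun a => (H.π_π ..).trans (if_pos rfl)
  have hY : Submodule.span _ (Set.range y) = Y := by
    refine le_antisymm (Submodule.span_le.2 ?_) (hT1 ▸ Submodule.span_le.2 fun u hu => ?_)
    · rintro _ ⟨a, rfl⟩
      exact hYg _ (hT1 ▸ Submodule.subset_span a.1.2) _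
    · rw [hS' u]
      exact Submodule.sum_mem _ fun i hi => Submodule.subset_span ⟨⟨⟨u, hu⟩, i, hi⟩, rfl⟩
  have hsp : ∀ w ∈ W, w ∈ Submodule.span D' {w | w ∈ W ∧ ∀ k m, op ((w k).coeff m) • H.u0 ∈ Y} := by
    intro w hw
    rw [← hT0] at hw
    induction hw using Submodule.span_induction with
    | mem w hw =>
      refine Submodule.subset_span ⟨hT0 ▸ Submodule.subset_span hw, fun k m => ?_⟩
      by_cases h : m ∈ (w k).coeff.support
      · exact hS _ (Finset.mem_biUnion.2 ⟨w, hw, Finset.mem_biUnion.2 ⟨k, Finset.mem_univ _, Finset.mem_image_of_mem _ h⟩⟩)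
      · simp [Finsupp.notMem_support_iff.1 h]
    | zero => exact zero_mem _
    | add _ _ _ _ h h' => exact add_mem h h'
    | smul r w _ h =>
      induction r using AddMonoidAlgebra.induction_linear with
      | zero => simp
      | add r r' h h' => rw [add_smul]; exact add_mem h h'
      | single ν d =>
        have e : (single ν d : PS D' (Var ι τ)) • w = d • T D' P (MvPolynomial.monomial ν (1 : K)) w := by
          change _ = d • io K D' (Var ι τ) _ • w
          rw [io_mon, map_one, ← smul_assoc, smul_single, smul_eq_mul, mul_one]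
        rw [e]
        refine Submodule.smul_mem _ _ (Submodule.map_span_le (T D' P _) _ _ |>.2 ?_ ⟨w, h, rfl⟩)
        intro w hw
        refine Submodule.subset_span ⟨W.smul_mem _ hw.1, fun k m => ?_⟩
        change op ((io K D' (Var ι τ) _ * w k).coeff m) • H.u0 ∈ Y
        rw [io_mon, map_one]
        by_cases h : ∃ m', m = ν + m'
        · obtain ⟨m', rfl⟩ := h
          rw [coeff_single_mul_add, one_mul]
          exact hw.2 k m'
        · rw [coeff_single_mul_of_forall_add_ne]
          · simp
          · exact fun m' h' => h ⟨m', h'.symm⟩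
  obtain ⟨n, J, hn⟩ := hint (P × Σ u : T1, S u) (fun p => sh p.1 + Pi.single c (p.2.2 : ℤ)) (Wt H y W)
    (fun k c' h => by
      rw [Finset.mem_insert, not_or] at h
      simp [hsh _ _ h.2, h.1])
    (fun x hx j l hl => by
      refine (Lam_cL H y (fun k => hsh k c hc) hy l j x).trans ?_
      rw [hx (l ∘ₗ cL N D' sh (Function.update j c 0)) fun w hw => hl _ (hW w hw _), map_zero])
    fun t ht => E_mem H y W t (by
      by_cases h : N.ob t = c
      · exact Or.inl h
      · exact Or.inr ⟨h, hE t ((Finset.mem_insert.1 ht).resolve_left h)⟩)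
  refine ⟨Finsupp.onFinset n.support (fun r => n r * (1 + r c)) fun r hr =>
    Finsupp.mem_support_iff.2 (left_ne_zero_of_mul hr), J, fun j h2 h3 => ?_⟩
  rw [Finsupp.onFinset_sum _ (by simp)]
  refine deg H (fun k => hsh k c hc) hW hy hY hYg hu hsp h1 (h3 c hc)
    ⟨∑ r ∈ n.support, n r * N.hs s (j - r), -∑ r ∈ n.support, n r * r c * N.hs s (j - r), ?_, ?_⟩
  · rw [sub_neg_eq_add, ← Finset.sum_add_distrib]
    exact Finset.sum_congr rfl fun r _ => by ring
  · filter_upwards [Filter.eventually_ge_atTop J] with x hx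
    rw [hn _ (fun c' h => ?_) fun c' h => ?_, Finsupp.sum, neg_mul, Finset.sum_mul, Finset.sum_mul, ← sub_eq_add_neg,
      ← Finset.sum_sub_distrib]
    · refine Finset.sum_congr rfl fun r _ => ?_
      have : N.hs s (Function.update j c x - r) = N.hs s (j - r) := Finset.prod_congr rfl fun c' h => by
        rw [Pi.sub_apply, Pi.sub_apply, Function.update_of_ne (ne_of_mem_of_not_mem h hc)]
      rw [Blocks.hs, Finset.prod_insert hc, ← Blocks.hs, this]
      simp only [Blocks.hb, Pi.sub_apply, Function.update_self]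
      ring
    · rcases Finset.mem_insert.1 h with rfl | h
      · simpa using hx
      · rw [Function.update_of_ne (ne_of_mem_of_not_mem h hc)]
        exact h2 _ h
    · rw [Finset.mem_insert, not_or] at h
      rw [Function.update_of_ne h.1, h3 _ h.2]

end Crest.Agent.R181.BX
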