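import Crest.Agent.R181.CDefs

/-! # Algebraic closure and the transcendence count (prefix `acl_`) -/

set_option autoImplicit false

namespace Crest.Agent.R181

open MvPolynomial

variable {Ω : Type} [Field Ω] [Algebra ℂ Ω]

/-- `AlgebraicIndependent.matroid_closure_eq` -/
theorem acl_eq_closure (s : Set Ω) : (acl s : Set Ω) = (AlgebraicIndependent.matroid ℂ Ω).closure s := by
  rw [AlgebraicIndependent.matroid_closure_eq]
  rfl

theorem acl_subset (s : Set Ω) : s ⊆ acl s := by
  rw [acl_eq_closure]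
  exact Matroid.subset_closure _ _ (Set.subset_univ _)

theorem acl_mono {s t : Set Ω} (h : s ⊆ t) : acl s ≤ acl t := by
  intro x hx
  have hx' : x ∈ (acl s : Set Ω) := hx
  show x ∈ (acl t : Set Ω)
  rw [acl_eq_closure] at hx' ⊢
  exact Matroid.closure_subset_closure _ h hx'

/-- idempotence (`Matroid.closure_subset_closure_of_subset_closure`) -/
theorem acl_le {s t : Set Ω} (h : t ⊆ acl s) : acl t ≤ acl s := by
  intro x hx
  have hx' : x ∈ (acl t : Set Ω) := hx
  show x ∈ (acl s : Set Ω)
  rw [acl_eq_closure] at hx' h ⊢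
  exact Matroid.closure_subset_closure_of_subset_closure h hx'

theorem acl_of_pow {s : Set Ω} {x : Ω} {m : ℕ} (hm : 1 ≤ m) (h : x ^ m ∈ acl s) : x ∈ acl s := by
  exact IsAlgebraic.of_pow hm h

theorem acl_of_mul {s : Set Ω} {x y : Ω} (hy : y ∈ acl s) (hy0 : y ≠ 0) (h : y * x ∈ acl s) :
    x ∈ acl s := by
  exact IsAlgebraic.of_mul (mem_nonZeroDivisors_of_ne_zero hy0) hy h

theorem acl_of_isIntegral {s : Set Ω} {x : Ω} (h : IsIntegral (Algebra.adjoin ℂ s) x) : x ∈ acl s := by
  exact h.isAlgebraic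

theorem acl_aeval {σ : Type} {s : Set Ω} {u : σ → Ω} (h : ∀ e, u e ∈ acl s) (g : MvPolynomial σ ℂ) :
    aeval u g ∈ acl s := by
  induction g using MvPolynomial.induction_on with
  | C c =>
    rw [aeval_C]
    exact Subalgebra.algebraMap_mem _ c
  | add p q hp hq =>
    rw [map_add]
    exact add_mem hp hq
  | mul_X p e hp =>
    rw [map_mul, aeval_X]
    exact mul_mem hp (h e)

/-- `Matroid.Indep.encard_le_eRk_of_subset`, `eRk_closure_eq`, `eRk_le_encard` -/
theorem acl_card {B : Type} [Fintype B] {b : B → Ω} (hb : AlgebraicIndependent ℂ b) (t : Finset Ω)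
    (h : ∀ β, b β ∈ acl (t : Set Ω)) : Fintype.card B ≤ t.card := by
  have h1 : (AlgebraicIndependent.matroid ℂ Ω).Indep (Set.range b) := hb.to_subtype_range
  have h2 : Set.range b ⊆ (AlgebraicIndependent.matroid ℂ Ω).closure t := by
    rw [← acl_eq_closure]
    rintro _ ⟨β, rfl⟩
    exact h β
  have h3 := h1.encard_le_eRk_of_subset h2
  rw [Matroid.eRk_closure_eq] at h3
  have h4 := h3.trans (Matroid.eRk_le_encard _ _)
  rw [Set.encard_coe_eq_coe_finsetCard, ← Set.image_univ, hb.injective.encard_image, Set.encard_univ,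
    ENat.card_eq_coe_fintype_card] at h4
  exact_mod_cast h4

/-- Choose `β0 j` with `φ_j (β0 j) ≠ 0` (so `plev (β0 j) = j`) for `j0 ≤ j`; let `t` be the finset of the `g l`,
`j0 < l`, and of the `b β`, `β ∉ {β0 j}`: it has at most `(n - 1 - j0) + (card B - (n - j0))` elements.  By
downward induction on the level all `b β` lie in `acl t` (`acl_of_mul`); contradiction with `acl_card`. -/
theorem acl_count {n : ℕ} {B : Type} [Fintype B] (lev : B → Fin n) {b : B → Ω}
    (hb : AlgebraicIndependent ℂ b) (V : Set Ω) (g : Fin n → Ω) (j0 : Fin n)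
    (hV : V ⊆ acl (g '' {l | j0 < l}))
    (h : ∀ j, j0 ≤ j → ∃ φ : B → Ω, (∀ β, φ β ∈ acl (V ∪ b '' {β | j.val + 1 ≤ (lev β).val})) ∧
      (∀ β, lev β ≠ j → φ β = 0) ∧ (∃ β, φ β ≠ 0) ∧ ∑ β, b β * φ β = 0) : False := by
  classical
  choose φ h1 h2 h3 h4 using h
  choose β0 h5 using h3
  have hl : ∀ j hj, lev (β0 j hj) = j := fun j hj => by
    by_contra hc
    exact h5 j hj (h2 j hj _ hc)
  set S : Finset B := (Finset.Ici j0).attach.image fun j => β0 j.1 (Finset.mem_Ici.1 j.2) with hS
  have hSc : S.card = (Finset.Ici j0).card := by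
    rw [hS, Finset.card_image_of_injective, Finset.card_attach]
    intro j j' hjj
    have := congrArg lev hjj
    simp only [hl] at this
    exact Subtype.ext this
  have hmem : ∀ β, β ∈ S → ∃ j hj, β0 j hj = β := fun β hβ => by
    obtain ⟨j, -, hj⟩ := Finset.mem_image.1 hβ
    exact ⟨_, _, hj⟩
  set t : Finset Ω := (Finset.Ioi j0).image g ∪ Sᶜ.image b with ht
  have hcard : t.card < Fintype.card B := by
    have a1 := Finset.card_union_le ((Finset.Ioi j0).image g) (Sᶜ.image b)
    have a2 := Finset.card_image_le (s := Finset.Ioi j0) (f := g)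
    have a3 := Finset.card_image_le (s := Sᶜ) (f := b)
    have a4 := Finset.card_compl S
    have a5 := Finset.card_le_univ S
    have a6 := Fin.card_Ici j0
    have a7 := Fin.card_Ioi j0
    have a8 := j0.2
    rw [ht]
    omega
  have hout : ∀ β, β ∉ S → b β ∈ acl (t : Set Ω) := fun β hβ =>
    acl_subset _ (Finset.mem_coe.2 (Finset.mem_union_right _ (Finset.mem_image_of_mem _ (Finset.mem_compl.2 hβ))))
  have hVt : V ⊆ acl (t : Set Ω) := by
    refine hV.trans (acl_mono ?_)
    rintro _ ⟨l, hl', rfl⟩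
    exact Finset.mem_coe.2 (Finset.mem_union_left _ (Finset.mem_image_of_mem _ (Finset.mem_Ioi.2 hl')))
  have key : ∀ d : ℕ, ∀ β, n ≤ (lev β).val + d → b β ∈ acl (t : Set Ω) := by
    intro d
    induction d with
    | zero => intro β hβ; exact absurd (lev β).2 (by omega)
    | succ d ih =>
      intro β hβ
      by_cases hβS : β ∈ S
      swap
      · exact hout β hβS
      obtain ⟨j, hj, rfl⟩ := hmem β hβS
      rw [hl] at hβ
      have hφ : ∀ β, φ j hj β ∈ acl (t : Set Ω) := fun β => by
        refine acl_le (Set.union_subset hVt ?_) (h1 j hj β)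
        rintro _ ⟨β', hβ', rfl⟩
        have : j.val + 1 ≤ (lev β').val := hβ'
        exact ih β' (by omega)
      refine acl_of_mul (hφ _) (h5 j hj) ?_
      have e := h4 j hj
      rw [← Finset.add_sum_erase _ _ (Finset.mem_univ (β0 j hj)), add_eq_zero_iff_eq_neg, mul_comm] at e
      rw [e]
      refine neg_mem (sum_mem fun β' hβ' => ?_)
      by_cases hlev : lev β' = j
      · refine mul_mem (hout β' fun hc => ?_) (hφ _)
        obtain ⟨j', hj', rfl⟩ := hmem β' hc
        rw [hl] at hlev
        subst hlev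
        exact (Finset.mem_erase.1 hβ').1 rfl
      · rw [h2 j hj β' hlev, mul_zero]
        exact zero_mem _
  exact absurd (acl_card hb t fun β => key n β (Nat.le_add_left _ _)) (not_le.2 hcard)

end Crest.Agent.R181
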