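import Crest.Agent.R181.CDefs

/-! # The coefficients `cf` (prefix `cf_`) -/

set_option autoImplicit false

namespace Crest.Agent.R181

open MvPolynomial

namespace Leaf

variable {n : ℕ} {ι : Type} [Fintype ι] [DecidableEq ι] {N : Net n ι} {a : Fin n → ℕ}
  {f : Fin n → MvPolynomial (Fin n) ℂ} {κ : Type} [Fintype κ] (L : Leaf N a f κ)
  {Ω : Type} [Field Ω] [Algebra ℂ Ω]

omit [DecidableEq ι] in
theorem cf_reindex {M : Type*} [AddCommMonoid M] (j : Fin n) (G : Out n N.lv → M) (F : ι → M)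
    (hG : ∀ t : Out n N.lv, t.1.2 = j → G t = F t.1.1) :
    ∑ t : Out n N.lv with t.1.2 = j, G t = ∑ c with j.val ≤ N.lv c, F c := by
  refine Finset.sum_bij (fun t _ => t.1.1) (fun t ht => ?_) (fun t ht t' ht' h => ?_)
    (fun c hc => ?_) (fun t ht => hG t (Finset.mem_filter.1 ht).2)
  · have h := (Finset.mem_filter.1 ht).2
    exact Finset.mem_filter.2 ⟨Finset.mem_univ _, h ▸ t.2⟩
  · exact Subtype.ext (Prod.ext h
      ((Finset.mem_filter.1 ht).2.trans (Finset.mem_filter.1 ht').2.symm))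
  · exact ⟨⟨(c, j), (Finset.mem_filter.1 hc).2⟩, Finset.mem_filter.2 ⟨Finset.mem_univ _, rfl⟩, rfl⟩

theorem cf_wire (j : Fin n) (μ : ι → Ω) (z : Var ι (Out n N.lv) → Ω) (w : Var ι (Out n N.lv)) :
    L.cf j μ z (Sum.inl (w, j)) =
      (∑ t' : Out n N.lv, if j ≤ t'.1.2 ∧ Sum.inr t' = w then μ t'.1.1 * z (Sum.inr t') ^ a j else 0) -
        ∑ p : ι × Fin 2, if j.val ≤ N.lv p.1 ∧ N.lv p.1 < n ∧ N.pn p = w then
          μ p.1 * z (Sum.inl p) ^ a j else 0 := by
  have h1 : L.cf j μ z (Sum.inl (w, j)) = ∑ c with j.val ≤ N.lv c,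
      μ c * ((∑ t' : Out n N.lv with t'.1.1 = c ∧ j ≤ t'.1.2 ∧ Sum.inr t' = w,
          z (Sum.inr t') ^ a j) -
        ∑ b : Fin 2 with N.lv c < n ∧ N.pn (c, b) = w, z (Sum.inl (c, b)) ^ a j) := by
    refine cf_reindex j _ _ fun t ht => ?_
    subst ht
    simp only [m, if_true, map_sub, map_sum, map_pow, aeval_X]
  rw [h1]
  simp only [mul_sub, Finset.sum_sub_distrib, Finset.sum_filter, Finset.mul_sum, mul_ite, mul_zero]
  congr 1
  · have h2 : ∀ c : ι, (if j.val ≤ N.lv c then ∑ t' : Out n N.lv,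
        (if t'.1.1 = c ∧ j ≤ t'.1.2 ∧ Sum.inr t' = w then μ c * z (Sum.inr t') ^ a j else 0) else 0) =
        ∑ t' : Out n N.lv, if t'.1.1 = c then
          (if j ≤ t'.1.2 ∧ Sum.inr t' = w then μ t'.1.1 * z (Sum.inr t') ^ a j else 0) else 0 := by
      intro c
      split_ifs with hc
      · refine Finset.sum_congr rfl fun t' _ => ?_
        by_cases h : t'.1.1 = c
        · simp only [h, true_and, if_true]
        · simp only [h, false_and, if_false]
      · refine (Finset.sum_eq_zero fun t' _ => ?_).symm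
        split_ifs with h3 h4
        · exact absurd (h3 ▸ (Fin.le_def.1 h4.1).trans t'.2) hc
        · rfl
        · rfl
    simp only [h2]
    rw [Finset.sum_comm]
    simp only [Finset.sum_ite_eq, Finset.mem_univ, if_true]
  · rw [Fintype.sum_prod_type]
    refine Finset.sum_congr rfl fun c _ => ?_
    split_ifs with hc
    · simp only [hc, true_and]
    · simp only [hc, false_and, if_false, Finset.sum_const_zero]

omit [Fintype ι] [DecidableEq ι] in
theorem cf_pn_inr {p : ι × Fin 2} {t : Out n N.lv} : N.pn p = Sum.inr t ↔ N.src p = some t := by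
  unfold Net.pn
  cases N.src p <;> simp

omit [Fintype ι] [DecidableEq ι] in
theorem cf_pn_inl {p q : ι × Fin 2} : N.pn q = Sum.inl p ↔ q = p ∧ N.src q = none := by
  unfold Net.pn
  cases N.src q <;> simp

theorem cf_first (j : Fin n) (μ : ι → Ω) (z : Var ι (Out n N.lv) → Ω) (t : Out n N.lv) :
    (∑ t' : Out n N.lv, if j ≤ t'.1.2 ∧ (Sum.inr t' : Var ι (Out n N.lv)) = Sum.inr t then
      μ t'.1.1 * z (Sum.inr t') ^ a j else 0) =
      if j ≤ t.1.2 then μ t.1.1 * z (Sum.inr t) ^ a j else 0 := by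
  rw [Finset.sum_eq_single t]
  · simp only [and_true]
  · intro t' _ h
    rw [if_neg fun h' => h (Sum.inr_injective h'.2)]
  · intro h
    exact absurd (Finset.mem_univ _) h

theorem cf_m_ne (t : Out n N.lv) (β : Par N κ) (h : plev β ≠ t.1.2) : L.m t β = 0 := by
  rcases β with ⟨w, i⟩ | ⟨i, k⟩
  · exact if_neg h
  · exact if_neg fun h' => h h'.1

theorem cf_ne (j : Fin n) (μ : ι → Ω) (z : Var ι (Out n N.lv) → Ω) (β : Par N κ) (h : plev β ≠ j) :
    L.cf j μ z β = 0 := by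
  refine Finset.sum_eq_zero fun t ht => ?_
  rw [L.cf_m_ne t β ((Finset.mem_filter.1 ht).2 ▸ h), map_zero, mul_zero]

/-- a consumed output (`src_inj`, `src_lv`: `lv p.1 = t.1.2 < n`) -/
theorem cf_cons (j : Fin n) (μ : ι → Ω) (z : Var ι (Out n N.lv) → Ω) {p : ι × Fin 2} {t : Out n N.lv}
    (h : N.src p = some t) (hj : j ≤ t.1.2) :
    L.cf j μ z (Sum.inl (Sum.inr t, j)) =
      μ t.1.1 * z (Sum.inr t) ^ a j - μ p.1 * z (Sum.inl p) ^ a j := by
  rw [cf_wire, cf_first, if_pos hj, Finset.sum_eq_single p]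
  · have h1 := N.src_lv p t h
    rw [if_pos ⟨h1 ▸ Fin.le_def.1 hj, h1 ▸ t.1.2.isLt, cf_pn_inr.2 h⟩]
  · intro q _ hq
    exact if_neg fun h' => hq (N.src_inj _ _ _ (cf_pn_inr.1 h'.2.2) h)
  · intro h'
    exact absurd (Finset.mem_univ _) h'

theorem cf_root (j : Fin n) (μ : ι → Ω) (z : Var ι (Out n N.lv) → Ω) {t : Out n N.lv}
    (h : ∀ p, N.src p ≠ some t) (hj : j ≤ t.1.2) :
    L.cf j μ z (Sum.inl (Sum.inr t, j)) = μ t.1.1 * z (Sum.inr t) ^ a j := by
  rw [cf_wire, cf_first, if_pos hj, Finset.sum_eq_zero, sub_zero]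
  intro q _
  exact if_neg fun h' => h q (cf_pn_inr.1 h'.2.2)

theorem cf_low (j : Fin n) (μ : ι → Ω) (z : Var ι (Out n N.lv) → Ω) {t : Out n N.lv} (hj : t.1.2 < j) :
    L.cf j μ z (Sum.inl (Sum.inr t, j)) = 0 := by
  rw [cf_wire, cf_first, if_neg (not_le.2 hj), Finset.sum_eq_zero, sub_zero]
  intro q _
  refine if_neg fun h' => ?_
  have h1 := N.src_lv q t (cf_pn_inr.1 h'.2.2)
  have h2 := Fin.lt_def.1 hj
  have h3 := h'.1
  omega

theorem cf_free (j : Fin n) (μ : ι → Ω) (z : Var ι (Out n N.lv) → Ω) {p : ι × Fin 2}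
    (h1 : N.lv p.1 < n) (h2 : N.src p = none) (h3 : j.val ≤ N.lv p.1) :
    L.cf j μ z (Sum.inl (Sum.inl p, j)) = - (μ p.1 * z (Sum.inl p) ^ a j) := by
  rw [cf_wire, Finset.sum_eq_zero, zero_sub, Finset.sum_eq_single p]
  · rw [if_pos ⟨h3, h1, cf_pn_inl.2 ⟨rfl, h2⟩⟩]
  · intro q _ hq
    exact if_neg fun h' => hq (cf_pn_inl.1 h'.2.2).1
  · intro h'
    exact absurd (Finset.mem_univ _) h'
  · intro t _
    exact if_neg fun h' => nomatch h'.2

theorem cf_free_zero (j : Fin n) (μ : ι → Ω) (z : Var ι (Out n N.lv) → Ω) {p : ι × Fin 2}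
    (h : ¬ (N.lv p.1 < n ∧ N.src p = none ∧ j.val ≤ N.lv p.1)) :
    L.cf j μ z (Sum.inl (Sum.inl p, j)) = 0 := by
  rw [cf_wire, Finset.sum_eq_zero, zero_sub, Finset.sum_eq_zero, neg_zero]
  · intro q _
    refine if_neg fun h' => h ?_
    obtain ⟨rfl, h2⟩ := cf_pn_inl.1 h'.2.2
    exact ⟨h'.2.1, h2, h'.1⟩
  · intro t _
    exact if_neg fun h' => nomatch h'.2

theorem cf_leaf (j : Fin n) (μ : ι → Ω) (z : Var ι (Out n N.lv) → Ω) (k : κ) :
    L.cf j μ z (Sum.inr (j, k)) =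
      - ∑ c with N.lv c = n, μ c * aeval (fun e => z (Sum.inl (c, e))) (L.g j k c) := by
  have h1 : L.cf j μ z (Sum.inr (j, k)) = ∑ c with j.val ≤ N.lv c,
      if N.lv c = n then - (μ c * aeval (fun e => z (Sum.inl (c, e))) (L.g j k c)) else 0 := by
    refine cf_reindex j _ _ fun t ht => ?_
    subst ht
    simp only [m, true_and]
    split_ifs
    · simp only [map_neg, aeval_rename, Function.comp_def, mul_neg]
    · simp only [map_zero, mul_zero]
  rw [h1, ← Finset.sum_neg_distrib, Finset.sum_filter, Finset.sum_filter]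
  refine Finset.sum_congr rfl fun c _ => ?_
  by_cases hc : N.lv c = n
  · rw [if_pos (j.isLt.le.trans hc.ge)]
  · simp only [hc, if_false, ite_self]

theorem cf_sum (j : Fin n) (μ : ι → Ω) {b : Par N κ → Ω} {z : Var ι (Out n N.lv) → Ω} (hE : L.Eqs b z) :
    ∑ β, b β * L.cf j μ z β = 0 := by
  simp only [cf, Finset.mul_sum]
  rw [Finset.sum_comm]
  refine Finset.sum_eq_zero fun t _ => ?_
  have h1 : ∑ β, b β * (μ t.1.1 * aeval z (L.m t β)) = μ t.1.1 * ∑ β, b β * aeval z (L.m t β) := by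
    rw [Finset.mul_sum]
    exact Finset.sum_congr rfl fun β _ => by ring
  rw [h1, hE t, mul_zero]

/-- one level of a dependence among all equations -/
theorem cf_of_dep (j : Fin n) (μ : Out n N.lv → Ω) (z : Var ι (Out n N.lv) → Ω)
    (h : ∀ β, ∑ t, μ t * aeval z (L.m t β) = 0) (β : Par N κ) :
    L.cf j (fun c => if hc : j.val ≤ N.lv c then μ ⟨(c, j), hc⟩ else 0) z β = 0 := by
  by_cases hβ : plev β = j
  · rw [← h β, cf, Finset.sum_filter]
    refine Finset.sum_congr rfl fun t _ => ?_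
    split_ifs with h1 h2
    · obtain ⟨⟨c, i⟩, hi⟩ := t
      obtain rfl : i = j := h1
      rfl
    · exact absurd (h1 ▸ t.2) h2
    · rw [L.cf_m_ne t β (fun h3 => h1 (h3.symm.trans hβ)), map_zero, mul_zero]
  · exact L.cf_ne j _ z β hβ

end Leaf

end Crest.Agent.R181
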