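import Crest.Agent.R181.GNetB

/-!
# Genericity of the net: definitions (helper87)

Proof of `Leaf.good` (file `GGood`).  Fix a level `i` and a dependence `μ : ι → Ω` among the equations of
level `i` (`cf i μ z = 0`).  The leaf coefficients give a functional `lam` on `ℂ[x]` killing `(f)` (`Lam`).
Either all leaves are inactive, and then all steps (`COut`), or `lam = γ ev_v` in degree `a i` (`CLam`); after
rescaling every block the wires of level `≥ i` are glued up to roots of unity (`Glued`, `CGlue`).  Every level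
`j ≥ j0` (`j0` = first index with `f j0 (v) ≠ 0`) then gives a non-trivial linear relation among the parameters
of level `j` over the algebraic closure `KK v b (j+1)` (`CMem`, `CMu`, `CRel`), and counting transcendence
degrees gives a contradiction (`CAcl`, `CInt`).
-/

set_option autoImplicit false

namespace Crest.Agent.R181

open MvPolynomial

/-- the elements of `Ω` that are algebraic over `ℂ[s]` -/
noncomputable def acl {Ω : Type} [Field Ω] [Algebra ℂ Ω] (s : Set Ω) : Subalgebra ℂ Ω :=
  (Subalgebra.algebraicClosure (Algebra.adjoin ℂ s) Ω).restrictScalars ℂ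

/-- level of a parameter -/
def plev {n : ℕ} {ι : Type} {N : Net n ι} {κ : Type} : Par N κ → Fin n := Sum.elim Prod.snd Prod.fst

/-- algebraic closure of `v` and of the parameters of level `≥ l` -/
noncomputable def KK {n : ℕ} {ι : Type} {N : Net n ι} {κ : Type} {Ω : Type} [Field Ω] [Algebra ℂ Ω]
    (v : Fin n → Ω) (b : Par N κ → Ω) (l : ℕ) : Subalgebra ℂ Ω :=
  acl (Set.range v ∪ b '' {β | l ≤ (plev β).val})

theorem aeval_smul_hom {σ R : Type*} [CommRing R] [Algebra ℂ R] {g : MvPolynomial σ ℂ} {d : ℕ}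
    (hg : g.IsHomogeneous d) (r : R) (v : σ → R) :
    aeval (fun s => r * v s) g = r ^ d * aeval v g := by
  rw [aeval_def, aeval_def, eval₂_eq, eval₂_eq, Finset.mul_sum]
  refine Finset.sum_congr rfl fun m hm => ?_
  have h1 : ∑ s ∈ m.support, m s = d := by
    have := hg (mem_support_iff.1 hm)
    rw [← this, Finsupp.weight_apply, Finsupp.sum]
    simp
  simp only [mul_pow, Finset.prod_mul_distrib, Finset.prod_pow_eq_pow_sum, h1]
  ring

theorem aeval_zero_hom {σ R : Type*} [CommRing R] [Algebra ℂ R] {g : MvPolynomial σ ℂ} {d : ℕ}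
    (hg : g.IsHomogeneous d) (hd : 1 ≤ d) : aeval (fun _ : σ => (0 : R)) g = 0 := by
  have := aeval_smul_hom hg (0 : R) fun _ => 0
  rwa [zero_pow (by omega), zero_mul, zero_mul] at this

namespace Leaf

variable {n : ℕ} {ι : Type} [Fintype ι] [DecidableEq ι] {N : Net n ι} {a : Fin n → ℕ}
  {f : Fin n → MvPolynomial (Fin n) ℂ} {κ : Type} [Fintype κ] (L : Leaf N a f κ)
  {Ω : Type} [Field Ω] [Algebra ℂ Ω]

/-- all equations of the net hold at `z` for the parameters `b` -/
def Eqs (b : Par N κ → Ω) (z : Var ι (Out n N.lv) → Ω) : Prop :=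
  ∀ t, ∑ β, b β * aeval z (L.m t β) = 0

/-- coefficient of the parameter `β` in `∑_c μ c * E (c, j)` -/
noncomputable def cf (j : Fin n) (μ : ι → Ω) (z : Var ι (Out n N.lv) → Ω) (β : Par N κ) : Ω :=
  ∑ t : Out n N.lv with t.1.2 = j, μ t.1.1 * aeval z (L.m t β)

/-- `lam` is `μ c` times the evaluation at the inputs `u` on the pencil of every leaf `c` -/
def Lam (j : Fin n) (μ : ι → Ω) (u : ι × Fin 2 → Ω) (lam : MvPolynomial (Fin n) ℂ →ₗ[ℂ] Ω) : Prop :=
  ∀ c, N.lv c = n → ∀ F : MvPolynomial (Fin 2) ℂ, F.IsHomogeneous (a j) →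
    lam (aeval (fun e => L.lf (c, e)) F) = μ c * aeval (fun e => u (c, e)) F

/-- the wires of level `≥ i` are glued up to `a i`-th roots of unity -/
structure Glued (i : Fin n) (v : Fin n → Ω) (z : Var ι (Out n N.lv) → Ω) : Prop where
  leaf : ∀ p, N.lv p.1 = n → z (Sum.inl p) = aeval v (L.lf p)
  cons : ∀ p t, N.src p = some t → i ≤ t.1.2 → z (Sum.inl p) ^ a i = z (Sum.inr t) ^ a i
  root : ∀ t, (∀ p, N.src p ≠ some t) → i ≤ t.1.2 → z (Sum.inr t) = 0
  free : ∀ p, N.lv p.1 < n → N.src p = none → i.val ≤ N.lv p.1 → z (Sum.inl p) = 0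

end Leaf

end Crest.Agent.R181
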