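import Crest.Agent.R181.CCf

/-! # Rescaling the blocks (prefix `cglue_`) -/

set_option autoImplicit false

namespace Crest.Agent.R181

open MvPolynomial

namespace Leaf

variable {n : ℕ} {ι : Type} [Fintype ι] [DecidableEq ι] {N : Net n ι} {a : Fin n → ℕ}
  {f : Fin n → MvPolynomial (Fin n) ℂ} {κ : Type} [Fintype κ] (L : Leaf N a f κ)
  {Ω : Type} [Field Ω] [Algebra ℂ Ω]

/-- `sum_m`, `aeval_smul_hom`, `g_hom` -/
theorem cglue_scale {b : Par N κ → Ω} {z : Var ι (Out n N.lv) → Ω} (hE : L.Eqs b z) (ρ : ι → Ω) :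
    L.Eqs b fun w => ρ (blkOf (fun t : Out n N.lv => t.1.1) w) * z w := by
  intro t
  have h0 := hE t
  rw [L.sum_m] at h0 ⊢
  rw [← mul_zero (ρ t.1.1 ^ a t.1.2), ← h0, mul_sub, Finset.mul_sum]
  congr 1
  · refine Finset.sum_congr rfl fun t' ht' => ?_
    have e : t'.1.1 = t.1.1 := (Finset.mem_filter.1 ht').2.1
    simp only [blkOf, Sum.elim_inr, e]
    ring
  · split_ifs
    · rw [Finset.mul_sum]
      refine Finset.sum_congr rfl fun e _ => ?_
      simp only [blkOf, Sum.elim_inl]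
      ring
    · rw [Finset.mul_sum]
      refine Finset.sum_congr rfl fun k _ => ?_
      simp only [blkOf, Sum.elim_inl]
      rw [aeval_smul_hom (L.g_hom _ _ _)]
      ring

omit [Algebra ℂ Ω] in
theorem cglue_aux {e : ℕ} {c γ u w x y : Ω} (hγ : γ ≠ 0) (hx : x ≠ 0)
    (h0 : c * u ^ (e + 1) = γ * x ^ (e + 1)) (h1 : c * (u ^ e * w) = γ * (x ^ e * y)) :
    ∃ ρ : Ω, γ * ρ ^ (e + 1) = c ∧ ρ * u = x ∧ ρ * w = y := by
  have hu : u ≠ 0 := by
    rintro rfl
    rw [zero_pow (by omega), mul_zero] at h0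
    exact mul_ne_zero hγ (pow_ne_zero _ hx) h0.symm
  refine ⟨x / u, ?_, div_mul_cancel₀ x hu, ?_⟩
  · rw [div_pow, ← mul_div_assoc, ← h0, mul_div_assoc, div_self (pow_ne_zero _ hu), mul_one]
  · rw [div_mul_eq_mul_div, div_eq_iff hu]
    refine mul_left_cancel₀ (mul_ne_zero hγ (pow_ne_zero e hx)) ?_
    linear_combination u * h1 - w * h0

/-- `h p` for `p = 0, 1, d - 1, d`; `ρ = x / u` if `x ≠ 0`, `ρ = y / w` if `y ≠ 0`, else any root of `c / γ` -/
theorem cglue_rho [IsAlgClosed Ω] {d : ℕ} (hd : 1 ≤ d) {c γ u w x y : Ω} (hγ : γ ≠ 0)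
    (h : ∀ p ≤ d, c * (u ^ (d - p) * w ^ p) = γ * (x ^ (d - p) * y ^ p)) :
    ∃ ρ : Ω, γ * ρ ^ d = c ∧ ρ * u = x ∧ ρ * w = y := by
  obtain ⟨e, rfl⟩ : ∃ e, d = e + 1 := ⟨d - 1, by omega⟩
  have h0 := h 0 (by omega)
  have h1 := h 1 (by omega)
  have h2 := h e (by omega)
  have h3 := h (e + 1) le_rfl
  simp only [Nat.sub_zero, pow_zero, mul_one, Nat.add_sub_cancel, pow_one, Nat.add_sub_cancel_left,
    Nat.sub_self, one_mul] at h0 h1 h2 h3
  by_cases hx : x = 0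
  · by_cases hy : y = 0
    · obtain ⟨ρ, hρ⟩ := IsAlgClosed.exists_pow_nat_eq (c / γ) (n := e + 1) (by omega)
      have hc : γ * ρ ^ (e + 1) = c := by rw [hρ, mul_div_cancel₀ _ hγ]
      subst hx hy
      rw [zero_pow (by omega), mul_zero] at h0 h3
      refine ⟨ρ, hc, pow_eq_zero_iff (n := e + 1) (by omega) |>.1 ?_, pow_eq_zero_iff (n := e + 1) (by omega) |>.1 ?_⟩
      · refine mul_left_cancel₀ hγ ?_
        rw [mul_pow, ← mul_assoc, hc, h0, mul_zero]
      · refine mul_left_cancel₀ hγ ?_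
        rw [mul_pow, ← mul_assoc, hc, h3, mul_zero]
    · obtain ⟨ρ, a1, a2, a3⟩ := cglue_aux (c := c) (u := w) (w := u) (x := y) (y := x) hγ hy h3
        (by linear_combination h2)
      exact ⟨ρ, a1, a3, a2⟩
  · exact cglue_aux hγ hx h0 h1

/-- choose `ρ c` with `γ * ρ c ^ a i = μ c`, on leaves by `cglue_rho` (`F = X 0 ^ (a i - p) * X 1 ^ p`, `lf_hom`);
`cf_cons`, `cf_root`, `cf_free` -/
theorem cglue_exists [IsAlgClosed Ω] (ha1 : ∀ i, 1 ≤ a i) {b : Par N κ → Ω}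
    {z : Var ι (Out n N.lv) → Ω} (hE : L.Eqs b z) {i : Fin n} {μ : ι → Ω} (hR : ∀ β, L.cf i μ z β = 0)
    {lam : MvPolynomial (Fin n) ℂ →ₗ[ℂ] Ω} (hl : L.Lam i μ (fun p => z (Sum.inl p)) lam)
    {γ : Ω} {v : Fin n → Ω} (hγ : γ ≠ 0)
    (h : ∀ g : MvPolynomial (Fin n) ℂ, g.IsHomogeneous (a i) → lam g = γ * aeval v g) :
    ∃ z', L.Eqs b z' ∧ L.Glued i v z' := by
  have hd := ha1 i
  have hex : ∀ c, ∃ ρ : Ω, γ * ρ ^ a i = μ c ∧
      (N.lv c = n → ∀ e, ρ * z (Sum.inl (c, e)) = aeval v (L.lf (c, e))) := by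
    intro c
    by_cases hc : N.lv c = n
    · obtain ⟨ρ, a1, a2, a3⟩ := cglue_rho (c := μ c) (u := z (Sum.inl (c, 0))) (w := z (Sum.inl (c, 1)))
        (x := aeval v (L.lf (c, 0))) (y := aeval v (L.lf (c, 1))) hd hγ (fun p hp => by
          have e : a i = 1 * (a i - p) + 1 * p := by omega
          have h1 := hl c hc (X 0 ^ (a i - p) * X 1 ^ p) (by
            conv_rhs => rw [e]
            exact ((isHomogeneous_X ℂ 0).pow _).mul ((isHomogeneous_X ℂ 1).pow _))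
          have h2 := h (L.lf (c, 0) ^ (a i - p) * L.lf (c, 1) ^ p) (by
            conv_rhs => rw [e]
            exact ((L.lf_hom _).pow _).mul ((L.lf_hom _).pow _))
          simp only [map_mul, map_pow, aeval_X] at h1 h2
          rw [← h1, h2])
      refine ⟨ρ, a1, fun _ e => ?_⟩
      fin_cases e
      · exact a2
      · exact a3
    · obtain ⟨ρ, hρ⟩ := IsAlgClosed.exists_pow_nat_eq (μ c / γ) (n := a i) (by omega)
      exact ⟨ρ, by rw [hρ, mul_div_cancel₀ _ hγ], fun h' => absurd h' hc⟩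
  choose ρ h1 h2 using hex
  have key : ∀ c x, γ * (ρ c * x) ^ a i = μ c * x ^ a i := fun c x => by rw [mul_pow, ← mul_assoc, h1]
  have zer : ∀ c x, μ c * x ^ a i = 0 → ρ c * x = 0 := fun c x hx => by
    rw [← key] at hx
    exact pow_eq_zero_iff (n := a i) (by omega) |>.1 ((mul_eq_zero.1 hx).resolve_left hγ)
  refine ⟨_, L.cglue_scale hE ρ, ?_, ?_, ?_, ?_⟩
  · intro p hp
    exact h2 p.1 hp p.2
  · intro p t hp ht
    refine mul_left_cancel₀ hγ ?_
    have := hR (Sum.inl (Sum.inr t, i))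
    rw [L.cf_cons i μ z hp ht, sub_eq_zero] at this
    simp only [blkOf, Sum.elim_inl, Sum.elim_inr]
    rw [key, key, this]
  · intro t hp ht
    have := hR (Sum.inl (Sum.inr t, i))
    rw [L.cf_root i μ z hp ht] at this
    exact zer _ _ this
  · intro p hp hs hi
    have := hR (Sum.inl (Sum.inl p, i))
    rw [L.cf_free i μ z hp hs hi, neg_eq_zero] at this
    exact zer _ _ this

end Leaf

end Crest.Agent.R181
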