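import Crest.Agent.R181.CAcl

/-! # The point `v` is algebraic over the values of the `f` (prefix `cint_`) -/

set_option autoImplicit false

namespace Crest.Agent.R181

open MvPolynomial

variable {Ω : Type} [Field Ω] [Algebra ℂ Ω]

variable {n : ℕ} {a : Fin n → ℕ} {f : Fin n → MvPolynomial (Fin n) ℂ}

/-- Let `A = adjoin ℂ (range (f l (v)))` and `M` the `A`-span of the `v^m`, `degree m < e`.  By strong induction on
`d`, `aeval v g ∈ M` for `g` homogeneous of degree `d` (for `d ≥ e`: `g = ∑ q l * f l`, take homogeneous components,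
`deg q l = d - a l < d`).  So `M` is a f.g. `A`-module, contains `1`, and is stable under `v s`:
`isIntegral_of_smul_mem_submodule`. -/
theorem cint_mem (ha1 : ∀ i, 1 ≤ a i) (hf : ∀ i, (f i).IsHomogeneous (a i))
    (hN : ∃ e : ℕ, ∀ m : Fin n →₀ ℕ, e ≤ m.degree → monomial m (1 : ℂ) ∈ Ideal.span (Set.range f))
    (v : Fin n → Ω) (s : Fin n) : v s ∈ acl (Set.range fun l => aeval v (f l)) := by
  obtain ⟨e, he⟩ := hN
  set A := Algebra.adjoin ℂ (Set.range fun l => aeval v (f l)) with hA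
  set M : Submodule A Ω :=
    Submodule.span A ((fun m : Fin n →₀ ℕ => aeval v (monomial m (1 : ℂ))) '' {m | m.degree ≤ e}) with hM
  have key : ∀ d : ℕ, ∀ g : MvPolynomial (Fin n) ℂ, g.IsHomogeneous d → aeval v g ∈ M := by
    intro d
    induction d using Nat.strong_induction_on with
    | _ d ih =>
      intro g hg
      rw [g.as_sum, map_sum]
      refine M.sum_mem fun m hm => ?_
      have hd : m.degree = d := by
        rw [Finsupp.degree_eq_weight_one]
        exact hg (mem_support_iff.1 hm)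
      have e1 : aeval v (monomial m (coeff m g)) =
          (algebraMap ℂ A (coeff m g)) • aeval v (monomial m (1 : ℂ)) := by
        rw [algebraMap_smul, ← map_smul, smul_monomial, smul_eq_mul, mul_one]
      rw [e1]
      refine M.smul_mem _ ?_
      by_cases hde : d ≤ e
      · exact Submodule.subset_span ⟨m, by simpa [hd] using hde, rfl⟩
      obtain ⟨q, hq⟩ := Ideal.mem_span_range_iff_exists_fun.1 (he m (by omega))
      have e2 : monomial m (1 : ℂ) = homogeneousComponent d (monomial m (1 : ℂ)) := by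
        rw [homogeneousComponent_of_mem (isHomogeneous_monomial (1 : ℂ) hd), if_pos rfl]
      rw [e2, ← hq, map_sum, map_sum]
      refine M.sum_mem fun l _ => ?_
      rw [← sum_homogeneousComponent (q l), Finset.sum_mul, map_sum, map_sum]
      refine M.sum_mem fun k _ => ?_
      rw [homogeneousComponent_of_mem ((homogeneousComponent_isHomogeneous k (q l)).mul (hf l))]
      split_ifs with hk
      · have h1 := ih k (by have := ha1 l; omega) _ (homogeneousComponent_isHomogeneous k (q l))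
        rw [map_mul, mul_comm]
        exact M.smul_mem (⟨aeval v (f l), Algebra.subset_adjoin ⟨l, rfl⟩⟩ : A) h1
      · simp
  refine acl_of_isIntegral (isIntegral_of_smul_mem_submodule M ?_ ?_ _ fun x hx => ?_)
  · intro h0
    have h1 := key 0 1 (isHomogeneous_one _ _)
    rw [h0, map_one, Submodule.mem_bot] at h1
    exact one_ne_zero h1
  · exact Submodule.fg_span ((Finsupp.finite_of_degree_le e).image _)
  · induction hx using Submodule.span_induction with
    | mem x hx =>
      obtain ⟨m, -, rfl⟩ := hx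
      have h1 := key _ _ ((isHomogeneous_X ℂ s).mul (isHomogeneous_monomial (1 : ℂ) (d := m) rfl))
      rwa [map_mul, aeval_X] at h1
    | zero => simp
    | add x y _ _ hx hy => rw [smul_add]; exact M.add_mem hx hy
    | smul c x _ hx => rw [smul_comm]; exact M.smul_mem c hx

/-- `X s ^ e ∈ (f)` -/
theorem cint_ne
    (hN : ∃ e : ℕ, ∀ m : Fin n →₀ ℕ, e ≤ m.degree → monomial m (1 : ℂ) ∈ Ideal.span (Set.range f))
    {v : Fin n → Ω} (hv : v ≠ 0) : ∃ j, aeval v (f j) ≠ 0 := by
  obtain ⟨e, he⟩ := hN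
  obtain ⟨s, hs⟩ := Function.ne_iff.1 hv
  by_contra h
  simp only [not_exists, not_not] at h
  obtain ⟨q, hq⟩ := Ideal.mem_span_range_iff_exists_fun.1 (he (Finsupp.single s e) (by simp))
  have h1 := congrArg (aeval v) hq
  rw [← X_pow_eq_monomial, map_pow, aeval_X, map_sum] at h1
  simp only [map_mul, h, mul_zero, Finset.sum_const_zero] at h1
  exact pow_ne_zero e hs h1.symm

/-- apply `lam` to `f j * X s ^ (a i - a j)` with `v s ≠ 0` -/
theorem cint_zero (ha : Monotone a) (hf : ∀ i, (f i).IsHomogeneous (a i)) {i : Fin n}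
    {lam : MvPolynomial (Fin n) ℂ →ₗ[ℂ] Ω} (h0 : ∀ g ∈ Ideal.span (Set.range f), lam g = 0)
    {γ : Ω} {v : Fin n → Ω} (hγ : γ ≠ 0) (hv : v ≠ 0)
    (h : ∀ g : MvPolynomial (Fin n) ℂ, g.IsHomogeneous (a i) → lam g = γ * aeval v g)
    {j : Fin n} (hj : j ≤ i) : aeval v (f j) = 0 := by
  obtain ⟨s, hs⟩ := Function.ne_iff.1 hv
  have h1 : (f j * X s ^ (a i - a j)).IsHomogeneous (a i) := by
    have h2 := (hf j).mul (isHomogeneous_X_pow (R := ℂ) s (a i - a j))
    rwa [Nat.add_sub_cancel' (ha hj)] at h2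
  have h2 := h _ h1
  rw [h0 _ (Ideal.mul_mem_right _ _ (Ideal.subset_span ⟨j, rfl⟩)), map_mul, map_pow, aeval_X] at h2
  exact (mul_eq_zero.1 ((mul_eq_zero.1 h2.symm).resolve_left hγ)).resolve_right (pow_ne_zero _ hs)

/-- `j0` = least index with `f j0 (v) ≠ 0`; `v' = r * v` with `r ^ a j0 * f j0 (v) = 1` (`aeval_smul_hom`),
`γ' = γ / r ^ a i`; `cint_mem`, `acl_le` (the values `0`, `1` lie in every `acl`). -/
theorem cint_norm [IsAlgClosed Ω] (ha : Monotone a) (ha1 : ∀ i, 1 ≤ a i)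
    (hf : ∀ i, (f i).IsHomogeneous (a i))
    (hN : ∃ e : ℕ, ∀ m : Fin n →₀ ℕ, e ≤ m.degree → monomial m (1 : ℂ) ∈ Ideal.span (Set.range f))
    {i : Fin n} {lam : MvPolynomial (Fin n) ℂ →ₗ[ℂ] Ω} (h0 : ∀ g ∈ Ideal.span (Set.range f), lam g = 0)
    {γ : Ω} {v : Fin n → Ω} (hγ : γ ≠ 0) (hv : v ≠ 0)
    (h : ∀ g : MvPolynomial (Fin n) ℂ, g.IsHomogeneous (a i) → lam g = γ * aeval v g) :
    ∃ (j0 : Fin n) (γ' : Ω) (v' : Fin n → Ω), i < j0 ∧ γ' ≠ 0 ∧
      (∀ g : MvPolynomial (Fin n) ℂ, g.IsHomogeneous (a i) → lam g = γ' * aeval v' g) ∧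
      aeval v' (f j0) = 1 ∧ Set.range v' ⊆ acl ((fun l => aeval v' (f l)) '' {l | j0 < l}) := by
  classical
  obtain ⟨j0, hj0, hmin⟩ := (wellFounded_lt (α := Fin n)).has_min {j | aeval v (f j) ≠ 0} (cint_ne hN hv)
  have hj0 : aeval v (f j0) ≠ 0 := hj0
  obtain ⟨r, hr⟩ := IsAlgClosed.exists_pow_nat_eq (aeval v (f j0))⁻¹ (ha1 j0)
  have hr0 : r ≠ 0 := by
    rintro rfl
    rw [zero_pow (by have := ha1 j0; omega)] at hr
    exact inv_ne_zero hj0 hr.symm
  have h1 : aeval (fun s => r * v s) (f j0) = 1 := by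
    rw [aeval_smul_hom (hf j0), hr, inv_mul_cancel₀ hj0]
  refine ⟨j0, γ / r ^ a i, fun s => r * v s, ?_, div_ne_zero hγ (pow_ne_zero _ hr0), fun g hg => ?_, h1, ?_⟩
  · by_contra hc
    exact hj0 (cint_zero ha hf h0 hγ hv h (not_lt.1 hc))
  · rw [aeval_smul_hom hg, h g hg]
    field_simp
  · rintro _ ⟨s, rfl⟩
    refine acl_le ?_ (cint_mem ha1 hf hN (fun s => r * v s) s)
    rintro _ ⟨l, rfl⟩
    rcases lt_trichotomy l j0 with hl | rfl | hl
    · have h2 : aeval v (f l) = 0 := by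
        by_contra hc
        exact hmin l hc hl
      simp only [aeval_smul_hom (hf l), h2, mul_zero]
      exact zero_mem _
    · simp only [h1]
      exact one_mem _
    · exact acl_subset _ ⟨l, hl, rfl⟩

end Crest.Agent.R181
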