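import Crest.Agent.R181.CDefs

/-! # The functional `lam` (prefix `clam_`) -/

set_option autoImplicit false

namespace Crest.Agent.R181

open MvPolynomial

theorem clam_factor {K W V Ω : Type*} [Field K] [AddCommGroup W] [Module K W] [AddCommGroup V] [Module K V]
    [AddCommGroup Ω] [Module K Ω] (Θ : W →ₗ[K] V) (Ψ : W →ₗ[K] Ω) (h : LinearMap.ker Θ ≤ LinearMap.ker Ψ) :
    ∃ lam : V →ₗ[K] Ω, ∀ w, lam (Θ w) = Ψ w := by
  obtain ⟨g, hg⟩ :=
    (((LinearMap.ker Θ).liftQ Ψ h).comp Θ.quotKerEquivRange.symm.toLinearMap).exists_extend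
  refine ⟨g, fun w => ?_⟩
  have := LinearMap.congr_fun hg ⟨Θ w, LinearMap.mem_range_self Θ w⟩
  simpa [LinearMap.quotKerEquivRange_symm_apply_image] using this

namespace Leaf

variable {n : ℕ} {ι : Type} [Fintype ι] [DecidableEq ι] {N : Net n ι} {a : Fin n → ℕ}
  {f : Fin n → MvPolynomial (Fin n) ℂ} {κ : Type} [Fintype κ] (L : Leaf N a f κ)
  {Ω : Type} [Field Ω] [Algebra ℂ Ω]

omit [DecidableEq ι] [Fintype κ] in
theorem clam_hom {l : MvPolynomial (Fin n) ℂ} (hl : l ∈ L.F0) : l.IsHomogeneous 1 := by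
  obtain ⟨c, -, h0, -⟩ := L.pairs l hl l hl
  rw [← h0]
  exact L.lf_hom _

omit [DecidableEq ι] [Fintype κ] in
theorem clam_span (j : Fin n) {A B : MvPolynomial (Fin n) ℂ →ₗ[ℂ] Ω} (h : ∀ l ∈ L.F0, A (l ^ a j) = B (l ^ a j))
    {g : MvPolynomial (Fin n) ℂ} (hg : g.IsHomogeneous (a j)) : A g = B g := by
  refine LinearMap.eqOn_span (s := (fun l => l ^ a j) '' L.F0) ?_ (L.pow_span j hg)
  rintro _ ⟨l, hl, rfl⟩
  exact h l hl

omit [DecidableEq ι] [Fintype κ] in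
theorem clam_pow {j : Fin n} {μ : ι → Ω} {u : ι × Fin 2 → Ω} {lam : MvPolynomial (Fin n) ℂ →ₗ[ℂ] Ω}
    (h : L.Lam j μ u lam) {c : ι} (hc : N.lv c = n) (e : Fin 2) :
    lam (L.lf (c, e) ^ a j) = μ c * u (c, e) ^ a j := by
  have h1 := h c hc (X e ^ a j) (by simpa using (isHomogeneous_X ℂ e).pow (a j))
  simpa using h1

/-- On `W = Π c, homogeneousSubmodule (Fin 2) ℂ (a j)` let `Θ F = mk (∑ leaves, aeval lf (F c)) ∈ ℂ[x] ⧸ (f)` and
`Ψ F = ∑ leaves, μ c * aeval u (F c)`; `g_span` and `h` give `ker Θ ≤ ker Ψ`, so `Ψ = lam0 ∘ Θ`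
(`LinearMap.exists_extend` / `Submodule.liftQ`); `lam = lam0 ∘ mk`, evaluate at `Pi.single c F`. -/
theorem clam_exists (j : Fin n) (μ : ι → Ω) (u : ι × Fin 2 → Ω)
    (h : ∀ k, ∑ c with N.lv c = n, μ c * aeval (fun e => u (c, e)) (L.g j k c) = 0) :
    ∃ lam : MvPolynomial (Fin n) ℂ →ₗ[ℂ] Ω, (∀ g ∈ Ideal.span (Set.range f), lam g = 0) ∧
      L.Lam j μ u lam := by
  let Θ0 : (ι → MvPolynomial (Fin 2) ℂ) →ₗ[ℂ] MvPolynomial (Fin n) ℂ :=
    ∑ c with N.lv c = n, (aeval fun b => L.lf (c, b)).toLinearMap ∘ₗ LinearMap.proj c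
  let Ψ0 : (ι → MvPolynomial (Fin 2) ℂ) →ₗ[ℂ] Ω :=
    ∑ c with N.lv c = n, LinearMap.mulLeft ℂ (μ c) ∘ₗ (aeval fun e => u (c, e)).toLinearMap ∘ₗ LinearMap.proj c
  have hΘ0 : ∀ F, Θ0 F = ∑ c with N.lv c = n, aeval (fun b => L.lf (c, b)) (F c) := fun F => by
    simp [Θ0, LinearMap.sum_apply]
  have hΨ0 : ∀ F, Ψ0 F = ∑ c with N.lv c = n, μ c * aeval (fun e => u (c, e)) (F c) := fun F => by
    simp [Ψ0, LinearMap.sum_apply]
  let W0 : Submodule ℂ (ι → MvPolynomial (Fin 2) ℂ) :=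
    Submodule.pi Set.univ fun _ => homogeneousSubmodule (Fin 2) ℂ (a j)
  let I : Submodule ℂ (MvPolynomial (Fin n) ℂ) := (Ideal.span (Set.range f)).restrictScalars ℂ
  obtain ⟨lam, hlam⟩ := clam_factor (LinearMap.coprod (Θ0 ∘ₗ W0.subtype) I.subtype)
    ((Ψ0 ∘ₗ W0.subtype) ∘ₗ LinearMap.fst ℂ W0 I) (by
      rintro ⟨F, g⟩ hF
      rw [LinearMap.mem_ker] at hF ⊢
      have h1 : Θ0 F.1 + g.1 = 0 := hF
      have h2 : Θ0 F.1 ∈ Ideal.span (Set.range f) := by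
        rw [eq_neg_of_add_eq_zero_left h1]
        exact neg_mem g.2
      rw [hΘ0] at h2
      have h3 := L.g_span j F.1 (fun c => F.2 c (Set.mem_univ c)) h2
      have h4 : Submodule.span ℂ (Set.range (L.g j)) ≤ LinearMap.ker Ψ0 := by
        rw [Submodule.span_le]
        rintro _ ⟨k, rfl⟩
        rw [SetLike.mem_coe, LinearMap.mem_ker, hΨ0]
        exact h k
      exact h4 h3)
  refine ⟨lam, fun g hg => ?_, fun c hc F hF => ?_⟩
  · have := hlam (0, ⟨g, hg⟩)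
    simpa using this
  · have hmem : (Pi.single c F : ι → MvPolynomial (Fin 2) ℂ) ∈ W0 := by
      intro c' _
      by_cases hcc : c' = c
      · subst hcc
        rw [Pi.single_eq_same]
        exact hF
      · rw [Pi.single_eq_of_ne hcc]
        exact zero_mem _
    have h1 : lam (Θ0 (Pi.single c F) + 0) = Ψ0 (Pi.single c F) := hlam (⟨_, hmem⟩, 0)
    rw [add_zero, hΘ0, hΨ0, Finset.sum_eq_single c, Finset.sum_eq_single c] at h1
    · simpa using h1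
    · intro c' _ hcc
      simp [Pi.single_eq_of_ne hcc]
    · intro hn
      exact absurd (Finset.mem_filter.2 ⟨Finset.mem_univ c, hc⟩) hn
    · intro c' _ hcc
      simp [Pi.single_eq_of_ne hcc]
    · intro hn
      exact absurd (Finset.mem_filter.2 ⟨Finset.mem_univ c, hc⟩) hn

/-- If `lam (l ^ a j) = 0` for all `l ∈ F0` then `lam = 0` in degree `a j` (`pow_span`); use `F = X e ^ a j`.
Otherwise `γ = lam (l0 ^ a j) ≠ 0`, `v s = lam (l0 ^ (a j - 1) * X s) / γ`, so `lam (l0 ^ (a j - 1) * l) = γ * l(v)` for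
linear `l`; the leaf of the pair `(l0, l)` has `μ u^a = γ`, `μ u^(a-1) u' = γ l(v)`, so `u' = u l(v)` and
`lam (l ^ a) = μ u'^a = γ l(v)^a`; `pow_span`.  `l0(v) = 1` gives `v ≠ 0` (`aeval_zero_hom`). -/
theorem clam_pure (ha1 : ∀ i, 1 ≤ a i) {j : Fin n} {μ : ι → Ω} {u : ι × Fin 2 → Ω}
    {lam : MvPolynomial (Fin n) ℂ →ₗ[ℂ] Ω} (h : L.Lam j μ u lam) :
    (∀ c, N.lv c = n → ∀ e, μ c * u (c, e) ^ a j = 0) ∨
      ∃ (γ : Ω) (v : Fin n → Ω), γ ≠ 0 ∧ v ≠ 0 ∧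
        ∀ g : MvPolynomial (Fin n) ℂ, g.IsHomogeneous (a j) → lam g = γ * aeval v g := by
  by_cases h0 : ∀ l ∈ L.F0, lam (l ^ a j) = 0
  · left
    intro c hc e
    rw [← L.clam_pow h hc e]
    exact L.clam_span j (B := 0) h0 (by simpa using (L.lf_hom (c, e)).pow (a j))
  right
  push Not at h0
  obtain ⟨l0, hl0, hγ⟩ := h0
  obtain ⟨m, hm⟩ : ∃ m, a j = m + 1 := ⟨a j - 1, by have := ha1 j; omega⟩
  set γ := lam (l0 ^ a j) with hγe
  let v : Fin n → Ω := fun s => lam (l0 ^ m * X s) / γ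
  have hlin : ∀ l : MvPolynomial (Fin n) ℂ, l.IsHomogeneous 1 → lam (l0 ^ m * l) = γ * aeval v l := by
    intro l hl
    have hl' : l ∈ Submodule.span ℂ (Set.range (X : Fin n → MvPolynomial (Fin n) ℂ)) := by
      rw [← homogeneousSubmodule_one_eq_span_X]; exact hl
    refine LinearMap.eqOn_span (f := lam ∘ₗ LinearMap.mulLeft ℂ (l0 ^ m))
      (g := LinearMap.mulLeft ℂ γ ∘ₗ (aeval v).toLinearMap) ?_ hl'
    rintro _ ⟨s, rfl⟩
    simp only [LinearMap.comp_apply, LinearMap.mulLeft_apply, AlgHom.toLinearMap_apply, aeval_X, v]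
    field_simp
  refine ⟨γ, v, hγ, fun hv => ?_, fun g hg => ?_⟩
  · have h1 := hlin l0 (L.clam_hom hl0)
    rw [← pow_succ, ← hm, hv] at h1
    have h2 : aeval (0 : Fin n → Ω) l0 = 0 := aeval_zero_hom (L.clam_hom hl0) le_rfl
    rw [h2, mul_zero] at h1
    exact hγ h1
  · refine L.clam_span j (B := LinearMap.mulLeft ℂ γ ∘ₗ (aeval v).toLinearMap) (fun l hl => ?_) hg
    obtain ⟨c, hc, e0, e1⟩ := L.pairs l0 hl0 l hl
    have h1 := L.clam_pow h hc 0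
    have h2 := L.clam_pow h hc 1
    have h3 := h c hc (X 0 ^ m * X 1) (by
      rw [hm]; simpa using ((isHomogeneous_X ℂ (0 : Fin 2)).pow m).mul (isHomogeneous_X ℂ 1))
    simp only [map_mul, map_pow, aeval_X] at h3
    rw [e0, e1, hlin l (L.clam_hom hl)] at h3
    rw [e0, ← hγe] at h1
    rw [e1] at h2
    simp only [LinearMap.comp_apply, LinearMap.mulLeft_apply, AlgHom.toLinearMap_apply, map_pow]
    have h4 : μ c * u (c, 0) ^ m ≠ 0 := by
      intro h5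
      apply hγ
      rw [h1, hm, pow_succ, ← mul_assoc, h5, zero_mul]
    have h5 : u (c, 1) = u (c, 0) * aeval v l := by
      apply mul_left_cancel₀ h4
      rw [mul_assoc, ← h3, h1, hm]
      ring
    rw [h2, h5, mul_pow, h1]
    ring

/-- `X s ^ a j` is in the span of the `l ^ a j`, so `l0(v) ≠ 0` for some `l0 ∈ F0`.  The leaf `c` of the pair `(l0, l)` has
`lam (l0 ^ a) = μ c * l0(v)^a`, so `μ c = γ := lam (l0 ^ a) / l0(v)^a`, and `lam (l ^ a) = γ l(v)^a`. -/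
theorem clam_ev (ha1 : ∀ i, 1 ≤ a i) {j : Fin n} {μ : ι → Ω} {u : ι × Fin 2 → Ω} {v : Fin n → Ω}
    {lam : MvPolynomial (Fin n) ℂ →ₗ[ℂ] Ω} (h : L.Lam j μ u lam) (hv : v ≠ 0) (hμ : ∀ c, μ c ≠ 0)
    (hu : ∀ p, N.lv p.1 = n → u p = aeval v (L.lf p)) :
    ∃ γ : Ω, γ ≠ 0 ∧ ∀ g : MvPolynomial (Fin n) ℂ, g.IsHomogeneous (a j) → lam g = γ * aeval v g := by
  have h0 : ∃ l0 ∈ L.F0, aeval v l0 ≠ 0 := by
    by_contra hn
    push Not at hn
    apply hv
    funext s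
    have h1 := L.clam_span j (A := (aeval v).toLinearMap) (B := 0) (fun l hl => by
      have := ha1 j
      simp [hn l hl, show a j ≠ 0 by omega]) (g := X s ^ a j) (by simpa using (isHomogeneous_X ℂ s).pow (a j))
    simp only [AlgHom.toLinearMap_apply, map_pow, aeval_X, LinearMap.zero_apply] at h1
    exact pow_eq_zero_iff (by have := ha1 j; omega) |>.1 h1
  obtain ⟨l0, hl0, hv0⟩ := h0
  have key : ∀ l ∈ L.F0, ∃ c, lam (l0 ^ a j) / aeval v l0 ^ a j = μ c ∧ lam (l ^ a j) = μ c * aeval v l ^ a j := by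
    intro l hl
    obtain ⟨c, hc, e0, e1⟩ := L.pairs l0 hl0 l hl
    have h1 := L.clam_pow h hc 0
    have h2 := L.clam_pow h hc 1
    rw [hu (c, 0) hc, e0] at h1
    rw [hu (c, 1) hc, e1] at h2
    refine ⟨c, ?_, h2⟩
    rw [h1, mul_div_cancel_right₀ _ (pow_ne_zero _ hv0)]
  refine ⟨lam (l0 ^ a j) / aeval v l0 ^ a j, ?_, fun g hg => ?_⟩
  · obtain ⟨c, hc, -⟩ := key l0 hl0
    rw [hc]
    exact hμ c
  · refine L.clam_span j (B := LinearMap.mulLeft ℂ (lam (l0 ^ a j) / aeval v l0 ^ a j) ∘ₗ (aeval v).toLinearMap)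
      (fun l hl => ?_) hg
    obtain ⟨c, hc, h2⟩ := key l hl
    simp only [LinearMap.comp_apply, LinearMap.mulLeft_apply, AlgHom.toLinearMap_apply, map_pow]
    rw [hc, h2]

end Leaf

end Crest.Agent.R181
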