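import Crest.Agent.R181.CAcl

/-! # The wires are algebraic over `v` and the higher parameters (prefix `cmem_`) -/

set_option autoImplicit false

namespace Crest.Agent.R181

open MvPolynomial

namespace Leaf

variable {n : ℕ} {ι : Type} [Fintype ι] [DecidableEq ι] {N : Net n ι} {a : Fin n → ℕ}
  {f : Fin n → MvPolynomial (Fin n) ℂ} {κ : Type} [Fintype κ] (L : Leaf N a f κ)
  {Ω : Type} [Field Ω] [Algebra ℂ Ω]

/-- Induction on `N.rk c` for the statement "both inputs of `c` lie in `KK v b (lv c)` and every output `(c, l)`,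
`i ≤ l`, lies in `KK v b l`" (`i ≤ lv c`); inputs: `Glued.leaf` + `acl_aeval`, `Glued.cons` + `acl_of_pow`,
`Glued.free`; outputs: downward induction on `l`, `sum_m` for `t = (c, l)`, `acl_of_mul`, `acl_of_pow`,
`KK v b l' ≤ KK v b l` for `l ≤ l'`. -/
theorem cmem_glued (ha1 : ∀ i, 1 ≤ a i) {b : Par N κ → Ω} {z : Var ι (Out n N.lv) → Ω}
    (hb : ∀ β, b β ≠ 0) (hE : L.Eqs b z) {i : Fin n} {v : Fin n → Ω} (hG : L.Glued i v z) :
    (∀ p, i.val ≤ N.lv p.1 → z (Sum.inl p) ∈ KK v b (N.lv p.1)) ∧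
      ∀ t : Out n N.lv, i ≤ t.1.2 → z (Sum.inr t) ∈ KK v b t.1.2.val := by
  have hmono : ∀ {l l' : ℕ}, l ≤ l' → KK v b l' ≤ KK v b l := fun h =>
    acl_mono (Set.union_subset_union_right _ (Set.image_mono fun β hβ => h.trans hβ))
  have hpar : ∀ β, b β ∈ KK v b (plev β).val := fun β => acl_subset _ (Or.inr ⟨β, le_refl (plev β).val, rfl⟩)
  have hout : ∀ c, (∀ e, z (Sum.inl (c, e)) ∈ KK v b (N.lv c)) →
      ∀ (k : ℕ) (t : Out n N.lv), n - t.1.2.val = k → t.1.1 = c → z (Sum.inr t) ∈ KK v b t.1.2.val := by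
    intro c hin k
    induction k using Nat.strong_induction_on with
    | _ k ih =>
      rintro t rfl rfl
      have h1 := (L.sum_m b z t).symm.trans (hE t)
      have hin' : ∀ e, z (Sum.inl (t.1.1, e)) ∈ KK v b t.1.2.val := fun e => hmono t.2 (hin e)
      rw [← Finset.add_sum_erase _ _ (a := t) (by simp), sub_eq_zero, ← eq_sub_iff_add_eq] at h1
      refine acl_of_pow (ha1 t.1.2) (acl_of_mul (hpar (Sum.inl (Sum.inr t, t.1.2))) (hb _) ?_)
      rw [h1]
      refine sub_mem (S := Subalgebra ℂ Ω) ?_ (sum_mem fun t' ht' => mul_mem (hpar (Sum.inl (Sum.inr t', t.1.2)))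
        (pow_mem ?_ _))
      · split_ifs
        · exact sum_mem fun e _ => mul_mem (hpar (Sum.inl (_, t.1.2))) (pow_mem (hin' e) _)
        · exact sum_mem fun k _ => mul_mem (hpar (Sum.inr (t.1.2, k))) (acl_aeval hin' _)
      · obtain ⟨h2, h3⟩ := Finset.mem_erase.1 ht'
        obtain ⟨h4, h5⟩ := (Finset.mem_filter.1 h3).2
        have h6 : t.1.2 < t'.1.2 := lt_of_le_of_ne h5 fun h => h2 (Subtype.ext (Prod.ext h4 h.symm))
        have h7 := t'.1.2.2
        exact hmono h5 (ih _ (by have := Fin.lt_def.1 h6; omega) t' rfl h4)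
  have hin : ∀ (k : ℕ) (c : ι), N.rk c = k → i.val ≤ N.lv c → ∀ e, z (Sum.inl (c, e)) ∈ KK v b (N.lv c) := by
    intro k
    induction k using Nat.strong_induction_on with
    | _ k ih =>
      rintro c rfl hc e
      rcases (N.lv_le c).eq_or_lt with h | h
      · rw [hG.leaf (c, e) h]
        exact acl_aeval (fun j => acl_subset _ (Set.mem_union_left _ (Set.mem_range_self j))) _
      · rcases hs : N.src (c, e) with _ | t
        · rw [hG.free (c, e) h hs hc]
          exact zero_mem _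
        · have h1 : t.1.2.val = N.lv c := N.src_lv _ _ hs
          have h2 : i ≤ t.1.2 := Fin.le_def.2 (h1 ▸ hc)
          have h3 := hout _ (ih _ (N.src_rk _ _ hs) t.1.1 rfl ((Fin.le_def.1 h2).trans t.2)) _ t rfl rfl
          refine acl_of_pow (ha1 i) ?_
          rw [hG.cons _ _ hs h2, ← h1]
          exact pow_mem h3 _
  exact ⟨fun p hp => hin _ p.1 rfl hp p.2,
    fun t ht => hout _ (hin _ t.1.1 rfl ((Fin.le_def.1 ht).trans t.2)) _ t rfl rfl⟩

end Leaf

end Crest.Agent.R181
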