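import Crest.Agent.R181.CAcl

/-! # Weights that cancel the wires of one level (prefix `cmu_`) -/

set_option autoImplicit false

namespace Crest.Agent.R181

open MvPolynomial

namespace Leaf

variable {n : ℕ} {ι : Type} [Fintype ι] [DecidableEq ι] {N : Net n ι} {a : Fin n → ℕ}
  {f : Fin n → MvPolynomial (Fin n) ℂ} {κ : Type} [Fintype κ] (L : Leaf N a f κ)
  {Ω : Type} [Field Ω] [Algebra ℂ Ω]

omit [DecidableEq ι] in
/-- downward recursion on the rank (e.g. induction on `r`: a solution for all `c` with `M ≤ rk c + r`) -/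
theorem cmu_rec (rk : ι → ℕ) (nx : ι → Option ι) (hrk : ∀ c c', nx c = some c' → rk c < rk c')
    (S : Submonoid Ω) (η : ι → Ω) (hη : ∀ c, η c ∈ S) :
    ∃ μ : ι → Ω, (∀ c, μ c ∈ S) ∧ ∀ c c', nx c = some c' → μ c = μ c' * η c := by
  classical
  obtain ⟨M, hM⟩ : ∃ M, ∀ c, rk c < M :=
    ⟨Finset.univ.sup rk + 1, fun c => Nat.lt_succ_of_le (Finset.le_sup (Finset.mem_univ c))⟩
  have key : ∀ r : ℕ, ∃ μ : ι → Ω, (∀ c, μ c ∈ S) ∧
      ∀ c c', M ≤ rk c + r → nx c = some c' → μ c = μ c' * η c := by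
    intro r
    induction r with
    | zero =>
      refine ⟨fun _ => 1, fun _ => S.one_mem, fun c c' h _ => ?_⟩
      have := hM c
      omega
    | succ r ih =>
      obtain ⟨μ, hμS, hμ⟩ := ih
      refine ⟨fun c => if M = rk c + r + 1 then (nx c).elim 1 (fun c' => μ c' * η c) else μ c,
        fun c => ?_, fun c c' h hc => ?_⟩
      · dsimp only
        split_ifs
        · cases nx c with
          | none => exact S.one_mem
          | some c' => exact S.mul_mem (hμS c') (hη c)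
        · exact hμS c
      · have h1 := hrk c c' hc
        dsimp only
        rw [if_neg (by omega : ¬ M = rk c' + r + 1)]
        split_ifs with h2
        · rw [hc]; rfl
        · exact hμ c c' (by omega) hc
  obtain ⟨μ, h1, h2⟩ := key M
  exact ⟨μ, h1, fun c c' hc => h2 c c' (by omega) hc⟩

/-- `z (inl p) = ζ * z (inr t)` with `ζ ^ a i = 1` (take `ζ = 1` if both vanish); `nx c` = the step that consumes
`(c, j)` (`src_inj`), `η c = ζ ^ a j`, `S` = the non-zero elements of `acl ∅` -/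
theorem cmu_exists (ha1 : ∀ i, 1 ≤ a i) {z : Var ι (Out n N.lv) → Ω} {i : Fin n} {v : Fin n → Ω}
    (hG : L.Glued i v z) {j : Fin n} (hj : i ≤ j) :
    ∃ μ : ι → Ω, (∀ c, μ c ≠ 0) ∧ (∀ c, μ c ∈ acl (∅ : Set Ω)) ∧
      ∀ p t, N.src p = some t → t.1.2 = j →
        μ t.1.1 * z (Sum.inr t) ^ a j = μ p.1 * z (Sum.inl p) ^ a j := by
  classical
  let S : Submonoid Ω := (acl (∅ : Set Ω)).toSubmonoid ⊓ nonZeroDivisors Ω
  have hroot : ∀ x y : Ω, x ^ a i = y ^ a i → ∃ η ∈ S, η * y ^ a j = x ^ a j := by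
    intro x y hxy
    have hi : a i ≠ 0 := by have := ha1 i; omega
    by_cases hy : y = 0
    · have hx : x = 0 := by
        rw [hy, zero_pow hi] at hxy
        exact pow_eq_zero_iff hi |>.1 hxy
      exact ⟨1, S.one_mem, by rw [hx, hy, one_mul]⟩
    · have hζ : (x / y) ^ a i = 1 := by
        rw [div_pow, hxy, div_self (pow_ne_zero _ hy)]
      have hζ0 : x / y ≠ 0 := by
        intro h0
        rw [h0, zero_pow hi] at hζ
        exact zero_ne_one hζ
      have hmem : x / y ∈ acl (∅ : Set Ω) :=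
        acl_of_pow (ha1 i) (by rw [hζ]; exact Subalgebra.one_mem _)
      refine ⟨(x / y) ^ a j, S.pow_mem ⟨hmem, mem_nonZeroDivisors_of_ne_zero hζ0⟩ _, ?_⟩
      rw [← mul_pow, div_mul_cancel₀ _ hy]
  have hex : ∀ c : ι, ∃ (o : Option ι) (η : Ω), η ∈ S ∧ (∀ c', o = some c' → N.rk c < N.rk c') ∧
      ∀ p t, N.src p = some t → t.1.1 = c → t.1.2 = j →
        o = some p.1 ∧ η * z (Sum.inr t) ^ a j = z (Sum.inl p) ^ a j := by
    intro c
    by_cases h : ∃ p t, N.src p = some t ∧ t.1.1 = c ∧ t.1.2 = j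
    · obtain ⟨p, t, hp, hc, ht⟩ := h
      obtain ⟨η, hηS, hη⟩ := hroot _ _ (hG.cons p t hp (ht ▸ hj))
      refine ⟨some p.1, η, hηS, fun c' hc' => ?_, fun p' t' hp' hc' ht' => ?_⟩
      · rw [← Option.some.inj hc', ← hc]
        exact N.src_rk p t hp
      · have e : t' = t := Subtype.ext (Prod.ext (hc'.trans hc.symm) (ht'.trans ht.symm))
        subst e
        have e' : p' = p := N.src_inj _ _ _ hp' hp
        subst e'
        exact ⟨rfl, hη⟩
    · exact ⟨none, 1, S.one_mem, fun c' hc' => (by cases hc'),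
        fun p t hp hc ht => (h ⟨p, t, hp, hc, ht⟩).elim⟩
  choose nx η hηS hrk hnx using hex
  obtain ⟨μ, hμS, hμ⟩ := cmu_rec N.rk nx hrk S η hηS
  refine ⟨μ, fun c => nonZeroDivisors.ne_zero (hμS c).2, fun c => (hμS c).1, fun p t hp ht => ?_⟩
  obtain ⟨h1, h2⟩ := hnx t.1.1 p t hp rfl ht
  rw [hμ _ _ h1, mul_assoc, h2]

end Leaf

end Crest.Agent.R181
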