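import Crest.Agent.R181.CCf

/-! # Inactive steps (prefix `cout_`) -/

set_option autoImplicit false

namespace Crest.Agent.R181

open MvPolynomial

namespace Leaf

variable {n : ℕ} {ι : Type} [Fintype ι] [DecidableEq ι] {N : Net n ι} {a : Fin n → ℕ}
  {f : Fin n → MvPolynomial (Fin n) ℂ} {κ : Type} [Fintype κ] (L : Leaf N a f κ)
  {Ω : Type} [Field Ω] [Algebra ℂ Ω]

/-- downward induction on the level, `sum_m`, `aeval_zero_hom` -/
theorem cout_zero (ha1 : ∀ i, 1 ≤ a i) {b : Par N κ → Ω} {z : Var ι (Out n N.lv) → Ω} (hb : ∀ β, b β ≠ 0)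
    (hE : L.Eqs b z) {c : ι} (h : ∀ e, z (Sum.inl (c, e)) = 0) (t : Out n N.lv) (ht : t.1.1 = c) :
    z (Sum.inr t) = 0 := by
  have h0 : ∀ i, (0 : Ω) ^ a i = 0 := fun i => zero_pow (Nat.one_le_iff_ne_zero.1 (ha1 i))
  induction hk : n - t.1.2.val using Nat.strong_induction_on generalizing t with
  | _ k ih =>
    have h1 := hE t
    rw [L.sum_m, Finset.sum_eq_single_of_mem t (by simp) fun t' ht' hne => ?_] at h1
    · simp only [ht, h, h0, mul_zero, Finset.sum_const_zero, aeval_zero_hom (L.g_hom _ _ _) (ha1 _), ite_self,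
        sub_zero] at h1
      exact eq_zero_of_pow_eq_zero ((mul_eq_zero.1 h1).resolve_left (hb _))
    · obtain ⟨h2, h3⟩ := (Finset.mem_filter.1 ht').2
      have h4 : t.1.2.val < t'.1.2.val := lt_of_le_of_ne h3 fun h5 =>
        hne (Subtype.ext (Prod.ext h2 (Fin.ext h5.symm)))
      have h5 := t'.1.2.2
      rw [ih (n - t'.1.2.val) (by omega) t' (h2.trans ht) rfl, h0, mul_zero]

/-- induction on `N.rk c`: `μ c * z (inl (c, e)) ^ a i = 0` for both inputs (`cf_cons` with the induction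
hypothesis for the producer, `cf_free`, or `h`), then `cout_zero` -/
theorem cout_inactive (ha1 : ∀ i, 1 ≤ a i) {b : Par N κ → Ω} {z : Var ι (Out n N.lv) → Ω}
    (hb : ∀ β, b β ≠ 0) (hE : L.Eqs b z) {i : Fin n} {μ : ι → Ω} (hR : ∀ β, L.cf i μ z β = 0)
    (h : ∀ c, N.lv c = n → ∀ e, μ c * z (Sum.inl (c, e)) ^ a i = 0) (c : ι) (hc : i.val ≤ N.lv c) :
    μ c = 0 ∨ ∀ w, blkOf (fun t : Out n N.lv => t.1.1) w = c → z w = 0 := by
  have h0 : (0 : Ω) ^ a i = 0 := zero_pow (Nat.one_le_iff_ne_zero.1 (ha1 i))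
  induction hk : N.rk c using Nat.strong_induction_on generalizing c with
  | _ k ih =>
    have h1 : ∀ e, μ c * z (Sum.inl (c, e)) ^ a i = 0 := fun e => by
      rcases (N.lv_le c).eq_or_lt with h2 | h2
      · exact h c h2 e
      rcases h3 : N.src (c, e) with _ | t
      · exact neg_eq_zero.1 ((L.cf_free i μ z (p := (c, e)) h2 h3 hc).symm.trans (hR _))
      have h4 : i ≤ t.1.2 := hc.trans_eq (N.src_lv _ _ h3).symm
      have h5 := (L.cf_cons i μ z h3 h4).symm.trans (hR _)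
      rcases ih _ (hk ▸ N.src_rk _ _ h3) t.1.1 (le_trans h4 t.2) rfl with h6 | h6
      · rwa [h6, zero_mul, zero_sub, neg_eq_zero] at h5
      · rwa [h6 (Sum.inr t) rfl, h0, mul_zero, zero_sub, neg_eq_zero] at h5
    refine or_iff_not_imp_left.2 fun hμ w hw => ?_
    have h2 : ∀ e, z (Sum.inl (c, e)) = 0 := fun e =>
      eq_zero_of_pow_eq_zero ((mul_eq_zero.1 (h1 e)).resolve_left hμ)
    rcases w with ⟨c', e⟩ | t
    · obtain rfl : c' = c := hw
      exact h2 e
    · exact L.cout_zero ha1 hb hE h2 t hw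

end Leaf

end Crest.Agent.R181
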