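import Crest.Agent.R181.CInt
import Crest.Agent.R181.CCf
import Crest.Agent.R181.CLam
import Crest.Agent.R181.CMem
import Crest.Agent.R181.CMu

/-! # The linear relation of level `j` (prefix `crel_`) -/

set_option autoImplicit false

namespace Crest.Agent.R181

open MvPolynomial

namespace Leaf

variable {n : ℕ} {ι : Type} [Fintype ι] [DecidableEq ι] {N : Net n ι} {a : Fin n → ℕ}
  {f : Fin n → MvPolynomial (Fin n) ℂ} {κ : Type} [Fintype κ] (L : Leaf N a f κ)
  {Ω : Type} [Field Ω] [Algebra ℂ Ω]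

theorem crel_exists (ha : Monotone a) (ha1 : ∀ i, 1 ≤ a i) (hf : ∀ i, (f i).IsHomogeneous (a i))
    {b : Par N κ → Ω} {z : Var ι (Out n N.lv) → Ω} (hb : ∀ β, b β ≠ 0) (hE : L.Eqs b z) {i : Fin n}
    {v : Fin n → Ω} (hG : L.Glued i v z) {j0 : Fin n} (hi : i ≤ j0) (hv : aeval v (f j0) ≠ 0)
    {j : Fin n} (hj : j0 ≤ j) :
    ∃ φ : Par N κ → Ω, (∀ β, φ β ∈ KK v b (j.val + 1)) ∧ (∀ β, plev β ≠ j → φ β = 0) ∧
      (∃ β, φ β ≠ 0) ∧ ∑ β, b β * φ β = 0 := by
  have hij : i ≤ j := hi.trans hj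
  obtain ⟨μ, hμ0, hμ1, hμ⟩ := L.cmu_exists ha1 hG hij
  obtain ⟨hin, hout⟩ := L.cmem_glued ha1 hb hE hG
  have hK : ∀ l l' : ℕ, l ≤ l' → KK v b l' ≤ KK v b l := fun l l' h =>
    acl_mono (Set.union_subset_union_right _ (Set.image_mono fun β (hβ : l' ≤ _) => h.trans hβ))
  have hμ2 : ∀ c, μ c ∈ KK v b (j.val + 1) := fun c => acl_mono (Set.empty_subset _) (hμ1 c)
  have h0 : ∀ x : Ω, x = 0 → x ∈ KK v b (j.val + 1) := fun x hx => hx ▸ zero_mem _
  have hpow : (0 : Ω) ^ a j = 0 := zero_pow (by have := ha1 j; omega)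
  refine ⟨L.cf j μ z, fun β => ?_, L.cf_ne j μ z, ?_, L.cf_sum j μ hE⟩
  · by_cases hβ : plev β = j
    swap
    · exact h0 _ (L.cf_ne j μ z β hβ)
    rcases β with ⟨p | t, j'⟩ | ⟨j', k⟩
    · obtain rfl : j' = j := hβ
      by_cases hp : N.lv p.1 < n ∧ N.src p = none ∧ j'.val ≤ N.lv p.1
      · refine h0 _ ?_
        rw [L.cf_free j' μ z hp.1 hp.2.1 hp.2.2, hG.free p hp.1 hp.2.1 (le_trans hij hp.2.2), hpow,
          mul_zero, neg_zero]
      · exact h0 _ (L.cf_free_zero j' μ z hp)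
    · obtain rfl : j' = j := hβ
      rcases lt_or_ge t.1.2 j' with ht | ht
      · exact h0 _ (L.cf_low j' μ z ht)
      by_cases hc : ∃ p, N.src p = some t
      · obtain ⟨p, hp⟩ := hc
        rw [L.cf_cons j' μ z hp ht]
        rcases ht.eq_or_lt with e | e
        · exact h0 _ (sub_eq_zero.2 (hμ p t hp e.symm))
        · have h1 : j'.val + 1 ≤ t.1.2.val := e
          have h2 := N.src_lv p t hp
          have h3 : i.val ≤ j'.val := hij
          exact sub_mem (mul_mem (hμ2 _) (pow_mem (hK _ _ h1 (hout t (hij.trans ht))) _))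
            (mul_mem (hμ2 _) (pow_mem (hK _ _ (h2 ▸ h1) (hin p (by omega))) _))
      · refine h0 _ ?_
        have hc' : ∀ p, N.src p ≠ some t := fun p hp => hc ⟨p, hp⟩
        rw [L.cf_root j' μ z hc' ht, hG.root t hc' (hij.trans ht), hpow, mul_zero]
    · obtain rfl : j' = j := hβ
      rw [L.cf_leaf]
      refine neg_mem (sum_mem fun c hc => mul_mem (hμ2 c) (acl_aeval (fun e => ?_) _))
      have h1 : N.lv c = n := (Finset.mem_filter.1 hc).2
      have h2 := j'.2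
      have h3 := i.2
      exact hK _ _ (show j'.val + 1 ≤ N.lv (c, e).1 by simp only [h1]; omega)
        (hin (c, e) (by simp only [h1]; omega))
  · by_contra hn
    push Not at hn
    have hv0 : v ≠ 0 := by
      rintro rfl
      exact hv (aeval_zero_hom (hf j0) (ha1 j0))
    obtain ⟨lam, h1, hl⟩ := L.clam_exists j μ (fun p => z (Sum.inl p)) fun k =>
      neg_eq_zero.1 ((L.cf_leaf j μ z k).symm.trans (hn _))
    obtain ⟨γ, hγ, h2⟩ := L.clam_ev ha1 hl hv0 hμ0 hG.leaf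
    exact hv (cint_zero ha hf h1 hγ hv0 h2 hj)

end Leaf

end Crest.Agent.R181
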