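import Crest.Agent.R181.KKos

/-! # Base change from `ℂ` to a division algebra `D` (task E1)

Key lemma: for a finite-dimensional complex subspace `W` of `ι → PD ℂ n` (`ι` finite; use it for `ι = Unit` or prove
it for a general coefficientwise map), the `D`-span of its image under `iota` has `D`-dimension `dim_ℂ W`.
A `ℂ`-independent family `w i` stays `D`-independent: if `∑ c i • iota (w i) = 0`, apply a `ℂ`-linear functional
`λ : D → ℂ` coefficientwise: `∑ λ (c i) • w i = 0`, so `λ (c i) = 0` for all `λ`, so `c i = 0`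
(`Module.forall_dual_apply_eq_zero_iff`). For graded `N`: `bc N ⊓ deg e = bc (N ⊓ deg e)` (apply `hc e`, which commutes
with `iota`), `ch (bc N) p j` is the span of the image of `ch N p j` (split `f = ∑ U, Pi.single U (f U)`), and
`kos (xv D n)` commutes with `iota ∘ ·`; `bc ⊤ = ⊤` is `bc_supp univ`. -/

set_option autoImplicit false

namespace Crest.Agent.R181

open Finset

variable {D : Type*} [DivisionRing D] [Algebra ℂ D] {n : ℕ}

theorem coeff_iota (g : MvPolynomial (Fin n) ℂ) (m : Mon n) :
    (iota D n g).coeff m = algebraMap ℂ D (g.coeff m) :=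
  AddMonoidAlgebra.coeff_mapRingHom _ _ _

theorem iota_single (m : Mon n) (c : ℂ) :
    iota D n (AddMonoidAlgebra.single m c) = AddMonoidAlgebra.single m (algebraMap ℂ D c) :=
  AddMonoidAlgebra.mapRingHom_single _ _ _

theorem commute_iota (g : MvPolynomial (Fin n) ℂ) (h : PD D n) : Commute (iota D n g) h := by
  induction g using AddMonoidAlgebra.induction_linear with
  | zero => rw [map_zero]; exact Commute.zero_left _
  | add a b ha hb => rw [map_add]; exact ha.add_left hb
  | single m c =>
    rw [iota_single]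
    exact AddMonoidAlgebra.single_commute (fun m' => AddCommute.all _ _)
      (fun r => Algebra.commutes c r) h

theorem bc_supp (X : Set (Mon n)) : bc D (supp ℂ X) = supp D X := by
  apply le_antisymm
  · rw [bc, Submodule.span_le]
    rintro _ ⟨g, hg, rfl⟩
    refine mem_supp.2 fun m hm => mem_supp.1 hg m fun h0 => hm ?_
    have h1 : (g : MvPolynomial (Fin n) ℂ).coeff m = 0 := h0
    rw [coeff_iota, h1, map_zero]
  · rw [supp_eq_span, Submodule.span_le]
    rintro _ ⟨m, hm, rfl⟩
    refine Submodule.subset_span ⟨AddMonoidAlgebra.single m 1, single_mem_supp hm 1, ?_⟩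
    rw [iota_single, map_one]

theorem bc_mul (I : Ideal (MvPolynomial (Fin n) ℂ)) {g : PD D n}
    (hg : g ∈ bc D (I.restrictScalars ℂ)) (h : PD D n) : g * h ∈ bc D (I.restrictScalars ℂ) := by
  induction hg using Submodule.span_induction with
  | mem x hx =>
    obtain ⟨a, ha, rfl⟩ := hx
    induction h using AddMonoidAlgebra.induction_linear with
    | zero => rw [mul_zero]; exact zero_mem _
    | add u v hu hv => rw [mul_add]; exact add_mem hu hv
    | single m c =>
      have e : (AddMonoidAlgebra.single m c : PD D n) =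
          c • iota D n (AddMonoidAlgebra.single m 1) := by
        rw [iota_single, map_one, AddMonoidAlgebra.smul_single', mul_one]
      rw [(commute_iota a _).eq, e, smul_mul_assoc, ← map_mul]
      exact Submodule.smul_mem _ _ (Submodule.subset_span ⟨_, I.mul_mem_left _ ha, rfl⟩)
  | zero => rw [zero_mul]; exact zero_mem _
  | add u v _ _ hu hv => rw [add_mul]; exact add_mem hu hv
  | smul c u _ hu => rw [smul_mul_assoc]; exact Submodule.smul_mem _ _ hu

theorem mem_bc_of_mem_span (I : Ideal (MvPolynomial (Fin n) ℂ)) {g : PD D n}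
    (hg : g ∈ Ideal.span (iota D n '' (I : Set (MvPolynomial (Fin n) ℂ)))) :
    g ∈ bc D (I.restrictScalars ℂ) := by
  have key : ∀ r : PD D n, r * g ∈ bc D (I.restrictScalars ℂ) := by
    induction hg using Submodule.span_induction with
    | mem x hx =>
      obtain ⟨a, ha, rfl⟩ := hx
      intro r
      rw [← (commute_iota a r).eq]
      exact bc_mul I (Submodule.subset_span ⟨a, ha, rfl⟩) r
    | zero => intro r; rw [mul_zero]; exact zero_mem _
    | add u v _ _ hu hv => intro r; rw [mul_add]; exact add_mem (hu r) (hv r)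
    | smul c u _ hu => intro r; rw [smul_eq_mul, ← mul_assoc]; exact hu _
  simpa using key 1

/-- base change preserves the dimension -/
theorem ebase_finrank {V V' κ : Type*} [AddCommGroup V] [Module ℂ V] [AddCommGroup V'] [Module D V']
    (φ : V →+ V') (hφ : ∀ (c : ℂ) v, φ (c • v) = algebraMap ℂ D c • φ v)
    (co : κ → V →ₗ[ℂ] ℂ) (co' : κ → V' →ₗ[D] D) (hco : ∀ x v, co' x (φ v) = algebraMap ℂ D (co x v))
    (hinj : ∀ v, (∀ x, co x v = 0) → v = 0) (W : Submodule ℂ V) [Module.Finite ℂ W] :
    Module.finrank D (Submodule.span D (φ '' (W : Set V))) = Module.finrank ℂ W := by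
  let b := Module.finBasis ℂ W
  have hli : LinearIndependent ℂ (fun i => (b i : V)) :=
    b.linearIndependent.map' W.subtype (Submodule.ker_subtype W)
  have h1 : Submodule.span D (φ '' (W : Set V)) = Submodule.span D (Set.range fun i => φ (b i : V)) := by
    apply le_antisymm
    · rw [Submodule.span_le]
      rintro _ ⟨v, hv, rfl⟩
      have e : v = ∑ i, b.repr ⟨v, hv⟩ i • (b i : V) := by
        have := congrArg W.subtype (b.sum_repr ⟨v, hv⟩)
        rw [map_sum] at this
        exact this.symm
      rw [e, map_sum]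
      refine Submodule.sum_mem _ fun i _ => ?_
      rw [hφ]
      exact Submodule.smul_mem _ _ (Submodule.subset_span ⟨i, rfl⟩)
    · refine Submodule.span_mono ?_
      rintro _ ⟨i, rfl⟩
      exact ⟨_, (b i).2, rfl⟩
  have h2 : LinearIndependent D fun i => φ (b i : V) := by
    rw [Fintype.linearIndependent_iff]
    intro c hc i
    rw [← Module.forall_dual_apply_eq_zero_iff ℂ]
    intro l
    refine Fintype.linearIndependent_iff.1 hli (fun i => l (c i)) (hinj _ fun x => ?_) i
    have h3 := congrArg (fun v => l (co' x v)) hc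
    simp only [map_sum, map_smul, map_zero, hco, smul_eq_mul] at h3 ⊢
    rw [← h3]
    refine Finset.sum_congr rfl fun i _ => ?_
    rw [← Algebra.commutes, ← Algebra.smul_def, map_smul, smul_eq_mul, mul_comm]
  rw [h1, finrank_span_eq_card h2, Fintype.card_fin]

/-- the coefficient as a linear map -/
noncomputable def ebase_co (R : Type*) [Semiring R] {n : ℕ} (m : Mon n) : PD R n →ₗ[R] R where
  toFun g := g.coeff m
  map_add' _ _ := rfl
  map_smul' _ _ := rfl

theorem ebase_iota_smul (c : ℂ) (g : PD ℂ n) : iota D n (c • g) = algebraMap ℂ D c • iota D n g := by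
  refine AddMonoidAlgebra.coeff_injective (Finsupp.ext fun m => ?_)
  rw [AddMonoidAlgebra.coeff_smul_apply, coeff_iota, coeff_iota, smul_eq_mul, ← map_mul]
  rfl

theorem ebase_mono {N N' : Submodule ℂ (PD ℂ n)} (h : N ≤ N') : bc D N ≤ bc D N' :=
  Submodule.span_mono (Set.image_mono h)

theorem ebase_hc (e : ℕ) (g : PD ℂ n) : hc D e (iota D n g) = iota D n (hc ℂ e g) := by
  refine AddMonoidAlgebra.coeff_injective (Finsupp.ext fun m => ?_)
  have h1 : MvPolynomial.coeff m (hc ℂ e g) =
      if m.degree = e then MvPolynomial.coeff m g else 0 := coeff_hc e g m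
  rw [coeff_hc, coeff_iota, coeff_iota, h1]
  split_ifs
  · rfl
  · rw [map_zero]

theorem ebase_hc_mem {N : Submodule ℂ (PD ℂ n)} (hN : Gr N) {g : PD D n} (hg : g ∈ bc D N) (e : ℕ) :
    hc D e g ∈ bc D (N ⊓ supp ℂ (deg n e)) := by
  induction hg using Submodule.span_induction with
  | mem x hx =>
    obtain ⟨a, ha, rfl⟩ := hx
    rw [ebase_hc]
    exact Submodule.subset_span ⟨_, ⟨hN a ha e, hc_mem e a⟩, rfl⟩
  | zero => rw [hc_zero]; exact zero_mem _
  | add u v _ _ hu hv => rw [hc_add]; exact add_mem hu hv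
  | smul c u _ hu => rw [hc_smul]; exact Submodule.smul_mem _ _ hu

theorem ebase_inf {N : Submodule ℂ (PD ℂ n)} (hN : Gr N) (e : ℕ) :
    bc D N ⊓ supp D (deg n e) = bc D (N ⊓ supp ℂ (deg n e)) := by
  apply le_antisymm
  · rintro g ⟨h1, h2⟩
    have := ebase_hc_mem hN h1 e
    rwa [hc_of_mem h2, if_pos rfl] at this
  · exact le_inf (ebase_mono inf_le_left) (by rw [← bc_supp (D := D)]; exact ebase_mono inf_le_right)

/-- base change of chains -/
noncomputable def ebase_phi (D : Type*) [DivisionRing D] [Algebra ℂ D] (n : ℕ) : KF ℂ n →+ KF D n where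
  toFun f U := iota D n (f U)
  map_zero' := by funext U; exact map_zero _
  map_add' f g := by funext U; exact map_add _ _ _

/-- base change of spaces of chains -/
noncomputable def ebase_bk (D : Type*) [DivisionRing D] [Algebra ℂ D] {n : ℕ}
    (W : Submodule ℂ (KF ℂ n)) : Submodule D (KF D n) :=
  Submodule.span D (ebase_phi D n '' (W : Set (KF ℂ n)))

theorem ebase_sup (W W' : Submodule ℂ (KF ℂ n)) :
    ebase_bk D (W ⊔ W') = ebase_bk D W ⊔ ebase_bk D W' := by
  apply le_antisymm
  · rw [ebase_bk, Submodule.span_le]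
    rintro _ ⟨f, hf, rfl⟩
    obtain ⟨a, ha, b, hb, rfl⟩ := Submodule.mem_sup.1 hf
    rw [map_add]
    exact Submodule.add_mem_sup (Submodule.subset_span ⟨a, ha, rfl⟩) (Submodule.subset_span ⟨b, hb, rfl⟩)
  · exact sup_le (Submodule.span_mono (Set.image_mono (le_sup_left : W ≤ W ⊔ W')))
      (Submodule.span_mono (Set.image_mono (le_sup_right : W' ≤ W ⊔ W')))

theorem ebase_kos (f : KF ℂ n) :
    ebase_phi D n (kos (xv ℂ n) f) = kos (xv D n) (ebase_phi D n f) := by
  funext U
  show iota D n (kos (xv ℂ n) f U) = _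
  rw [kos_apply, kos_apply, map_sum]
  refine Finset.sum_congr rfl fun t _ => ?_
  rw [map_zsmul, map_mul, xv, xv, iota_single, map_one]
  rfl

theorem ebase_map (W : Submodule ℂ (KF ℂ n)) :
    ebase_bk D (W.map (kos (xv ℂ n))) = (ebase_bk D W).map (kos (xv D n)) := by
  rw [ebase_bk, ebase_bk, Submodule.map_span, Submodule.map_coe, Set.image_image, Set.image_image]
  simp only [ebase_kos]

theorem ebase_ch {N : Submodule ℂ (PD ℂ n)} (hN : Gr N) (p j : ℕ) :
    ebase_bk D (ch N p j) = ch (bc D N) p j := by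
  apply le_antisymm
  · rw [ebase_bk, Submodule.span_le]
    rintro _ ⟨f, hf, rfl⟩
    refine mem_ch.2 fun U => ⟨fun hU => ?_, fun hU => ?_⟩
    · have h1 : iota D n (f U) ∈ bc D (N ⊓ supp ℂ (deg n (j - p))) :=
        Submodule.subset_span ⟨_, (mem_ch.1 hf U).1 hU, rfl⟩
      rw [← ebase_inf hN] at h1
      exact h1
    · show iota D n (f U) = 0
      rw [(mem_ch.1 hf U).2 hU, map_zero]
  · intro f hf
    rw [← Finset.univ_sum_single f]
    refine Submodule.sum_mem _ fun U _ => ?_
    by_cases hU : U.card = p ∧ p ≤ j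
    · have h1 : f U ∈ bc D (N ⊓ supp ℂ (deg n (j - p))) := by
        rw [← ebase_inf hN]
        exact (mem_ch.1 hf U).1 hU
      generalize f U = g at h1
      induction h1 using Submodule.span_induction with
      | mem x hx =>
        obtain ⟨a, ha, rfl⟩ := hx
        refine Submodule.subset_span ⟨Pi.single U a, mem_ch.2 fun U' => ?_, ?_⟩
        · by_cases h : U' = U
          · subst h
            rw [Pi.single_eq_same]
            exact ⟨fun _ => ha, fun h' => absurd hU h'⟩
          · rw [Pi.single_eq_of_ne h]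
            exact ⟨fun _ => ⟨zero_mem _, zero_mem _⟩, fun _ => rfl⟩
        · funext U'
          show iota D n ((Pi.single U a : KF ℂ n) U') = _
          by_cases h : U' = U
          · subst h
            rw [Pi.single_eq_same, Pi.single_eq_same]
          · rw [Pi.single_eq_of_ne h, Pi.single_eq_of_ne h, map_zero]
      | zero => rw [Pi.single_zero]; exact zero_mem _
      | add u v _ _ hu hv => rw [Pi.single_add]; exact add_mem hu hv
      | smul c u _ hu => rw [Pi.single_smul]; exact Submodule.smul_mem _ _ hu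
    · rw [(mem_ch.1 hf U).2 hU, Pi.single_zero]
      exact zero_mem _

theorem gr_bc {N : Submodule ℂ (PD ℂ n)} (hN : Gr N) : Gr (bc D N) := fun _ hg e =>
  ebase_mono inf_le_left (ebase_hc_mem hN hg e)

theorem hf_bc {N : Submodule ℂ (PD ℂ n)} (hN : Gr N) (e : ℕ) : hf (bc D N) e = hf N e := by
  rw [hf, hf, ebase_inf hN]
  exact ebase_finrank (iota D n).toAddMonoidHom ebase_iota_smul (ebase_co ℂ) (ebase_co D)
    (fun m g => coeff_iota g m) (fun g hg => AddMonoidAlgebra.coeff_injective (Finsupp.ext hg)) _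

theorem ee_bc {N : Submodule ℂ (PD ℂ n)} (hN : Gr N) (p j : ℕ) :
    ee (xv D n) (bc D N) p j = ee (xv ℂ n) N p j := by
  have htop : Gr (⊤ : Submodule ℂ (PD ℂ n)) := fun _ _ _ => trivial
  have e : bc D (⊤ : Submodule ℂ (PD ℂ n)) = ⊤ := by
    rw [← supp_univ, bc_supp, supp_univ]
  rw [ee, ee, g2, g2, ← e, ← ebase_ch hN, ← ebase_ch htop, ← ebase_map, ← ebase_sup]
  refine ebase_finrank (κ := Finset (Fin n) × Mon n) (ebase_phi D n) (fun c f => ?_)
    (fun x => ebase_co ℂ x.2 ∘ₗ LinearMap.proj x.1) (fun x => ebase_co D x.2 ∘ₗ LinearMap.proj x.1)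
    (fun x f => coeff_iota (f x.1) x.2) (fun f hf => ?_) _
  · funext U
    exact ebase_iota_smul c (f U)
  · funext U
    exact AddMonoidAlgebra.coeff_injective (Finsupp.ext fun m => hf (U, m))

end Crest.Agent.R181
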