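import Crest.Agent.R181.KKos

/-! # Exactness of the Koszul complex of the variables in the linear strand (task E2a)

`exact_lin`: `z U = ∑ s, c U s • x s` for `U.card = p`. For `p = 0` put `g {s} = c ∅ s`. For `p ≥ 1` the equation
`kos x z W = 0` (`W.card = p - 1`) gives, comparing coefficients of `x s * x t`: `c (insert t W) s = 0` for
`s ∈ insert t W`, and `ε W t * c (insert t W) s + ε W s * c (insert s W) t = 0` for `s ≠ t` outside `W`. Hence
`ε (T.erase t) t * c (T.erase t) t` does not depend on `t ∈ T` (`T.card = p + 1`); call it `g T`.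
(Alternative: use the homotopy `h z T = ∑ t ∈ T, ε • ∂_t (z (T.erase t))` is not available in characteristic `p`;
one may also define `g T` through `t = T.min'`.) -/

set_option autoImplicit false

namespace Crest.Agent.R181

open Finset

variable {D : Type*} [DivisionRing D] {n : ℕ}

/-- the Koszul sign -/
def eexact_e (U : Finset (Fin n)) (t : Fin n) : ℤ := (-1 : ℤ) ^ (U.filter (· < t)).card

theorem eexact_e_sq (U : Finset (Fin n)) (t : Fin n) : eexact_e U t * eexact_e U t = 1 := by
  rw [eexact_e, ← mul_pow]
  simp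

theorem eexact_e_smul {A : Type*} [AddCommGroup A] (U : Finset (Fin n)) (t : Fin n) (a : A) :
    eexact_e U t • eexact_e U t • a = a := by
  rw [smul_smul, eexact_e_sq, one_smul]

theorem eexact_e_insert {W : Finset (Fin n)} {t : Fin n} (ht : t ∉ W) (s : Fin n) :
    eexact_e (insert t W) s = if t < s then -eexact_e W s else eexact_e W s := by
  unfold eexact_e
  rw [filter_insert]
  split_ifs with h
  · rw [card_insert_of_notMem fun h' => ht (mem_filter.1 h').1, pow_succ]
    ring
  · rfl

theorem eexact_coeff_ne (g : PD D n) {r s t : Fin n} (hs : r ≠ s) (ht : r ≠ t) :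
    (g * xv D n r).coeff (Finsupp.single s 1 + Finsupp.single t 1) = 0 := by
  by_contra h
  obtain ⟨m', hm, -⟩ := coeff_mul_xv_ne h
  have := DFunLike.congr_fun hm r
  simp [Finsupp.single_apply, hs.symm, ht.symm] at this

theorem eexact_coeff (y : Fin n → PD D n) (z : KF D n) (W : Finset (Fin n)) (m : Mon n) :
    (kos y z W).coeff m = ∑ r ∈ Wᶜ, eexact_e W r • (z (insert r W) * y r).coeff m := by
  rw [kos_apply, AddMonoidAlgebra.coeff_sum, Finsupp.finsetSum_apply]
  rfl

theorem eexact_A1 {z : KF D n} (h0 : kos (xv D n) z = 0) {U : Finset (Fin n)} {s : Fin n} (hs : s ∈ U) :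
    (z U).coeff (Finsupp.single s 1) = 0 := by
  have h := eexact_coeff (xv D n) z (U.erase s) (Finsupp.single s 1 + Finsupp.single s 1)
  rw [h0, sum_eq_single_of_mem s (by simp) fun r _ hr => by rw [eexact_coeff_ne _ hr hr, smul_zero],
    coeff_mul_xv, insert_erase hs] at h
  rw [← eexact_e_smul (U.erase s) s ((z U).coeff _), ← h]
  simp

theorem eexact_A2 {z : KF D n} (h0 : kos (xv D n) z = 0) {W : Finset (Fin n)} {s t : Fin n} (hs : s ∉ W)
    (ht : t ∉ W) (hst : s ≠ t) :
    eexact_e (insert t W) s • (z (insert t W)).coeff (Finsupp.single s 1) =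
      eexact_e (insert s W) t • (z (insert s W)).coeff (Finsupp.single t 1) := by
  have h := eexact_coeff (xv D n) z W (Finsupp.single s 1 + Finsupp.single t 1)
  rw [h0, sum_eq_add_of_mem t s (by simpa using ht) (by simpa using hs) hst.symm
    fun r _ hr => by rw [eexact_coeff_ne _ hr.2 hr.1, smul_zero], coeff_mul_xv,
    add_comm (Finsupp.single s 1), coeff_mul_xv] at h
  have h1 : eexact_e W t • (z (insert t W)).coeff (Finsupp.single s 1) =
      -(eexact_e W s • (z (insert s W)).coeff (Finsupp.single t 1)) := by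
    rw [eq_neg_iff_add_eq_zero, ← h]
    simp
  have h2 : eexact_e W s • (z (insert t W)).coeff (Finsupp.single s 1) =
      -(eexact_e W t • (z (insert s W)).coeff (Finsupp.single t 1)) := by
    rw [← eexact_e_smul W t ((z (insert t W)).coeff _), h1, smul_neg, smul_neg,
      smul_comm (eexact_e W s) (eexact_e W t), eexact_e_smul]
  rw [eexact_e_insert ht, eexact_e_insert hs]
  rcases lt_or_gt_of_ne hst with h3 | h3
  · rw [if_neg h3.not_gt, if_pos h3, h2, neg_smul]
  · rw [if_pos h3, if_neg h3.not_gt, neg_smul, h2, neg_neg]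

theorem eexact_A3 {z : KF D n} (h0 : kos (xv D n) z = 0) {T : Finset (Fin n)} {s t : Fin n} (hs : s ∈ T)
    (ht : t ∈ T) : eexact_e (T.erase s) s • (z (T.erase s)).coeff (Finsupp.single s 1) =
      eexact_e (T.erase t) t • (z (T.erase t)).coeff (Finsupp.single t 1) := by
  rcases eq_or_ne s t with rfl | hst
  · rfl
  have h := eexact_A2 h0 (W := (T.erase s).erase t) (s := s) (t := t) (by simp) (by simp) hst
  rwa [insert_erase (mem_erase.2 ⟨hst.symm, ht⟩), erase_right_comm, insert_erase (mem_erase.2 ⟨hst, hs⟩)] at h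

/-- cycles of bidegree `(p, p+1)` for the variables are boundaries -/
theorem exact_lin {p : ℕ} {z : KF D n} (hz : z ∈ ch (⊤ : Submodule D (PD D n)) p (p + 1))
    (h0 : kos (xv D n) z = 0) :
    ∃ g ∈ ch (⊤ : Submodule D (PD D n)) (p + 1) (p + 1), kos (xv D n) g = z := by
  rw [mem_ch] at hz
  have hz1 : ∀ U, z U ∈ supp D (deg n 1) := fun U => by
    by_cases hU : U.card = p ∧ p ≤ p + 1
    · simpa using ((hz U).1 hU).2
    · rw [(hz U).2 hU]
      exact Submodule.zero_mem _
  refine ⟨fun T => if h : T.Nonempty then AddMonoidAlgebra.single 0 (eexact_e (T.erase (T.min' h)) (T.min' h) •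
    (z (T.erase (T.min' h))).coeff (Finsupp.single (T.min' h) 1)) else 0, mem_ch.2 fun T => ⟨fun _ => ⟨trivial, ?_⟩,
      fun hT => ?_⟩, ?_⟩
  · split_ifs with h
    · exact single_mem_supp (by rw [Nat.sub_self, mem_deg_zero]) _
    · exact Submodule.zero_mem _
  · split_ifs with h
    · rw [(hz _).2 fun h' => hT ⟨by
        have := card_erase_add_one (T.min'_mem h)
        omega, le_rfl⟩]
      simp
    · rfl
  · funext U
    ext m
    rw [eexact_coeff]
    have e : ∀ r ∈ Uᶜ, eexact_e U r • ((if h : (insert r U).Nonempty then AddMonoidAlgebra.single 0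
        (eexact_e ((insert r U).erase ((insert r U).min' h)) ((insert r U).min' h) •
          (z ((insert r U).erase ((insert r U).min' h))).coeff (Finsupp.single ((insert r U).min' h) 1))
        else 0 : PD D n) * xv D n r).coeff m =
        if Finsupp.single r 1 = m then (z U).coeff (Finsupp.single r 1) else 0 := by
      intro r hr
      rw [dif_pos (insert_nonempty r U), eexact_A3 h0 (min'_mem _ _) (mem_insert_self r U),
        erase_insert (by simpa using hr), xv, AddMonoidAlgebra.single_mul_single, zero_add, mul_one,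
        AddMonoidAlgebra.coeff_single, Finsupp.single_apply]
      split_ifs
      · exact eexact_e_smul _ _ _
      · exact smul_zero _
    rw [sum_congr rfl e]
    by_cases hm : m ∈ deg n 1
    · obtain ⟨s, rfl⟩ := mem_deg_one.1 hm
      rw [sum_eq_single s (fun r _ hr => if_neg fun h => hr (Finsupp.single_left_injective one_ne_zero h))
        fun hs => by rw [if_pos rfl, eexact_A1 h0 (by simpa using hs)], if_pos rfl]
    · rw [sum_eq_zero fun r _ => if_neg fun h => hm (mem_deg_one.2 ⟨r, h.symm⟩)]
      by_contra h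
      exact hm (mem_supp.1 (hz1 U) m (Ne.symm h))

/-- constant cycles of positive homological degree vanish: `g T = single 0 (c T)`, and
`kos y g U = ∑ t ∉ U, ± c (insert t U) • y t`. -/
theorem eq_zero_of_kos_const {y : Fin n → PD D n} (hind : LinearIndependent D y) {p : ℕ}
    {g : KF D n} (hg : g ∈ ch (⊤ : Submodule D (PD D n)) (p + 1) (p + 1)) (h0 : kos y g = 0) :
    g = 0 := by
  rw [mem_ch] at hg
  have hc : ∀ T, g T = (g T).coeff 0 • (1 : PD D n) := fun T => by
    by_cases hT : T.card = p + 1 ∧ p + 1 ≤ p + 1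
    · have h1 := ((hg T).1 hT).2
      rw [Nat.sub_self, mem_supp] at h1
      ext m
      rw [AddMonoidAlgebra.coeff_smul_apply, AddMonoidAlgebra.one_def, AddMonoidAlgebra.coeff_single,
        Finsupp.single_apply]
      split_ifs with hm
      · rw [← hm, smul_eq_mul, mul_one]
      · rw [smul_zero]
        by_contra h
        exact hm (mem_deg_zero.1 (h1 m h)).symm
    · rw [(hg T).2 hT]
      simp
  funext T
  rcases T.eq_empty_or_nonempty with rfl | ⟨t, ht⟩
  · exact (hg ∅).2 (by simp)
  have h1 : ∑ r ∈ (T.erase t)ᶜ, (eexact_e (T.erase t) r • (g (insert r (T.erase t))).coeff 0) • y r = 0 := by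
    have h2 := kos_apply y g (T.erase t)
    rw [h0] at h2
    refine Eq.trans (sum_congr rfl fun r _ => ?_) h2.symm
    rw [hc (insert r (T.erase t)), smul_mul_assoc, one_mul, smul_assoc, ← hc]
    rfl
  have h3 := linearIndependent_iff'.1 hind _ _ h1 t (by simp)
  rw [insert_erase ht] at h3
  rw [hc T, ← eexact_e_smul (T.erase t) t ((g T).coeff 0), h3]
  simp

end Crest.Agent.R181
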