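import Crest.Agent.R181.ETheta

/-! # Independence of commuting linear forms that generate a primary left ideal (task ED)

Suppose `y` is dependent. Choose an independent `B₁ ⊆ range y` spanning `span (range y)` and extend it to an independent
`B ⊆ range y ∪ range x` spanning the linear forms (`exists_linearIndepOn_extension` / `LinearIndepOn.extend`);
`B` has `n` elements, enumerate it as `y' : Fin n → PD D n` (linear, commuting, independent). Since `span (range y)` is not
everything, some `y' k₀ ∉ span (range y)`; it is a variable `x s`, and every `y i` lies in the span of the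
`y' l`, `l ≠ k₀`. The left ideal spanned by the `y i` consists of elements `theta y' g` with `g` supported on monomials
involving some `l ≠ k₀` (`theta_surjective`, `theta_mul_xv`; `h * (d • y' l) = (h * single 0 d) * y' l`), while
`single (single s N) 1 = theta y' (single (single k₀ N) 1)`; contradiction with `theta_injective`. -/

set_option autoImplicit false

namespace Crest.Agent.R181

open Finset

variable {D : Type*} [DivisionRing D] {n : ℕ}

/-- the left ideal generated by the span of the `y' l`, `l ≠ k`, misses the powers of `y' k` -/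
theorem eind_pow {y : Fin n → PD D n} (hy : IsLin y) (hcomm : ∀ i j, Commute (y i) (y j))
    (hind : LinearIndependent D y) (k : Fin n) {S : Set (PD D n)}
    (hS : S ⊆ Submodule.span D (y '' {l | l ≠ k})) (N : ℕ) : y k ^ N ∉ Ideal.span S := by
  intro hmem
  set W : Submodule D (PD D n) := (supp D {m | ∃ l, l ≠ k ∧ m l ≠ 0}).map (theta y) with hW
  have h1 : ∀ l, l ≠ k → ∀ h : PD D n, h * y l ∈ W := fun l hl h => by
    obtain ⟨g, rfl⟩ := theta_surjective hy hcomm hind h
    refine ⟨g * xv D n l, mem_supp.2 fun m hm => ?_, theta_mul_xv hcomm g l⟩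
    obtain ⟨m', rfl, -⟩ := coeff_mul_xv_ne hm
    exact ⟨l, hl, by simp⟩
  have h2 : ∀ z ∈ Submodule.span D (y '' {l | l ≠ k}), ∀ h : PD D n, h * z ∈ W := fun z hz => by
    induction hz using Submodule.span_induction with
    | mem z hz =>
      obtain ⟨l, hl, rfl⟩ := hz
      exact h1 l hl
    | zero => intro h; simp
    | add a b _ _ ha hb => intro h; rw [mul_add]; exact W.add_mem (ha h) (hb h)
    | smul d a _ ha =>
      intro h
      have e : d • a = (d • (1 : PD D n)) * a := by rw [smul_mul_assoc, one_mul]
      rw [e, ← mul_assoc]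
      exact ha _
  have h3 : ∀ z ∈ Ideal.span S, ∀ h : PD D n, h * z ∈ W := fun z hz => by
    induction hz using Submodule.span_induction with
    | mem z hz => exact h2 z (hS hz)
    | zero => intro h; simp
    | add a b _ _ ha hb => intro h; rw [mul_add]; exact W.add_mem (ha h) (hb h)
    | smul d a _ ha => intro h; rw [smul_eq_mul, ← mul_assoc]; exact ha _
  obtain ⟨g, hg, e⟩ := h3 _ hmem 1
  rw [one_mul, ← ymon_single y k N, ← one_smul D (ymon y _), ← theta_single] at e
  rw [theta_injective hy hcomm hind e] at hg
  obtain ⟨l, hl, h⟩ := mem_supp.1 hg (Finsupp.single k N) (by simp)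
  exact h (Finsupp.single_eq_of_ne hl)

theorem linInd_of_fin {y : Fin n → PD D n} (hy : IsLin y) (hcomm : ∀ i j, Commute (y i) (y j))
    (hfin : ∃ N, ∀ m : Mon n, m.degree = N →
      AddMonoidAlgebra.single m (1 : D) ∈ Ideal.span (Set.range y)) :
    LinearIndependent D y := by
  classical
  by_contra hdep
  obtain ⟨N, hN⟩ := hfin
  have hle : Submodule.span D (Set.range y) ≤ supp D (deg n 1) :=
    Submodule.span_le.2 (by rintro _ ⟨i, rfl⟩; exact hy i)
  obtain ⟨s, hs⟩ : ∃ s, xv D n s ∉ Submodule.span D (Set.range y) := by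
    by_contra h
    push Not at h
    have e : Submodule.span D (Set.range y) = supp D (deg n 1) :=
      le_antisymm hle (span_xv (D := D) (n := n) ▸ Submodule.span_le.2 (by rintro _ ⟨i, rfl⟩; exact h i))
    refine hdep (linearIndependent_iff_card_eq_finrank_span.2 ?_)
    rw [Set.finrank, e, finrank_deg_one, Fintype.card_fin]
  obtain ⟨B1, hB1, hsp, hi1⟩ := exists_linearIndependent D (Set.range y)
  have hi2 : LinearIndepOn D id (insert (xv D n s) B1) := LinearIndepOn.id_insert hi1 (hsp ▸ hs)
  obtain ⟨B, hBt, hB, htB, hiB⟩ := exists_linearIndepOn_id_extension hi2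
    (t := Set.range y ∪ Set.range (xv D n))
    (Set.insert_subset (Or.inr ⟨s, rfl⟩) (hB1.trans Set.subset_union_left))
  have hBfin : B.Finite := ((Set.finite_range y).union (Set.finite_range _)).subset hBt
  have hBl : ∀ b ∈ B, b ∈ supp D (deg n 1) := fun b hb => by
    rcases hBt hb with ⟨i, rfl⟩ | ⟨i, rfl⟩
    exacts [hy i, isLin_xv i]
  have hBs : Submodule.span D B = supp D (deg n 1) :=
    le_antisymm (Submodule.span_le.2 hBl)
      (span_xv (D := D) (n := n) ▸ Submodule.span_le.2 (Set.subset_union_right.trans htB))
  let := hBfin.fintype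
  have hcard : Fintype.card B = n := by
    rw [← Set.toFinset_card, ← finrank_span_set_eq_card hiB, hBs, finrank_deg_one]
  let e : Fin n ≃ B := (Fintype.equivFinOfCardEq hcard).symm
  let k : Fin n := e.symm ⟨xv D n s, hB (Set.mem_insert _ _)⟩
  have hk : (e k : PD D n) = xv D n s := by simp [k]
  refine eind_pow (y := fun i => (e i : PD D n)) (fun i => hBl _ (e i).2) (fun i j => ?_)
    (hiB.comp e e.injective) k (S := Set.range y) ?_ N ?_
  · rcases hBt (e j).2 with ⟨b, hb⟩ | ⟨b, hb⟩
    · rcases hBt (e i).2 with ⟨a, ha⟩ | ⟨a, ha⟩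
      · rw [← ha, ← hb]; exact hcomm a b
      · rw [← ha]; exact (commute_xv _ a).symm
    · rw [← hb]; exact commute_xv _ b
  · refine (Submodule.subset_span (R := D)).trans ?_
    rw [← hsp]
    refine Submodule.span_mono fun b hb => ⟨e.symm ⟨b, hB (Set.mem_insert_of_mem _ hb)⟩, fun h => ?_, by simp⟩
    have h1 : b = xv D n s := congrArg Subtype.val (e.symm.injective h)
    exact hs (h1 ▸ Submodule.subset_span (hB1 hb))
  · simp only [hk, xv_pow]
    exact hN _ (by simp)

end Crest.Agent.R181
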