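import Crest.Agent.R181.KBasic

/-! # Exponent vectors: `sn`, `ini`, slices, counting (task K3) -/

set_option autoImplicit false

namespace Crest.Agent.R181

open Finset

variable {n : ℕ}

@[simp] theorem sn_castSucc (m : Mon n) (i : ℕ) (k : Fin n) : sn m i k.castSucc = m k := by
  simp [sn]

@[simp] theorem sn_last (m : Mon n) (i : ℕ) : sn m i (Fin.last n) = i := by
  simp [sn]

@[simp] theorem ini_apply (m : Mon (n + 1)) (k : Fin n) : ini m k = m k.castSucc := by
  simp [ini]

@[simp] theorem ini_sn (m : Mon n) (i : ℕ) : ini (sn m i) = m := by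
  ext k; simp

@[simp] theorem sn_ini (m : Mon (n + 1)) : sn (ini m) (m (Fin.last n)) = m := by
  ext k
  refine Fin.lastCases ?_ (fun k => ?_) k <;> simp

theorem sn_inj {m m' : Mon n} {i i' : ℕ} : sn m i = sn m' i' ↔ m = m' ∧ i = i' := by
  refine ⟨fun h => ⟨?_, ?_⟩, by rintro ⟨rfl, rfl⟩; rfl⟩
  · simpa using congrArg ini h
  · simpa using congrArg (fun x : Mon (n + 1) => x (Fin.last n)) h

theorem degree_sn (m : Mon n) (i : ℕ) : (sn m i).degree = m.degree + i := by
  simp [Finsupp.degree_eq_sum, Fin.sum_univ_castSucc]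

theorem degree_ini (m : Mon (n + 1)) : (ini m).degree + m (Fin.last n) = m.degree := by
  rw [← degree_sn, sn_ini]

theorem sn_add (m m' : Mon n) (i i' : ℕ) : sn m i + sn m' i' = sn (m + m') (i + i') := by
  ext k
  refine Fin.lastCases ?_ (fun k => ?_) k <;> simp

theorem single_castSucc (k : Fin n) (c : ℕ) :
    (Finsupp.single k.castSucc c : Mon (n + 1)) = sn (Finsupp.single k c) 0 := by
  ext j
  refine Fin.lastCases ?_ (fun j => ?_) j
  · simp [Finsupp.single_apply, (Fin.castSucc_lt_last k).ne]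
  · simp [Finsupp.single_apply]

theorem single_last (c : ℕ) : (Finsupp.single (Fin.last n) c : Mon (n + 1)) = sn 0 c := by
  ext j
  refine Fin.lastCases ?_ (fun j => ?_) j
  · simp
  · simp [Finsupp.single_apply, (Fin.castSucc_lt_last j).ne']

theorem sn_le_sn {m m' : Mon n} {i i' : ℕ} : sn m i ≤ sn m' i' ↔ m ≤ m' ∧ i ≤ i' := by
  simp only [Finsupp.le_def, Fin.forall_fin_succ', sn_castSucc, sn_last]

theorem toLex_sn_lt {m m' : Mon n} {i i' : ℕ} :
    toLex (sn m i) < toLex (sn m' i') ↔ toLex m < toLex m' ∨ (m = m' ∧ i < i') := by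
  simp only [Finsupp.Lex.lt_iff, ofLex_toLex]
  constructor
  · rintro ⟨j, h1, h2⟩
    revert h1 h2
    refine Fin.lastCases ?_ (fun j => ?_) j
    · intro h1 h2
      refine Or.inr ⟨?_, by simpa using h2⟩
      ext k
      simpa using h1 k.castSucc (Fin.castSucc_lt_last k)
    · intro h1 h2
      exact Or.inl ⟨j, fun k hk => by simpa using h1 k.castSucc (by simpa using hk), by simpa using h2⟩
  · rintro (⟨j, h1, h2⟩ | ⟨rfl, h⟩)
    · refine ⟨j.castSucc, fun k => ?_, by simpa using h2⟩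
      refine Fin.lastCases ?_ (fun k => ?_) k
      · intro hk
        exact absurd hk (Fin.castSucc_lt_last j).not_gt
      · intro hk
        simpa using h1 k (by simpa using hk)
    · refine ⟨Fin.last n, fun k => ?_, by simpa using h⟩
      refine Fin.lastCases ?_ (fun k => ?_) k
      · intro hk
        exact absurd hk (lt_irrefl _)
      · intro _
        simp

theorem sn_mem_box {a : Fin (n + 1) → ℕ} {m : Mon n} {i : ℕ} :
    sn m i ∈ box a ↔ m ∈ box (a ∘ Fin.castSucc) ∧ i < a (Fin.last n) := by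
  simp only [box, Set.mem_setOf_eq, Fin.forall_fin_succ', sn_castSucc, sn_last, Function.comp_apply]

theorem mem_iff_slice {J : Set (Mon (n + 1))} {m : Mon (n + 1)} :
    m ∈ J ↔ ini m ∈ slice J (m (Fin.last n)) := by
  simp [slice]

theorem slice_upper {J : Set (Mon (n + 1))} (hJ : IsUpperSet J) (i : ℕ) :
    IsUpperSet (slice J i) := by
  intro m m' h hm
  exact hJ (sn_le_sn.2 ⟨h, le_rfl⟩) hm

theorem slice_mono {J : Set (Mon (n + 1))} (hJ : IsUpperSet J) {i i' : ℕ} (h : i ≤ i') :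
    slice J i ⊆ slice J i' := by
  intro m hm
  exact hJ (sn_le_sn.2 ⟨le_rfl, h⟩) hm

theorem slice_hasP {a : Fin (n + 1) → ℕ} {J : Set (Mon (n + 1))} (hP : HasP a J) (i : ℕ) :
    HasP (a ∘ Fin.castSucc) (slice J i) := by
  intro m hm
  exact hP _ fun h => hm (sn_mem_box.1 h).1

theorem slice_eq_univ {a : Fin (n + 1) → ℕ} {J : Set (Mon (n + 1))} (hP : HasP a J) {i : ℕ}
    (hi : a (Fin.last n) ≤ i) : slice J i = Set.univ := by
  refine Set.eq_univ_of_forall fun m => ?_
  exact hP _ fun h => (sn_mem_box.1 h).2.not_ge hi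

theorem slice_lpp {a : Fin (n + 1) → ℕ} {L : Set (Mon (n + 1))} (hP : HasP a L) (hL : IsLPP a L)
    (i : ℕ) : IsLPP (a ∘ Fin.castSucc) (slice L i) := by
  intro m hm hb m' hd hle
  by_cases hi : i < a (Fin.last n)
  · refine hL _ hm (sn_mem_box.2 ⟨hb, hi⟩) _ (by rw [degree_sn, degree_sn, hd]) ?_
    rcases hle.lt_or_eq with h | h
    · exact (toLex_sn_lt.2 (Or.inl h)).le
    · rw [toLex_inj.1 h]
  · rw [slice_eq_univ hP (not_lt.1 hi)]
    trivial

theorem zst_of_lpp {a : Fin (n + 1) → ℕ} {L : Set (Mon (n + 1))} (hP : HasP a L) (hL : IsLPP a L) :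
    ZSt (a (Fin.last n)) L := by
  intro i hi m hm k
  have hle : m ≤ m + Finsupp.single k 1 := le_self_add
  by_cases hb : m ∈ box (a ∘ Fin.castSucc)
  · refine hL _ hm (sn_mem_box.2 ⟨hb, hi⟩) _ ?_ (toLex_sn_lt.2 (Or.inl ?_)).le
    · rw [degree_sn, degree_sn, map_add, Finsupp.degree_single]
      ring
    · refine lt_of_le_of_ne (Finsupp.toLex_monotone hle) fun h => ?_
      simpa using congrArg (fun x : Mon n => x k) (toLex_inj.1 h)
  · exact slice_hasP hP i _ fun h => hb fun j => lt_of_le_of_lt (hle j) (h j)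

theorem isUpperSet_of_single {J : Set (Mon n)}
    (h : ∀ m ∈ J, ∀ t : Fin n, m + Finsupp.single t 1 ∈ J) : IsUpperSet J := by
  have key : ∀ d : Mon n, ∀ m ∈ J, m + d ∈ J := by
    intro d
    induction d using Finsupp.induction_linear with
    | zero => simp
    | add f g hf hg => intro m hm; rw [← add_assoc]; exact hg _ (hf m hm)
    | single t c =>
      induction c with
      | zero => simp
      | succ c ih => intro m hm; rw [Finsupp.single_add, ← add_assoc]; exact h _ (ih m hm) t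
  intro m m' hle hm
  obtain ⟨d, rfl⟩ := exists_add_of_le hle
  exact key d m hm

theorem hasP_of_single {a : Fin n → ℕ} {J : Set (Mon n)} (hJ : IsUpperSet J)
    (h : ∀ i, Finsupp.single i (a i) ∈ J) : HasP a J := by
  intro m hm
  simp only [box, Set.mem_setOf_eq, not_forall, not_lt] at hm
  obtain ⟨i, hi⟩ := hm
  exact hJ (Finsupp.single_le_iff.2 hi) (h i)

theorem box_lower {a : Fin n → ℕ} {m m' : Mon n} (h : m' ≤ m) (hm : m ∈ box a) : m' ∈ box a := by
  exact fun j => lt_of_le_of_lt (h j) (hm j)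

theorem degree_le_of_mem_box {a : Fin n → ℕ} {m : Mon n} (hm : m ∈ box a) :
    m.degree ≤ ∑ i, a i := by
  rw [Finsupp.degree_eq_sum]
  exact Finset.sum_le_sum fun i _ => (hm i).le

theorem cnt_mono {X Y : Set (Mon n)} {e : ℕ} (h : X ∩ deg n e ⊆ Y) : cnt X e ≤ cnt Y e := by
  exact Set.ncard_le_ncard (fun m hm => ⟨h hm, hm.2⟩) ((deg_finite n e).inter_of_right _)

theorem subset_of_cnt_le {X Y : Set (Mon n)} {e : ℕ} (h : X ∩ deg n e ⊆ Y)
    (hc : cnt Y e ≤ cnt X e) : Y ∩ deg n e ⊆ X := by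
  have := Set.eq_of_subset_of_ncard_le (s := X ∩ deg n e) (t := Y ∩ deg n e) (fun m hm => ⟨h hm, hm.2⟩) hc
    ((deg_finite n e).inter_of_right _)
  rw [← this]
  exact Set.inter_subset_left

theorem exists_of_cnt_lt {X Y : Set (Mon n)} {e : ℕ} (hc : cnt X e < cnt Y e) :
    ∃ m ∈ Y, m.degree = e ∧ m ∉ X := by
  by_contra h
  refine hc.not_ge (cnt_mono fun m hm => ?_)
  by_contra hX
  exact h ⟨m, hm.1, hm.2, hX⟩

theorem cnt_split (X Z : Set (Mon n)) (e : ℕ) : cnt X e = cnt (X ∩ Z) e + cnt (X ∩ Zᶜ) e := by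
  have hf : (X ∩ deg n e).Finite := (deg_finite n e).inter_of_right _
  rw [cnt, cnt, cnt, Set.inter_right_comm X Z, Set.inter_right_comm X Zᶜ, ← Set.diff_eq,
    Set.ncard_inter_add_ncard_diff_eq_ncard _ _ hf]

theorem cnt_eq_sum_slice (J : Set (Mon (n + 1))) (e : ℕ) :
    cnt J e = ∑ i ∈ range (e + 1), cnt (slice J i) (e - i) := by
  classical
  have hf : (J ∩ deg (n + 1) e).Finite := (deg_finite _ _).inter_of_right _
  rw [cnt, Set.ncard_eq_toFinset_card _ hf,
    Finset.card_eq_sum_card_fiberwise (f := fun m : Mon (n + 1) => m (Fin.last n)) (t := range (e + 1))]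
  · refine sum_congr rfl fun i hi => ?_
    rw [cnt, ← Set.ncard_image_of_injective _ (f := fun m => sn m i) (fun m m' h => (sn_inj.1 h).1),
      ← Set.ncard_coe_finset]
    congr 1
    ext m
    have hi' := mem_range.1 hi
    simp only [coe_filter, Set.Finite.mem_toFinset, Set.mem_inter_iff, Set.mem_setOf_eq, Set.mem_image, deg]
    constructor
    · rintro ⟨⟨h1, h2⟩, rfl⟩
      exact ⟨ini m, ⟨mem_iff_slice.1 h1, by have := degree_ini m; omega⟩, sn_ini m⟩
    · rintro ⟨m, ⟨h1, h2⟩, rfl⟩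
      exact ⟨⟨h1, by rw [degree_sn]; omega⟩, sn_last m i⟩
  · intro m hm
    have h1 : m.degree = e := ((Set.Finite.mem_toFinset hf).1 hm).2
    have := degree_ini m
    exact mem_coe.2 (mem_range.2 (by show m (Fin.last n) < e + 1; omega))

theorem cntLe_eq_sum_slice (J : Set (Mon (n + 1))) (e s : ℕ) :
    cntLe J e s = ∑ i ∈ range (e + 1) with i ≤ s, cnt (slice J i) (e - i) := by
  rw [cntLe, cnt_eq_sum_slice, sum_filter]
  refine sum_congr rfl fun i _ => ?_
  split_ifs with h
  · congr 1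
    ext m
    simp [slice, h]
  · have : slice (J ∩ {m | m (Fin.last n) ≤ s}) i = ∅ := by
      ext m
      simp [slice, h]
    simp [this, cnt]

theorem cntLe_zero (J : Set (Mon (n + 1))) (e : ℕ) : cntLe J e 0 = cnt (slice J 0) e := by
  have : (range (e + 1)).filter (fun i => i ≤ 0) = {0} := by
    ext i
    simp only [mem_filter, mem_range, mem_singleton]
    omega
  rw [cntLe_eq_sum_slice, this, sum_singleton, Nat.sub_zero]

end Crest.Agent.R181
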