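import Crest.Agent.R181.KBridge
import Crest.Agent.R181.KMon

/-! # From a lex-plus-powers set to the conclusion of S0271 (task FConcl)

`U d = {m' | m'.degree = d ∧ ∃ m ∈ L, m ∈ box a ∧ m.degree = d ∧ toLex m ≤ toLex m'}`, `J = monI L`.
`purePowers a = monI (box a)ᶜ`, so `lppPiece a (U d) d = supp ℂ (U d ∪ ((box a)ᶜ ∩ deg n d)) = supp ℂ (L ∩ deg n d)
= degreePiece (monI L) d` (`degreePiece_eq`, `monI_eq`, `supp_sup`, `supp_inf`, `supp_eq_span`); dimensions by `hf_supp`;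
Betti numbers by `betti_le`. -/

set_option autoImplicit false

namespace Crest.Agent.R181

open Finset

variable {n : ℕ}

theorem fconcl_upper (a : Fin n → ℕ) : IsUpperSet (box a)ᶜ :=
  fun _ _ h hm hm' => hm (box_lower h hm')

theorem fconcl_pure (a : Fin n → ℕ) : Crest.AlgebraR.LPP.purePowers a = monI (box a)ᶜ := by
  refine le_antisymm (Ideal.span_le.2 ?_) (Ideal.span_le.2 ?_)
  · rintro _ ⟨i, rfl⟩
    refine Ideal.subset_span ⟨Finsupp.single i (a i), fun h => ?_, MvPolynomial.X_pow_eq_monomial.symm⟩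
    have := h i
    simp at this
  · rintro _ ⟨m, hm, rfl⟩
    obtain ⟨i, hi⟩ := not_forall.1 hm
    have h : Finsupp.single i (a i) ≤ m := Finsupp.single_le_iff.2 (not_lt.1 hi)
    have e : MvPolynomial.monomial m (1 : ℂ) =
        MvPolynomial.monomial (m - Finsupp.single i (a i)) (1 : ℂ) * MvPolynomial.X i ^ a i := by
      rw [MvPolynomial.X_pow_eq_monomial, MvPolynomial.monomial_mul, tsub_add_cancel_of_le h, mul_one]
    change MvPolynomial.monomial m (1 : ℂ) ∈ Crest.AlgebraR.LPP.purePowers a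
    rw [e]
    exact Ideal.mul_mem_left _ _ (Ideal.subset_span ⟨i, rfl⟩)

theorem fconcl_piece {J : Set (Mon n)} (hJ : IsUpperSet J) (d : ℕ) :
    Crest.AlgebraR.LPP.degreePiece (monI J) d = supp ℂ (J ∩ deg n d) := by
  rw [degreePiece_eq, monI_eq hJ, supp_inf]

theorem concl_of {a : Fin n → ℕ} {I : Ideal (MvPolynomial (Fin n) ℂ)} {L : Set (Mon n)}
    (hL : IsUpperSet L) (hP : HasP a L) (hl : IsLPP a L)
    (hc : ∀ e, cnt L e = hf (I.restrictScalars ℂ) e)
    (he : ∀ p j, em L p j ≤ ee (xv ℂ n) (I.restrictScalars ℂ) p j) : Concl a I := by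
  let U : ℕ → Set (Mon n) := fun d =>
    {m' | m'.degree = d ∧ ∃ m ∈ L, m ∈ box a ∧ m.degree = d ∧ toLex m ≤ toLex m'}
  have h1 : ∀ d, Crest.AlgebraR.LPP.degreePiece (monI L) d = Crest.AlgebraR.LPP.lppPiece a (U d) d := fun d => by
    have e : L ∩ deg n d = U d ∪ ((box a)ᶜ ∩ deg n d) := by
      ext m
      constructor
      · rintro ⟨h2, h3⟩
        by_cases h4 : m ∈ box a
        · exact Or.inl ⟨h3, m, h2, h4, h3, le_rfl⟩
        · exact Or.inr ⟨h4, h3⟩
      · rintro (⟨h2, m', h3, h4, h5, h6⟩ | ⟨h2, h3⟩)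
        · exact ⟨hl m' h3 h4 m (h2.trans h5.symm) h6, h2⟩
        · exact ⟨hP m h2, h3⟩
    rw [fconcl_piece hL, Crest.AlgebraR.LPP.lppPiece, fconcl_pure, fconcl_piece (fconcl_upper a), e, ← supp_sup,
      supp_eq_span (U d)]
    rfl
  have h2 : ∀ e, hf ((monI L).restrictScalars ℂ) e = hf (I.restrictScalars ℂ) e := fun e => by
    rw [monI_eq hL, hf_supp, hc]
  refine ⟨U, fun d => ⟨fun m hm => hm.1, fun m hm m' h3 h4 => ?_⟩, fun d => ?_, monI L, monI_homog hL, h1,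
    betti_le h2 fun p j => ?_⟩
  · obtain ⟨-, m'', h5, h6, h7, h8⟩ := hm
    exact ⟨h3, m'', h5, h6, h7, h8.trans h4⟩
  · rw [← h1, degreePiece_eq, degreePiece_eq]
    exact h2 d
  · rw [monI_eq hL]
    exact he p j

end Crest.Agent.R181
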