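import Crest.Agent.R181.FMain
import Crest.Agent.R181.FConcl
import Crest.Agent.R181.EInd

/-! # Parts (D), (E), (F): S0271 from commuting linear forms over a division algebra (helper33) -/

set_option autoImplicit false

namespace Crest.Agent.R181

open Finset

theorem toLex_single_le {n : ℕ} {i j : Fin n} (h : i ≤ j) (c : ℕ) :
    toLex (Finsupp.single j c : Mon n) ≤ toLex (Finsupp.single i c) := by
  rcases Nat.eq_zero_or_pos c with rfl | hc
  · simp
  rcases h.eq_or_lt with rfl | h
  · exact le_rfl
  · refine le_of_lt ⟨i, fun k hk => ?_, ?_⟩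
    · change (Finsupp.single j c : Mon n) k = (Finsupp.single i c : Mon n) k
      rw [Finsupp.single_eq_of_ne (hk.trans h).ne, Finsupp.single_eq_of_ne hk.ne]
    · change (Finsupp.single j c : Mon n) i < (Finsupp.single i c : Mon n) i
      rw [Finsupp.single_eq_of_ne h.ne, Finsupp.single_eq_same]
      exact hc

theorem result_of_skew {n : ℕ} (a : Fin n → ℕ) (ha : Monotone a) (ha2 : ∀ i, 2 ≤ a i)
    (I : Ideal (MvPolynomial (Fin n) ℂ))
    (hI : ∀ g ∈ I, ∀ d : ℕ, MvPolynomial.homogeneousComponent d g ∈ I)
    {D : Type*} [DivisionRing D] [Algebra ℂ D] (y : Fin n → PD D n)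
    (hlin : ∀ i, ∀ m ∈ (y i).coeff.support, m.degree = 1)
    (hcomm : ∀ i j, Commute (y i) (y j))
    (hfin : ∃ N, ∀ m : Mon n, m.degree = N →
      AddMonoidAlgebra.single m (1 : D) ∈ Ideal.span (Set.range y))
    (τ : Fin n → Fin n → D) (hτ : ∀ i, τ i i ≠ 0)
    (hmem : ∀ i, (∑ j with i ≤ j, τ i j • y j ^ a i) ∈
      Ideal.span (iota D n '' (I : Set (MvPolynomial (Fin n) ℂ)))) :
    Concl a I := by
  have hy : IsLin y := fun i => mem_supp.2 fun m hm => hlin i m (Finsupp.mem_support_iff.2 hm)
  have hind := linInd_of_fin hy hcomm hfin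
  obtain ⟨hu, hc, he⟩ := inY_spec hy hcomm hind hI
  have hP : HasP a (inY y I) := by
    refine hasP_of_single hu fun i => ?_
    have hne : ∀ j : Fin n, j ≠ i → (Finsupp.single j (a i) : Mon n) ≠ Finsupp.single i (a i) := by
      intro j hj h
      have := ha2 i
      exact hj (Finsupp.single_left_injective (by omega) h)
    have hco : ∀ m, (∑ j with i ≤ j, AddMonoidAlgebra.single (Finsupp.single j (a i) : Mon n)
        (τ i j) : PD D n).coeff m =
        ∑ j with i ≤ j, (Finsupp.single (Finsupp.single j (a i) : Mon n) (τ i j)) m := by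
      intro m
      rw [AddMonoidAlgebra.coeff_sum, Finsupp.finsetSum_apply]
      rfl
    refine ⟨∑ j with i ≤ j, AddMonoidAlgebra.single (Finsupp.single j (a i)) (τ i j), ?_, ?_, ?_⟩
    · rw [Submodule.mem_comap, map_sum]
      simp only [theta_single, ymon_single]
      exact mem_bc_of_mem_span I (hmem i)
    · rw [hco, sum_eq_single i]
      · simpa using hτ i
      · intro j _ hj
        exact Finsupp.single_eq_of_ne (hne j hj).symm
      · intro h
        simp at h
    · intro m hm
      rw [hco] at hm
      obtain ⟨j, hj, hj'⟩ := exists_ne_zero_of_sum_ne_zero hm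
      have : m = Finsupp.single j (a i) := by
        by_contra h
        exact hj' (Finsupp.single_eq_of_ne h)
      rw [this]
      exact toLex_single_le (mem_filter.1 hj).2 _
  obtain ⟨L, hLu, hLP, hLl, hLc, hLe⟩ :=
    lpp_main n a ha (fun i => le_trans (by norm_num) (ha2 i)) _ hu hP
  exact concl_of hLu hLP hLl (fun e => (hLc e).trans (hc e)) fun p j => (hLe p j).trans (he p j)

end Crest.Agent.R181
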