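import Crest.Agent.R181.EInit

/-! # Passing to leading monomials does not increase `ee` (task E4b)

Weight of the pair `(U, m)`: `w U m = toLex (m + ∑ u ∈ U, single u 1)`. For a weight `γ` let `π γ f U` be the part of
`f U` on the monomials `m` with `w U m = γ` (a linear map). Say that `f'` is the top part of `f` if for some `γ`:
`π γ f = f'`, `π γ f' = f'` and `π δ f = 0` for `δ > γ`. General lemma: if `W'` is spanned by a set of elements each
of which is the top part of an element of the finite-dimensional `W`, then `finrank W' ≤ finrank W` (choose an independent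
spanning subset, `exists_linearIndependent`; the lifts are independent: apply `π γ` for the largest `γ` occurring).
Here `W' = (ch ⊤ (p+1) j).map d ⊔ ch (supp J) p j` is spanned by the `d (Pi.single T (single m 1))` (homogeneous of weight
`w T m`, their own top part) and the `Pi.single U (single m 1)`, `m ∈ J` of degree `j - p`, the top part of
`Pi.single U (c⁻¹ • g)` with `g ∈ N ⊓ deg (j-p)` of leading monomial `m` (`inSet_inter_deg`). -/

set_option autoImplicit false

namespace Crest.Agent.R181

open Finset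

variable {D : Type*} [DivisionRing D] {n : ℕ}

/-- `f'` is the top part of `f` with respect to the coordinates `c` and the weight `w`. -/
def IsTop {V ι Γ : Type*} [AddCommGroup V] [Module D V] [LinearOrder Γ] (c : ι → V →ₗ[D] D)
    (w : ι → Γ) (γ : Γ) (f' f : V) : Prop :=
  (∀ i, w i ≠ γ → c i f' = 0) ∧ (∀ i, w i = γ → c i f = c i f') ∧ ∀ i, γ < w i → c i f = 0

theorem finrank_le_of_top {V ι Γ : Type*} [AddCommGroup V] [Module D V] [LinearOrder Γ]
    (c : ι → V →ₗ[D] D) (hc : ∀ f, (∀ i, c i f = 0) → f = 0) (w : ι → Γ)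
    (W W' : Submodule D V) [Module.Finite D W]
    (h : W' ≤ Submodule.span D {f' | ∃ f ∈ W, ∃ γ, IsTop c w γ f' f}) :
    Module.finrank D W' ≤ Module.finrank D W := by
  classical
  obtain ⟨b, hbS, hspan, hli⟩ :=
    exists_linearIndependent D {f' | ∃ f ∈ W, ∃ γ, IsTop c w γ f' f}
  have hch : ∀ x : b, ∃ f : W, ∃ γ, IsTop c w γ (x : V) f := fun x => by
    obtain ⟨f, hf, γ, hγ⟩ := hbS x.2
    exact ⟨⟨f, hf⟩, γ, hγ⟩
  choose F γ hF using hch
  have hF' : LinearIndependent D F := by
    rw [linearIndependent_iff']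
    intro s g hg i hi
    by_contra hne
    obtain ⟨i0, hi0, hmax⟩ := (s.filter fun x => g x ≠ 0).exists_max_image γ
      ⟨i, mem_filter.2 ⟨hi, hne⟩⟩
    rw [mem_filter] at hi0
    have key : ∑ x ∈ s.filter (fun x => γ x = γ i0), g x • (x : V) = 0 := by
      refine hc _ fun k => ?_
      rw [map_sum]
      by_cases hk : w k = γ i0
      · have h1 := congrArg (fun v : W => c k (v : V)) hg
        simp only [Submodule.coe_sum, map_sum, Submodule.coe_smul, map_smul,
          Submodule.coe_zero, map_zero] at h1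
        rw [← h1, sum_filter]
        refine sum_congr rfl fun x hx => ?_
        split_ifs with hx0
        · rw [map_smul, (hF x).2.1 k (hk.trans hx0.symm)]
        · by_cases hg0 : g x = 0
          · rw [hg0, zero_smul]
          · have := lt_of_le_of_ne (hmax x (mem_filter.2 ⟨hx, hg0⟩)) hx0
            rw [(hF x).2.2 k (hk ▸ this), smul_zero]
      · refine sum_eq_zero fun x hx => ?_
        rw [map_smul, (hF x).1 k (by rw [(mem_filter.1 hx).2]; exact hk), smul_zero]
    exact hi0.2 (linearIndependent_iff'.1 hli _ g key i0 (mem_filter.2 ⟨hi0.1, rfl⟩))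
  have h1 : Module.rank D W' ≤ Module.rank D W := by
    refine (Submodule.rank_mono h).trans ?_
    rw [← hspan, rank_span_set hli]
    exact hF'.cardinal_le_rank
  exact Cardinal.toNat_le_toNat h1 (Module.rank_lt_aleph0 D W)

theorem ch_supp_le {X : Set (Mon n)} {p j : ℕ} {Z : Submodule D (KF D n)}
    (h : ∀ (U : Finset (Fin n)) (m : Mon n), U.card = p → p ≤ j → m ∈ X → m ∈ deg n (j - p) →
      (Pi.single U (AddMonoidAlgebra.single m 1) : KF D n) ∈ Z) : ch (supp D X) p j ≤ Z := by
  intro f hf
  rw [← Finset.univ_sum_single f]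
  refine Z.sum_mem fun U _ => ?_
  by_cases hU : U.card = p ∧ p ≤ j
  · have h1 : f U ∈ supp D X ⊓ supp D (deg n (j - p)) := (mem_ch.1 hf U).1 hU
    rw [supp_inf, supp_eq_span] at h1
    have h2 : Submodule.span D ((fun m => AddMonoidAlgebra.single m (1 : D)) ''
        (X ∩ deg n (j - p))) ≤ Z.comap (LinearMap.single D (fun _ => PD D n) U) := by
      rw [Submodule.span_le]
      rintro _ ⟨m, hm, rfl⟩
      exact h U m hU.1 hU.2 hm.1 hm.2
    exact h2 h1
  · rw [(mem_ch.1 hf U).2 hU, Pi.single_zero]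
    exact Z.zero_mem

theorem single_mem_ch {N : Submodule D (PD D n)} {p j : ℕ} {U : Finset (Fin n)} (hU : U.card = p)
    (hp : p ≤ j) {g : PD D n} (hg : g ∈ N) (hg' : g ∈ supp D (deg n (j - p))) :
    (Pi.single U g : KF D n) ∈ ch N p j := by
  refine mem_ch.2 fun T => ?_
  by_cases hT : T = U
  · subst hT
    rw [Pi.single_eq_same]
    exact ⟨fun _ => ⟨hg, hg'⟩, fun h => absurd ⟨hU, hp⟩ h⟩
  · rw [Pi.single_eq_of_ne hT]
    exact ⟨fun _ => ⟨zero_mem _, zero_mem _⟩, fun _ => rfl⟩

/-- coordinates on Koszul chains -/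
noncomputable def kco (D : Type*) [DivisionRing D] (n : ℕ) (i : Finset (Fin n) × Mon n) :
    KF D n →ₗ[D] D where
  toFun f := (f i.1).coeff i.2
  map_add' _ _ := rfl
  map_smul' _ _ := rfl

theorem kco_apply (i : Finset (Fin n) × Mon n) (f : KF D n) : kco D n i f = (f i.1).coeff i.2 := rfl

/-- the weight of a coordinate -/
noncomputable def kwt (i : Finset (Fin n) × Mon n) : Lex (Mon n) :=
  toLex i.2 + toLex (∑ u ∈ i.1, Finsupp.single u 1)

theorem kco_kos_single (T : Finset (Fin n)) (m : Mon n) (i : Finset (Fin n) × Mon n)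
    (hi : kwt i ≠ kwt (T, m)) :
    kco D n i (kos (xv D n) (Pi.single T (AddMonoidAlgebra.single m 1))) = 0 := by
  obtain ⟨U, m'⟩ := i
  rw [kco_apply, kos_apply, AddMonoidAlgebra.coeff_sum, Finsupp.finsetSum_apply]
  refine sum_eq_zero fun t ht => ?_
  rw [AddMonoidAlgebra.coeff_smul_apply]
  suffices h : ((Pi.single T (AddMonoidAlgebra.single m 1) : KF D n) (insert t U) *
      xv D n t).coeff m' = 0 by rw [h, smul_zero]
  by_contra hne
  obtain ⟨m'', rfl, h2⟩ := coeff_mul_xv_ne hne
  by_cases hT : insert t U = T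
  · subst hT
    rw [Pi.single_eq_same, AddMonoidAlgebra.coeff_single] at h2
    have h3 : m'' = m := by
      by_contra h3
      exact h2 (Finsupp.single_eq_of_ne h3)
    subst h3
    apply hi
    simp only [kwt, sum_insert (mem_compl.1 ht), toLex_add, add_assoc]
  · rw [Pi.single_eq_of_ne hT] at h2
    exact h2 rfl

theorem isTop_lead (U : Finset (Fin n)) {g : PD D n} {m : Mon n} (hg : IsLead g m) :
    IsTop (kco D n) kwt (kwt (U, m)) (Pi.single U (AddMonoidAlgebra.single m 1))
      (Pi.single U ((g.coeff m)⁻¹ • g)) := by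
  refine ⟨?_, ?_, ?_⟩ <;> rintro ⟨T, m'⟩ hi <;> simp only [kco_apply] <;>
    by_cases hT : T = U
  · subst hT
    rw [Pi.single_eq_same, AddMonoidAlgebra.coeff_single]
    exact Finsupp.single_eq_of_ne fun h => hi (by rw [h])
  · rw [Pi.single_eq_of_ne hT]; rfl
  · subst hT
    have h1 : m' = m := toLex.injective (add_right_cancel hi)
    subst h1
    rw [Pi.single_eq_same, Pi.single_eq_same, AddMonoidAlgebra.coeff_single,
      Finsupp.single_eq_same, AddMonoidAlgebra.coeff_smul_apply, smul_eq_mul,
      inv_mul_cancel₀ hg.1]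
  · rw [Pi.single_eq_of_ne hT, Pi.single_eq_of_ne hT]
  · subst hT
    rw [Pi.single_eq_same, AddMonoidAlgebra.coeff_smul_apply]
    have h1 : g.coeff m' = 0 := by
      by_contra h
      exact absurd (lt_of_add_lt_add_right hi) (not_lt.2 (hg.2 m' h))
    rw [h1, smul_zero]
  · rw [Pi.single_eq_of_ne hT]; rfl

theorem ee_inSet_le {N : Submodule D (PD D n)} (hN : Gr N) (p j : ℕ) :
    ee (xv D n) (supp D (inSet N)) p j ≤ ee (xv D n) N p j := by
  unfold ee g2
  refine finrank_le_of_top (kco D n) (fun f hf => ?_) kwt _ _ (sup_le ?_ ?_)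
  · funext U
    ext m
    exact hf (U, m)
  · rw [Submodule.map_le_iff_le_comap, ← supp_univ]
    refine ch_supp_le fun T m hT hp _ hm => Submodule.subset_span ⟨_, ?_, kwt (T, m),
      kco_kos_single T m, fun _ _ => rfl, fun i hi => kco_kos_single T m i hi.ne'⟩
    exact Submodule.mem_sup_left (Submodule.mem_map_of_mem
      (single_mem_ch hT hp (single_mem_supp (Set.mem_univ _) _) (single_mem_supp hm _)))
  · refine ch_supp_le fun U m hU hp hm hm' => ?_
    have h1 : m ∈ inSet N ∩ deg n (j - p) := ⟨hm, hm'⟩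
    rw [inSet_inter_deg hN] at h1
    obtain ⟨g, hg, hl⟩ := h1
    exact Submodule.subset_span ⟨_, Submodule.mem_sup_right (single_mem_ch hU hp
      (Submodule.smul_mem _ _ hg.1) (Submodule.smul_mem _ _ hg.2)), _, isTop_lead U hl⟩

end Crest.Agent.R181
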