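import Crest.Agent.R181.KKos
import Crest.Agent.R181.KMon

/-! # Leading monomials: dimension counts (task E4a)

`ncard_inSet`: choose `g m ∈ W` with leading monomial `m` for `m ∈ inSet W`. They are independent (look at the largest
`m` with non-zero coefficient) and span `W` (subtract a multiple of `g m`; induction on the leading monomial inside the
finite set `X`, or on the number of elements of `X` below the leading monomial). -/

set_option autoImplicit false

namespace Crest.Agent.R181

open Finset

variable {D : Type*} [DivisionRing D] {n : ℕ}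

theorem exists_isLead {g : PD D n} (hg : g ≠ 0) : ∃ m, IsLead g m := by
  have hne : g.coeff.support.Nonempty := by
    rw [Finsupp.support_nonempty_iff]
    simpa using hg
  obtain ⟨m, hm, h⟩ := g.coeff.support.exists_max_image toLex hne
  exact ⟨m, Finsupp.mem_support_iff.1 hm, fun m' hm' => h m' (Finsupp.mem_support_iff.2 hm')⟩

theorem inSet_mono {N N' : Submodule D (PD D n)} (h : N ≤ N') : inSet N ⊆ inSet N' := by
  rintro m ⟨g, hg, hm⟩
  exact ⟨g, h hg, hm⟩

theorem inSet_subset {W : Submodule D (PD D n)} {X : Set (Mon n)} (h : W ≤ supp D X) :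
    inSet W ⊆ X := by
  rintro m ⟨g, hg, hm⟩
  exact mem_supp.1 (h hg) m hm.1

theorem ncard_inSet {W : Submodule D (PD D n)} {X : Set (Mon n)} (hX : X.Finite)
    (h : W ≤ supp D X) : (inSet W).ncard = Module.finrank D W := by
  classical
  have hS : (inSet W).Finite := hX.subset (inSet_subset h)
  have := hS.fintype
  have : Module.Finite D (supp D X) := finite_supp hX
  have : Module.Finite D W := Submodule.finiteDimensional_of_le h
  rw [Set.ncard_eq_toFinset_card', Set.toFinset_card]
  apply le_antisymm
  · choose g hg hl using fun m : inSet W => m.2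
    refine LinearIndependent.fintype_card_le_finrank (b := fun m : inSet W => (⟨g m, hg m⟩ : W)) ?_
    rw [Fintype.linearIndependent_iff]
    intro c hc
    by_contra hne
    push Not at hne
    obtain ⟨m, hm, hmax⟩ := (univ.filter fun m => c m ≠ 0).exists_max_image (fun m : inSet W => toLex m.1)
      (hne.imp fun m hm => by simpa using hm)
    have h1 : ∑ m', c m' * (g m').coeff m = 0 := by
      simpa [Finsupp.finsetSum_apply] using congrArg (fun w : W => w.1.coeff m) hc
    rw [Finset.sum_eq_single m] at h1
    · exact mul_ne_zero (by simpa using hm) (hl m).1 h1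
    · intro m' _ hm'
      by_contra h2
      exact hm' (Subtype.ext (toLex.injective (le_antisymm (hmax m' (by simpa using left_ne_zero_of_mul h2))
        ((hl m').2 m (right_ne_zero_of_mul h2)))))
    · simp
  · let f : W →ₗ[D] (inSet W → D) :=
      { toFun := fun g m => g.1.coeff m
        map_add' := fun _ _ => rfl
        map_smul' := fun _ _ => rfl }
    have hf : Function.Injective f := by
      rw [injective_iff_map_eq_zero]
      intro g h0
      by_contra hne
      obtain ⟨m, hm⟩ := exists_isLead (g := g.1) (by simpa using hne)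
      exact hm.1 (congrFun h0 ⟨m, g, g.2, hm⟩)
    simpa using LinearMap.finrank_le_finrank_of_injective hf

theorem isUpperSet_inSet {N : Submodule D (PD D n)} (hN : ∀ g ∈ N, ∀ t, g * xv D n t ∈ N) :
    IsUpperSet (inSet N) := by
  refine isUpperSet_of_single ?_
  rintro m ⟨g, hg, hm⟩ t
  refine ⟨_, hN g hg t, by rw [coeff_mul_xv]; exact hm.1, fun m' hm' => ?_⟩
  obtain ⟨m'', rfl, h⟩ := coeff_mul_xv_ne hm'
  rw [toLex_add, toLex_add]
  exact add_le_add_left (hm.2 m'' h) _

theorem inSet_inter_deg {N : Submodule D (PD D n)} (hN : Gr N) (e : ℕ) :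
    inSet N ∩ deg n e = inSet (N ⊓ supp D (deg n e)) := by
  ext m
  constructor
  · rintro ⟨⟨g, hg, hm⟩, he⟩
    refine ⟨hc D e g, ⟨hN g hg e, hc_mem e g⟩, ?_, fun m' hm' => hm.2 m' fun h0 => hm' ?_⟩
    · rw [coeff_hc, if_pos (show m.degree = e from he)]
      exact hm.1
    · rw [coeff_hc, h0, ite_self]
  · exact fun hm => ⟨inSet_mono inf_le_left hm, inSet_subset inf_le_right hm⟩

theorem cnt_inSet {N : Submodule D (PD D n)} (hN : Gr N) (e : ℕ) : cnt (inSet N) e = hf N e := by
  rw [cnt, inSet_inter_deg hN, ncard_inSet (deg_finite n e) inf_le_right, hf]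

end Crest.Agent.R181
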