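import Crest.Agent.R181.EExact

/-! # The Koszul complexes of `y` and of `x` are related by constant invertible matrices (task E2b)

For `φ : Finset (Fin n) → Finset (Fin n) → D` put `Φ φ f T' = ∑ T, f T * single 0 (φ T T')`; this map, `kos x` and
`kos y` are left `PD D n`-linear (`kos y (g • f) = g • kos y f`), so identities need only be checked on
`Pi.single T 1`. Call `φ` good at `p` if `φ T T' = 0` unless `T.card = T'.card = p`, there is `ψ` with
`Φ ψ (Φ φ f) = f` for all `f` supported on `p`-sets, and `kos x (Φ φ (kos y f)) = 0` for all `f` supported on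
`(p+1)`-sets. The identity matrix on `∅` is good at `0`. If `φ` is good at `p`: for `T.card = p+1` the chain
`Φ φ (kos y (Pi.single T 1)) ∈ ch ⊤ p (p+1)` is an `x`-cycle, so it is `kos x g_T` (`exact_lin`), and
`φ' T T' = (g_T T').coeff 0` satisfies `Φ φ (kos y f) = kos x (Φ φ' f)` on `(p+1)`-sets. `Φ φ'` is injective on the
finite-dimensional space `ch ⊤ (p+1) (p+1)` (`eq_zero_of_kos_const`), hence bijective there, which gives `ψ'`;
`kos x (Φ φ' (kos y f)) = Φ φ (kos y (kos y f)) = 0`. Finally `Φ φ` maps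
`(ch ⊤ (p+1) j).map (kos y) ⊔ ch N p j` injectively into `(ch ⊤ (p+1) j).map (kos x) ⊔ ch N p j`. -/

set_option autoImplicit false

namespace Crest.Agent.R181

open Finset

variable {D : Type*} [DivisionRing D] {n : ℕ}

/-- supported on `p`-sets -/
def ephi_Sup (p : ℕ) (f : KF D n) : Prop := ∀ T : Finset (Fin n), T.card ≠ p → f T = 0

/-- the Koszul differential is linear over the polynomial ring -/
noncomputable def ephi_kos (y : Fin n → PD D n) : KF D n →ₗ[PD D n] KF D n where
  toFun := kos y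
  map_add' := map_add _
  map_smul' g f := by
    funext U
    simp only [kos_apply, Pi.smul_apply, smul_eq_mul, RingHom.id_apply, Finset.mul_sum,
      mul_smul_comm, mul_assoc]

/-- multiplication by a constant matrix -/
noncomputable def ephi_Phi (φ : Finset (Fin n) → Finset (Fin n) → D) :
    KF D n →ₗ[PD D n] KF D n where
  toFun f T' := ∑ T, f T * AddMonoidAlgebra.single 0 (φ T T')
  map_add' f g := by
    funext T'
    simp only [Pi.add_apply, add_mul, Finset.sum_add_distrib]
  map_smul' g f := by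
    funext T'
    simp only [Pi.smul_apply, smul_eq_mul, RingHom.id_apply, Finset.mul_sum, mul_assoc]

theorem ephi_Phi_apply (φ : Finset (Fin n) → Finset (Fin n) → D) (f : KF D n)
    (T' : Finset (Fin n)) :
    ephi_Phi φ f T' = ∑ T, f T * AddMonoidAlgebra.single 0 (φ T T') := rfl

theorem ephi_ext {p : ℕ} (F G : KF D n →ₗ[PD D n] KF D n)
    (h : ∀ T : Finset (Fin n), T.card = p → F (Pi.single T 1) = G (Pi.single T 1)) {f : KF D n}
    (hf : ephi_Sup p f) : F f = G f := by
  rw [pi_eq_sum_univ' f, map_sum, map_sum]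
  refine Finset.sum_congr rfl fun T _ => ?_
  rw [map_smul, map_smul]
  by_cases hT : T.card = p
  · rw [h T hT]
  · rw [hf T hT, zero_smul, zero_smul]

theorem ephi_sup_ch {N : Submodule D (PD D n)} {p j : ℕ} {f : KF D n} (hf : f ∈ ch N p j) :
    ephi_Sup p f := fun T hT => ((mem_ch.1 hf) T).2 fun h => hT h.1

theorem ephi_sup_kos (y : Fin n → PD D n) {p : ℕ} {f : KF D n} (hf : ephi_Sup (p + 1) f) :
    ephi_Sup p (kos y f) := by
  intro U hU
  rw [kos_apply]
  refine Finset.sum_eq_zero fun t ht => ?_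
  rw [hf _ (by rw [Finset.card_insert_of_notMem (Finset.mem_compl.1 ht)]; omega), zero_mul,
    smul_zero]

theorem ephi_one_mem : (1 : PD D n) ∈ supp D (deg n 0) :=
  single_mem_supp (mem_deg_zero.2 rfl) 1

theorem ephi_single_mem {p : ℕ} {T : Finset (Fin n)} (hT : T.card = p) :
    (Pi.single T 1 : KF D n) ∈ ch (⊤ : Submodule D (PD D n)) p p := by
  refine mem_ch.2 fun U => ⟨fun _ => ⟨trivial, ?_⟩, fun h => ?_⟩
  · rw [Nat.sub_self, Pi.single_apply]
    split_ifs
    exacts [ephi_one_mem, zero_mem _]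
  · exact Pi.single_eq_of_ne (fun e : U = T => h ⟨e ▸ hT, le_rfl⟩) _

theorem ephi_const {g : PD D n} (hg : g ∈ supp D (deg n 0)) :
    AddMonoidAlgebra.single 0 (g.coeff 0) = g := by
  ext m
  by_cases hm : m = 0
  · subst hm
    simp
  · have : g.coeff m = 0 := by
      by_contra h
      exact hm (mem_deg_zero.1 (mem_supp.1 hg m h))
    rw [this]
    simp [hm]

theorem ephi_Phi_ch {φ : Finset (Fin n) → Finset (Fin n) → D} {p : ℕ}
    (hφ : ∀ T T', φ T T' ≠ 0 → T'.card = p) {N : Submodule D (PD D n)}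
    (hN : ∀ g ∈ N, ∀ c : D, g * AddMonoidAlgebra.single 0 c ∈ N) {j : ℕ} {f : KF D n}
    (hf : f ∈ ch N p j) : ephi_Phi φ f ∈ ch N p j := by
  rw [mem_ch] at hf ⊢
  intro U
  rw [ephi_Phi_apply]
  refine ⟨fun h => ⟨Submodule.sum_mem _ fun T _ => ?_, Submodule.sum_mem _ fun T _ => ?_⟩,
    fun h => Finset.sum_eq_zero fun T _ => ?_⟩
  · by_cases hT : T.card = p ∧ p ≤ j
    · exact hN _ ((hf T).1 hT).1 _
    · rw [(hf T).2 hT, zero_mul]
      exact zero_mem _
  · by_cases hT : T.card = p ∧ p ≤ j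
    · exact mul_mem_deg (b := 0) ((hf T).1 hT).2 (single_mem_supp (mem_deg_zero.2 rfl) _)
    · rw [(hf T).2 hT, zero_mul]
      exact zero_mem _
  · by_cases hj : p ≤ j
    · have : φ T U = 0 := by
        by_contra h0
        exact h ⟨hφ T U h0, hj⟩
      rw [this]
      simp
    · rw [(hf T).2 fun e => hj e.2, zero_mul]

/-- injectivity on constant chains suffices -/
theorem ephi_inj {φ : Finset (Fin n) → Finset (Fin n) → D} {p : ℕ}
    (h : ∀ f ∈ ch (⊤ : Submodule D (PD D n)) p p, ephi_Phi φ f = 0 → f = 0) {f : KF D n}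
    (hf : ephi_Sup p f) (h0 : ephi_Phi φ f = 0) : f = 0 := by
  funext T
  ext m
  have key := h (fun T => AddMonoidAlgebra.single 0 ((f T).coeff m)) ?_ ?_
  · have := congrArg (fun g : PD D n => g.coeff 0) (congrFun key T)
    simpa using this
  · refine mem_ch.2 fun U => ⟨fun _ => ⟨trivial, ?_⟩, fun hU => ?_⟩
    · rw [Nat.sub_self]
      exact single_mem_supp (mem_deg_zero.2 rfl) _
    · rw [hf U fun e => hU ⟨e, le_rfl⟩]
      simp
  · funext T'
    have := congrArg (fun g : PD D n => g.coeff m) (congrFun h0 T')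
    simp only [ephi_Phi_apply, AddMonoidAlgebra.coeff_sum, Finsupp.finsetSum_apply,
      AddMonoidAlgebra.coeff_mul_single_zero, Pi.zero_apply, AddMonoidAlgebra.coeff_zero,
      Finsupp.coe_zero] at this
    rw [ephi_Phi_apply]
    simp only [AddMonoidAlgebra.single_mul_single, add_zero]
    have e := map_sum (AddMonoidAlgebra.singleAddHom (R := D) (0 : Mon n))
      (fun T => (f T).coeff m * φ T T') Finset.univ
    simp only [AddMonoidAlgebra.singleAddHom_apply] at e
    rw [← e, this]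
    simp

/-- good matrices -/
structure ephi_Good (y : Fin n → PD D n) (p : ℕ) (φ : Finset (Fin n) → Finset (Fin n) → D) :
    Prop where
  card : ∀ T T', φ T T' ≠ 0 → T'.card = p
  inj : ∀ f : KF D n, ephi_Sup p f → ephi_Phi φ f = 0 → f = 0
  cyc : ∀ f : KF D n, ephi_Sup (p + 1) f → kos (xv D n) (ephi_Phi φ (kos y f)) = 0

theorem ephi_base (y : Fin n → PD D n) :
    ephi_Good y 0 fun T T' => if T = ∅ ∧ T' = ∅ then 1 else 0 := by
  refine ⟨fun T T' h => ?_, fun f hf h0 => ?_, fun f _ => ?_⟩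
  · by_contra hT
    exact h (if_neg fun e => hT (Finset.card_eq_zero.2 e.2))
  · funext T
    by_cases hT : T = ∅
    · have := congrFun h0 ∅
      rw [ephi_Phi_apply, Finset.sum_eq_single ∅ (fun T _ h => by simp [h]) (by simp)] at this
      simpa [hT, ← AddMonoidAlgebra.one_def] using this
    · exact hf T fun e => hT (Finset.card_eq_zero.1 e)
  · funext U
    rw [kos_apply]
    refine Finset.sum_eq_zero fun t _ => ?_
    rw [ephi_Phi_apply]
    simp

theorem ephi_step {y : Fin n → PD D n} (hy : IsLin y) (hcomm : ∀ i j, Commute (y i) (y j))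
    (hind : LinearIndependent D y) {p : ℕ} {φ : Finset (Fin n) → Finset (Fin n) → D}
    (h : ephi_Good y p φ) : ∃ φ', ephi_Good y (p + 1) φ' ∧ ∀ f : KF D n, ephi_Sup (p + 1) f →
      ephi_Phi φ (kos y f) = kos (xv D n) (ephi_Phi φ' f) := by
  have hg : ∀ T : Finset (Fin n), ∃ g ∈ ch (⊤ : Submodule D (PD D n)) (p + 1) (p + 1),
      T.card = p + 1 → kos (xv D n) g = ephi_Phi φ (kos y (Pi.single T 1)) := by
    intro T
    by_cases hT : T.card = p + 1
    · obtain ⟨g, hg, e⟩ := exact_lin (ephi_Phi_ch h.card (N := ⊤) (fun _ _ _ => trivial)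
        (kos_mem_ch hy (N := ⊤) (fun _ _ _ => trivial) (ephi_single_mem hT)))
        (h.cyc _ (ephi_sup_ch (ephi_single_mem hT)))
      exact ⟨g, hg, fun _ => e⟩
    · exact ⟨0, zero_mem _, fun e => absurd e hT⟩
  choose g hg hk using hg
  have hP : ∀ T, ephi_Phi (fun T T' => (g T T').coeff 0) (Pi.single T 1) = g T := by
    intro T
    funext T'
    rw [ephi_Phi_apply, Finset.sum_eq_single T (fun T2 _ h => by simp [h]) (by simp),
      Pi.single_eq_same, one_mul]
    by_cases hT : T'.card = p + 1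
    · have := ((mem_ch.1 (hg T) T').1 ⟨hT, le_rfl⟩).2
      rw [Nat.sub_self] at this
      exact ephi_const this
    · rw [ephi_sup_ch (hg T) T' hT]
      simp
  have hd : ∀ f : KF D n, ephi_Sup (p + 1) f → ephi_Phi φ (kos y f) =
      kos (xv D n) (ephi_Phi (fun T T' => (g T T').coeff 0) f) := by
    intro f hf
    refine ephi_ext (ephi_Phi φ ∘ₗ ephi_kos y)
      (ephi_kos (xv D n) ∘ₗ ephi_Phi fun T T' => (g T T').coeff 0) (fun T hT => ?_) hf
    change ephi_Phi φ (kos y _) = kos (xv D n) (ephi_Phi _ _)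
    rw [hP, hk T hT]
  refine ⟨fun T T' => (g T T').coeff 0, ⟨fun T T' h0 => ?_, fun f hf h0 => ?_, fun f hf => ?_⟩, hd⟩
  · by_contra hT
    rw [ephi_sup_ch (hg T) T' hT] at h0
    simp at h0
  · refine ephi_inj (fun f hf h0 => ?_) hf h0
    have h1 := hd f (ephi_sup_ch hf)
    rw [h0, map_zero] at h1
    exact eq_zero_of_kos_const hind hf (h.inj _ (ephi_sup_kos y (ephi_sup_ch hf)) h1)
  · rw [← hd _ (ephi_sup_kos y hf), kos_kos hcomm, map_zero]

theorem ephi_exists {y : Fin n → PD D n} (hy : IsLin y) (hcomm : ∀ i j, Commute (y i) (y j))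
    (hind : LinearIndependent D y) (p : ℕ) : ∃ φ, ephi_Good y p φ := by
  induction p with
  | zero => exact ⟨_, ephi_base y⟩
  | succ p ih =>
    obtain ⟨φ, h⟩ := ih
    obtain ⟨φ', h', -⟩ := ephi_step hy hcomm hind h
    exact ⟨φ', h'⟩

theorem ee_le_ee_xv {y : Fin n → PD D n} (hy : IsLin y) (hcomm : ∀ i j, Commute (y i) (y j))
    (hind : LinearIndependent D y) {N : Submodule D (PD D n)}
    (hN : ∀ g ∈ N, ∀ c : D, g * AddMonoidAlgebra.single 0 c ∈ N) (p j : ℕ) :
    ee y N p j ≤ ee (xv D n) N p j := by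
  obtain ⟨φ, h⟩ := ephi_exists hy hcomm hind p
  obtain ⟨φ', h', hd⟩ := ephi_step hy hcomm hind h
  have hA : ∀ f ∈ (ch (⊤ : Submodule D (PD D n)) (p + 1) j).map (kos y) ⊔ ch N p j,
      ephi_Sup p f ∧ ephi_Phi φ f ∈
        (ch (⊤ : Submodule D (PD D n)) (p + 1) j).map (kos (xv D n)) ⊔ ch N p j := by
    intro f hf
    obtain ⟨_, ⟨a, ha, rfl⟩, b, hb, rfl⟩ := Submodule.mem_sup.1 hf
    refine ⟨fun T hT => ?_, ?_⟩
    · rw [Pi.add_apply, ephi_sup_kos y (ephi_sup_ch ha) T hT, ephi_sup_ch hb T hT, add_zero]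
    · rw [map_add, hd a (ephi_sup_ch ha)]
      exact Submodule.add_mem_sup
        (Submodule.mem_map_of_mem (ephi_Phi_ch h'.card (N := ⊤) (fun _ _ _ => trivial) ha))
        (ephi_Phi_ch h.card hN hb)
  refine LinearMap.finrank_le_finrank_of_injective
    (f := LinearMap.codRestrict _ (((ephi_Phi φ).restrictScalars D).domRestrict _)
      fun f => (hA f.1 f.2).2) ?_
  rw [← LinearMap.ker_eq_bot, LinearMap.ker_eq_bot']
  intro f hf
  exact Subtype.ext (h.inj _ (hA f.1 f.2).1 (congrArg Subtype.val hf))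

end Crest.Agent.R181
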