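import Crest.Agent.R181.KKos

/-! # The substitution `theta y : x^m ↦ y^m` (task E3)

Surjectivity in degree `e+1`: `y` spans the linear forms (independent, `finrank_deg_one`), so
`single (m + single t 1) c = c • single m 1 * x t = ∑ s, (c • single m 1 * single 0 (d s)) * y s` where
`x t = ∑ s, d s • y s`; the factor in front of `y s` has degree `e`, so it is a value of `theta`.
Surjective endomorphisms of finite-dimensional spaces are injective; use `theta_hc` and `exists_sum_hc`. -/

set_option autoImplicit false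

namespace Crest.Agent.R181

open Finset

variable {D : Type*} [DivisionRing D] {n : ℕ} {y : Fin n → PD D n}

private theorem etheta_add {M : Type*} [Monoid M] : ∀ {k : ℕ} (z : Fin k → M) (_ : ∀ i j, Commute (z i) (z j))
    (a b : Fin k → ℕ), (List.ofFn fun i => z i ^ (a i + b i)).prod =
      (List.ofFn fun i => z i ^ a i).prod * (List.ofFn fun i => z i ^ b i).prod
  | 0, _, _, _, _ => by simp
  | k + 1, z, h, a, b => by
    simp only [List.ofFn_succ, List.prod_cons]
    rw [etheta_add (fun i => z i.succ) (fun i j => h _ _) (fun i => a i.succ) (fun i => b i.succ), pow_add]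
    have hc : Commute (z 0 ^ b 0) (List.ofFn fun i : Fin k => z i.succ ^ a i.succ).prod := by
      refine Commute.list_prod_right _ _ fun x hx => ?_
      obtain ⟨i, rfl⟩ := (List.mem_ofFn' _ _).1 hx
      exact (h _ _).pow_pow _ _
    simp only [mul_assoc]
    rw [← mul_assoc (z 0 ^ b 0), hc.eq, mul_assoc]

private theorem etheta_one {M : Type*} [Monoid M] : ∀ {k : ℕ} (f : Fin k → M) (t : Fin k)
    (_ : ∀ i, i ≠ t → f i = 1), (List.ofFn f).prod = f t
  | 0, _, t, _ => t.elim0
  | k + 1, f, t, h => by
    rw [List.ofFn_succ, List.prod_cons]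
    refine Fin.cases (motive := fun t => (∀ i, i ≠ t → f i = 1) →
      f 0 * (List.ofFn fun i : Fin k => f i.succ).prod = f t) (fun h => ?_) (fun t h => ?_) t h
    · rw [List.prod_eq_one, mul_one]
      intro x hx
      obtain ⟨i, rfl⟩ := (List.mem_ofFn' _ _).1 hx
      exact h _ (Fin.succ_ne_zero i)
    · rw [h 0 (Fin.succ_ne_zero t).symm, one_mul]
      exact etheta_one (fun i => f i.succ) t fun i hi => h _ fun e => hi (Fin.succ_injective _ e)

private theorem etheta_one_mem : (1 : PD D n) ∈ supp D (deg n 0) :=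
  single_mem_supp (mem_deg_zero.2 rfl) (1 : D)

private theorem etheta_pow {z : PD D n} (hz : z ∈ supp D (deg n 1)) : ∀ k : ℕ, z ^ k ∈ supp D (deg n k)
  | 0 => by
    rw [pow_zero]
    exact etheta_one_mem
  | k + 1 => by
    rw [pow_succ]
    exact mul_mem_deg (etheta_pow hz k) hz

private theorem etheta_deg : ∀ {k : ℕ} (z : Fin k → PD D n) (_ : ∀ i, z i ∈ supp D (deg n 1)) (a : Fin k → ℕ),
    (List.ofFn fun i => z i ^ a i).prod ∈ supp D (deg n (∑ i, a i))
  | 0, _, _, _ => by simpa using etheta_one_mem
  | k + 1, z, h, a => by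
    rw [List.ofFn_succ, List.prod_cons, Fin.sum_univ_succ]
    exact mul_mem_deg (etheta_pow (h 0) _) (etheta_deg (fun i => z i.succ) (fun i => h _) fun i => a i.succ)

private theorem etheta_span (hy : IsLin y) (hind : LinearIndependent D y) :
    Submodule.span D (Set.range y) = supp D (deg n 1) := by
  refine Submodule.eq_of_le_of_finrank_eq (Submodule.span_le.2 ?_) ?_
  · rintro _ ⟨i, rfl⟩
    exact hy i
  · rw [finrank_span_eq_card hind, finrank_deg_one, Fintype.card_fin]

private theorem etheta_split {e : ℕ} {m : Mon n} (hm : m ∈ deg n (e + 1)) :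
    ∃ m' ∈ deg n e, ∃ t, m = m' + Finsupp.single t 1 := by
  have hm' : m.degree = e + 1 := hm
  have h0 : m ≠ 0 := by
    rintro rfl
    simp at hm'
  obtain ⟨t, ht⟩ := Finsupp.ne_iff.1 h0
  have h1 : Finsupp.single t 1 ≤ m := Finsupp.single_le_iff.2 (Nat.one_le_iff_ne_zero.2 ht)
  obtain ⟨m', rfl⟩ := exists_add_of_le h1
  refine ⟨m', ?_, t, add_comm _ _⟩
  rw [map_add, Finsupp.degree_single] at hm'
  show m'.degree = e
  omega

theorem ymon_zero (y : Fin n → PD D n) : ymon y 0 = 1 := by
  simp [ymon]

theorem ymon_add (hcomm : ∀ i j, Commute (y i) (y j)) (m m' : Mon n) :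
    ymon y (m + m') = ymon y m * ymon y m' :=
  etheta_add y hcomm m m'

theorem ymon_single (y : Fin n → PD D n) (t : Fin n) (k : ℕ) :
    ymon y (Finsupp.single t k) = y t ^ k := by
  rw [ymon, etheta_one _ t fun i hi => by rw [Finsupp.single_eq_of_ne hi, pow_zero], Finsupp.single_eq_same]

theorem ymon_mem_deg (hy : IsLin y) (m : Mon n) : ymon y m ∈ supp D (deg n m.degree) := by
  rw [Finsupp.degree_eq_sum]
  exact etheta_deg y hy m

theorem theta_single (y : Fin n → PD D n) (m : Mon n) (c : D) :
    theta y (AddMonoidAlgebra.single m c) = c • ymon y m := by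
  simp [theta]

theorem theta_apply (y : Fin n → PD D n) (g : PD D n) :
    theta y g = ∑ m ∈ g.coeff.support, g.coeff m • ymon y m := by
  simp [theta, Finsupp.linearCombination_apply, Finsupp.sum]

theorem theta_mul_xv (hcomm : ∀ i j, Commute (y i) (y j)) (g : PD D n) (t : Fin n) :
    theta y (g * xv D n t) = theta y g * y t := by
  induction g using AddMonoidAlgebra.induction_linear with
  | zero => simp
  | add f g hf hg => rw [add_mul, map_add, map_add, hf, hg, add_mul]
  | single m c =>
    rw [xv, AddMonoidAlgebra.single_mul_single, mul_one, theta_single, theta_single, ymon_add hcomm,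
      ymon_single, pow_one, smul_mul_assoc]

theorem theta_mem_deg (hy : IsLin y) {e : ℕ} {g : PD D n} (hg : g ∈ supp D (deg n e)) :
    theta y g ∈ supp D (deg n e) := by
  rw [theta_apply]
  refine Submodule.sum_mem _ fun m hm => Submodule.smul_mem _ _ ?_
  have h1 : m.degree = e := mem_supp.1 hg m (Finsupp.mem_support_iff.1 hm)
  rw [← h1]
  exact ymon_mem_deg hy m

theorem theta_hc (hy : IsLin y) (e : ℕ) (g : PD D n) :
    theta y (hc D e g) = hc D e (theta y g) := by
  induction g using AddMonoidAlgebra.induction_linear with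
  | zero => rw [hc_zero, map_zero, hc_zero]
  | add f g hf hg => rw [hc_add, map_add, map_add, hf, hg, hc_add]
  | single m c =>
    have h1 : AddMonoidAlgebra.single m c ∈ supp D (deg n m.degree) := single_mem_supp (X := deg n m.degree) rfl c
    rw [hc_of_mem h1, hc_of_mem (theta_mem_deg hy h1)]
    split_ifs
    · rfl
    · exact map_zero _

theorem map_theta_deg (hy : IsLin y) (hcomm : ∀ i j, Commute (y i) (y j))
    (hind : LinearIndependent D y) (e : ℕ) :
    (supp D (deg n e)).map (theta y) = supp D (deg n e) := by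
  refine le_antisymm ?_ ?_
  · rintro _ ⟨g, hg, rfl⟩
    exact theta_mem_deg hy hg
  induction e with
  | zero =>
    conv_lhs => rw [supp_eq_span]
    refine Submodule.span_le.2 ?_
    rintro _ ⟨m, hm, rfl⟩
    rw [mem_deg_zero.1 hm]
    refine ⟨AddMonoidAlgebra.single 0 1, etheta_one_mem, ?_⟩
    rw [theta_single, ymon_zero, one_smul]
    rfl
  | succ e ih =>
    have key : ∀ z ∈ Submodule.span D (Set.range y), ∀ g ∈ supp D (deg n e),
        g * z ∈ (supp D (deg n (e + 1))).map (theta y) := by
      intro z hz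
      induction hz using Submodule.span_induction with
      | mem z hz =>
        obtain ⟨s, rfl⟩ := hz
        intro g hg
        obtain ⟨g', hg', rfl⟩ := ih hg
        exact ⟨g' * xv D n s, mul_mem_deg hg' (isLin_xv s), theta_mul_xv hcomm g' s⟩
      | zero =>
        intro g _
        rw [mul_zero]
        exact Submodule.zero_mem _
      | add z z' _ _ h1 h2 =>
        intro g hg
        rw [mul_add]
        exact Submodule.add_mem _ (h1 g hg) (h2 g hg)
      | smul d z _ h1 =>
        intro g hg
        have h2 : d • z = AddMonoidAlgebra.single 0 d * z := by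
          conv_lhs => rw [← one_mul z, ← smul_mul_assoc, AddMonoidAlgebra.one_def,
            AddMonoidAlgebra.smul_single', mul_one]
        rw [h2, ← mul_assoc]
        exact h1 _ (mul_mem_deg hg (single_mem_supp (mem_deg_zero.2 rfl) d))
    conv_lhs => rw [supp_eq_span]
    refine Submodule.span_le.2 ?_
    rintro _ ⟨m, hm, rfl⟩
    obtain ⟨m', hm', t, rfl⟩ := etheta_split hm
    have h3 := key (xv D n t) (by rw [etheta_span hy hind]; exact isLin_xv t) _ (single_mem_supp hm' (1 : D))
    rwa [xv, AddMonoidAlgebra.single_mul_single, mul_one] at h3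

theorem theta_injective (hy : IsLin y) (hcomm : ∀ i j, Commute (y i) (y j))
    (hind : LinearIndependent D y) : Function.Injective (theta y) := by
  refine (injective_iff_map_eq_zero _).2 fun g hg => ?_
  have key : ∀ e, hc D e g = 0 := by
    intro e
    have hs : Function.Surjective
        ((theta y).restrict (p := supp D (deg n e)) (q := supp D (deg n e)) fun _ h => theta_mem_deg hy h) := by
      rintro ⟨z, hz⟩
      rw [← map_theta_deg hy hcomm hind e] at hz
      obtain ⟨w, hw, rfl⟩ := hz
      exact ⟨⟨w, hw⟩, rfl⟩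
    have hi := LinearMap.injective_iff_surjective.2 hs
    have h0 := (injective_iff_map_eq_zero _).1 hi ⟨hc D e g, hc_mem e g⟩ (Subtype.ext (by
      show theta y (hc D e g) = 0
      rw [theta_hc hy, hg, hc_zero]))
    exact congrArg Subtype.val h0
  obtain ⟨N, hN⟩ := exists_sum_hc g
  rw [hN]
  exact Finset.sum_eq_zero fun e _ => key e

theorem theta_surjective (hy : IsLin y) (hcomm : ∀ i j, Commute (y i) (y j))
    (hind : LinearIndependent D y) : Function.Surjective (theta y) := by
  intro g
  obtain ⟨N, hN⟩ := exists_sum_hc g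
  have : g ∈ LinearMap.range (theta y) := by
    rw [hN]
    refine Submodule.sum_mem _ fun e _ => ?_
    have h1 := hc_mem e g
    rw [← map_theta_deg hy hcomm hind e] at h1
    exact LinearMap.map_le_range h1
  exact this

theorem gr_comap (hy : IsLin y) {N : Submodule D (PD D n)} (hN : Gr N) :
    Gr (N.comap (theta y)) := by
  intro g hg e
  rw [Submodule.mem_comap, theta_hc hy]
  exact hN _ hg e

theorem hf_comap (hy : IsLin y) (hcomm : ∀ i j, Commute (y i) (y j))
    (hind : LinearIndependent D y) (N : Submodule D (PD D n)) (e : ℕ) :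
    hf (N.comap (theta y)) e = hf N e := by
  have h1 : (N.comap (theta y) ⊓ supp D (deg n e)).map (theta y) = N ⊓ supp D (deg n e) := by
    refine le_antisymm ?_ ?_
    · rintro _ ⟨g, ⟨hg, hg'⟩, rfl⟩
      exact ⟨hg, theta_mem_deg hy hg'⟩
    · rintro g ⟨hg, hg'⟩
      rw [← map_theta_deg hy hcomm hind e] at hg'
      obtain ⟨w, hw, rfl⟩ := hg'
      exact ⟨w, ⟨hg, hw⟩, rfl⟩
  rw [hf, hf, ← h1]
  exact (Submodule.equivMapOfInjective _ (theta_injective hy hcomm hind) _).finrank_eq

/-- composition with `theta y` is injective, turns `kos x` into `kos y` and keeps bidegrees -/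
theorem ee_comap_le (hy : IsLin y) (hcomm : ∀ i j, Commute (y i) (y j))
    (hind : LinearIndependent D y) (N : Submodule D (PD D n)) (p j : ℕ) :
    ee (xv D n) (N.comap (theta y)) p j ≤ ee y N p j := by
  obtain ⟨Θ, hΘ⟩ : ∃ Θ : KF D n →ₗ[D] KF D n, ∀ f U, Θ f U = theta y (f U) :=
    ⟨(theta y).compLeft _, fun _ _ => rfl⟩
  have hinj : Function.Injective Θ := fun f g h => funext fun U =>
    theta_injective hy hcomm hind (by rw [← hΘ, ← hΘ, h])
  have hch : ∀ (M : Submodule D (PD D n)) (q : ℕ) (f : KF D n), f ∈ ch (M.comap (theta y)) q j →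
      Θ f ∈ ch M q j := by
    intro M q f hf
    refine mem_ch.2 fun U => ⟨fun h => ?_, fun h => ?_⟩
    · rw [hΘ]
      exact ⟨((mem_ch.1 hf U).1 h).1, theta_mem_deg hy ((mem_ch.1 hf U).1 h).2⟩
    · rw [hΘ, (mem_ch.1 hf U).2 h, map_zero]
  have hkos : ∀ f, Θ (kos (xv D n) f) = kos y (Θ f) := by
    intro f
    funext U
    rw [hΘ, kos_apply, kos_apply, map_sum]
    refine Finset.sum_congr rfl fun t _ => ?_
    rw [map_zsmul, theta_mul_xv hcomm, hΘ]
  rw [ee, ee, g2, g2, (Submodule.equivMapOfInjective _ hinj _).finrank_eq]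
  refine Submodule.finrank_mono ?_
  rw [Submodule.map_sup]
  refine sup_le_sup ?_ ?_
  · rintro _ ⟨_, ⟨f, hf, rfl⟩, rfl⟩
    exact ⟨Θ f, hch ⊤ _ f (by rwa [Submodule.comap_top]), (hkos f).symm⟩
  · rintro _ ⟨f, hf, rfl⟩
    exact hch N _ f hf

end Crest.Agent.R181
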