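import Crest.Agent.R181.EBase
import Crest.Agent.R181.EPhi
import Crest.Agent.R181.ETheta
import Crest.Agent.R181.EGr

/-! # Part (E): the initial monomial ideal in the new coordinates -/

set_option autoImplicit false

namespace Crest.Agent.R181

open Finset

variable {D : Type*} [DivisionRing D] [Algebra ℂ D] {n : ℕ}

/-- the initial set of `I` in the coordinates `y` -/
noncomputable def inY (y : Fin n → PD D n) (I : Ideal (MvPolynomial (Fin n) ℂ)) : Set (Mon n) :=
  inSet ((bc D (I.restrictScalars ℂ)).comap (theta y))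

theorem gr_of_homog {I : Ideal (MvPolynomial (Fin n) ℂ)}
    (hI : ∀ g ∈ I, ∀ d : ℕ, MvPolynomial.homogeneousComponent d g ∈ I) :
    Gr (I.restrictScalars ℂ : Submodule ℂ (PD ℂ n)) := by
  intro g hg e
  rw [hc_eq_homogeneousComponent]
  exact hI g hg e

theorem inY_spec {y : Fin n → PD D n} (hy : IsLin y) (hcomm : ∀ i j, Commute (y i) (y j))
    (hind : LinearIndependent D y) {I : Ideal (MvPolynomial (Fin n) ℂ)}
    (hI : ∀ g ∈ I, ∀ d : ℕ, MvPolynomial.homogeneousComponent d g ∈ I) :
    IsUpperSet (inY y I) ∧ (∀ e, cnt (inY y I) e = hf (I.restrictScalars ℂ) e) ∧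
      ∀ p j, em (inY y I) p j ≤ ee (xv ℂ n) (I.restrictScalars ℂ) p j := by
  have hg := gr_of_homog hI
  have hg' : Gr ((bc D (I.restrictScalars ℂ)).comap (theta y)) := gr_comap hy (gr_bc hg)
  refine ⟨isUpperSet_inSet fun g hg t => ?_, fun e => ?_, fun p j => ?_⟩
  · rw [Submodule.mem_comap, theta_mul_xv hcomm]
    exact bc_mul I hg _
  · rw [inY, cnt_inSet hg', hf_comap hy hcomm hind, hf_bc hg]
  · calc em (inY y I) p j = ee (xv D n) (supp D (inY y I)) p j := by
          rw [em, ← ee_bc (D := D) (gr_supp _), bc_supp]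
      _ ≤ ee (xv D n) ((bc D (I.restrictScalars ℂ)).comap (theta y)) p j := ee_inSet_le hg' p j
      _ ≤ ee y (bc D (I.restrictScalars ℂ)) p j := ee_comap_le hy hcomm hind _ p j
      _ ≤ ee (xv D n) (bc D (I.restrictScalars ℂ)) p j :=
          ee_le_ee_xv hy hcomm hind (fun g hg c => bc_mul I hg _) p j
      _ = ee (xv ℂ n) (I.restrictScalars ℂ) p j := ee_bc hg p j

end Crest.Agent.R181
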