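import Mathlib

/-! # A division algebra containing a quantum plane (task FQ)

Possible routes. (1) `R = Algebra.adjoin ℂ {β, γ}` inside `Module.End ℂ (MvPolynomial (Fin 2) ℂ)` (or a twisted monoid
algebra / `SkewMonoidAlgebra`), `γ f = X 0 * f`, `β f = X 1 * f(q⁻¹ X 0, X 1)`; `R` is spanned by the `γ^i β^j`, non-zero
elements act injectively (leading monomials), so `R` is a domain; the Ore condition follows from a dimension count
(`2 (N+1)^2 > (N+c+1)^2`); `D = R[R⁰⁻¹]` (`OreLocalization`, `oreSetOfNoZeroDivisors` or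
`nonempty_oreSet_of_strongRankCondition`). (2) the same with coefficients in the field `F = FractionRing ℂ[X]` and one skew
variable (linear count `2 (N+1) > N + c + 1` over `F`). (3) a finite-dimensional domain over a field is a division ring
(`divisionRingOfFiniteDimensional`). -/

set_option autoImplicit false

namespace Crest.Agent.R181

open Finset

section skew

open Polynomial nonZeroDivisors

variable {B : Type} [CommRing B] [Algebra ℂ B] (σ : B →ₐ[ℂ] B)

/-- left multiplication by a coefficient -/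
noncomputable def fq_L : B →ₗ[ℂ] Module.End ℂ B[X] :=
  LinearMap.mul ℂ B[X] ∘ₗ (CAlgHom : B →ₐ[ℂ] B[X]).toLinearMap

/-- the skew variable -/
noncomputable def fq_S : Module.End ℂ B[X] :=
  LinearMap.mulLeft ℂ (X : B[X]) ∘ₗ (mapAlgHom σ).toLinearMap

theorem fq_L_apply (b : B) (f : B[X]) : fq_L b f = C b * f := rfl

theorem fq_S_apply (f : B[X]) : fq_S σ f = X * f.map (σ : B →+* B) := rfl

theorem fq_S_L (b : B) : fq_S σ * fq_L b = fq_L (σ b) * fq_S σ := by
  refine LinearMap.ext fun f => ?_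
  simp only [Module.End.mul_apply, fq_L_apply, fq_S_apply, Polynomial.map_mul, map_C,
    RingHom.coe_coe]
  ring

theorem fq_L_L (b b' : B) : fq_L b * fq_L b' = fq_L (b * b') := by
  refine LinearMap.ext fun f => ?_
  simp only [Module.End.mul_apply, fq_L_apply, C_mul, mul_assoc]

theorem fq_coeff_pow (j : ℕ) (f : B[X]) (k : ℕ) :
    ((fq_S σ ^ j) f).coeff (k + j) = (σ ^ j) (f.coeff k) := by
  induction j with
  | zero => simp
  | succ j ih =>
    rw [pow_succ', Module.End.mul_apply, fq_S_apply, ← add_assoc, coeff_X_mul, coeff_map, ih,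
      pow_succ']
    rfl

/-- the operator of a skew polynomial -/
noncomputable def fq_T : B[X] →ₗ[ℂ] Module.End ℂ B[X] :=
  lsum fun j => LinearMap.mulRight ℂ (fq_S σ ^ j) ∘ₗ fq_L

theorem fq_T_monomial (j : ℕ) (b : B) : fq_T σ (monomial j b) = fq_L b * fq_S σ ^ j := by
  simp [fq_T, sum_monomial_index]

theorem fq_T_apply (p f : B[X]) :
    fq_T σ p f = ∑ j ∈ p.support, C (p.coeff j) * (fq_S σ ^ j) f := by
  simp only [fq_T, lsum_apply, Polynomial.sum_def, LinearMap.sum_apply]
  rfl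

theorem fq_T_one : fq_T σ 1 = 1 := by
  rw [← monomial_zero_one, fq_T_monomial, pow_zero, mul_one]
  exact LinearMap.ext fun f => by simp [fq_L_apply]

theorem fq_coeff_top (p f : B[X]) {N m : ℕ} (hp : p.natDegree ≤ N) (hf : f.natDegree ≤ m) :
    (fq_T σ p f).coeff (m + N) = p.coeff N * (σ ^ N) (f.coeff m) := by
  rw [fq_T_apply, finsetSum_coeff, Finset.sum_eq_single N]
  · rw [coeff_C_mul, fq_coeff_pow]
  · intro j hj hne
    have hj' := le_natDegree_of_mem_supp j hj
    rw [coeff_C_mul, show m + N = (m + N - j) + j by omega, fq_coeff_pow,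
      coeff_eq_zero_of_natDegree_lt (p := f) (by omega), map_zero, mul_zero]
  · intro h
    rw [notMem_support_iff.1 h, C_0, zero_mul, coeff_zero]

theorem fq_deg {p f : B[X]} {N c : ℕ} (hp : p ∈ degreeLT B N) (hf : f.natDegree ≤ c) :
    fq_T σ p f ∈ degreeLT B (N + c) := by
  rw [mem_degreeLT, degree_lt_iff_coeff_zero] at hp ⊢
  intro k hk
  rw [fq_T_apply, finsetSum_coeff]
  refine Finset.sum_eq_zero fun j hj => ?_
  have hj' : j < N := by
    by_contra h
    exact mem_support_iff.1 hj (hp j (by omega))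
  rw [coeff_C_mul, show k = (k - j) + j by omega, fq_coeff_pow,
    coeff_eq_zero_of_natDegree_lt (p := f) (by omega), map_zero, mul_zero]

theorem fq_ne [IsDomain B] (hσ : Function.Injective σ) {p f : B[X]} (hp : p ≠ 0) (hf : f ≠ 0) :
    fq_T σ p f ≠ 0 := by
  intro h
  have h1 := fq_coeff_top σ p f le_rfl le_rfl
  rw [h, coeff_zero, eq_comm, mul_eq_zero] at h1
  rcases h1 with h1 | h1
  · exact hp (leadingCoeff_eq_zero.1 h1)
  · have hi : Function.Injective (σ ^ p.natDegree) := by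
      rw [AlgHom.coe_pow]
      exact hσ.iterate _
    exact hf (leadingCoeff_eq_zero.1 (hi (h1.trans (map_zero _).symm)))

/-- the skew polynomial ring as a ring of operators -/
noncomputable def fq_R : Subalgebra ℂ (Module.End ℂ B[X]) where
  carrier := {A | ∀ p, A * fq_T σ p = fq_T σ (A p)}
  mul_mem' := fun {A A'} hA hA' p => by rw [mul_assoc, hA' p, hA, Module.End.mul_apply]
  add_mem' := fun {A A'} hA hA' p => by rw [add_mul, hA p, hA' p, LinearMap.add_apply, map_add]
  algebraMap_mem' c p := by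
    rw [← Algebra.smul_def, Module.algebraMap_end_apply, map_smul]

theorem fq_L_mem (b : B) : fq_L b ∈ fq_R σ := by
  intro p
  induction p using Polynomial.induction_on' with
  | add p q hp hq => rw [map_add, mul_add, hp, hq, map_add, map_add]
  | monomial j a => rw [fq_L_apply, C_mul_monomial, fq_T_monomial, fq_T_monomial, ← mul_assoc, fq_L_L]

theorem fq_S_mem : fq_S σ ∈ fq_R σ := by
  intro p
  induction p using Polynomial.induction_on' with
  | add p q hp hq => rw [map_add, mul_add, hp, hq, map_add, map_add]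
  | monomial j a =>
    rw [fq_S_apply, Polynomial.map_monomial, X_mul_monomial, fq_T_monomial, fq_T_monomial,
      ← mul_assoc, fq_S_L, mul_assoc, ← pow_succ']
    rfl

theorem fq_T_mem (p : B[X]) : fq_T σ p ∈ fq_R σ := by
  induction p using Polynomial.induction_on' with
  | add p q hp hq => rw [map_add]; exact add_mem hp hq
  | monomial j a => rw [fq_T_monomial]; exact mul_mem (fq_L_mem σ a) (pow_mem (fq_S_mem σ) j)

theorem fq_eq (A : fq_R σ) : A.1 = fq_T σ (A.1 1) := by
  rw [← A.2 1, fq_T_one, mul_one]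

theorem fq_one_ne {A : fq_R σ} (h : A ≠ 0) : A.1 1 ≠ 0 := fun e =>
  h (Subtype.ext (by rw [fq_eq σ A, e, map_zero]; rfl))

theorem fq_nzd [IsDomain B] (hσ : Function.Injective σ) : NoZeroDivisors (fq_R σ) := by
  refine ⟨fun {A A'} h => ?_⟩
  by_contra hc
  rw [not_or] at hc
  refine fq_ne σ hσ (fq_one_ne σ hc.1) (fq_one_ne σ hc.2) ?_
  rw [← fq_eq]
  exact congrArg (fun A : fq_R σ => A.1 1) h

/-- right multiplication is linear over the coefficients -/
noncomputable def fq_U (f : B[X]) : B[X] →ₗ[B] B[X] where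
  toFun p := fq_T σ p f
  map_add' p q := by rw [map_add, LinearMap.add_apply]
  map_smul' b p := by
    rw [smul_eq_C_mul, ← fq_L_apply, ← fq_L_mem σ b p, Module.End.mul_apply, fq_L_apply,
      RingHom.id_apply, smul_eq_C_mul]

theorem fq_count [IsDomain B] (f g : B[X]) :
    ∃ p p' : B[X], ¬ (p = 0 ∧ p' = 0) ∧ fq_T σ p f = fq_T σ p' g := by
  by_contra hc
  push Not at hc
  set c := f.natDegree + g.natDegree with hcd
  let Φ : degreeLT B (c + 1) × degreeLT B (c + 1) →ₗ[B] degreeLT B (c + 1 + c) :=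
    LinearMap.codRestrict _ (LinearMap.coprod (fq_U σ f ∘ₗ Submodule.subtype _)
      (-(fq_U σ g ∘ₗ Submodule.subtype _))) fun x =>
      add_mem (fq_deg σ x.1.2 (by omega)) (neg_mem (fq_deg σ x.2.2 (by omega)))
  have hΦ : Function.Injective Φ := by
    rw [← LinearMap.ker_eq_bot, LinearMap.ker_eq_bot']
    intro x hx
    have h1 : fq_T σ x.1.1 f + -fq_T σ x.2.1 g = 0 := congrArg Subtype.val hx
    by_contra h0
    refine hc x.1.1 x.2.1 (fun e1 e2 => h0 (Prod.ext (Subtype.ext e1) (Subtype.ext e2))) ?_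
    rwa [← sub_eq_add_neg, sub_eq_zero] at h1
  have h2 := LinearMap.finrank_le_finrank_of_injective hΦ
  rw [Module.finrank_prod, Module.finrank_eq_card_basis (degreeLT.basis B (c + 1)),
    Module.finrank_eq_card_basis (degreeLT.basis B (c + 1 + c))] at h2
  simp only [Fintype.card_fin] at h2
  omega

theorem fq_ore [IsDomain B] (hσ : Function.Injective σ) (r s : fq_R σ) (hs : s ≠ 0) :
    ∃ r' s' : fq_R σ, s' ≠ 0 ∧ s' * r = r' * s := by
  obtain ⟨p, p', hne, e⟩ := fq_count σ (r.1 1) (s.1 1)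
  have hp : p ≠ 0 := by
    rintro rfl
    rw [map_zero, LinearMap.zero_apply] at e
    exact fq_ne σ hσ (fun h => hne ⟨rfl, h⟩) (fq_one_ne σ hs) e.symm
  refine ⟨⟨_, fq_T_mem σ p'⟩, ⟨_, fq_T_mem σ p⟩, fun h => ?_, Subtype.ext ?_⟩
  · exact fq_ne σ hσ hp one_ne_zero (congrArg (fun A : fq_R σ => A.1 1) h)
  · change fq_T σ p * r.1 = fq_T σ p' * s.1
    rw [fq_eq σ r, fq_eq σ s, fq_T_mem σ p, fq_T_mem σ p', e]

end skew

open nonZeroDivisors OreLocalization in
theorem fq_div {R : Type} [Ring R] [Algebra ℂ R] [NoZeroDivisors R]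
    (hO : ∀ r s : R, s ≠ 0 → ∃ r' s' : R, s' ≠ 0 ∧ s' * r = r' * s) {q : ℂ} {β γ : R}
    (hβ : β ≠ 0) (hγ : γ ≠ 0) (h : γ * β = q • (β * γ)) :
    ∃ (D : Type) (_ : DivisionRing D) (_ : Algebra ℂ D) (β γ : D),
      β ≠ 0 ∧ γ ≠ 0 ∧ γ * β = q • (β * γ) := by
  have : Nontrivial R := ⟨⟨β, 0, hβ⟩⟩
  obtain ⟨hO'⟩ : Nonempty (OreSet R⁰) := by
    refine nonempty_oreSet_iff_of_noZeroDivisors.2 fun r s => ?_
    obtain ⟨r', s', h1, h2⟩ := hO r s (nonZeroDivisors.ne_zero s.2)
    exact ⟨r', ⟨s', mem_nonZeroDivisors_of_ne_zero h1⟩, h2⟩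
  have hinj : Function.Injective (numeratorRingHom : R →+* R[R⁰⁻¹]) :=
    numeratorHom_inj fun x hx => hx.1
  refine ⟨R[R⁰⁻¹], inferInstance, inferInstance, numeratorRingHom β, numeratorRingHom γ,
    fun e => hβ (hinj (e.trans (map_zero _).symm)), fun e => hγ (hinj (e.trans (map_zero _).symm)),
    ?_⟩
  rw [Algebra.smul_def]
  change _ = numeratorRingHom (algebraMap ℂ R q) * _
  rw [← map_mul, ← map_mul, ← map_mul, ← Algebra.smul_def, h]

open Polynomial in
theorem exists_quantum (q : ℂ) (a : ℕ) (ha : 0 < a) (hq : IsPrimitiveRoot q a) :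
    ∃ (D : Type) (_ : DivisionRing D) (_ : Algebra ℂ D) (β γ : D),
      β ≠ 0 ∧ γ ≠ 0 ∧ γ * β = q • (β * γ) := by
  have hq0 : q ≠ 0 := hq.ne_zero ha.ne'
  let _ : Invertible q := invertibleOfNonzero hq0
  let σ : ℂ[X] →ₐ[ℂ] ℂ[X] := (algEquivCMulXAddC q 0).toAlgHom
  have hσ : Function.Injective σ := (algEquivCMulXAddC q 0).injective
  have hX : σ X = q • X := by simp [σ, smul_eq_C_mul]
  have := fq_nzd σ hσ
  refine fq_div (fq_ore σ hσ) (β := ⟨_, fq_L_mem σ X⟩) (γ := ⟨_, fq_S_mem σ⟩) (fun h => ?_)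
    (fun h => ?_) (Subtype.ext ?_)
  · have := congrArg (fun A : fq_R σ => A.1 1) h
    simp [fq_L_apply] at this
  · have := congrArg (fun A : fq_R σ => A.1 1) h
    simp [fq_S_apply] at this
  · change fq_S σ * fq_L X = q • (fq_L X * fq_S σ)
    rw [fq_S_L, hX, map_smul, smul_mul_assoc]

end Crest.Agent.R181
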