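import Crest.Agent.R181.ETheta
import Crest.Agent.R181.KMon

/-! # The quantum change of the last variable (task FW)

`w = β • z + (β * γ) • x_k` with `γ * β = q • (β * γ)`. By induction
`w ^ i = ∑ l ∈ range (i+1), single (single last (i-l) + single k l) ((P i).coeff l • (β ^ i * γ ^ l))` with
`P i = ∏ s ∈ range i, (1 + C (q ^ s) * X) : ℂ[X]` (`P (i+1) = (P i)(q X) * (1 + X)`, `γ ^ l * β = q ^ l • (β * γ ^ l)`).
`(P i).coeff 0 = 1`, `(P i).coeff 1 = ∑ s ∈ range i, q ^ s` (non-zero for `0 < i < a`: times `q - 1` it is `q ^ i - 1`),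
`P a = 1 - (-X) ^ a` (`IsPrimitiveRoot.pow_sub_pow_eq_prod_sub_mul_range` or `X_pow_sub_C_eq_prod`).
`ymon (yq k β γ) (sn m i) = single (sn m 0) 1 * w ^ i` (`ymon_add`, `ymon_single`, `sn_add`, `single_last`). -/

set_option autoImplicit false

namespace Crest.Agent.R181

open Finset

variable {D : Type*} [DivisionRing D] [Algebra ℂ D] {n : ℕ}

/-- the variables with the last one replaced by `β • z + (β * γ) • x_k` -/
noncomputable def yq (k : Fin n) (β γ : D) : Fin (n + 1) → PD D (n + 1) :=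
  Function.update (xv D (n + 1)) (Fin.last n)
    (β • xv D (n + 1) (Fin.last n) + (β * γ) • xv D (n + 1) k.castSucc)

theorem yq_castSucc (k : Fin n) (β γ : D) (i : Fin n) :
    yq k β γ i.castSucc = xv D (n + 1) i.castSucc := by
  exact Function.update_of_ne (Fin.castSucc_lt_last i).ne _ _

theorem fw_last (k : Fin n) (β γ : D) : yq k β γ (Fin.last n) =
    β • xv D (n + 1) (Fin.last n) + (β * γ) • xv D (n + 1) k.castSucc := Function.update_self _ _ _

theorem yq_isLin (k : Fin n) (β γ : D) : IsLin (yq k β γ) := by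
  intro i
  refine Fin.lastCases ?_ (fun i => ?_) i
  · rw [fw_last]
    exact Submodule.add_mem _ (Submodule.smul_mem _ _ (isLin_xv _)) (Submodule.smul_mem _ _ (isLin_xv _))
  · rw [yq_castSucc]
    exact isLin_xv _

theorem yq_comm (k : Fin n) (β γ : D) (i j : Fin (n + 1)) : Commute (yq k β γ i) (yq k β γ j) := by
  refine Fin.lastCases ?_ (fun j => ?_) j
  · refine Fin.lastCases (Commute.refl _) (fun i => ?_) i
    rw [yq_castSucc]
    exact (commute_xv _ _).symm
  · rw [yq_castSucc]
    exact commute_xv _ _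

theorem yq_linInd (k : Fin n) {β : D} (γ : D) (hβ : β ≠ 0) : LinearIndependent D (yq k β γ) := by
  rw [Fintype.linearIndependent_iff]
  intro g hg
  have hne : ∀ i : Fin n, (Finsupp.single i.castSucc 1 : Mon (n + 1)) ≠ Finsupp.single (Fin.last n) 1 := fun i h =>
    (Fin.castSucc_lt_last i).ne (Finsupp.single_left_injective one_ne_zero h)
  rw [Fin.sum_univ_castSucc, fw_last] at hg
  simp only [yq_castSucc] at hg
  have h1 : g (Fin.last n) = 0 := by
    have := congrArg (fun f : PD D (n + 1) => f.coeff (Finsupp.single (Fin.last n) 1)) hg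
    simpa [xv, Finsupp.single_eq_of_ne', hne, hβ] using this
  refine Fintype.linearIndependent_iff.1 (linearIndependent_xv (D := D)) g ?_
  rw [h1, zero_smul] at hg
  rw [Fin.sum_univ_castSucc, h1, zero_smul, hg]

/-- the coefficients of `∏ s < i, (1 + q ^ s X)` -/
noncomputable def fw_c (q : ℂ) : ℕ → ℕ → ℂ
  | _, 0 => 1
  | 0, _ + 1 => 0
  | i + 1, l + 1 => fw_c q i (l + 1) + q ^ i * fw_c q i l

theorem fw_c_zero (q : ℂ) (i : ℕ) : fw_c q i 0 = 1 := by rw [fw_c]

theorem fw_c_succ (q : ℂ) (i l : ℕ) : fw_c q (i + 1) (l + 1) = fw_c q i (l + 1) + q ^ i * fw_c q i l := by rw [fw_c]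

theorem fw_c_lt (q : ℂ) {i l : ℕ} (h : i < l) : fw_c q i l = 0 := by
  induction i generalizing l with
  | zero => obtain ⟨l, rfl⟩ := Nat.exists_eq_succ_of_ne_zero h.ne'; rw [fw_c]
  | succ i ih =>
    obtain ⟨l, rfl⟩ := Nat.exists_eq_succ_of_ne_zero (h.trans' i.succ_pos).ne'
    rw [fw_c, ih (by omega), ih (by omega), mul_zero, add_zero]

theorem fw_c_rec (q : ℂ) (i l : ℕ) : (q ^ (l + 1) - 1) * fw_c q i (l + 1) = (q ^ i - q ^ l) * fw_c q i l := by
  induction i generalizing l with
  | zero => cases l <;> simp [fw_c]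
  | succ i ih =>
    cases l with
    | zero =>
      have := ih 0
      rw [fw_c_zero] at this
      rw [fw_c_succ, fw_c_zero, fw_c_zero]
      linear_combination this
    | succ l =>
      rw [fw_c_succ, fw_c_succ]
      linear_combination ih (l + 1) + q ^ (i + 1) * ih l

theorem fw_c_prim {q : ℂ} {a : ℕ} (h : IsPrimitiveRoot q a) {l : ℕ} (hl : l + 1 < a) : fw_c q a (l + 1) = 0 := by
  refine (mul_eq_zero.1 ((fw_c_rec q a l).trans ?_)).resolve_left
    (sub_ne_zero.2 (h.pow_ne_one_of_pos_of_lt l.succ_ne_zero hl))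
  induction l with
  | zero => rw [h.pow_eq_one, pow_zero, sub_self, zero_mul]
  | succ l ih =>
    rw [(mul_eq_zero.1 ((fw_c_rec q a l).trans (ih (by omega)))).resolve_left
      (sub_ne_zero.2 (h.pow_ne_one_of_pos_of_lt l.succ_ne_zero (by omega))), mul_zero]

theorem fw_swap {β γ : D} {q : ℂ} (hq : γ * β = q • (β * γ)) (i : ℕ) : γ * β ^ i = q ^ i • (β ^ i * γ) := by
  induction i with
  | zero => simp
  | succ i ih => rw [pow_succ, ← mul_assoc, ih, smul_mul_assoc, mul_assoc, hq, mul_smul_comm, smul_smul, ← pow_succ,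
      mul_assoc]

theorem fw_pow (k : Fin n) {β γ : D} {q : ℂ} (hq : γ * β = q • (β * γ)) (i : ℕ) :
    yq k β γ (Fin.last n) ^ i = ∑ p ∈ antidiagonal i, AddMonoidAlgebra.single
      (Finsupp.single (Fin.last n) p.1 + Finsupp.single k.castSucc p.2) (fw_c q i p.2 • (β ^ i * γ ^ p.2)) := by
  induction i with
  | zero => simp [fw_c_zero, AddMonoidAlgebra.one_def]
  | succ i ih =>
    have h1 := Finset.Nat.sum_antidiagonal_succ (n := i) (f := fun p => (AddMonoidAlgebra.single
      (Finsupp.single (Fin.last n) p.1 + Finsupp.single k.castSucc p.2)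
        (fw_c q i p.2 • (β ^ (i + 1) * γ ^ p.2)) : PD D (n + 1)))
    rw [Finset.Nat.sum_antidiagonal_succ', fw_c_lt q i.lt_succ_self, zero_smul, AddMonoidAlgebra.single_zero,
      zero_add] at h1
    rw [pow_succ', ih, fw_last, add_mul, Finset.Nat.sum_antidiagonal_succ']
    simp only [fw_c, add_smul, AddMonoidAlgebra.single_add, Finset.sum_add_distrib] at h1 ⊢
    rw [← add_assoc, h1, Finset.mul_sum, Finset.mul_sum]
    congr 1
    · refine Finset.sum_congr rfl fun p _ => ?_
      rw [xv, AddMonoidAlgebra.smul_single, AddMonoidAlgebra.single_mul_single, smul_eq_mul, mul_one, ← add_assoc,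
        ← Finsupp.single_add, add_comm 1, mul_smul_comm, ← mul_assoc, ← pow_succ']
    · refine Finset.sum_congr rfl fun p _ => ?_
      rw [xv, AddMonoidAlgebra.smul_single, AddMonoidAlgebra.single_mul_single, smul_eq_mul, mul_one, add_left_comm,
        ← Finsupp.single_add, add_comm 1, mul_smul_comm, mul_assoc β, ← mul_assoc γ, fw_swap hq, smul_mul_assoc,
        mul_smul_comm, smul_smul, mul_comm (q ^ i), mul_assoc, ← pow_succ', ← mul_assoc, ← pow_succ']

theorem fw_zero (k : Fin n) (β γ : D) (m : Mon n) :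
    ymon (yq k β γ) (sn m 0) = AddMonoidAlgebra.single (sn m 0) 1 := by
  induction m using Finsupp.induction_linear with
  | zero => rw [← single_last, Finsupp.single_zero, ymon_zero, AddMonoidAlgebra.one_def]
  | add f g hf hg =>
    rw [show sn (f + g) 0 = sn f 0 + sn g 0 from (sn_add f g 0 0).symm, ymon_add (yq_comm k β γ), hf, hg,
      AddMonoidAlgebra.single_mul_single, mul_one]
  | single t c => rw [← single_castSucc, ymon_single, yq_castSucc, xv_pow]

theorem fw_ymon (k : Fin n) {β γ : D} {q : ℂ} (hq : γ * β = q • (β * γ)) (m : Mon n) (i : ℕ) :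
    ymon (yq k β γ) (sn m i) = ∑ p ∈ antidiagonal i, AddMonoidAlgebra.single
      (sn (m + Finsupp.single k p.2) p.1) (fw_c q i p.2 • (β ^ i * γ ^ p.2)) := by
  have h : sn m i = sn m 0 + Finsupp.single (Fin.last n) i := by rw [single_last, sn_add, add_zero, zero_add]
  rw [h, ymon_add (yq_comm k β γ), fw_zero, ymon_single, fw_pow k hq, Finset.mul_sum]
  refine Finset.sum_congr rfl fun p _ => ?_
  rw [AddMonoidAlgebra.single_mul_single, one_mul, single_last, single_castSucc, sn_add, sn_add]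
  simp

theorem coeff_ymon_yq_ne (k : Fin n) {β γ : D} {q : ℂ} (hq : γ * β = q • (β * γ))
    {m m' : Mon (n + 1)} (h : (ymon (yq k β γ) m).coeff m' ≠ 0) :
    ∃ l, m' + Finsupp.single (Fin.last n) l = m + Finsupp.single k.castSucc l := by
  rw [← sn_ini m, fw_ymon k hq, AddMonoidAlgebra.coeff_sum, Finsupp.finsetSum_apply] at h
  obtain ⟨p, hp, h1⟩ := Finset.exists_ne_zero_of_sum_ne_zero h
  have h2 := (Finsupp.single_apply_ne_zero.1 h1).1
  refine ⟨p.2, ?_⟩
  rw [h2, single_last, sn_add, add_zero, mem_antidiagonal.1 hp, single_castSucc]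
  conv_rhs => rw [← sn_ini m, sn_add, add_zero]

theorem coeff_ymon_yq_next (k : Fin n) {β γ : D} {q : ℂ} (hq : γ * β = q • (β * γ)) (hβ : β ≠ 0)
    (hγ : γ ≠ 0) {a : ℕ} (hprim : IsPrimitiveRoot q a) (m : Mon n) {i : ℕ} (hi : i + 1 < a) :
    (ymon (yq k β γ) (sn m (i + 1))).coeff (sn (m + Finsupp.single k 1) i) ≠ 0 := by
  rw [fw_ymon k hq, AddMonoidAlgebra.coeff_sum, Finsupp.finsetSum_apply, Finset.sum_eq_single (i, 1)]
  · rw [AddMonoidAlgebra.coeff_single, Finsupp.single_eq_same]
    refine smul_ne_zero (fun h => ?_) (mul_ne_zero (pow_ne_zero _ hβ) (pow_ne_zero _ hγ))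
    have h1 := fw_c_rec q (i + 1) 0
    rw [h, mul_zero, fw_c_zero, mul_one, pow_zero] at h1
    exact sub_ne_zero.2 (hprim.pow_ne_one_of_pos_of_lt i.succ_ne_zero hi) h1.symm
  · intro p hp hne
    refine Finsupp.single_eq_of_ne fun h => hne ?_
    have h1 := (sn_inj.1 h).2
    have h2 := mem_antidiagonal.1 hp
    exact Prod.ext h1.symm (by omega)
  · intro h
    exact (h (mem_antidiagonal.2 rfl)).elim

theorem yq_last_pow (k : Fin n) {β γ : D} {q : ℂ} (hq : γ * β = q • (β * γ)) {a : ℕ} (ha : 0 < a)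
    (hprim : IsPrimitiveRoot q a) :
    yq k β γ (Fin.last n) ^ a ∈
      supp D {Finsupp.single (Fin.last n) a, Finsupp.single k.castSucc a} := by
  rw [fw_pow k hq]
  refine Submodule.sum_mem _ fun p hp => ?_
  obtain ⟨i, l⟩ := p
  have h1 : i + l = a := mem_antidiagonal.1 hp
  rcases l with _ | l
  · exact single_mem_supp (Or.inl (by simp [← h1])) _
  rcases i with _ | i
  · exact single_mem_supp (Or.inr (by simp [← h1])) _
  · rw [fw_c_prim hprim (by omega), zero_smul, AddMonoidAlgebra.single_zero]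
    exact Submodule.zero_mem _

end Crest.Agent.R181
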