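import Crest.Agent.R181.EMain
import Crest.Agent.R181.FW
import Crest.Agent.R181.FQ

/-! # Compression: reduction to `z`-stable monomial sets (task FComp)

Let `μ = sn m (i+1) ∈ J`, `i + 1 < a last`, `μ' = sn (m + single k 1) i ∉ J`. Take `q` a primitive `a last`-th root of unity
(`Complex.isPrimitiveRoot_exp`), `D, β, γ` from `exists_quantum`, `y = yq k β γ`, `θ = theta y`, `J' = inY y (monI J)
= inSet ((supp D J).comap θ)` (`monI_eq`, `bc_supp`). `inY_spec` gives upper set, `cnt`, `em`. `HasP`: `hasP_of_single`;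
`θ (single (single i (a i)) 1) = y i ^ a i ∈ supp D J` (`yq_last_pow` and `a k.castSucc ≤ a last`).
If a finite set `Z` of monomials satisfies `θ (supp Z) ≤ supp Z` then `θ` is bijective on `supp Z`, so for `Y ⊆ Z` the space
`W = (supp Y).comap θ` lies in `supp Z` and has dimension `Y.ncard`, and `(inSet W).ncard = Y.ncard` (`ncard_inSet`).
(1) `Z = {last ≤ s} ∩ deg e` (`coeff_ymon_yq_ne`), `Y = J ∩ Z`: `inSet W ⊆ J' ∩ Z`, so `cntLe J e s ≤ cntLe J' e s`.
(2) `e = μ.degree ≤ ∑ a` (`μ'` is in the box), `Z₀ = {last ≤ i} ∩ deg e`, `Z = insert μ Z₀`, `Y = insert μ (J ∩ Z₀)`: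
`μ ∉ inSet W`: if `h ∈ W` has leading monomial `μ` then `h.coeff μ' = 0` (`μ < μ'` in lex, `toLex_sn_lt`) and
`(θ h).coeff μ' = ∑ ν, h.coeff ν * (ymon y ν).coeff μ' = h.coeff μ * (ymon y μ).coeff μ' ≠ 0`
(only `ν = μ'` and `ν = μ` contribute; `coeff_ymon_yq_next`), so `μ' ∈ Y`, contradiction. Hence
`cntLe J e i + 1 ≤ cntLe J' e i`. `exists_zst`: `pot a J ≤ pot a univ`; take an admissible set with maximal `pot`. -/

set_option autoImplicit false

namespace Crest.Agent.R181

open Finset

variable {n : ℕ}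

/-- the potential that compression increases -/
noncomputable def pot (a : Fin (n + 1) → ℕ) (J : Set (Mon (n + 1))) : ℕ :=
  ∑ e ∈ range (∑ i, a i + 1), ∑ s ∈ range (a (Fin.last n)), cntLe J e s

theorem fcomp_dim {D : Type*} [DivisionRing D] {y : Fin n → PD D n} (hi : Function.Injective (theta y))
    (hs : Function.Surjective (theta y)) {Y Z : Set (Mon n)} (hZ : Z.Finite) (hY : Y ⊆ Z)
    (h : ∀ m ∈ Z, ymon y m ∈ supp D Z) :
    (supp D Y).comap (theta y) ≤ supp D Z ∧ (inSet ((supp D Y).comap (theta y))).ncard = Y.ncard := by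
  have := finite_supp (D := D) hZ
  have h1 : (supp D Z).map (theta y) ≤ supp D Z := by
    conv_lhs => rw [supp_eq_span]
    rw [Submodule.map_span_le]
    rintro _ ⟨m, hm, rfl⟩
    rw [theta_single, one_smul]
    exact h m hm
  have h2 : (supp D Z).map (theta y) = supp D Z :=
    Submodule.eq_of_le_of_finrank_eq h1 (Submodule.equivMapOfInjective _ hi _).finrank_eq.symm
  have h3 : (supp D Y).comap (theta y) ≤ supp D Z := fun g hg => by
    obtain ⟨g', h4, h5⟩ := h2.ge (supp_mono hY hg)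
    exact hi h5 ▸ h4
  refine ⟨h3, ?_⟩
  rw [ncard_inSet hZ h3, (Submodule.equivMapOfInjective _ hi _).finrank_eq,
    Submodule.map_comap_eq_of_surjective hs, finrank_supp (hZ.subset hY)]

/-- monomials of degree `e` with last exponent at most `s` -/
def fcompZ (n e s : ℕ) : Set (Mon (n + 1)) := {m | m (Fin.last n) ≤ s} ∩ deg (n + 1) e

theorem fcomp_fin (n e s : ℕ) : (fcompZ n e s).Finite := (deg_finite _ _).subset Set.inter_subset_right

theorem fcomp_cnt (X : Set (Mon (n + 1))) (e s : ℕ) : cntLe X e s = (X ∩ fcompZ n e s).ncard := by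
  rw [cntLe, cnt, Set.inter_assoc]; rfl

theorem fcomp_last {k : Fin n} {m m' : Mon (n + 1)} {l : ℕ}
    (h : m' + Finsupp.single (Fin.last n) l = m + Finsupp.single k.castSucc l) :
    m' (Fin.last n) + l = m (Fin.last n) ∧ (l = 0 → m' = m) := by
  refine ⟨?_, fun h0 => by simpa [h0] using h⟩
  have := congrArg (fun f : Mon (n + 1) => f (Fin.last n)) h
  simpa [Finsupp.single_eq_of_ne (Fin.castSucc_ne_last k).symm] using this

theorem exists_compress {a : Fin (n + 1) → ℕ} (ha : Monotone a) {J : Set (Mon (n + 1))}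
    (hJ : IsUpperSet J) (hP : HasP a J) (hns : ¬ ZSt (a (Fin.last n)) J) :
    ∃ J' : Set (Mon (n + 1)), IsUpperSet J' ∧ HasP a J' ∧ (∀ e, cnt J' e = cnt J e) ∧
      (∀ p j, em J' p j ≤ em J p j) ∧ pot a J < pot a J' := by
  simp only [ZSt, not_forall] at hns
  obtain ⟨i, hi, m, hm, k, hk⟩ := hns
  have a0 : 0 < a (Fin.last n) := by omega
  have hprim := Complex.isPrimitiveRoot_exp _ a0.ne'
  obtain ⟨D, _, _, β, γ, hβ, hγ, hq⟩ := exists_quantum _ _ a0 hprim
  have hy := yq_isLin k β γ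
  have hc := yq_comm k β γ
  have hind := yq_linInd k γ hβ
  have inj := theta_injective hy hc hind
  have sur := theta_surjective hy hc hind
  obtain ⟨s1, s2, s3⟩ := inY_spec hy hc hind (monI_homog hJ)
  have e0 : inY (yq k β γ) (monI J) = inSet ((supp D J).comap (theta (yq k β γ))) := by
    rw [inY, monI_eq hJ, bc_supp]
  rw [monI_eq hJ] at s2 s3
  rw [e0] at s1 s2 s3
  have sub : ∀ {Y : Set (Mon (n + 1))}, Y ⊆ J →
      inSet ((supp D Y).comap (theta (yq k β γ))) ⊆ inSet ((supp D J).comap (theta (yq k β γ))) :=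
    fun h => inSet_mono (Submodule.comap_mono (supp_mono h))
  have st : ∀ e s, ∀ ν ∈ fcompZ n e s, ymon (yq k β γ) ν ∈ supp D (fcompZ n e s) := fun e s ν hν =>
    mem_supp.2 fun ν' h => by
      obtain ⟨l, hl⟩ := coeff_ymon_yq_ne k hq h
      have h1 := (fcomp_last hl).1
      have h2 : ν (Fin.last n) ≤ s := hν.1
      exact ⟨show ν' (Fin.last n) ≤ s by omega, (mem_supp.1 (ymon_mem_deg hy ν) ν' h).trans hν.2⟩
  have le : ∀ e s, cntLe J e s ≤ cntLe (inSet ((supp D J).comap (theta (yq k β γ)))) e s := fun e s => by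
    obtain ⟨h1, h2⟩ := fcomp_dim inj sur (fcomp_fin n e s) (Set.inter_subset_right (s := J)) (st e s)
    rw [fcomp_cnt, fcomp_cnt, ← h2]
    exact Set.ncard_le_ncard (Set.subset_inter (sub Set.inter_subset_left) (inSet_subset h1))
      ((fcomp_fin n e s).subset Set.inter_subset_right)
  have dg : (sn (m + Finsupp.single k 1) i).degree = (sn m (i + 1)).degree := by
    simp only [degree_sn, map_add, Finsupp.degree_single]
    omega
  have nμ : sn m (i + 1) ∉ fcompZ n (sn m (i + 1)).degree i := fun h => by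
    have : sn m (i + 1) (Fin.last n) ≤ i := h.1
    simp at this
  have lt : cntLe J (sn m (i + 1)).degree i <
      cntLe (inSet ((supp D J).comap (theta (yq k β γ)))) (sn m (i + 1)).degree i := by
    obtain ⟨h1, h2⟩ := fcomp_dim inj sur ((fcomp_fin n (sn m (i + 1)).degree i).insert (sn m (i + 1)))
      (Set.insert_subset_insert (Set.inter_subset_right (s := J))) fun ν hν => by
        rcases hν with rfl | hν
        · refine mem_supp.2 fun ν' h => ?_
          obtain ⟨l, hl⟩ := coeff_ymon_yq_ne k hq h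
          obtain ⟨h1, h2⟩ := fcomp_last hl
          rw [sn_last] at h1
          rcases Nat.eq_zero_or_pos l with h0 | h0
          · exact Or.inl (h2 h0)
          · exact Or.inr ⟨show ν' (Fin.last n) ≤ i by omega, mem_supp.1 (ymon_mem_deg hy _) ν' h⟩
        · exact supp_mono (Set.subset_insert _ _) (st _ _ ν hν)
    have h3 : sn m (i + 1) ∉ inSet ((supp D (insert (sn m (i + 1)) (J ∩ fcompZ n (sn m (i + 1)).degree i))).comap
        (theta (yq k β γ))) := by
      rintro ⟨h, hW, b1, b2⟩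
      have b3 : h.coeff (sn (m + Finsupp.single k 1) i) = 0 := by
        by_contra b3
        refine absurd (b2 _ b3) (not_le.2 (toLex_sn_lt.2 (Or.inl ?_)))
        exact Finsupp.toLex_monotone.strictMono_of_injective toLex.injective
          (lt_add_of_pos_right m (by simp [pos_iff_ne_zero]))
      have b4 : (theta (yq k β γ) h).coeff (sn (m + Finsupp.single k 1) i) =
          h.coeff (sn m (i + 1)) * (ymon (yq k β γ) (sn m (i + 1))).coeff (sn (m + Finsupp.single k 1) i) := by
        rw [theta_apply, ← show ∀ g : PD D (n + 1), ebase_co D (sn (m + Finsupp.single k 1) i) g =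
          g.coeff (sn (m + Finsupp.single k 1) i) from fun _ => rfl, map_sum]
        simp only [map_smul, smul_eq_mul]
        refine Finset.sum_eq_single _ (fun ν hν hne => ?_) fun hν => absurd (Finsupp.mem_support_iff.2 b1) hν
        refine mul_eq_zero_of_right _ (by_contra fun c => ?_)
        obtain ⟨l, hl⟩ := coeff_ymon_yq_ne k hq c
        obtain ⟨c1, c2⟩ := fcomp_last hl
        have c3 : ν (Fin.last n) ≤ i := ((mem_supp.1 (h1 hW) ν (Finsupp.mem_support_iff.1 hν)).resolve_left hne).1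
        rw [sn_last] at c1
        exact Finsupp.mem_support_iff.1 hν (c2 (by omega) ▸ b3)
      rcases mem_supp.1 hW _ (b4 ▸ mul_ne_zero b1 (coeff_ymon_yq_next k hq hβ hγ hprim m hi)) with c | c
      · exact absurd (sn_inj.1 c).2 (by omega)
      · exact hk c.1
    rw [Set.ncard_insert_of_notMem (fun h => nμ h.2) ((fcomp_fin _ _ _).subset Set.inter_subset_right)] at h2
    rw [fcomp_cnt, fcomp_cnt, Nat.lt_iff_add_one_le, ← h2]
    refine Set.ncard_le_ncard (fun ν hν => ⟨sub (Set.insert_subset hm Set.inter_subset_left) hν, ?_⟩)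
      ((fcomp_fin n _ i).subset Set.inter_subset_right)
    exact (inSet_subset h1 hν).resolve_left fun c => h3 (c ▸ hν)
  have pw : ∀ (t : Fin (n + 1)) (c : ℕ), a t ≤ c → Finsupp.single t c ∈ J := fun t c h =>
    hP _ fun hb => absurd (hb t) (by simpa using h)
  refine ⟨_, s1, hasP_of_single s1 fun t => ⟨AddMonoidAlgebra.single (Finsupp.single t (a t)) 1, ?_, by simp,
    fun m' h => ?_⟩, fun e => (s2 e).trans (hf_supp J e), s3, ?_⟩
  · rw [Submodule.mem_comap, theta_single, one_smul, ymon_single]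
    refine Fin.lastCases ?_ (fun j => ?_) t
    · refine supp_mono ?_ (yq_last_pow k hq a0 hprim)
      rintro _ (rfl | rfl)
      · exact pw _ _ le_rfl
      · exact pw _ _ (ha (Fin.le_last _))
    · rw [yq_castSucc, xv_pow]
      exact single_mem_supp (pw _ _ le_rfl) _
  · exact le_of_eq (congrArg toLex (mem_supp.1 (single_mem_supp (Set.mem_singleton _) (1 : D)) m' h))
  · refine Finset.sum_lt_sum (fun e _ => Finset.sum_le_sum fun s _ => le e s)
      ⟨(sn m (i + 1)).degree, ?_, Finset.sum_lt_sum (fun s _ => le _ s) ⟨i, mem_range.2 (by omega), lt⟩⟩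
    rw [mem_range, Nat.lt_succ_iff, ← dg]
    exact degree_le_of_mem_box (by_contra fun c => hk (hP _ c))

theorem exists_zst {a : Fin (n + 1) → ℕ} (ha : Monotone a) {J : Set (Mon (n + 1))}
    (hJ : IsUpperSet J) (hP : HasP a J) :
    ∃ J' : Set (Mon (n + 1)), IsUpperSet J' ∧ HasP a J' ∧ ZSt (a (Fin.last n)) J' ∧
      (∀ e, cnt J' e = cnt J e) ∧ ∀ p j, em J' p j ≤ em J p j := by
  let S : Set ℕ := pot a '' {J' | IsUpperSet J' ∧ HasP a J' ∧ (∀ e, cnt J' e = cnt J e) ∧ ∀ p j, em J' p j ≤ em J p j}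
  have hb : BddAbove S := ⟨pot a Set.univ, by
    rintro _ ⟨X, -, rfl⟩
    exact Finset.sum_le_sum fun e _ => Finset.sum_le_sum fun s _ => cnt_mono fun m hm => ⟨trivial, hm.1.2⟩⟩
  obtain ⟨J', ⟨h1, h2, h3, h4⟩, h5⟩ := Nat.sSup_mem (s := S) ⟨_, J, ⟨hJ, hP, fun _ => rfl, fun _ _ => le_rfl⟩, rfl⟩ hb
  refine ⟨J', h1, h2, by_contra fun c => ?_, h3, h4⟩
  obtain ⟨J'', b1, b2, b3, b4, b5⟩ := exists_compress ha h1 h2 c
  exact absurd (le_csSup hb ⟨J'', ⟨b1, b2, fun e => (b3 e).trans (h3 e), fun p j => (b4 p j).trans (h4 p j)⟩, rfl⟩)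
    (not_le.2 (h5 ▸ b5))

end Crest.Agent.R181
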