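import Crest.Agent.R181.KMon

/-! # Lex segments in the box (task FLex) -/

set_option autoImplicit false

namespace Crest.Agent.R181

open Finset

variable {n : ℕ} {a : Fin n → ℕ}

/-- two lex-plus-powers sets are nested in each degree: if `m ∈ X \ Y` has degree `e` (so `m` is in the box), every
`m' ∈ Y` of degree `e` is in `X` (outside the box by `HasP`; inside the box `m ≤ m'` since otherwise `m ∈ Y`), so
`cnt Y e < cnt X e`. -/
theorem lpp_subset {X Y : Set (Mon n)} (hX : HasP a X) (hXl : IsLPP a X) (hY : HasP a Y)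
    (hYl : IsLPP a Y) {e : ℕ} (h : cnt X e ≤ cnt Y e) : X ∩ deg n e ⊆ Y := by
  intro m hm
  by_contra hn
  have hb : m ∈ box a := by_contra fun hb => hn (hY m hb)
  refine hn (subset_of_cnt_le (fun m' hm' => ?_) h hm)
  by_cases hb' : m' ∈ box a
  · have hd : m'.degree = m.degree := hm'.2.trans hm.2.symm
    rcases le_total (toLex m) (toLex m') with h1 | h1
    · exact hXl m hm.1 hb m' hd h1
    · exact absurd (hYl m' hm'.1 hb' m hd.symm h1) hn
  · exact hX m' hb'

theorem flex_top {s : Set (Mon n)} (hs : s.Finite) {c : ℕ} (hc : c ≤ s.ncard) :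
    ∃ t ⊆ s, t.ncard = c ∧ ∀ x ∈ t, ∀ y ∈ s, toLex x ≤ toLex y → y ∈ t := by
  induction c with
  | zero => exact ⟨∅, Set.empty_subset _, Set.ncard_empty _, fun _ hx => hx.elim⟩
  | succ c ih =>
    obtain ⟨t, hts, htc, ht⟩ := ih (by omega)
    obtain ⟨m, hm, hmax⟩ := Set.exists_max_image (s \ t) toLex (hs.subset Set.sdiff_subset)
      (Set.exists_mem_notMem_of_ncard_lt_ncard (by omega) (hs.subset hts))
    refine ⟨insert m t, Set.insert_subset hm.1 hts, by rw [Set.ncard_insert_of_notMem hm.2 (hs.subset hts), htc], ?_⟩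
    rintro x (rfl | hx) y hy hxy
    · by_cases hyt : y ∈ t
      · exact Or.inr hyt
      · exact Or.inl (toLex.injective (le_antisymm (hmax y ⟨hy, hyt⟩) hxy))
    · exact Or.inr (ht x hx y hy hxy)

/-- in each degree take the monomials outside the box and the `c` lexicographically largest ones inside it, where
`c = cnt (J ∩ box a) e`; e.g. `m ∈ L ↔ m ∉ box a ∨ #{m' ∈ box a, degree m' = degree m, toLex m < toLex m'} < c`. -/
theorem exists_lppSet {J : Set (Mon n)} (hP : HasP a J) :
    ∃ L : Set (Mon n), HasP a L ∧ IsLPP a L ∧ ∀ e, cnt L e = cnt J e := by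
  choose t hts htc ht using fun e => flex_top (s := box a ∩ deg n e) ((deg_finite n e).inter_of_right _)
    (c := cnt (J ∩ box a) e) (cnt_mono fun m hm => hm.1.2)
  refine ⟨{m | m ∉ box a ∨ m ∈ t m.degree}, fun m hm => Or.inl hm, fun m hm hb m' hd hle => ?_, fun e => ?_⟩
  · by_cases hb' : m' ∈ box a
    · exact Or.inr (hd ▸ ht _ m (hm.resolve_left (not_not.2 hb)) m' ⟨hb', hd⟩ hle)
    · exact Or.inl hb'
  · rw [cnt_split J (box a), cnt_split _ (box a), ← htc]
    congr 1
    · rw [cnt]
      congr 1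
      ext m
      constructor
      · rintro ⟨⟨hm, hb⟩, rfl⟩
        exact hm.resolve_left (not_not.2 hb)
      · intro hm
        obtain ⟨hb, rfl⟩ := hts e hm
        exact ⟨⟨Or.inr hm, hb⟩, rfl⟩
    · congr 1
      ext m
      exact ⟨fun hm => ⟨hP m hm.2, hm.2⟩, fun hm => ⟨Or.inl hm.2, hm.2⟩⟩

theorem exists_between {b m' : Mon n} (hb : b ≤ m') {d : ℕ} (h1 : b.degree ≤ d)
    (h2 : d ≤ m'.degree) : ∃ m'' : Mon n, b ≤ m'' ∧ m'' ≤ m' ∧ m''.degree = d := by
  induction d, h1 using Nat.le_induction with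
  | base => exact ⟨b, le_rfl, hb, rfl⟩
  | succ d _ ih =>
    obtain ⟨m, h3, h4, rfl⟩ := ih (by omega)
    obtain ⟨i, hi⟩ : ∃ i, m i < m' i := by
      by_contra hc
      push Not at hc
      have := Finsupp.degree_mono (show m' ≤ m from hc)
      omega
    refine ⟨m + Finsupp.single i 1, h3.trans le_self_add, fun j => ?_, by simp⟩
    have := h4 j
    rw [Finsupp.add_apply, Finsupp.single_apply]
    split_ifs with h
    · exact h ▸ hi
    · exact this

theorem toLex_le_of_le {m m' : Mon n} (h : m ≤ m') : toLex m ≤ toLex m' := by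
  exact Finsupp.toLex_monotone h

/-- divisor lemma. If `m ≤ m'` take `m'' = m`. Otherwise let `k` be the first index where `m` and `m'` differ
(`m k < m' k`); some `l > k` has `m l > 0`; `b = m` on indices `< k`, `m k + 1` at `k`, `0` after `k` satisfies
`b ≤ m'`, `degree b ≤ degree m`; take any `m''` with `b ≤ m'' ≤ m'` of degree `degree m`. -/
theorem exists_divisor {m m' : Mon n} (hlex : toLex m ≤ toLex m') (hd : m.degree ≤ m'.degree) :
    ∃ m'' : Mon n, m'' ≤ m' ∧ m''.degree = m.degree ∧ toLex m ≤ toLex m'' := by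
  by_cases hle : m ≤ m'
  · exact ⟨m, hle, rfl, le_rfl⟩
  obtain ⟨k, hk1, hk2⟩ := Finsupp.Lex.lt_iff.1 (hlex.lt_of_ne fun h => hle (toLex.injective h).le)
  simp only [ofLex_toLex] at hk1 hk2
  obtain ⟨l, hl⟩ : ∃ l, m' l < m l := by simpa [Finsupp.le_def] using hle
  have hkl : k < l := by
    rcases lt_trichotomy k l with h | rfl | h
    · exact h
    · omega
    · have := hk1 l h
      omega
  let b : Mon n := Finsupp.equivFunOnFinite.symm fun j => if j < k then m j else if j = k then m k + 1 else 0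
  have hb : ∀ j, b j = if j < k then m j else if j = k then m k + 1 else 0 := fun j => rfl
  have h1 : b ≤ m' := fun j => by
    rw [hb]
    split_ifs with h h'
    · exact (hk1 j h).le
    · exact h' ▸ hk2
    · exact Nat.zero_le _
  have h2 : b + Finsupp.single l 1 ≤ m + Finsupp.single k 1 := fun j => by
    simp only [Finsupp.add_apply, Finsupp.single_apply, hb]
    split_ifs <;> subst_vars <;> omega
  have h3 := Finsupp.degree_mono h2
  simp only [map_add, Finsupp.degree_single, add_le_add_iff_right] at h3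
  obtain ⟨m'', h4, h5, h6⟩ := exists_between h1 h3 hd
  refine ⟨m'', h5, h6, (Finsupp.Lex.lt_iff.2 ⟨k, fun j hj => ?_, ?_⟩).le⟩
  · have a1 := h4 j
    have a2 := h5 j
    have a3 := hk1 j hj
    rw [hb, if_pos hj] at a1
    simp only [ofLex_toLex]
    omega
  · have a1 := h4 k
    rw [hb, if_neg (lt_irrefl k), if_pos rfl] at a1
    exact a1

end Crest.Agent.R181
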