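import Crest.Agent.R181.FLex

/-! # Partial sums of slices are minimal for lex; Clements-Lindstrom step (task FLex2) -/

set_option autoImplicit false

namespace Crest.Agent.R181

open Finset

variable {n : ℕ} {a : Fin (n + 1) → ℕ}

theorem flex2_climb {X : Set (Mon (n + 1))} {A : ℕ} (hXz : ZSt A X) (d : ℕ) :
    ∀ (r q : Mon n) (j : ℕ), r.degree = d → j + d < A → q ∈ slice X (j + d) → q + r ∈ slice X j := by
  induction d with
  | zero =>
    intro r q j hr _ hq
    rw [Finsupp.degree_eq_zero_iff] at hr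
    simpa [hr] using hq
  | succ d ih =>
    intro r q j hr hj hq
    have hr0 : r ≠ 0 := by
      rintro rfl
      simp at hr
    obtain ⟨k, hk⟩ := Finsupp.ne_iff.1 hr0
    have hle : Finsupp.single k 1 ≤ r := Finsupp.single_le_iff.2 (Nat.one_le_iff_ne_zero.2 hk)
    obtain ⟨r', rfl⟩ := exists_add_of_le hle
    rw [map_add, Finsupp.degree_single] at hr
    rw [← add_assoc]
    exact ih r' _ j (by omega) (by omega) (hXz (j + d) hj q hq k)

/-- `X` is closed under passing to a lexicographically larger monomial of the same degree with smaller last exponent: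
`ini m < ini m'` in lex (equal degrees), `degree (ini m) ≤ degree (ini m')`; `exists_divisor` gives `m'' ≤ ini m'` in the
slice of `m`; climb from `m''` to `ini m'` one variable at a time with `ZSt`. -/
theorem mem_of_lex_of_last_le {X : Set (Mon (n + 1))} (hXP : HasP a X)
    (hXz : ZSt (a (Fin.last n)) X) (hXs : ∀ i, IsLPP (a ∘ Fin.castSucc) (slice X i))
    {m m' : Mon (n + 1)} (hm : m ∈ X) (hb : m ∈ box a) (hd : m'.degree = m.degree)
    (hlex : toLex m ≤ toLex m') (hl : m' (Fin.last n) ≤ m (Fin.last n)) : m' ∈ X := by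
  rcases hlex.eq_or_lt with h | h
  · rwa [← toLex_inj.1 h]
  rw [← sn_ini m, ← sn_ini m', toLex_sn_lt] at h
  have h1 : toLex (ini m) < toLex (ini m') := h.resolve_right fun h' => absurd h'.2 (not_lt.2 hl)
  have d1 := degree_ini m
  have d2 := degree_ini m'
  obtain ⟨q, hq1, hq2, hq3⟩ := exists_divisor h1.le (by omega)
  rw [← sn_ini m, sn_mem_box] at hb
  have hq : q ∈ slice X (m (Fin.last n)) := hXs _ _ (mem_iff_slice.1 hm) hb.1 q hq2 hq3
  obtain ⟨r, hr⟩ := exists_add_of_le hq1
  have d3 : (ini m').degree = q.degree + r.degree := by rw [hr, map_add]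
  have e : m (Fin.last n) = m' (Fin.last n) + r.degree := by omega
  rw [mem_iff_slice, hr]
  exact flex2_climb hXz r.degree r q _ rfl (e ▸ hb.2) (e ▸ hq)

/-- otherwise there are `m' ∈ Y \ X` with last exponent `≤ s` and `m ∈ X \ Y` with last exponent `> s`
(`cnt_split`, `exists_of_cnt_lt`), both in the box, `m ≤ m'` in lex, so `m' ∈ X`. -/
theorem cntLe_le {X Y : Set (Mon (n + 1))} (hXP : HasP a X)
    (hXz : ZSt (a (Fin.last n)) X) (hXs : ∀ i, IsLPP (a ∘ Fin.castSucc) (slice X i))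
    (hYP : HasP a Y) (hYl : IsLPP a Y) {e : ℕ} (h : cnt Y e ≤ cnt X e) (s : ℕ) :
    cntLe Y e s ≤ cntLe X e s := by
  by_contra hc
  rw [not_le, cntLe, cntLe] at hc
  obtain ⟨m', hm', d', hm'X⟩ := exists_of_cnt_lt hc
  have s1 := cnt_split X {m | m (Fin.last n) ≤ s} e
  have s2 := cnt_split Y {m | m (Fin.last n) ≤ s} e
  obtain ⟨m, hm, d, hmY⟩ := exists_of_cnt_lt (X := Y ∩ {m | m (Fin.last n) ≤ s}ᶜ)
    (Y := X ∩ {m | m (Fin.last n) ≤ s}ᶜ) (e := e) (by omega)
  have h1 : m' ∉ X := fun h => hm'X ⟨h, hm'.2⟩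
  have h2 : m ∉ Y := fun h => hmY ⟨h, hm.2⟩
  have b1 : m' ∈ box a := by
    by_contra hb
    exact h1 (hXP _ hb)
  have b2 : m ∈ box a := by
    by_contra hb
    exact h2 (hYP _ hb)
  rcases le_total (toLex m) (toLex m') with hle | hle
  · have l1 : m' (Fin.last n) ≤ s := hm'.2
    have l2 : ¬ m (Fin.last n) ≤ s := hm.2
    exact h1 (mem_of_lex_of_last_le hXP hXz hXs hm.1 b2 (by rw [d, d']) hle (by omega))
  · exact h2 (hYl _ hm'.1 b1 _ (by rw [d, d']) hle)

theorem slice_zero_subset {X L : Set (Mon (n + 1))} (hXP : HasP a X)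
    (hXz : ZSt (a (Fin.last n)) X) (hXs : ∀ i, IsLPP (a ∘ Fin.castSucc) (slice X i))
    (hLP : HasP a L) (hLl : IsLPP a L) (hc : ∀ e, cnt L e = cnt X e) :
    slice L 0 ⊆ slice X 0 := by
  intro m hm
  have h := cntLe_le hXP hXz hXs hLP hLl (hc m.degree).le 0
  rw [cntLe_zero, cntLe_zero] at h
  exact lpp_subset (slice_hasP hLP 0) (slice_lpp hLP hLl 0) (slice_hasP hXP 0) (hXs 0) h ⟨hm, rfl⟩

theorem flex2_range {X L : Set (Mon (n + 1))} (hXP : HasP a X)
    (hXz : ZSt (a (Fin.last n)) X) (hXs : ∀ i, IsLPP (a ∘ Fin.castSucc) (slice X i))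
    (hLP : HasP a L) (hLl : IsLPP a L) (hc : ∀ e, cnt L e = cnt X e) {e b : ℕ} (hb : b ≤ e + 1) :
    ∑ i ∈ range b, cnt (slice L i) (e - i) ≤ ∑ i ∈ range b, cnt (slice X i) (e - i) := by
  rcases b with _ | s
  · simp
  · have h := cntLe_le hXP hXz hXs hLP hLl (hc e).le s
    have : (range (e + 1)).filter (fun i => i ≤ s) = range (s + 1) := by
      ext i
      simp only [mem_filter, mem_range]
      omega
    rwa [cntLe_eq_sum_slice, cntLe_eq_sum_slice, this] at h

/-- `b + 1 = a last`. The slices above `b` are everything for both sets; for `b = 0` the slices `0` have the same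
count, for `b = s + 1` use `cntLe_le` at `s` in degree `e + b` and `cnt_eq_sum_slice`, `cntLe_eq_sum_slice`. -/
theorem slice_top_subset {X L : Set (Mon (n + 1))} (hXP : HasP a X)
    (hXz : ZSt (a (Fin.last n)) X) (hXs : ∀ i, IsLPP (a ∘ Fin.castSucc) (slice X i))
    (hLP : HasP a L) (hLl : IsLPP a L) (hc : ∀ e, cnt L e = cnt X e) {b : ℕ}
    (hb : b + 1 = a (Fin.last n)) : slice X b ⊆ slice L b := by
  intro m hm
  refine lpp_subset (slice_hasP hXP b) (hXs b) (slice_hasP hLP b) (slice_lpp hLP hLl b) ?_ ⟨hm, rfl⟩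
  generalize m.degree = e
  have h1 := flex2_range hXP hXz hXs hLP hLl hc (e := e + b) (b := b) (by omega)
  have h2 := hc (e + b)
  rw [cnt_eq_sum_slice, cnt_eq_sum_slice,
    ← Finset.sum_range_add_sum_Ico _ (show b + 1 ≤ e + b + 1 by omega),
    ← Finset.sum_range_add_sum_Ico _ (show b + 1 ≤ e + b + 1 by omega), Finset.sum_range_succ,
    Finset.sum_range_succ, Nat.add_sub_cancel] at h2
  have h3 : ∑ i ∈ Ico (b + 1) (e + b + 1), cnt (slice L i) (e + b - i) =
      ∑ i ∈ Ico (b + 1) (e + b + 1), cnt (slice X i) (e + b - i) := by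
    refine Finset.sum_congr rfl fun i hi => ?_
    have := (mem_Ico.1 hi).1
    rw [slice_eq_univ hLP (by omega), slice_eq_univ hXP (by omega)]
  omega

/-- `∇ = {m' | m' ∉ box a ∨ ∃ m ∈ L, m ≤ m' ∧ degree m + 1 = degree m'}` is `HasP`, `IsLPP` (`exists_divisor`), and
`cnt ∇ (e+1) ≤ cnt X (e+1) = cnt L (e+1)`, so `∇ ∩ deg (e+1) ⊆ L` (`lpp_subset`). Count by the last exponent `i`:
`i = 0`: `slice ∇ 0 ⊆ slice X 0` (`slice_zero_subset`, `X` upper); `i ≥ a last`: everything is in `X`;
`1 ≤ i < a last`: `slice ∇ i ⊆ slice L (i-1)` (lex), and the sum of these counts is a `cntLe L e s ≤ cntLe X e s`,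
with `slice X (i-1) ⊆ slice X i`. -/
theorem upper_of_lpp {X L : Set (Mon (n + 1))} (hXu : IsUpperSet X) (hXP : HasP a X)
    (hXz : ZSt (a (Fin.last n)) X) (hXs : ∀ i, IsLPP (a ∘ Fin.castSucc) (slice X i))
    (hLP : HasP a L) (hLl : IsLPP a L) (hc : ∀ e, cnt L e = cnt X e) : IsUpperSet L := by
  set N : Set (Mon (n + 1)) := {m' | m' ∉ box a ∨ ∃ m ∈ L, m ≤ m' ∧ m.degree + 1 = m'.degree} with hN
  have hNP : HasP a N := fun m hm => Or.inl hm
  have hNl : IsLPP a N := by
    intro m' hm' hb m'' hd hle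
    obtain ⟨m, hm, h1, h2⟩ := hm'.resolve_left (not_not.2 hb)
    obtain ⟨m₂, g1, g2, g3⟩ := exists_divisor ((toLex_le_of_le h1).trans hle) (by omega)
    exact Or.inr ⟨m₂, hLl m hm (box_lower h1 hb) m₂ g2 g3, g1, by omega⟩
  have h0 : slice N 0 ⊆ slice X 0 := by
    rintro p (hp | ⟨m, hm, h1, -⟩)
    · exact hXP _ hp
    · have l0 : m (Fin.last n) = 0 := by
        have := h1 (Fin.last n)
        rw [sn_last] at this
        omega
      have h2 := mem_iff_slice.1 hm
      rw [l0] at h2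
      have h3 := slice_zero_subset hXP hXz hXs hLP hLl hc h2
      rw [← l0] at h3
      exact hXu h1 (mem_iff_slice.2 h3)
  have h1 : ∀ i, i + 1 < a (Fin.last n) → slice N (i + 1) ⊆ slice L i := by
    intro i hi p hp
    by_cases hb : sn p (i + 1) ∈ box a
    · obtain ⟨m, hm, g1, g2⟩ := Or.resolve_left hp (not_not.2 hb)
      have d1 := degree_ini m
      rw [degree_sn] at g2
      refine hLl m hm (box_lower g1 hb) _ (by rw [degree_sn]; omega) ?_
      rw [← sn_ini m, sn_le_sn] at g1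
      rcases (toLex_le_of_le g1.1).eq_or_lt with g3 | g3
      · have g4 : ini m = p := toLex_inj.1 g3
        have g5 : m (Fin.last n) = i := by
          rw [g4] at d1
          omega
        rw [← g4, ← g5, sn_ini]
      · rw [← sn_ini m]
        exact (toLex_sn_lt.2 (Or.inl g3)).le
    · exact slice_hasP hLP i p fun h => hb (sn_mem_box.2 ⟨h, hi⟩)
  have hcnt : ∀ e, cnt N (e + 1) ≤ cnt X (e + 1) := by
    intro e
    have hcle : min (a (Fin.last n) - 1) (e + 1) ≤ e + 1 := min_le_right _ _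
    rw [cnt_eq_sum_slice, cnt_eq_sum_slice, Finset.sum_range_succ', Finset.sum_range_succ' _ (e + 1),
      ← Finset.sum_range_add_sum_Ico _ hcle, ← Finset.sum_range_add_sum_Ico _ hcle]
    simp only [Nat.add_sub_add_right]
    refine add_le_add (add_le_add ?_ ?_) (cnt_mono fun m hm => h0 hm.1)
    · refine le_trans (Finset.sum_le_sum fun i hi => ?_)
        ((flex2_range hXP hXz hXs hLP hLl hc hcle).trans (Finset.sum_le_sum fun i _ => ?_))
      · have := mem_range.1 hi
        exact cnt_mono fun m hm => h1 i (by omega) hm.1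
      · exact cnt_mono fun m hm => slice_mono hXu (Nat.le_succ i) hm.1
    · refine Finset.sum_le_sum fun i hi => ?_
      have := mem_Ico.1 hi
      rw [slice_eq_univ hXP (by omega)]
      exact cnt_mono fun m _ => trivial
  refine isUpperSet_of_single fun m hm t => ?_
  have hd : (m + Finsupp.single t 1).degree = m.degree + 1 := by rw [map_add, Finsupp.degree_single]
  exact lpp_subset hNP hNl hLP hLl ((hcnt m.degree).trans (hc _).ge) ⟨Or.inr ⟨m, hm, le_self_add, hd.symm⟩, hd⟩

end Crest.Agent.R181
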