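import Crest.Agent.R181.KKos
import Crest.Agent.R181.KMon

/-! # Decomposition of `em` along the degree in the last variable `z` (task FZ)

For `F : KF ℂ (n+1)` and `i` put `A i F U = ` coefficient of `z^i` in `F (U.map castSuccEmb)` and
`B i F U = ` coefficient of `z^i` in `F (insert last (U.map castSuccEmb))` (elements of `KF ℂ n`; the coefficient of `z^i` of
`g` is the polynomial with coefficients `m ↦ g.coeff (sn m i)`). Then `B i (d F) = d (B i F)`, `A 0 (d F) = d (A 0 F)`,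
`A (i+1) (d F) U = d (A (i+1) F) U + (-1)^U.card • B i F U`. The map `F ↦ (A 0 F, fun i : Fin j => (A (i+1) F, B i F))` is
injective on `ch ⊤ p j`, and maps `ch (supp J) (p+1) j` onto
`ch (supp (slice J 0)) (p+1) j × ∏ i, ch (supp (slice J (i+1))) (p+1) (j-1-i) × ch (supp (slice J i)) p (j-1-i)`; so it maps
`d (ch ⊤ (p+2) j) ⊔ ch (supp J) (p+1) j` onto the product of the space defining `em (slice J 0) (p+1) j` and the spaces
`E i = {(d f ± g + u, d g + v)}` (`f ∈ ch ⊤ (p+2) e`, `g ∈ ch ⊤ (p+1) e`, `u ∈ ch J_(i+1) (p+1) e`, `v ∈ ch J_i p e`,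
`e = j-1-i`). The first projection maps `E i` onto `ch ⊤ (p+1) e` with kernel `{0} × (d (ch J_(i+1) (p+1) e) ⊔ ch J_i p e)`
(`kos_kos`). -/

set_option autoImplicit false

namespace Crest.Agent.R181

open Finset

variable {n : ℕ}

/-! ### general linear algebra -/

theorem fz_rank {V W : Type*} [AddCommGroup V] [Module ℂ V] [AddCommGroup W] [Module ℂ W] (f : V →ₗ[ℂ] W)
    (E : Submodule ℂ V) [Module.Finite ℂ E] :
    Module.finrank ℂ E = Module.finrank ℂ (E.map f) + Module.finrank ℂ ↥(E ⊓ LinearMap.ker f) := by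
  have h := LinearMap.finrank_range_add_finrank_ker (f.domRestrict E)
  rw [LinearMap.range_domRestrict, LinearMap.ker_domRestrict] at h
  rw [← h, ← Submodule.map_comap_subtype, Submodule.finrank_map_subtype_eq]

/-- a product of submodules as a product of modules -/
def fz_prodEquiv {V W : Type*} [AddCommGroup V] [Module ℂ V] [AddCommGroup W] [Module ℂ W] (P : Submodule ℂ V)
    (Q : Submodule ℂ W) : P.prod Q ≃ₗ[ℂ] P × Q where
  toFun f := (⟨f.1.1, f.2.1⟩, ⟨f.1.2, f.2.2⟩)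
  invFun f := ⟨(f.1, f.2), f.1.2, f.2.2⟩
  left_inv _ := rfl
  right_inv _ := rfl
  map_add' _ _ := rfl
  map_smul' _ _ := rfl

theorem fz_ext {f g : PD ℂ n} (h : ∀ m, f.coeff m = g.coeff m) : f = g :=
  AddMonoidAlgebra.ext (Finsupp.ext h)

theorem fz_ext0 {f : PD ℂ n} (h : ∀ m, ¬ f.coeff m ≠ 0) : f = 0 :=
  fz_ext fun m => not_not.1 (h m)

theorem fz_mem_ch {X : Set (Mon n)} {p j : ℕ} {F : KF ℂ n} :
    F ∈ ch (supp ℂ X) p j ↔ ∀ U m, (F U).coeff m ≠ 0 → m ∈ X ∧ U.card = p ∧ m.degree + p = j := by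
  rw [mem_ch]
  refine forall_congr' fun U => ⟨fun h m hm => ?_, fun h => ⟨fun hU => ⟨mem_supp.2 fun m hm => (h m hm).1,
    mem_supp.2 fun m hm => ?_⟩, fun hU => ?_⟩⟩
  · by_cases hU : U.card = p ∧ p ≤ j
    · have h1 : m.degree = j - p := mem_supp.1 (h.1 hU).2 m hm
      exact ⟨mem_supp.1 (h.1 hU).1 m hm, hU.1, by omega⟩
    · rw [h.2 hU] at hm
      simp at hm
  · have := (h m hm).2.2
    show m.degree = j - p
    omega
  · refine fz_ext0 fun m hm => ?_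
    have := h m hm
    exact hU ⟨this.2.1, by omega⟩

/-! ### the coefficient of `z ^ i` -/

theorem fz_sn_inj (i : ℕ) : Function.Injective fun m : Mon n => sn m i := fun _ _ h => (sn_inj.1 h).1

/-- coefficient of `z ^ i` -/
noncomputable def fz_co (i : ℕ) : PD ℂ (n + 1) →ₗ[ℂ] PD ℂ n :=
  (AddMonoidAlgebra.coeffLinearEquiv ℂ).symm.toLinearMap ∘ₗ Finsupp.lcomapDomain _ (fz_sn_inj i) ∘ₗ
    (AddMonoidAlgebra.coeffLinearEquiv ℂ).toLinearMap

theorem fz_co_coeff (i : ℕ) (g : PD ℂ (n + 1)) (m : Mon n) : (fz_co i g).coeff m = g.coeff (sn m i) := rfl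

/-- multiplication by `z ^ i` -/
noncomputable def fz_up (i : ℕ) (g : PD ℂ n) : PD ℂ (n + 1) :=
  AddMonoidAlgebra.ofCoeff (g.coeff.mapDomain fun m => sn m i)

theorem fz_up_coeff (i i' : ℕ) (g : PD ℂ n) (m : Mon n) :
    (fz_up i g).coeff (sn m i') = if i' = i then g.coeff m else 0 := by
  split_ifs with h
  · subst h
    exact Finsupp.mapDomain_apply (fz_sn_inj i') _ m
  · exact Finsupp.mapDomain_notin_range _ _ fun ⟨m', hm'⟩ => h (sn_inj.1 hm').2.symm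

theorem fz_co_up (i i' : ℕ) (g : PD ℂ n) : fz_co i' (fz_up i g) = if i' = i then g else 0 := by
  refine fz_ext fun m => ?_
  rw [fz_co_coeff, fz_up_coeff]
  split_ifs <;> rfl

theorem fz_co_mul (i : ℕ) (g : PD ℂ (n + 1)) (k : Fin n) :
    fz_co i (g * xv ℂ (n + 1) k.castSucc) = fz_co i g * xv ℂ n k := by
  refine fz_ext fun m => ?_
  by_cases h : ∃ m', m = m' + Finsupp.single k 1
  · obtain ⟨m', rfl⟩ := h
    have e : sn (m' + Finsupp.single k 1) i = sn m' i + Finsupp.single k.castSucc 1 := by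
      rw [single_castSucc, sn_add, add_zero]
    rw [coeff_mul_xv, fz_co_coeff, fz_co_coeff, e, coeff_mul_xv]
  · have h1 : (fz_co i g * xv ℂ n k).coeff m = 0 := by
      by_contra h'
      obtain ⟨m', hm', -⟩ := coeff_mul_xv_ne h'
      exact h ⟨m', hm'⟩
    rw [h1, fz_co_coeff]
    by_contra h'
    obtain ⟨m', hm', -⟩ := coeff_mul_xv_ne h'
    rw [← sn_ini m', single_castSucc, sn_add] at hm'
    exact h ⟨_, (sn_inj.1 hm').1⟩

theorem fz_co_last (i : ℕ) (g : PD ℂ (n + 1)) : fz_co (i + 1) (g * xv ℂ (n + 1) (Fin.last n)) = fz_co i g := by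
  refine fz_ext fun m => ?_
  have e : sn m (i + 1) = sn m i + Finsupp.single (Fin.last n) 1 := by
    rw [single_last, sn_add, add_zero]
  rw [fz_co_coeff, fz_co_coeff, e, coeff_mul_xv]

theorem fz_co_last0 (g : PD ℂ (n + 1)) : fz_co 0 (g * xv ℂ (n + 1) (Fin.last n)) = 0 := by
  refine fz_ext0 fun m h' => ?_
  rw [fz_co_coeff] at h'
  obtain ⟨m', hm', -⟩ := coeff_mul_xv_ne h'
  have := DFunLike.congr_fun hm' (Fin.last n)
  simp at this

/-! ### sets of variables -/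

/-- embedding of sets of variables -/
def fz_emb (U : Finset (Fin n)) : Finset (Fin (n + 1)) := U.map Fin.castSuccEmb

/-- the part of a set of variables below the last one -/
def fz_dn (T : Finset (Fin (n + 1))) : Finset (Fin n) := univ.filter fun k => k.castSucc ∈ T

@[simp] theorem fz_mem_dn {T : Finset (Fin (n + 1))} {k : Fin n} : k ∈ fz_dn T ↔ k.castSucc ∈ T := by
  simp [fz_dn]

@[simp] theorem fz_mem_emb {U : Finset (Fin n)} {k : Fin n} : k.castSucc ∈ fz_emb U ↔ k ∈ U :=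
  mem_map' Fin.castSuccEmb

@[simp] theorem fz_last_emb (U : Finset (Fin n)) : Fin.last n ∉ fz_emb U := by
  simp [fz_emb, (Fin.castSucc_lt_last _).ne]

theorem fz_dn_emb (U : Finset (Fin n)) : fz_dn (fz_emb U) = U := by
  ext k
  simp

theorem fz_dn_embz (U : Finset (Fin n)) : fz_dn (insert (Fin.last n) (fz_emb U)) = U := by
  ext k
  simp [(Fin.castSucc_lt_last _).ne]

theorem fz_emb_dn {T : Finset (Fin (n + 1))} (h : Fin.last n ∉ T) : fz_emb (fz_dn T) = T := by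
  ext t
  refine Fin.lastCases ?_ (fun k => ?_) t <;> simp [h]

theorem fz_embz_dn {T : Finset (Fin (n + 1))} (h : Fin.last n ∈ T) : insert (Fin.last n) (fz_emb (fz_dn T)) = T := by
  ext t
  refine Fin.lastCases ?_ (fun k => ?_) t <;> simp [h, (Fin.castSucc_lt_last _).ne]

theorem fz_card_emb (U : Finset (Fin n)) : (fz_emb U).card = U.card := card_map _

theorem fz_card_embz (U : Finset (Fin n)) : (insert (Fin.last n) (fz_emb U)).card = U.card + 1 := by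
  rw [card_insert_of_notMem (fz_last_emb U), fz_card_emb]

theorem fz_emb_insert (U : Finset (Fin n)) (k : Fin n) : insert k.castSucc (fz_emb U) = fz_emb (insert k U) :=
  (map_insert Fin.castSuccEmb k U).symm

theorem fz_filter (T : Finset (Fin (n + 1))) (k : Fin n) :
    (T.filter (· < k.castSucc)).card = ((fz_dn T).filter (· < k)).card := by
  rw [← fz_card_emb ((fz_dn T).filter (· < k))]
  refine congrArg card ?_
  ext t
  refine Fin.lastCases ?_ (fun l => ?_) t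
  · simp [(Fin.castSucc_lt_last _).le]
  · simp

theorem fz_kos (F : KF ℂ (n + 1)) (T : Finset (Fin (n + 1))) (i : ℕ) :
    fz_co i (kos (xv ℂ (n + 1)) F T) =
      ∑ k ∈ (fz_dn T)ᶜ, ((-1 : ℤ) ^ ((fz_dn T).filter (· < k)).card) • (fz_co i (F (insert k.castSucc T)) * xv ℂ n k) +
        if Fin.last n ∈ T then 0 else ((-1 : ℤ) ^ (T.filter (· < Fin.last n)).card) •
          fz_co i (F (insert (Fin.last n) T) * xv ℂ (n + 1) (Fin.last n)) := by
  rw [kos_apply, map_sum, ← sum_ite_mem_eq, Fin.sum_univ_castSucc, ← sum_ite_mem_eq (fz_dn T)ᶜ]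
  congr 1
  · refine sum_congr rfl fun k _ => ?_
    simp only [mem_compl, fz_mem_dn, map_zsmul, fz_co_mul, fz_filter]
  · simp only [mem_compl, map_zsmul, ite_not]

/-! ### the two components -/

/-- component without `z` -/
noncomputable def fz_A (i : ℕ) : KF ℂ (n + 1) →ₗ[ℂ] KF ℂ n :=
  LinearMap.pi fun U => fz_co i ∘ₗ LinearMap.proj (fz_emb U)

/-- component with `z` -/
noncomputable def fz_B (i : ℕ) : KF ℂ (n + 1) →ₗ[ℂ] KF ℂ n :=
  LinearMap.pi fun U => fz_co i ∘ₗ LinearMap.proj (insert (Fin.last n) (fz_emb U))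

theorem fz_A_apply (i : ℕ) (F : KF ℂ (n + 1)) (U : Finset (Fin n)) : fz_A i F U = fz_co i (F (fz_emb U)) := rfl

theorem fz_B_apply (i : ℕ) (F : KF ℂ (n + 1)) (U : Finset (Fin n)) :
    fz_B i F U = fz_co i (F (insert (Fin.last n) (fz_emb U))) := rfl

theorem fz_B_kos (i : ℕ) (F : KF ℂ (n + 1)) : fz_B i (kos (xv ℂ (n + 1)) F) = kos (xv ℂ n) (fz_B i F) := by
  funext U
  rw [fz_B_apply, fz_kos, if_pos (mem_insert_self _ _), add_zero, fz_dn_embz, kos_apply]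
  refine sum_congr rfl fun k _ => ?_
  rw [fz_B_apply, ← fz_emb_insert, insert_comm]

theorem fz_A_kos0 (F : KF ℂ (n + 1)) : fz_A 0 (kos (xv ℂ (n + 1)) F) = kos (xv ℂ n) (fz_A 0 F) := by
  funext U
  rw [fz_A_apply, fz_kos, if_neg (fz_last_emb U), fz_co_last0, smul_zero, add_zero, fz_dn_emb, kos_apply]
  refine sum_congr rfl fun k _ => ?_
  rw [fz_A_apply, ← fz_emb_insert]

theorem fz_A_mem {X : Set (Mon (n + 1))} {p j : ℕ} {F : KF ℂ (n + 1)} (hF : F ∈ ch (supp ℂ X) p j) (i : ℕ) :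
    fz_A i F ∈ ch (supp ℂ (slice X i)) p (j - i) := by
  rw [fz_mem_ch] at hF ⊢
  intro U m hm
  obtain ⟨h1, h2, h3⟩ := hF _ _ hm
  rw [degree_sn] at h3
  exact ⟨h1, (fz_card_emb U).symm.trans h2, by omega⟩

theorem fz_B_mem {X : Set (Mon (n + 1))} {p j : ℕ} {F : KF ℂ (n + 1)} (hF : F ∈ ch (supp ℂ X) (p + 1) j) (i : ℕ) :
    fz_B i F ∈ ch (supp ℂ (slice X i)) p (j - 1 - i) := by
  rw [fz_mem_ch] at hF ⊢
  intro U m hm
  obtain ⟨h1, h2, h3⟩ := hF _ _ hm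
  rw [degree_sn] at h3
  rw [fz_card_embz] at h2
  exact ⟨h1, by omega, by omega⟩

theorem fz_A_kos {X : Set (Mon (n + 1))} {p j : ℕ} {F : KF ℂ (n + 1)} (hF : F ∈ ch (supp ℂ X) (p + 1) j) (i : ℕ) :
    fz_A (i + 1) (kos (xv ℂ (n + 1)) F) = kos (xv ℂ n) (fz_A (i + 1) F) + (-1 : ℂ) ^ p • fz_B i F := by
  funext U
  rw [fz_A_apply, fz_kos, if_neg (fz_last_emb U), fz_co_last, fz_dn_emb, Pi.add_apply, kos_apply]
  refine congrArg₂ (· + ·) ?_ ?_
  · refine sum_congr rfl fun k _ => ?_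
    rw [fz_A_apply, ← fz_emb_insert]
  · rw [← fz_B_apply, Pi.smul_apply, filter_true_of_mem fun t ht =>
      Fin.lt_last_iff_ne_last.2 fun h => fz_last_emb U (h ▸ ht), fz_card_emb]
    by_cases hU : U.card = p
    · rw [hU, ← Int.cast_smul_eq_zsmul ℂ]
      simp
    · rw [(mem_ch.1 (fz_B_mem hF i) U).2 fun h => hU h.1]
      simp

/-- lift of a component without `z` -/
noncomputable def fz_LA (i : ℕ) (f : KF ℂ n) : KF ℂ (n + 1) := fun T =>
  if Fin.last n ∈ T then 0 else fz_up i (f (fz_dn T))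

/-- lift of a component with `z` -/
noncomputable def fz_LB (i : ℕ) (f : KF ℂ n) : KF ℂ (n + 1) := fun T =>
  if Fin.last n ∈ T then fz_up i (f (fz_dn T)) else 0

theorem fz_A_LA (i i' : ℕ) (f : KF ℂ n) : fz_A i' (fz_LA i f) = if i' = i then f else 0 := by
  funext U
  rw [fz_A_apply, fz_LA, if_neg (fz_last_emb U), fz_dn_emb, fz_co_up]
  split_ifs <;> rfl

theorem fz_B_LA (i i' : ℕ) (f : KF ℂ n) : fz_B i' (fz_LA i f) = 0 := by
  funext U
  rw [fz_B_apply, fz_LA, if_pos (mem_insert_self _ _), map_zero]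
  rfl

theorem fz_A_LB (i i' : ℕ) (f : KF ℂ n) : fz_A i' (fz_LB i f) = 0 := by
  funext U
  rw [fz_A_apply, fz_LB, if_neg (fz_last_emb U), map_zero]
  rfl

theorem fz_B_LB (i i' : ℕ) (f : KF ℂ n) : fz_B i' (fz_LB i f) = if i' = i then f else 0 := by
  funext U
  rw [fz_B_apply, fz_LB, if_pos (mem_insert_self _ _), fz_dn_embz, fz_co_up]
  split_ifs <;> rfl

theorem fz_up_ne {i : ℕ} {g : PD ℂ n} {m : Mon (n + 1)} (h : (fz_up i g).coeff m ≠ 0) :
    m = sn (ini m) i ∧ g.coeff (ini m) ≠ 0 := by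
  rw [← sn_ini m, fz_up_coeff] at h
  split_ifs at h with hi
  · exact ⟨by rw [← hi, sn_ini], h⟩
  · exact absurd rfl h

theorem fz_LA_mem {X : Set (Mon (n + 1))} {p j i : ℕ} (hi : i ≤ j) {f : KF ℂ n}
    (hf : f ∈ ch (supp ℂ (slice X i)) p (j - i)) : fz_LA i f ∈ ch (supp ℂ X) p j := by
  rw [fz_mem_ch] at hf ⊢
  intro T m hm
  rw [fz_LA] at hm
  split_ifs at hm with hT
  · simp at hm
  · obtain ⟨e, h⟩ := fz_up_ne hm
    obtain ⟨h1, h2, h3⟩ := hf _ _ h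
    refine ⟨e ▸ h1, by rw [← fz_emb_dn hT, fz_card_emb, h2], ?_⟩
    rw [e, degree_sn]
    omega

theorem fz_LB_mem {X : Set (Mon (n + 1))} {p j i : ℕ} (hi : i < j) {f : KF ℂ n}
    (hf : f ∈ ch (supp ℂ (slice X i)) p (j - 1 - i)) : fz_LB i f ∈ ch (supp ℂ X) (p + 1) j := by
  rw [fz_mem_ch] at hf ⊢
  intro T m hm
  rw [fz_LB] at hm
  split_ifs at hm with hT
  · obtain ⟨e, h⟩ := fz_up_ne hm
    obtain ⟨h1, h2, h3⟩ := hf _ _ h
    refine ⟨e ▸ h1, by rw [← fz_embz_dn hT, fz_card_embz, h2], ?_⟩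
    rw [e, degree_sn]
    omega
  · simp at hm

/-! ### the decomposition -/

/-- all components -/
noncomputable def fz_Phi (n j : ℕ) : KF ℂ (n + 1) →ₗ[ℂ] KF ℂ n × (Fin j → KF ℂ n × KF ℂ n) :=
  (fz_A 0).prod (LinearMap.pi fun i : Fin j => (fz_A (i + 1)).prod (fz_B i))

theorem fz_Phi_apply (j : ℕ) (F : KF ℂ (n + 1)) :
    fz_Phi n j F = (fz_A 0 F, fun i : Fin j => (fz_A (i + 1) F, fz_B i F)) := rfl

theorem fz_Phi_inj {X : Set (Mon (n + 1))} {p j : ℕ} {F : KF ℂ (n + 1)} (hF : F ∈ ch (supp ℂ X) (p + 1) j)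
    (h0 : fz_Phi n j F = 0) : F = 0 := by
  rw [fz_mem_ch] at hF
  rw [fz_Phi_apply, Prod.mk_eq_zero] at h0
  funext T
  refine fz_ext0 fun m hm => ?_
  have h3 := (hF T m hm).2.2
  rw [← degree_ini] at h3
  rw [← sn_ini m, ← fz_co_coeff] at hm
  by_cases hT : Fin.last n ∈ T
  · have h1 : fz_B (m (Fin.last n)) F = 0 := congrArg Prod.snd (congrFun h0.2 ⟨m (Fin.last n), by omega⟩)
    rw [← fz_embz_dn hT, ← fz_B_apply, h1] at hm
    simp at hm
  · have h1 : fz_A (m (Fin.last n)) F = 0 := by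
      rcases hi : m (Fin.last n) with _ | i
      · exact h0.1
      · exact congrArg Prod.fst (congrFun h0.2 ⟨i, by omega⟩)
    rw [← fz_emb_dn hT, ← fz_A_apply, h1] at hm
    simp at hm

theorem fz_Phi_surj {X : Set (Mon (n + 1))} {p j : ℕ} {f₀ : KF ℂ n} {f g : Fin j → KF ℂ n}
    (h0 : f₀ ∈ ch (supp ℂ (slice X 0)) (p + 1) j)
    (hf : ∀ i : Fin j, f i ∈ ch (supp ℂ (slice X (i + 1))) (p + 1) (j - 1 - i))
    (hg : ∀ i : Fin j, g i ∈ ch (supp ℂ (slice X i)) p (j - 1 - i)) :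
    ∃ F ∈ ch (supp ℂ X) (p + 1) j, fz_A 0 F = f₀ ∧ ∀ i : Fin j, fz_A (i + 1) F = f i ∧ fz_B i F = g i := by
  refine ⟨fz_LA 0 f₀ + ∑ i : Fin j, (fz_LA (i + 1) (f i) + fz_LB i (g i)), add_mem (fz_LA_mem (Nat.zero_le j) h0)
    (Submodule.sum_mem _ fun i _ => add_mem (fz_LA_mem i.2 ?_) (fz_LB_mem i.2 (hg i))), ?_, fun i => ⟨?_, ?_⟩⟩
  · rw [show j - (i + 1) = j - 1 - i by omega]
    exact hf i
  · simp [map_sum, fz_A_LA, fz_A_LB]
  · simp [map_sum, fz_A_LA, fz_A_LB, Fin.val_inj]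
  · simp [map_sum, fz_B_LA, fz_B_LB, Fin.val_inj]

/-- the space in `z`-degree `i + 1` -/
noncomputable def fz_E (N' N : Submodule ℂ (PD ℂ n)) (p e : ℕ) : Submodule ℂ (KF ℂ n × KF ℂ n) :=
  ((ch ⊤ (p + 2) e).prod (ch ⊤ (p + 1) e)).map
    ((kos (xv ℂ n) ∘ₗ LinearMap.fst ℂ _ _ + (-1 : ℂ) ^ (p + 1) • LinearMap.snd ℂ _ _).prod
      (kos (xv ℂ n) ∘ₗ LinearMap.snd ℂ _ _)) ⊔ (ch N' (p + 1) e).prod (ch N p e)

theorem fz_mem_E {N' N : Submodule ℂ (PD ℂ n)} {p e : ℕ} {w : KF ℂ n × KF ℂ n} :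
    w ∈ fz_E N' N p e ↔ ∃ f ∈ ch (⊤ : Submodule ℂ (PD ℂ n)) (p + 2) e, ∃ g ∈ ch (⊤ : Submodule ℂ (PD ℂ n)) (p + 1) e,
      ∃ u ∈ ch N' (p + 1) e, ∃ v ∈ ch N p e,
        w = (kos (xv ℂ n) f + (-1 : ℂ) ^ (p + 1) • g + u, kos (xv ℂ n) g + v) := by
  rw [fz_E, Submodule.mem_sup]
  constructor
  · rintro ⟨_, ⟨⟨f, g⟩, ⟨hf, hg⟩, rfl⟩, ⟨u, v⟩, ⟨hu, hv⟩, rfl⟩
    exact ⟨f, hf, g, hg, u, hu, v, hv, rfl⟩
  · rintro ⟨f, hf, g, hg, u, hu, v, hv, rfl⟩
    exact ⟨_, ⟨(f, g), ⟨hf, hg⟩, rfl⟩, (u, v), ⟨hu, hv⟩, rfl⟩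

instance fz_finite_E (N' N : Submodule ℂ (PD ℂ n)) (p e : ℕ) : Module.Finite ℂ (fz_E N' N p e) := by
  haveI : ∀ (A B : Submodule ℂ (PD ℂ n)) (a b : ℕ), Module.Finite ℂ ((ch A a e).prod (ch B b e)) := fun A B a b =>
    Module.Finite.equiv (fz_prodEquiv _ _).symm
  unfold fz_E
  infer_instance

theorem fz_kos_top {p e : ℕ} {f : KF ℂ n} (hf : f ∈ ch (⊤ : Submodule ℂ (PD ℂ n)) (p + 1) e) :
    kos (xv ℂ n) f ∈ ch (⊤ : Submodule ℂ (PD ℂ n)) p e :=
  kos_mem_ch isLin_xv (fun _ _ _ => Submodule.mem_top) hf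

theorem fz_finrank_E (N' N : Submodule ℂ (PD ℂ n)) (p e : ℕ) :
    Module.finrank ℂ (fz_E N' N p e) = cc (⊤ : Submodule ℂ (PD ℂ n)) (p + 1) e + g2 (xv ℂ n) N' N p e := by
  have hs : (-1 : ℂ) ^ (p + 1) * (-1 : ℂ) ^ (p + 1) = 1 := by
    rw [← mul_pow]
    simp
  have h1 : (fz_E N' N p e).map (LinearMap.fst ℂ _ _) = ch ⊤ (p + 1) e := by
    refine le_antisymm ?_ fun g hg => ?_
    · rintro _ ⟨w, hw, rfl⟩
      obtain ⟨f, hf, g, hg, u, hu, v, hv, rfl⟩ := fz_mem_E.1 hw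
      exact add_mem (add_mem (fz_kos_top hf) (Submodule.smul_mem _ _ hg)) (ch_mono le_top _ _ hu)
    · refine ⟨_, fz_mem_E.2 ⟨0, zero_mem _, (-1 : ℂ) ^ (p + 1) • g, Submodule.smul_mem _ _ hg, 0, zero_mem _, 0,
        zero_mem _, rfl⟩, ?_⟩
      simp only [LinearMap.fst_apply, map_zero, zero_add, add_zero, smul_smul, hs, one_smul]
  have h2 : fz_E N' N p e ⊓ LinearMap.ker (LinearMap.fst ℂ _ _) =
      ((ch N' (p + 1) e).map (kos (xv ℂ n)) ⊔ ch N p e).map (LinearMap.inr ℂ _ _) := by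
    refine le_antisymm ?_ ?_
    · rintro w ⟨hw, hw0⟩
      obtain ⟨f, hf, g, hg, u, hu, v, hv, rfl⟩ := fz_mem_E.1 hw
      have e0 : kos (xv ℂ n) f + (-1 : ℂ) ^ (p + 1) • g + u = 0 := hw0
      have e1 : g = -((-1 : ℂ) ^ (p + 1) • kos (xv ℂ n) f) + -((-1 : ℂ) ^ (p + 1) • u) := by
        have e2 := congrArg (fun a => (-1 : ℂ) ^ (p + 1) • a) e0
        simp only [smul_add, smul_smul, hs, one_smul, smul_zero] at e2
        linear_combination (exp := 1) e2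
      refine ⟨kos (xv ℂ n) g + v, add_mem (Submodule.mem_sup_left ⟨-((-1 : ℂ) ^ (p + 1) • u),
        neg_mem (Submodule.smul_mem _ _ hu), ?_⟩) (Submodule.mem_sup_right hv), by rw [e0]; rfl⟩
      rw [e1, map_add, map_neg, map_neg, map_smul, map_smul, kos_kos fun i k => commute_xv _ _, smul_zero, neg_zero,
        zero_add]
    · rintro _ ⟨w, hw, rfl⟩
      obtain ⟨_, ⟨u, hu, rfl⟩, v, hv, rfl⟩ := Submodule.mem_sup.1 hw
      refine ⟨fz_mem_E.2 ⟨0, zero_mem _, u, ch_mono le_top _ _ hu, -((-1 : ℂ) ^ (p + 1) • u),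
        neg_mem (Submodule.smul_mem _ _ hu), v, hv, ?_⟩, rfl⟩
      simp
  rw [fz_rank (LinearMap.fst ℂ _ _), h1, h2, ← (Submodule.equivMapOfInjective _ LinearMap.inr_injective _).finrank_eq]
  rfl

theorem fz_slice_univ (i : ℕ) : supp ℂ (slice (Set.univ : Set (Mon (n + 1))) i) = ⊤ := supp_univ

theorem fz_map (J : Set (Mon (n + 1))) (p j : ℕ) :
    ((ch ⊤ (p + 2) j).map (kos (xv ℂ (n + 1))) ⊔ ch (supp ℂ J) (p + 1) j).map (fz_Phi n j) =
      ((ch ⊤ (p + 2) j).map (kos (xv ℂ n)) ⊔ ch (supp ℂ (slice J 0)) (p + 1) j).prod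
        (Submodule.pi Set.univ fun i : Fin j =>
          fz_E (supp ℂ (slice J (i + 1))) (supp ℂ (slice J i)) p (j - 1 - i)) := by
  refine le_antisymm ?_ ?_
  · rintro _ ⟨w, hw, rfl⟩
    obtain ⟨_, ⟨F, hF, rfl⟩, u, hu, rfl⟩ := Submodule.mem_sup.1 hw
    have hF : F ∈ ch (supp ℂ Set.univ) (p + 2) j := by rwa [supp_univ]
    rw [fz_Phi_apply]
    refine ⟨?_, fun i _ => fz_mem_E.2 ⟨fz_A (i + 1) F, ?_, fz_B i F, ?_, fz_A (i + 1) u, ?_, fz_B i u,
      fz_B_mem hu i, ?_⟩⟩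
    · have h1 := fz_A_mem hF 0
      rw [fz_slice_univ] at h1
      show fz_A 0 (kos (xv ℂ (n + 1)) F + u) ∈ _
      rw [map_add, fz_A_kos0]
      exact add_mem (Submodule.mem_sup_left ⟨_, h1, rfl⟩) (Submodule.mem_sup_right (fz_A_mem hu 0))
    · have h1 := fz_A_mem hF (i + 1)
      rwa [fz_slice_univ, show j - (i + 1) = j - 1 - i by omega] at h1
    · have h1 := fz_B_mem hF i
      rwa [fz_slice_univ] at h1
    · have h1 := fz_A_mem hu (i + 1)
      rwa [show j - (i + 1) = j - 1 - i by omega] at h1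
    · show (fz_A (i + 1) (kos (xv ℂ (n + 1)) F + u), fz_B i (kos (xv ℂ (n + 1)) F + u)) = _
      rw [map_add, map_add, fz_A_kos hF, fz_B_kos]
  · rintro ⟨w₀, w⟩ ⟨hw₀, hw⟩
    obtain ⟨_, ⟨f₀, hf₀, rfl⟩, u₀, hu₀, rfl⟩ := Submodule.mem_sup.1 hw₀
    choose f hf g hg u hu v hv e using fun i => fz_mem_E.1 (hw i (Set.mem_univ i))
    obtain ⟨F, hF, a0, a⟩ := fz_Phi_surj (X := Set.univ) (p := p + 1) (f₀ := f₀) (f := f) (g := g)
      (by rwa [fz_slice_univ]) (fun i => by rw [fz_slice_univ]; exact hf i) (fun i => by rw [fz_slice_univ]; exact hg i)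
    obtain ⟨G, hG, b0, b⟩ := fz_Phi_surj hu₀ hu hv
    refine ⟨kos (xv ℂ (n + 1)) F + G, add_mem (Submodule.mem_sup_left ⟨F, by rwa [supp_univ] at hF, rfl⟩)
      (Submodule.mem_sup_right hG), ?_⟩
    rw [fz_Phi_apply, map_add, fz_A_kos0, a0, b0]
    refine Prod.ext rfl (funext fun i => ?_)
    show (fz_A (i + 1) (kos (xv ℂ (n + 1)) F + G), fz_B i (kos (xv ℂ (n + 1)) F + G)) = w i
    rw [map_add, map_add, fz_A_kos hF, fz_B_kos, (a i).1, (a i).2, (b i).1, (b i).2]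
    exact (e i).symm

theorem em_succ (J : Set (Mon (n + 1))) (p j : ℕ) :
    em J (p + 1) j = em (slice J 0) (p + 1) j +
      ∑ i ∈ range j, (cc (⊤ : Submodule ℂ (PD ℂ n)) (p + 1) (j - 1 - i) +
        g2 (xv ℂ n) (supp ℂ (slice J (i + 1))) (supp ℂ (slice J i)) p (j - 1 - i)) := by
  have h0 : ((ch ⊤ (p + 2) j).map (kos (xv ℂ (n + 1))) ⊔ ch (supp ℂ J) (p + 1) j) ⊓ LinearMap.ker (fz_Phi n j) = ⊥ := by
    rw [eq_bot_iff]
    rintro F ⟨hF, hF0⟩
    refine fz_Phi_inj (X := Set.univ) (p := p) ?_ hF0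
    rw [supp_univ]
    refine (sup_le ?_ (ch_mono le_top _ _) : _ ≤ ch ⊤ (p + 1) j) hF
    rintro _ ⟨G, hG, rfl⟩
    exact fz_kos_top hG
  have h1 := fz_rank (fz_Phi n j) ((ch ⊤ (p + 2) j).map (kos (xv ℂ (n + 1))) ⊔ ch (supp ℂ J) (p + 1) j)
  haveI : Module.Finite ℂ (Submodule.pi Set.univ fun i : Fin j =>
      fz_E (supp ℂ (slice J (i + 1))) (supp ℂ (slice J i)) p (j - 1 - i)) :=
    Module.Finite.equiv (kbasic_piEquiv _).symm
  rw [h0, finrank_bot, add_zero, fz_map, (fz_prodEquiv _ _).finrank_eq, Module.finrank_prod,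
    (kbasic_piEquiv _).finrank_eq, Module.finrank_pi_fintype] at h1
  simp only [fz_finrank_E] at h1
  rw [← Fin.sum_univ_eq_sum_range (fun i => cc (⊤ : Submodule ℂ (PD ℂ n)) (p + 1) (j - 1 - i) +
    g2 (xv ℂ n) (supp ℂ (slice J (i + 1))) (supp ℂ (slice J i)) p (j - 1 - i)) j]
  exact h1

end Crest.Agent.R181
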