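import Crest.Agent.R181.FComp
import Crest.Agent.R181.FZ
import Crest.Agent.R181.FLex2

/-! # Clements-Lindstrom and Mermin-Murai for monomial sets (helper33) -/

set_option autoImplicit false

namespace Crest.Agent.R181

open Finset

theorem sum_cc {n : ℕ} (K : Set (Mon (n + 1))) (p j : ℕ) :
    ∑ i ∈ range j, cc (supp ℂ (slice K i)) p (j - 1 - i) =
      if p + 1 ≤ j then n.choose p * cnt K (j - 1 - p) else 0 := by
  simp only [cc_eq, hf_supp]
  split_ifs with h
  · rw [cnt_eq_sum_slice, mul_sum, ← sum_filter]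
    refine sum_congr ?_ fun i _ => ?_
    · ext i
      simp only [mem_filter, mem_range]
      omega
    · congr 2
      omega
  · refine sum_eq_zero fun i hi => ?_
    rw [mem_range] at hi
    rw [if_neg (by omega)]

theorem g2_term {n : ℕ} {a : Fin (n + 1) → ℕ} {K : Set (Mon (n + 1))} (hP : HasP a K)
    (hz : ZSt (a (Fin.last n)) K) {b : ℕ} (hb : b + 1 = a (Fin.last n)) (p e i : ℕ) :
    g2 (xv ℂ n) (supp ℂ (slice K (i + 1))) (supp ℂ (slice K i)) p e +
        (if i = b then cc (supp ℂ (slice K i)) p e else 0) =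
      cc (supp ℂ (slice K i)) p e + (if i = b then em (slice K i) p e else 0) := by
  split_ifs with h
  · subst h
    rw [slice_eq_univ hP (le_of_eq hb.symm), supp_univ, add_comm]
    rfl
  · rw [add_zero, add_zero]
    refine g2_eq_cc isLin_xv (fun g hg t => ?_) p e
    rcases lt_or_gt_of_ne h with h | h
    · rw [mem_supp] at hg ⊢
      intro m hm
      obtain ⟨m', rfl, hm'⟩ := coeff_mul_xv_ne hm
      exact hz i (by omega) m' (hg m' hm') t
    · rw [slice_eq_univ hP (show a (Fin.last n) ≤ i by omega), supp_univ]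
      trivial

theorem sum_g2 {n : ℕ} {a : Fin (n + 1) → ℕ} {K : Set (Mon (n + 1))} (hP : HasP a K)
    (hz : ZSt (a (Fin.last n)) K) {b : ℕ} (hb : b + 1 = a (Fin.last n)) (p j : ℕ) :
    ∑ i ∈ range j, g2 (xv ℂ n) (supp ℂ (slice K (i + 1))) (supp ℂ (slice K i)) p (j - 1 - i) +
        (if b < j then cc (supp ℂ (slice K b)) p (j - 1 - b) else 0) =
      (if p + 1 ≤ j then n.choose p * cnt K (j - 1 - p) else 0) +
        (if b < j then em (slice K b) p (j - 1 - b) else 0) := by
  have h := sum_congr (s₁ := range j) rfl fun i _ => g2_term hP hz hb p (j - 1 - i) i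
  rw [sum_add_distrib, sum_add_distrib, sum_ite_eq', sum_ite_eq', sum_cc] at h
  simpa only [mem_range] using h

theorem exists_single_of_le {n : ℕ} {v u : Mon n} (h : v ≤ u) (hd : u.degree = v.degree + 1) :
    ∃ t, u = v + Finsupp.single t 1 := by
  obtain ⟨w, rfl⟩ := exists_add_of_le h
  have hw : w ∈ deg n 1 := by
    rw [map_add] at hd
    change w.degree = 1
    omega
  obtain ⟨t, rfl⟩ := mem_deg_one.1 hw
  exact ⟨t, rfl⟩

theorem lpp_main (n : ℕ) : ∀ (a : Fin n → ℕ), Monotone a → (∀ i, 1 ≤ a i) →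
    ∀ J : Set (Mon n), IsUpperSet J → HasP a J →
    ∃ L : Set (Mon n), IsUpperSet L ∧ HasP a L ∧ IsLPP a L ∧ (∀ e, cnt L e = cnt J e) ∧
      ∀ p j, em L p j ≤ em J p j := by
  induction n with
  | zero =>
    intro a _ _ J hJ hP
    exact ⟨J, hJ, hP, fun m hm _ m' _ _ => by rwa [Subsingleton.elim m' m], fun _ => rfl,
      fun _ _ => le_rfl⟩
  | succ n ih =>
    intro a ha h1 J0 hJ0 hP0
    obtain ⟨J, hJ, hP, hz, hc0, he0⟩ := exists_zst ha hJ0 hP0
    have ha' : Monotone (a ∘ Fin.castSucc) := ha.comp Fin.strictMono_castSucc.monotone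
    have ih' := ih (a ∘ Fin.castSucc) ha' (fun i => h1 _)
    choose J' hJ'u hJ'P hJ'l hJ'c hJ'e using
      fun i => ih' (slice J i) (slice_upper hJ i) (slice_hasP hP i)
    set X : Set (Mon (n + 1)) := {m | ini m ∈ J' (m (Fin.last n))} with hX
    have hsl : ∀ i, slice X i = J' i := fun i => by
      ext m
      simp [slice, hX]
    have hmono : ∀ i i', i ≤ i' → J' i ⊆ J' i' := fun i i' h m hm =>
      lpp_subset (hJ'P i) (hJ'l i) (hJ'P i') (hJ'l i') (e := m.degree)
        (by rw [hJ'c, hJ'c]; exact cnt_mono fun u hu => slice_mono hJ h hu.1) ⟨hm, rfl⟩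
    have hXu : IsUpperSet X := fun m m' h hm => by
      have h' : sn (ini m) (m (Fin.last n)) ≤ sn (ini m') (m' (Fin.last n)) := by
        rwa [sn_ini, sn_ini]
      rw [sn_le_sn] at h'
      exact hmono _ _ h'.2 (hJ'u _ h'.1 hm)
    have hXP : HasP a X := fun m hm => by
      rw [← sn_ini m, sn_mem_box, not_and_or] at hm
      rcases hm with hm | hm
      · exact hJ'P _ _ hm
      · refine subset_of_cnt_le (X := J' (m (Fin.last n))) (Y := Set.univ)
          (e := (ini m).degree) (Set.subset_univ _) ?_ ⟨trivial, rfl⟩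
        rw [hJ'c, slice_eq_univ hP (not_lt.1 hm)]
    have hXs : ∀ i, IsLPP (a ∘ Fin.castSucc) (slice X i) := fun i => by
      rw [hsl]; exact hJ'l i
    have hXz : ZSt (a (Fin.last n)) X := by
      intro i hi m hm k
      rw [hsl] at hm ⊢
      set Y : Set (Mon n) := {u | u ∉ box (a ∘ Fin.castSucc) ∨
        ∃ v ∈ slice J (i + 1), v.degree = m.degree ∧ v ≤ u} with hY
      have hYu : IsUpperSet Y := by
        intro u u' h hu
        rcases hu with hu | ⟨v, hv, hd, hvu⟩
        · exact Or.inl fun hb => hu (box_lower h hb)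
        · exact Or.inr ⟨v, hv, hd, hvu.trans h⟩
      obtain ⟨LY, hLu, hLP, hLl, hLc, -⟩ := ih' Y hYu fun u hu => Or.inl hu
      have h2 : m ∈ LY := by
        refine lpp_subset (hJ'P _) (hJ'l _) hLP hLl (e := m.degree) ?_ ⟨hm, rfl⟩
        rw [hJ'c, hLc]
        exact cnt_mono fun u hu => Or.inr ⟨u, hu.1, hu.2, le_rfl⟩
      refine lpp_subset hLP hLl (hJ'P _) (hJ'l _) (e := m.degree + 1) ?_
        ⟨hLu le_self_add h2, by simp [deg]⟩
      rw [hJ'c, hLc]
      refine cnt_mono fun u hu => ?_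
      obtain ⟨hu | ⟨v, hv, hd, hvu⟩, hud⟩ := hu
      · exact slice_hasP hP i u hu
      · obtain ⟨t, rfl⟩ := exists_single_of_le hvu (by rw [hd]; exact hud)
        exact hz i hi v hv t
    have hXc : ∀ e, cnt X e = cnt J e := fun e => by
      rw [cnt_eq_sum_slice, cnt_eq_sum_slice]
      exact sum_congr rfl fun i _ => by rw [hsl, hJ'c]
    obtain ⟨L, hLP, hLl, hLc⟩ := exists_lppSet hXP
    have hLu := upper_of_lpp hXu hXP hXz hXs hLP hLl hLc
    have hLJ : ∀ e, cnt L e = cnt J e := fun e => (hLc e).trans (hXc e)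
    refine ⟨L, hLu, hLP, hLl, fun e => (hLJ e).trans (hc0 e), fun p j => le_trans ?_ (he0 p j)⟩
    cases p with
    | zero => rw [em, em, ee_zero, ee_zero, hf_supp, hf_supp, hLJ]
    | succ p =>
      obtain ⟨b, hb⟩ : ∃ b, b + 1 = a (Fin.last n) := ⟨a (Fin.last n) - 1, by have := h1 (Fin.last n); omega⟩
      have e1 : em (slice L 0) (p + 1) j ≤ em (slice J 0) (p + 1) j := by
        refine le_trans (ee_mono _ (supp_mono ?_) _ _) (hJ'e 0 (p + 1) j)
        rw [← hsl]
        exact slice_zero_subset hXP hXz hXs hLP hLl hLc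
      have e2 : ∀ e, em (slice L b) p e + cc (supp ℂ (slice J b)) p e ≤
          em (slice J b) p e + cc (supp ℂ (slice L b)) p e := fun e => by
        have h3 : J' b ⊆ slice L b := by
          rw [← hsl]
          exact slice_top_subset hXP hXz hXs hLP hLl hLc hb
        have h4 := ee_submod (xv ℂ n) (supp_mono (D := ℂ) h3) p e
        have h5 := hJ'e b p e
        have h6 : cc (supp ℂ (J' b)) p e = cc (supp ℂ (slice J b)) p e := by
          rw [cc_eq, cc_eq, hf_supp, hf_supp, hJ'c]
        unfold em at h5 ⊢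
        omega
      have s1 := sum_g2 hP hz hb p j
      have s2 := sum_g2 hLP (zst_of_lpp hLP hLl) hb p j
      rw [hLJ] at s2
      rw [em_succ, em_succ, sum_add_distrib, sum_add_distrib]
      have e3 := e2 (j - 1 - b)
      by_cases hbj : b < j
      · simp only [if_pos hbj] at s1 s2
        omega
      · simp only [if_neg hbj] at s1 s2
        omega

end Crest.Agent.R181
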