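import Crest.Agent.R181.KDefs

/-!
# Row 181, parts (A), (B), (C): definitions (helper67)

`PS D σ` is the polynomial ring over a division ring `D` in central variables `σ`; all modules are
LEFT modules.  A system of *blocks* (curves): every block `c : ι` has two input variables
`inl (c,0)`, `inl (c,1)` and output variables `inr t` (`ob t = c`), one triangular equation `E t`
per output.  `INT N D s` says that all multigraded quotients `F/W` of free `D[σ]`-modules killed by
the equations of the blocks in `s` have (eventually) an integral Hilbert function.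
-/

set_option autoImplicit false

namespace Crest.Agent.R181

open MvPolynomial

/-- polynomials over `D` in central variables `σ` (`PD D n = PS D (Fin n)`) -/
abbrev PS (D : Type*) [Semiring D] (σ : Type*) := AddMonoidAlgebra D (σ →₀ ℕ)

/-- extension of coefficients `K → D` -/
noncomputable def io (K D : Type*) [Field K] [DivisionRing D] [Algebra K D] (σ : Type*) :
    MvPolynomial σ K →+* PS D σ :=
  AddMonoidAlgebra.mapRingHom (σ →₀ ℕ) (algebraMap K D)

/-- the variables -/
noncomputable def xs (D : Type*) [Semiring D] {σ : Type*} (v : σ) : PS D σ :=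
  AddMonoidAlgebra.single (Finsupp.single v 1) 1

/-- two input variables per block, and the output variables -/
abbrev Var (ι τ : Type) := (ι × Fin 2) ⊕ τ

/-- the block of a variable -/
def blkOf {ι τ : Type} (ob : τ → ι) : Var ι τ → ι := Sum.elim Prod.fst ob

/-- a system of curves given by triangular equations -/
structure Blocks (K : Type) [Field K] (ι τ : Type) where
  /-- block of an output -/
  ob : τ → ι
  /-- degree of the equation -/
  a : τ → ℕ
  a_pos : ∀ t, 1 ≤ a t
  /-- the equation -/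
  E : τ → MvPolynomial (Var ι τ) K
  E_hom : ∀ t, (E t).IsHomogeneous (a t)
  /-- rank of an output (triangularity) -/
  rk : τ → ℕ
  E_tri : ∀ t, ∃ (c : K) (g : MvPolynomial (Var ι τ) K), c ≠ 0 ∧
    E t = C c * X (Sum.inr t) ^ a t + g ∧
    g ∈ supported K {v | blkOf ob v = ob t ∧ ∀ t', v = Sum.inr t' → rk t' < rk t}

namespace Blocks

variable {K : Type} [Field K] {ι τ : Type} [Fintype ι] [DecidableEq ι] [Fintype τ] [DecidableEq τ]
  (N : Blocks K ι τ)

/-- the block of a variable -/
def blk : Var ι τ → ι := blkOf N.ob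

/-- multidegree of a variable -/
def wt (v : Var ι τ) : ι → ℤ := Pi.single (N.blk v) 1

/-- multidegree of a monomial -/
noncomputable def dg (m : Var ι τ →₀ ℕ) : ι → ℤ := Finsupp.weight N.wt m

/-- exponents of the standard monomials in the outputs of block `c` -/
def bx (c : ι) : Finset (τ → ℕ) :=
  Fintype.piFinset fun t => if N.ob t = c then Finset.range (N.a t) else {0}

/-- degree of the curve `c` -/
def dd (c : ι) : ℤ := (N.bx c).card

/-- constant term of the Hilbert polynomial of the curve `c` -/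
def ee (c : ι) : ℤ := ∑ m ∈ N.bx c, (1 - ∑ t, (m t : ℤ))

/-- Hilbert polynomial of the curve `c` -/
def hb (c : ι) (x : ℤ) : ℤ := N.dd c * x + N.ee c

/-- Hilbert polynomial of the product of the curves in `s` -/
def hs (s : Finset ι) (j : ι → ℤ) : ℤ := ∏ c ∈ s, N.hb c (j c)

/-- standard monomials for the blocks in `s` -/
def boxS (s : Finset ι) : Set (Var ι τ →₀ ℕ) :=
  {m | (∀ t, N.ob t ∈ s → m (Sum.inr t) < N.a t) ∧ ∀ v, N.blk v ∉ s → m v = 0}

variable (D : Type) [DivisionRing D] [Algebra K D]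

/-- left ideal of the equations of the blocks in `s` and of the variables outside `s` -/
noncomputable def idS (s : Finset ι) : Ideal (PS D (Var ι τ)) :=
  Ideal.span ((fun t => io K D _ (N.E t)) '' {t | N.ob t ∈ s} ∪ xs D '' {v | N.blk v ∉ s})

/-- polynomials of multidegree `j` -/
noncomputable def pc1 (j : ι → ℤ) : Submodule D (PS D (Var ι τ)) :=
  AddMonoidAlgebra.supported D D {m | N.dg m = j}

/-- degree `j` piece of the free module with generators `k : P` of degrees `sh k` -/
noncomputable def piece {P : Type} (sh : P → ι → ℤ) (j : ι → ℤ) :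
    Submodule D (P → PS D (Var ι τ)) :=
  Submodule.pi Set.univ fun k => AddMonoidAlgebra.supported D D {m | sh k + N.dg m = j}

/-- degree `j` component of an element of the free module -/
noncomputable def cmp {P : Type} (sh : P → ι → ℤ) (j : ι → ℤ) (x : P → PS D (Var ι τ)) :
    P → PS D (Var ι τ) :=
  fun k => AddMonoidAlgebra.ofCoeff ((x k).coeff.filter fun m => sh k + N.dg m = j)

/-- Hilbert function of `F/W` -/
noncomputable def hq {P : Type} (sh : P → ι → ℤ)
    (W : Submodule (PS D (Var ι τ)) (P → PS D (Var ι τ))) (j : ι → ℤ) : ℤ :=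
  (Module.finrank D ↥(N.piece D sh j) : ℤ) -
    (Module.finrank D ↥(N.piece D sh j ⊓ W.restrictScalars D) : ℤ)

/-- integrality for the product of the curves in `s` over `D` -/
def INT (s : Finset ι) : Prop :=
  ∀ (P : Type) [Fintype P] (sh : P → ι → ℤ)
    (W : Submodule (PS D (Var ι τ)) (P → PS D (Var ι τ))),
    (∀ k c, c ∉ s → sh k c = 0) → (∀ x ∈ W, ∀ j, N.cmp D sh j x ∈ W) →
    (∀ t, N.ob t ∈ s → ∀ x : P → PS D (Var ι τ), io K D _ (N.E t) • x ∈ W) →
    ∃ (n : (ι → ℤ) →₀ ℤ) (J : ℤ), ∀ j : ι → ℤ, (∀ c ∈ s, J ≤ j c) → (∀ c, c ∉ s → j c = 0) →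
      N.hq D sh W j = n.sum fun r z => z * N.hs s (j - r)

/-- `h` is eventually `ρ * hb + σ * dd` with `θ = ρ - σ` (so that `θ (O(-r)) = 1 + r`) -/
def Theta (c : ι) (h : ℤ → ℤ) (θ : ℤ) : Prop :=
  ∃ ρ σ : ℤ, θ = ρ - σ ∧ ∀ᶠ x in Filter.atTop, h x = ρ * N.hb c x + σ * N.dd c

/-- The output of part (A): the colimit `U` of all atoms over `O = D[σ]/idS {c}`, a graded left
`D[σ]`-module with a commuting right action of the division ring `D'`. -/
structure Univ (c : ι) (D' : Type) [DivisionRing D'] [Algebra K D'] (U : Type) [AddCommGroup U]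
    [Module D U] [Module (PS D (Var ι τ)) U] [IsScalarTower D (PS D (Var ι τ)) U]
    [Module D'ᵐᵒᵖ U] [SMulCommClass (PS D (Var ι τ)) D'ᵐᵒᵖ U] where
  /-- projections of the grading -/
  π : ℤ → U →ₗ[D] U
  π_π : ∀ i j y, π i (π j y) = if i = j then π j y else 0
  π_fin : ∀ y, ∃ S : Finset ℤ, y = ∑ j ∈ S, π j y
  π_xs : ∀ v, N.blk v = c → ∀ j y, π (j + 1) (xs D v • y) = xs D v • π j y
  π_op : ∀ j (d : D') y, π j (MulOpposite.op d • y) = MulOpposite.op d • π j y
  xs_zero : ∀ v, N.blk v ≠ c → ∀ y : U, xs D v • y = 0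
  E_zero : ∀ t, N.ob t = c → ∀ y : U, io K D _ (N.E t) • y = 0
  K_op : ∀ (k : K) (y : U), algebraMap K D k • y = MulOpposite.op (algebraMap K D' k) • y
  /-- the image of `1 ∈ O` -/
  u0 : U
  u0_ne : u0 ≠ 0
  π_u0 : π 0 u0 = u0
  zero_surj : ∀ y, π 0 y = y → ∃ d : D', y = MulOpposite.op d • u0
  one_surj : ∀ y, π 1 y = y → ∃ α β : D',
    y = xs D (Sum.inl (c, 0) : Var ι τ) • MulOpposite.op α • u0 +
      xs D (Sum.inl (c, 1) : Var ι τ) • MulOpposite.op β • u0
  indep : ∀ (j : ℕ) (r : ℕ → D'),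
    ∑ i ∈ Finset.range (j + 1), (xs D (Sum.inl (c, 0) : Var ι τ) ^ i *
      xs D (Sum.inl (c, 1) : Var ι τ) ^ (j - i)) • MulOpposite.op (r i) • u0 = 0 →
    ∀ i ≤ j, r i = 0
  /-- finitely many elements lie in an atom (atoms need not be generated in degree `0`) -/
  theta_one : ∀ S : Finset D', ∃ Y : Submodule (PS D (Var ι τ)) U, Y.FG ∧ (∀ y ∈ Y, ∀ j, π j y ∈ Y) ∧
    u0 ∈ Y ∧ (∀ d ∈ S, MulOpposite.op d • u0 ∈ Y) ∧ N.Theta c (fun x => (Module.finrank D
      ↥(Y.restrictScalars D ⊓ LinearMap.range (π x)) : ℤ)) 1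
  sandwich : ∀ (Q : Type) [Fintype Q] [DecidableEq Q] (Z : Submodule (PS D (Var ι τ)) (Q → U)),
    Z.FG → (∀ y ∈ Z, ∀ j, (fun r => π j (y r)) ∈ Z) → (∀ r, Pi.single r u0 ∈ Z) →
    ∀ θ, N.Theta c (fun x => (Module.finrank D
      ↥(Z.restrictScalars D ⊓ Submodule.pi Set.univ fun _ => LinearMap.range (π x)) : ℤ)) θ →
    (Fintype.card Q : ℤ) ≤ θ
  /-- the same with only some of the unit vectors (`t = ∅`: nonnegativity) -/
  sandwich' : ∀ (Q : Type) [Fintype Q] [DecidableEq Q] (Z : Submodule (PS D (Var ι τ)) (Q → U)),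
    Z.FG → (∀ y ∈ Z, ∀ j, (fun r => π j (y r)) ∈ Z) → ∀ t : Finset Q, (∀ r ∈ t, Pi.single r u0 ∈ Z) →
    ∀ θ, N.Theta c (fun x => (Module.finrank D
      ↥(Z.restrictScalars D ⊓ Submodule.pi Set.univ fun _ => LinearMap.range (π x)) : ℤ)) θ →
    (t.card : ℤ) ≤ θ

end Blocks

/-! ## Equations that are linear in generic parameters -/

/-- the field of the parameters -/
abbrev KB (B : Type) := FractionRing (MvPolynomial B ℂ)

/-- the generic parameters -/
noncomputable def bb {B : Type} (β : B) : KB B := algebraMap (MvPolynomial B ℂ) (KB B) (X β)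

/-- `∑ b_β m_β` -/
noncomputable def lin {B σ : Type} [Fintype B] (m : B → MvPolynomial σ ℂ) : MvPolynomial σ (KB B) :=
  ∑ β, C (bb β) * map (algebraMap ℂ (KB B)) (m β)

/-- for generic parameters the equations of the non-zero blocks are independent functionals of the
parameters at every solution -/
def Good {ι τ B : Type} [Fintype τ] [Fintype B] (ob : τ → ι)
    (m : τ → B → MvPolynomial (Var ι τ) ℂ) : Prop :=
  ∀ (Ω : Type) [Field Ω] [IsAlgClosed Ω] [Algebra ℂ Ω] (b : B → Ω), AlgebraicIndependent ℂ b →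
    ∀ (z : Var ι τ → Ω) (μ : τ → Ω), (∀ t, ∑ β, b β * aeval z (m t β) = 0) →
      (∀ β, ∑ t, μ t * aeval z (m t β) = 0) →
      ∀ t, (∃ v, blkOf ob v = ob t ∧ z v ≠ 0) → μ t = 0

/-! ## The net -/

/-- outputs: a step `c` has one output for every level `l ≤ lv c`, `l < n` -/
abbrev Out {ι : Type} (n : ℕ) (lv : ι → ℕ) := {p : ι × Fin n // p.2.val ≤ lv p.1}

/-- Steps with `lv c = n` are leaves.  A step with `lv c < n` has as inputs outputs of level `lv c`
of earlier steps (or nothing); every output except the root of its level is consumed exactly once. -/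
structure Net (n : ℕ) (ι : Type) where
  /-- level of a step -/
  lv : ι → ℕ
  lv_le : ∀ c, lv c ≤ n
  /-- topological rank -/
  rk : ι → ℕ
  /-- the output plugged into an input -/
  src : ι × Fin 2 → Option (Out n lv)
  src_lv : ∀ p t, src p = some t → t.1.2.val = lv p.1
  src_rk : ∀ p t, src p = some t → rk t.1.1 < rk p.1
  src_inj : ∀ p p' t, src p = some t → src p' = some t → p = p'
  /-- the step producing `y j` -/
  root : Fin n → ι
  root_lv : ∀ j, j.val ≤ lv (root j)
  root_not : ∀ p j, src p ≠ some ⟨(root j, j), root_lv j⟩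
  cons : ∀ t : Out n lv, t.1.1 ≠ root t.1.2 → ∃ p, src p = some t

/-- the output `y j` -/
def Net.ro {n : ℕ} {ι : Type} (N : Net n ι) (j : Fin n) : Out n N.lv := ⟨(N.root j, j), N.root_lv j⟩

/-- name of the wire plugged into an input -/
def Net.pn {n : ℕ} {ι : Type} (N : Net n ι) (p : ι × Fin 2) : Var ι (Out n N.lv) :=
  (N.src p).elim (Sum.inl p) Sum.inr

/-- the linear forms plugged into the leaves and the admissible binary forms -/
structure Leaf {n : ℕ} {ι : Type} [Fintype ι] (N : Net n ι) (a : Fin n → ℕ)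
    (f : Fin n → MvPolynomial (Fin n) ℂ) (κ : Type) where
  /-- linear forms plugged into the leaves -/
  lf : ι × Fin 2 → MvPolynomial (Fin n) ℂ
  lf_hom : ∀ p, (lf p).IsHomogeneous 1
  lf_zero : ∀ p, N.lv p.1 < n → lf p = 0
  /-- a set of linear forms whose powers span -/
  F0 : Set (MvPolynomial (Fin n) ℂ)
  pairs : ∀ l ∈ F0, ∀ l' ∈ F0, ∃ c, N.lv c = n ∧ lf (c, 0) = l ∧ lf (c, 1) = l'
  pow_span : ∀ i, homogeneousSubmodule (Fin n) ℂ (a i) ≤
    Submodule.span ℂ ((fun l => l ^ a i) '' F0)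
  /-- spanning family of the admissible tuples of binary forms of degree `a i` -/
  g : Fin n → κ → ι → MvPolynomial (Fin 2) ℂ
  g_hom : ∀ i k c, (g i k c).IsHomogeneous (a i)
  g_mem : ∀ i k, ∑ c with N.lv c = n, aeval (fun b => lf (c, b)) (g i k c) ∈
    Ideal.span (Set.range f)
  g_span : ∀ i (F : ι → MvPolynomial (Fin 2) ℂ), (∀ c, (F c).IsHomogeneous (a i)) →
    ∑ c with N.lv c = n, aeval (fun b => lf (c, b)) (F c) ∈ Ideal.span (Set.range f) →
    F ∈ Submodule.span ℂ (Set.range (g i))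

/-- parameters: one for every wire and level, and the leaf parameters -/
abbrev Par {n : ℕ} {ι : Type} (N : Net n ι) (κ : Type) :=
  (Var ι (Out n N.lv) × Fin n) ⊕ (Fin n × κ)

namespace Leaf

variable {n : ℕ} {ι : Type} [Fintype ι] [DecidableEq ι] {N : Net n ι} {a : Fin n → ℕ}
  {f : Fin n → MvPolynomial (Fin n) ℂ} {κ : Type} [Fintype κ] (L : Leaf N a f κ)

/-- coefficient of the parameter `β` in the equation of the output `t = (c, i)`:
`∑_{l ≥ i} τ(c,l;i) out(c,l)^(a i) - ∑_b τ(pn (c,b);i) in(c,b)^(a i)` for an inner step,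
`∑_{l ≥ i} τ(c,l;i) out(c,l)^(a i) - ∑_k b(i,k) g_{i,k,c}(in(c,0), in(c,1))` for a leaf. -/
noncomputable def m (t : Out n N.lv) : Par N κ → MvPolynomial (Var ι (Out n N.lv)) ℂ
  | Sum.inl (w, i) => if i = t.1.2 then
      (∑ t' : Out n N.lv with t'.1.1 = t.1.1 ∧ t.1.2 ≤ t'.1.2 ∧ Sum.inr t' = w,
          X (Sum.inr t') ^ a t.1.2) -
        ∑ b : Fin 2 with N.lv t.1.1 < n ∧ N.pn (t.1.1, b) = w, X (Sum.inl (t.1.1, b)) ^ a t.1.2
      else 0
  | Sum.inr (i, k) => if i = t.1.2 ∧ N.lv t.1.1 = n then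
      - rename (fun b => Sum.inl (t.1.1, b)) (L.g i k t.1.1) else 0

/-- the elements of `(f)` belonging to the leaf parameters -/
noncomputable def G (i : Fin n) (k : κ) : MvPolynomial (Fin n) ℂ :=
  ∑ c with N.lv c = n, aeval (fun b => L.lf (c, b)) (L.g i k c)

/-- the generic element of `(f)` of degree `a i` -/
noncomputable def F (i : Fin n) : MvPolynomial (Fin n) (KB (Par N κ)) :=
  ∑ k, C (bb (Sum.inr (i, k))) * map (algebraMap ℂ (KB (Par N κ))) (L.G i k)

end Leaf

end Crest.Agent.R181
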