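import Crest.Agent.R181.GNetB

/-! # The generic elements of `(f)` generate an ideal of finite colength (prefix `fin_`) -/

set_option autoImplicit false
set_option linter.unusedSectionVars false

namespace Crest.Agent.R181

open MvPolynomial

namespace Leaf

variable {n : ℕ} {ι : Type} [Fintype ι] [DecidableEq ι] {N : Net n ι} {a : Fin n → ℕ}
  {f : Fin n → MvPolynomial (Fin n) ℂ} {κ : Type} [Fintype κ] (L : Leaf N a f κ)

/-- `f i` is a combination of powers of forms of `F0`, each power is `s^(a i)` evaluated at a leaf;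
apply `g_span` -/
theorem f_mem_span (hf : ∀ i, (f i).IsHomogeneous (a i)) (i : Fin n) :
    f i ∈ Submodule.span ℂ (Set.range (L.G i)) := by
  let Φ : (ι → MvPolynomial (Fin 2) ℂ) →ₗ[ℂ] MvPolynomial (Fin n) ℂ :=
    ∑ c with N.lv c = n, (aeval fun b => L.lf (c, b)).toLinearMap ∘ₗ LinearMap.proj c
  have hΦ : ∀ F, Φ F = ∑ c with N.lv c = n, aeval (fun b => L.lf (c, b)) (F c) := fun F => by simp [Φ]
  have h1 : Submodule.span ℂ ((fun l => l ^ a i) '' L.F0) ≤
      (Submodule.pi Set.univ fun _ => homogeneousSubmodule (Fin 2) ℂ (a i)).map Φ := by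
    rw [Submodule.span_le]
    rintro _ ⟨l, hl, rfl⟩
    obtain ⟨c, hc, h0, -⟩ := L.pairs l hl l hl
    refine ⟨Pi.single c (X 0 ^ a i), fun c' _ => ?_, ?_⟩
    · rw [Pi.single_apply]
      split_ifs
      · exact isHomogeneous_X_pow _ _
      · exact zero_mem _
    · rw [hΦ, Finset.sum_eq_single c (fun c' _ h => by simp [Pi.single_eq_of_ne h]) (by simp [hc])]
      simp [h0]
  obtain ⟨F, hF, e⟩ := h1 (L.pow_span i (hf i))
  have h2 := Submodule.mem_map_of_mem (f := Φ) (L.g_span i F (fun c => hF c trivial)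
    (by rw [← hΦ, e]; exact Ideal.subset_span ⟨i, rfl⟩))
  rw [Submodule.map_span, ← Set.range_comp, e] at h2
  convert h2 using 3
  funext k
  exact (hΦ _).symm

theorem fin_F_hom (i : Fin n) : (L.F i).IsHomogeneous (a i) :=
  IsHomogeneous.sum _ _ _ fun k _ => (IsHomogeneous.map (IsHomogeneous.sum _ _ _ fun c _ => by
    simpa using (L.g_hom i k c).aeval (fun b => L.lf (c, b)) fun b => L.lf_hom (c, b)) _).C_mul _

theorem fin_hc_mem {g : MvPolynomial (Fin n) (KB (Par N κ))} (hg : g ∈ Ideal.span (Set.range L.F)) (e : ℕ) :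
    homogeneousComponent e g ∈ Ideal.span (Set.range L.F) := by
  let := MvPolynomial.gradedAlgebra (σ := Fin n) (R := KB (Par N κ))
  have := Ideal.homogeneous_span (homogeneousSubmodule (Fin n) (KB (Par N κ))) (Set.range L.F)
    (by rintro _ ⟨i, rfl⟩; exact ⟨a i, L.fin_F_hom i⟩) e hg
  rwa [← decomposition.decompose'_apply]

/-- Specialisation.  Write `x^m = ∑ g_{m,i} f_i` with `g_{m,i}` homogeneous, `P_m = ∑ g_{m,i} F_i` over
`ℂ[B]`; the matrix `coeff m' P_m` (monomials of degree `e`) becomes the identity at the point `b⁰` with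
`F_i(b⁰) = f_i`, so its determinant is non-zero and it is invertible over `K`. -/
theorem monomial_mem_F (hf : ∀ i, (f i).IsHomogeneous (a i))
    (hN : ∃ e : ℕ, ∀ m : Fin n →₀ ℕ, e ≤ m.degree →
      monomial m (1 : ℂ) ∈ Ideal.span (Set.range f)) :
    ∃ e : ℕ, ∀ m : Fin n →₀ ℕ, m.degree = e →
      monomial m (1 : KB (Par N κ)) ∈ Ideal.span (Set.range L.F) := by
  classical
  obtain ⟨e, he⟩ := hN
  refine ⟨e, fun m hm => ?_⟩
  have := (Finsupp.finite_of_degree_eq e : {m : Fin n →₀ ℕ | m.degree = e}.Finite).fintype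
  choose c hc using fun i => (Submodule.mem_span_range_iff_exists_fun ℂ).1 (L.f_mem_span hf i)
  choose g hg using fun m : {m : Fin n →₀ ℕ | m.degree = e} =>
    Ideal.mem_span_range_iff_exists_fun.1 (he m m.2.ge)
  let Q : {m : Fin n →₀ ℕ | m.degree = e} → MvPolynomial (Fin n) (MvPolynomial (Par N κ) ℂ) := fun m =>
    ∑ i, map C (g m i) * ∑ k, C (X (Sum.inr (i, k))) * map C (L.G i k)
  let M : Matrix {m : Fin n →₀ ℕ | m.degree = e} {m : Fin n →₀ ℕ | m.degree = e} (MvPolynomial (Par N κ) ℂ) :=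
    Matrix.of fun m m' => coeff m'.1 (Q m)
  let ev : MvPolynomial (Par N κ) ℂ →+* ℂ := eval (Sum.elim 0 fun p => c p.1 p.2)
  have h1 : ∀ m, map ev (Q m) = monomial m.1 1 := fun m => by
    have : ev.comp C = RingHom.id ℂ := by ext; simp [ev]
    simp only [Q, map_sum, map_mul, map_map, this, map_id, map_C, ← hg m, ← hc, smul_eq_C_mul]
    simp [ev]
  have h2 : ev.mapMatrix M = 1 := by
    ext m m'
    simp [M, ← coeff_map, h1, Matrix.one_apply, coeff_monomial, Subtype.ext_iff]
  have h3 : M.det ≠ 0 := fun h => by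
    have := ev.map_det M
    simp [h, h2] at this
  set φ := algebraMap (MvPolynomial (Par N κ) ℂ) (KB (Par N κ)) with hφ
  have h4 : IsUnit (φ.mapMatrix M).det := by
    rw [← RingHom.map_det]
    exact ((map_ne_zero_iff _ (IsFractionRing.injective _ _)).2 h3).isUnit
  have h5 : ∀ m, map φ (Q m) ∈ Ideal.span (Set.range L.F) := fun m => by
    simp only [Q, map_sum, map_mul, map_map, map_C]
    exact Ideal.sum_mem _ fun i _ => Ideal.mul_mem_left _ _ (Ideal.subset_span ⟨i, rfl⟩)
  have h6 : ∀ m, homogeneousComponent e (map φ (Q m)) = ∑ m', monomial m'.1 (φ.mapMatrix M m m') := fun m => by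
    ext d
    rw [coeff_homogeneousComponent, coeff_sum]
    split_ifs with hd
    · rw [Finset.sum_eq_single ⟨d, hd⟩ (fun m' _ h => by
        rw [coeff_monomial, if_neg fun h' => h (Subtype.ext h')]) (by simp)]
      simp [M, coeff_map]
    · exact (Finset.sum_eq_zero fun m' _ => by rw [coeff_monomial, if_neg fun h' : m'.1 = d => hd (h' ▸ m'.2)]).symm
  have h7 : monomial m (1 : KB (Par N κ)) =
      ∑ m', C ((φ.mapMatrix M)⁻¹ ⟨m, hm⟩ m') * homogeneousComponent e (map φ (Q m')) := by
    simp only [h6, Finset.mul_sum, C_mul_monomial]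
    rw [Finset.sum_comm]
    simp only [← map_sum, ← Matrix.mul_apply, Matrix.nonsing_inv_mul _ h4]
    rw [Finset.sum_eq_single ⟨m, hm⟩ (fun m' _ h => by rw [Matrix.one_apply_ne' h, map_zero]) (by simp),
      Matrix.one_apply_eq]
  rw [h7]
  exact Ideal.sum_mem _ fun m' _ => Ideal.mul_mem_left _ _ (L.fin_hc_mem (h5 m') e)

end Leaf

end Crest.Agent.R181
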