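import Crest.Agent.R181.CRel
import Crest.Agent.R181.COut
import Crest.Agent.R181.CGlue

/-! # Genericity of the net (sub-lead helper87; auxiliary files `R181/C*.lean`) -/

set_option autoImplicit false

namespace Crest.Agent.R181

open MvPolynomial

namespace Leaf

variable {n : ℕ} {ι : Type} [Fintype ι] [DecidableEq ι] {N : Net n ι} {a : Fin n → ℕ}
  {f : Fin n → MvPolynomial (Fin n) ℂ} {κ : Type} [Fintype κ] (L : Leaf N a f κ)

theorem good (ha : Monotone a) (ha1 : ∀ i, 1 ≤ a i) (hf : ∀ i, (f i).IsHomogeneous (a i))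
    (hN : ∃ e : ℕ, ∀ m : Fin n →₀ ℕ, e ≤ m.degree →
      monomial m (1 : ℂ) ∈ Ideal.span (Set.range f)) :
    Good (fun t : Out n N.lv => t.1.1) L.m := by
  intro Ω _ _ _ b hb z μ hE hR t ht
  have hb0 : ∀ β, b β ≠ 0 := fun β h => hb.transcendental β (h ▸ isAlgebraic_zero)
  have hR' := L.cf_of_dep t.1.2 μ z hR
  obtain ⟨lam, h0, hl⟩ := L.clam_exists t.1.2 _ (fun p => z (Sum.inl p)) fun k =>
    neg_eq_zero.1 ((L.cf_leaf t.1.2 _ z k).symm.trans (hR' _))
  rcases L.clam_pure ha1 hl with h | ⟨γ, v, hγ, hv, h⟩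
  · rcases L.cout_inactive ha1 hb0 hE hR' h t.1.1 t.2 with h1 | h1
    · simpa only [dif_pos t.2] using h1
    · obtain ⟨w, hw, hz⟩ := ht
      exact absurd (h1 w hw) hz
  · obtain ⟨j0, γ', v', hj, hγ', h', h1, h2⟩ := cint_norm ha ha1 hf hN h0 hγ hv h
    obtain ⟨z', hE', hG⟩ := L.cglue_exists ha1 hE hR' hl hγ' h'
    exact (acl_count plev hb _ _ j0 h2 fun j hj' =>
      L.crel_exists ha ha1 hf hb0 hE' hG hj.le (h1 ▸ one_ne_zero) hj').elim

end Leaf

end Crest.Agent.R181
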