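import Crest.Agent.R181.GBox
import Crest.Agent.R181.GNoeth
import Crest.Agent.R181.BX3

/-! # Part (B): integrality is inherited (sub-lead helper83; auxiliary files `R181/B*.lean`) -/

set_option autoImplicit false

namespace Crest.Agent.R181

open MvPolynomial

namespace Blocks

variable {K : Type} [Field K] {ι τ : Type} [Fintype ι] [DecidableEq ι] [Fintype τ] [DecidableEq τ]
  (N : Blocks K ι τ) (D : Type) [DivisionRing D] [Algebra K D]

variable {N D} {c : ι} {D' : Type} [DivisionRing D'] [Algebra K D'] {U : Type} [AddCommGroup U]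
  [Module D U] [Module (PS D (Var ι τ)) U] [IsScalarTower D (PS D (Var ι τ)) U]
  [Module D'ᵐᵒᵖ U] [SMulCommClass (PS D (Var ι τ)) D'ᵐᵒᵖ U]

theorem Univ.int (H : N.Univ D c D' U) (s : Finset ι) (hc : c ∉ s) (hint : N.INT D (insert c s)) :
    N.INT D' s :=
  BX.int H s hc hint

end Blocks

end Crest.Agent.R181
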