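import Crest.Agent.R181.GDefs

/-! # Substituting commuting elements (prefix `subst_`) -/

set_option autoImplicit false

namespace Crest.Agent.R181

open MvPolynomial

/-- evaluation of a polynomial at pairwise commuting elements
(through the commutative subalgebra `Algebra.adjoin K (range w)`) -/
theorem exists_aeval_comm {K : Type*} [CommSemiring K] {R : Type*} [Semiring R] [Algebra K R]
    {σ : Type*} (w : σ → R) (hw : ∀ v v', Commute (w v) (w v')) :
    ∃ χ : MvPolynomial σ K →ₐ[K] R, ∀ v, χ (X v) = w v := by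
  have hc : IsMulCommutative (Algebra.adjoin K (Set.range w)) :=
    Algebra.isMulCommutative_adjoin K (by rintro _ ⟨a, rfl⟩ _ ⟨b, rfl⟩; exact hw a b)
  let : CommSemiring (Algebra.adjoin K (Set.range w)) :=
    { (inferInstance : Semiring (Algebra.adjoin K (Set.range w))) with mul_comm := hc.is_comm.comm }
  refine ⟨(Algebra.adjoin K (Set.range w)).val.comp
    (aeval fun v => (⟨w v, Algebra.subset_adjoin ⟨v, rfl⟩⟩ : Algebra.adjoin K (Set.range w))), fun v => ?_⟩
  rw [AlgHom.comp_apply, aeval_X]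
  rfl

/-- the monoid homomorphism `u ↦ p`, `u' ↦ q` -/
def subst_mon {R : Type*} [Monoid R] {p q : R} (hpq : Commute p q) : Multiplicative (Mon 2) →* R where
  toFun m := p ^ (m.toAdd 0) * q ^ (m.toAdd 1)
  map_one' := by simp
  map_mul' a b := by
    simp only [toAdd_mul, Finsupp.add_apply, pow_add]
    exact (hpq.pow_pow _ _).mul_mul_mul_comm _ _

/-- Let `S` be the subalgebra of the `d : D'` whose constant `single 0 d` commutes with `p` and `q`.
`ψ` factors through `S[u,u'] ↪ D'[u,u']`, and `S[u,u'] → D'[x]`, `u ↦ p`, `u' ↦ q` is a ring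
homomorphism (`AddMonoidAlgebra.liftNCRingHom`). -/
theorem exists_subst {K : Type*} [Field K] {D' : Type*} [DivisionRing D'] [Algebra K D']
    {σ : Type*} (α β : σ → D') (ψ : MvPolynomial σ K →ₐ[K] PD D' 2)
    (hψ : ∀ v, ψ (X v) = AddMonoidAlgebra.single (Finsupp.single 0 1) (α v) +
      AddMonoidAlgebra.single (Finsupp.single 1 1) (β v))
    {n : ℕ} (p q : PD D' n) (hpq : Commute p q)
    (hα : ∀ v, Commute (AddMonoidAlgebra.single 0 (α v)) p ∧
      Commute (AddMonoidAlgebra.single 0 (α v)) q)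
    (hβ : ∀ v, Commute (AddMonoidAlgebra.single 0 (β v)) p ∧
      Commute (AddMonoidAlgebra.single 0 (β v)) q) :
    ∃ χ : MvPolynomial σ K →ₐ[K] PD D' n, (∀ v, χ (X v) = α v • p + β v • q) ∧
      ∀ g, ψ g = 0 → χ g = 0 := by
  let c : D' →ₐ[K] PD D' n := AddMonoidAlgebra.singleZeroAlgHom
  have hc : ∀ d, c d = AddMonoidAlgebra.single 0 d := fun d => rfl
  let S : Subalgebra K D' := (Subalgebra.centralizer K ({p, q} : Set (PD D' n))).comap c
  have hS : ∀ d, d ∈ S ↔ Commute (c d) p ∧ Commute (c d) q := by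
    intro d
    simp only [S, Subalgebra.mem_comap, Subalgebra.mem_centralizer_iff, Set.mem_insert_iff,
      Set.mem_singleton_iff, forall_eq_or_imp, forall_eq]
    exact ⟨fun h => ⟨h.1.symm, h.2.symm⟩, fun h => ⟨h.1.symm, h.2.symm⟩⟩
  let φ : PD S 2 →ₐ[K] PD D' 2 := AddMonoidAlgebra.mapAlgHom (Mon 2) S.val
  have hφ : Function.Injective φ := by
    intro x y h
    ext m
    have := congrArg (fun z : PD D' 2 => z.coeff m) h
    simpa [φ] using this
  let y : σ → PD S 2 := fun v => AddMonoidAlgebra.single (Finsupp.single 0 1) ⟨α v, (hS _).2 (hα v)⟩ +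
    AddMonoidAlgebra.single (Finsupp.single 1 1) ⟨β v, (hS _).2 (hβ v)⟩
  have hy : ∀ v, φ (y v) = ψ (X v) := by
    intro v
    rw [hψ]
    simp [φ, y]
  have hr : ∀ g, ψ g ∈ φ.range := by
    intro g
    induction g using MvPolynomial.induction_on with
    | C k => rw [← algebraMap_eq, ψ.commutes]; exact algebraMap_mem _ _
    | add a b ha hb => rw [map_add]; exact add_mem ha hb
    | mul_X a v ha => rw [map_mul]; exact mul_mem ha ⟨y v, hy v⟩
  let e := AlgEquiv.ofInjective φ hφ
  let Λ : PD S 2 →ₐ[K] PD D' n := AddMonoidAlgebra.liftNCAlgHom (c.comp S.val) (subst_mon hpq) (by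
    intro d m
    exact (((hS _).1 d.2).1.pow_right _).mul_right (((hS _).1 d.2).2.pow_right _))
  refine ⟨Λ.comp ((e.symm : φ.range →ₐ[K] PD S 2).comp (ψ.codRestrict φ.range hr)), fun v => ?_, fun g hg => ?_⟩
  · have h1 : e.symm (ψ.codRestrict φ.range hr (X v)) = y v := by
      rw [AlgEquiv.symm_apply_eq]
      exact Subtype.ext (hy v).symm
    have h2 : ∀ (d : D') (x : PD D' n), c d * x = d • x := by
      intro d x
      ext m
      simp [hc, AddMonoidAlgebra.coeff_single_zero_mul]
    change Λ (e.symm (ψ.codRestrict φ.range hr (X v))) = _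
    rw [h1, ← h2, ← h2]
    simp [Λ, y, subst_mon]
  · have h1 : ψ.codRestrict φ.range hr g = 0 := Subtype.ext hg
    rw [AlgHom.comp_apply, AlgHom.comp_apply, h1, map_zero, map_zero]

end Crest.Agent.R181
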