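import Crest.Agent.R181.GDefs
import Crest.Agent.R181.GSubst

/-! # The parametrisation of the curve over the new skew field (prefix `psi_`) -/

set_option autoImplicit false
set_option linter.unusedSectionVars false

namespace Crest.Agent.R181

open MvPolynomial MulOpposite

theorem psi_central {D : Type} [Semiring D] {σ : Type} (v : σ) (p : PS D σ) : Commute (xs D v) p :=
  AddMonoidAlgebra.single_commute (fun m' => AddCommute.all _ m') (fun r' => Commute.one_left r') p

theorem psi_io_X {K D : Type} [Field K] [DivisionRing D] [Algebra K D] {σ : Type} (v : σ) :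
    io K D σ (X v) = xs D v := by
  change AddMonoidAlgebra.mapRingHom _ _ (AddMonoidAlgebra.single _ _) = _
  rw [AddMonoidAlgebra.mapRingHom_single, map_one]
  rfl

theorem psi_io_C {K D : Type} [Field K] [DivisionRing D] [Algebra K D] {σ : Type} (k : K) :
    io K D σ (C k) = algebraMap K D k • (1 : PS D σ) := by
  change AddMonoidAlgebra.mapRingHom _ _ (AddMonoidAlgebra.single _ _) = _
  rw [AddMonoidAlgebra.mapRingHom_single, AddMonoidAlgebra.one_def, AddMonoidAlgebra.smul_single',
    mul_one]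

/-- the exponent vector `(i, k)` -/
noncomputable def psiMon (i k : ℕ) : Mon 2 := Finsupp.single 0 i + Finsupp.single 1 k

theorem psiMon_zero (i k : ℕ) : psiMon i k 0 = i := by simp [psiMon]

theorem psiMon_one (i k : ℕ) : psiMon i k 1 = k := by simp [psiMon]

theorem psiMon_eq (m : Mon 2) : psiMon (m 0) (m 1) = m := by
  ext b
  fin_cases b
  · exact psiMon_zero _ _
  · exact psiMon_one _ _

namespace Blocks

variable {K : Type} [Field K] {ι τ : Type} [Fintype ι] [DecidableEq ι] [Fintype τ] [DecidableEq τ]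
  (N : Blocks K ι τ) (D : Type) [DivisionRing D] [Algebra K D]

variable {N D} {c : ι} {D' : Type} [DivisionRing D'] [Algebra K D'] {U : Type} [AddCommGroup U]
  [Module D U] [Module (PS D (Var ι τ)) U] [IsScalarTower D (PS D (Var ι τ)) U]
  [Module D'ᵐᵒᵖ U] [SMulCommClass (PS D (Var ι τ)) D'ᵐᵒᵖ U]

theorem psi_d_smul (d : D) (y : U) : d • y = (d • (1 : PS D (Var ι τ))) • y := by
  rw [smul_assoc, one_smul]

theorem psi_d_op (d : D) (e : D'ᵐᵒᵖ) (y : U) (ι τ : Type) [Module (PS D (Var ι τ)) U]
    [IsScalarTower D (PS D (Var ι τ)) U] [SMulCommClass (PS D (Var ι τ)) D'ᵐᵒᵖ U] :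
    d • e • y = e • d • y := by
  have h : ∀ z : U, d • z = (d • (1 : PS D (Var ι τ))) • z := fun z => by rw [smul_assoc, one_smul]
  rw [h, smul_comm, ← h]

theorem psi_d_xs (d : D) (v : Var ι τ) (y : U) : d • xs D v • y = xs D v • d • y := by
  rw [psi_d_smul (ι := ι) (τ := τ) d, psi_d_smul (ι := ι) (τ := τ) d y, ← mul_smul, ← mul_smul,
    (psi_central v _).eq]

theorem Univ.psi_inj0 (H : N.Univ D c D' U) {e e' : D'} (h : op e • H.u0 = op e' • H.u0) : e = e' := by
  have := H.indep 0 (fun _ => e - e') (by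
    simp only [zero_add, Finset.range_one, Finset.sum_singleton, pow_zero, Nat.sub_self, mul_one, one_smul]
    rw [op_sub, sub_smul, h, sub_self]) 0 le_rfl
  exact sub_eq_zero.1 this

theorem Univ.psi_inj1 (H : N.Univ D c D' U) {a b a' b' : D'}
    (h : xs D (Sum.inl (c, 0) : Var ι τ) • op a • H.u0 + xs D (Sum.inl (c, 1) : Var ι τ) • op b • H.u0 =
      xs D (Sum.inl (c, 0) : Var ι τ) • op a' • H.u0 + xs D (Sum.inl (c, 1) : Var ι τ) • op b' • H.u0) :
    a = a' ∧ b = b' := by
  have := H.indep 1 (fun i => if i = 0 then b - b' else a - a') (by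
    simp only [Finset.sum_range_succ, Finset.range_zero, Finset.sum_empty, zero_add, pow_zero, Nat.sub_zero,
      pow_one, one_mul, if_true, Nat.sub_self, mul_one, one_ne_zero, if_false, op_sub, sub_smul, smul_sub]
    rw [← sub_eq_zero] at h
    rw [← h]
    abel)
  have h0 := this 0 zero_le_one
  have h1 := this 1 le_rfl
  simp only [if_true, one_ne_zero, if_false] at h0 h1
  exact ⟨sub_eq_zero.1 h1, sub_eq_zero.1 h0⟩

theorem Univ.psi_phi (H : N.Univ D c D' U) : ∃ φ : D →ₐ[K] D', ∀ d, d • H.u0 = op (φ d) • H.u0 := by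
  have h : ∀ d : D, ∃ e : D', d • H.u0 = op e • H.u0 := fun d =>
    H.zero_surj _ (by rw [map_smul, H.π_u0])
  choose f hf using h
  refine ⟨{ toFun := f, map_one' := ?_, map_mul' := ?_, map_zero' := ?_, map_add' := ?_, commutes' := ?_ }, hf⟩
  · exact H.psi_inj0 (by rw [← hf, one_smul, op_one, one_smul])
  · intro d d'
    refine H.psi_inj0 ?_
    rw [← hf, mul_smul, hf d', psi_d_op d _ _ ι τ, hf d, op_mul, mul_smul]
  · exact H.psi_inj0 (by rw [← hf, zero_smul, op_zero, zero_smul])
  · intro d d'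
    exact H.psi_inj0 (by rw [← hf, add_smul, op_add, add_smul, hf, hf])
  · intro k
    exact H.psi_inj0 (by rw [← hf, H.K_op])

theorem Univ.psi_ab (H : N.Univ D c D' U) (v : Var ι τ) : ∃ a b : D', xs D v • H.u0 =
    xs D (Sum.inl (c, 0) : Var ι τ) • op a • H.u0 + xs D (Sum.inl (c, 1) : Var ι τ) • op b • H.u0 := by
  by_cases hv : N.blk v = c
  · refine H.one_surj _ ?_
    have := H.π_xs v hv 0 H.u0
    rwa [zero_add, H.π_u0] at this
  · exact ⟨0, 0, by simp [H.xs_zero v hv]⟩

/-- the monomial `u^i u'^k` -/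
noncomputable def psiM (D : Type) [DivisionRing D] (τ : Type) (c : ι) (m : Mon 2) : PS D (Var ι τ) :=
  xs D (Sum.inl (c, 0) : Var ι τ) ^ m 0 * xs D (Sum.inl (c, 1) : Var ι τ) ^ m 1

theorem psiM_zero (m : Mon 2) : psiM D τ c (Finsupp.single 0 1 + m) =
    psiM D τ c m * xs D (Sum.inl (c, 0) : Var ι τ) := by
  simp only [psiM, Finsupp.add_apply, Finsupp.single_eq_same, ne_eq, one_ne_zero, not_false_eq_true,
    Finsupp.single_eq_of_ne, zero_add]
  rw [← (psi_central _ _).eq, ← mul_assoc, ← pow_succ', add_comm]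

theorem psiM_one (m : Mon 2) : psiM D τ c (Finsupp.single 1 1 + m) =
    psiM D τ c m * xs D (Sum.inl (c, 1) : Var ι τ) := by
  simp only [psiM, Finsupp.add_apply, Finsupp.single_eq_same, ne_eq, zero_ne_one, not_false_eq_true,
    Finsupp.single_eq_of_ne, zero_add]
  rw [mul_assoc, ← pow_succ, add_comm]

/-- `D'[u,u'] → U` -/
noncomputable def Univ.psiT (H : N.Univ D c D' U) : PD D' 2 →+ U :=
  (Finsupp.liftAddHom fun m : Mon 2 =>
    { toFun := fun d : D' => psiM D τ c m • op d • H.u0
      map_zero' := by simp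
      map_add' := fun d d' => by rw [op_add, add_smul, smul_add] }).comp
    AddMonoidAlgebra.coeffAddEquiv.toAddMonoidHom

theorem Univ.psiT_single (H : N.Univ D c D' U) (m : Mon 2) (d : D') :
    H.psiT (AddMonoidAlgebra.single m d) = psiM D τ c m • op d • H.u0 := by
  change Finsupp.liftAddHom _ (Finsupp.single m d) = _
  rw [Finsupp.liftAddHom_apply_single]
  rfl

theorem Univ.psi_pow (H : N.Univ D c D' U) (v : Var ι τ) (hv : N.blk v = c) (i : ℕ) (j : ℤ) (y : U)
    (hy : H.π j y = y) : H.π (j + i) (xs D v ^ i • y) = xs D v ^ i • y := by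
  induction i with
  | zero => simpa using hy
  | succ i ih =>
    rw [pow_succ', mul_smul, Nat.cast_succ, ← add_assoc, H.π_xs v hv, ih]

theorem Univ.psi_pi (H : N.Univ D c D' U) (m : Mon 2) (d : D') (j : ℕ) :
    H.π j (psiM D τ c m • op d • H.u0) = if m 0 + m 1 = j then psiM D τ c m • op d • H.u0 else 0 := by
  have h0 : H.π 0 (op d • H.u0) = op d • H.u0 := by rw [H.π_op, H.π_u0]
  have h1 := H.psi_pow (Sum.inl (c, 1)) rfl (m 1) 0 _ h0
  have h2 := H.psi_pow (Sum.inl (c, 0)) rfl (m 0) _ _ h1
  rw [← mul_smul] at h2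
  change H.π _ (psiM D τ c m • op d • H.u0) = psiM D τ c m • op d • H.u0 at h2
  conv_lhs => rw [← h2]
  rw [H.π_π, h2]
  refine if_congr ?_ rfl rfl
  omega

theorem Univ.psi_pi_T (H : N.Univ D c D' U) (j : ℕ) (r : PD D' 2) :
    H.π j (H.psiT r) = ∑ i ∈ Finset.range (j + 1), (xs D (Sum.inl (c, 0) : Var ι τ) ^ i *
      xs D (Sum.inl (c, 1) : Var ι τ) ^ (j - i)) • op (r.coeff (psiMon i (j - i))) • H.u0 := by
  induction r using AddMonoidAlgebra.induction_linear with
  | zero => simp
  | add r r' h h' =>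
    rw [map_add, map_add, h, h', ← Finset.sum_add_distrib]
    refine Finset.sum_congr rfl fun i _ => ?_
    rw [AddMonoidAlgebra.coeff_add, Finsupp.add_apply, op_add, add_smul, smul_add]
  | single m d =>
    rw [H.psiT_single, H.psi_pi, AddMonoidAlgebra.coeff_single]
    split_ifs with hm
    · rw [Finset.sum_eq_single (m 0)]
      · have e : j - m 0 = m 1 := by omega
        rw [e, psiMon_eq, Finsupp.single_eq_same]
        rfl
      · intro i _ hi
        rw [Finsupp.single_eq_of_ne, op_zero, zero_smul, smul_zero]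
        intro e
        apply hi
        rw [← e, psiMon_zero]
      · intro h
        exact absurd (Finset.mem_range.2 (by omega)) h
    · refine (Finset.sum_eq_zero fun i hi => ?_).symm
      rw [Finsupp.single_eq_of_ne, op_zero, zero_smul, smul_zero]
      intro e
      apply hm
      have := Finset.mem_range.1 hi
      rw [← e, psiMon_zero, psiMon_one]
      omega

theorem Univ.psiT_inj (H : N.Univ D c D' U) : Function.Injective H.psiT := by
  rw [injective_iff_map_eq_zero]
  intro r hr
  ext m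
  have h := H.psi_pi_T (m 0 + m 1) r
  rw [hr, map_zero] at h
  have := H.indep (m 0 + m 1) (fun i => r.coeff (psiMon i (m 0 + m 1 - i))) h.symm (m 0) (by omega)
  simp only [add_tsub_cancel_left, psiMon_eq] at this
  simpa using this

theorem Univ.psiT_xs (H : N.Univ D c D' U) {v : Var ι τ} {a b : D'} (h : xs D v • H.u0 =
    xs D (Sum.inl (c, 0) : Var ι τ) • op a • H.u0 + xs D (Sum.inl (c, 1) : Var ι τ) • op b • H.u0)
    (r : PD D' 2) : xs D v • H.psiT r = H.psiT ((AddMonoidAlgebra.single (Finsupp.single 0 1) a +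
      AddMonoidAlgebra.single (Finsupp.single 1 1) b) * r) := by
  induction r using AddMonoidAlgebra.induction_linear with
  | zero => simp
  | add r r' h h' => rw [map_add, smul_add, h, h', mul_add, map_add]
  | single m d =>
    rw [add_mul, map_add, AddMonoidAlgebra.single_mul_single, AddMonoidAlgebra.single_mul_single,
      H.psiT_single, H.psiT_single, H.psiT_single, psiM_zero, psiM_one, ← mul_smul, (psi_central v _).eq,
      mul_smul, smul_comm (xs D v), h, mul_smul, mul_smul, smul_add, smul_add, op_mul, op_mul, mul_smul,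
      mul_smul, smul_comm (xs D (Sum.inl (c, 0) : Var ι τ)) (op d),
      smul_comm (xs D (Sum.inl (c, 1) : Var ι τ)) (op d)]

theorem Univ.psiT_K (H : N.Univ D c D' U) (k : K) (r : PD D' 2) :
    algebraMap K D k • H.psiT r = H.psiT (algebraMap K (PD D' 2) k * r) := by
  induction r using AddMonoidAlgebra.induction_linear with
  | zero => simp
  | add r r' h h' => rw [map_add, smul_add, h, h', mul_add, map_add]
  | single m d =>
    rw [← Algebra.smul_def, AddMonoidAlgebra.smul_single, H.psiT_single, H.psiT_single, H.K_op,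
      ← smul_comm (psiM D τ c m), ← mul_smul (op _), ← op_mul, Algebra.smul_def, Algebra.commutes]

/-- `φ d` is defined by `d • u0 = op (φ d) • u0`, `α v, β v` by `x_v • u0 = u • op (α v) • u0 + u' • op (β v) • u0`
(`0` outside the block).  The additive map `Θ : D'[u,u'] → U`, `single m d ↦ (u^(m 0) u'^(m 1)) • op d • u0` is
injective (`indep` degree by degree, via `π`) and `x_v • Θ r = Θ (l v * r)` for `l v = α v u + β v u'`; hence the
`l v` commute, `ψ` exists (evaluate in the commutative subalgebra generated by them),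
`io g • Θ r = Θ (ψ g * r)` and `ψ (E t) = 0`. -/
theorem Univ.exists_psi (H : N.Univ D c D' U) :
    ∃ (φ : D →ₐ[K] D') (α β : Var ι τ → D') (ψ : MvPolynomial (Var ι τ) K →ₐ[K] PD D' 2),
      (∀ v d, Commute (α v) (φ d) ∧ Commute (β v) (φ d)) ∧
      (∀ v, ψ (X v) = AddMonoidAlgebra.single (Finsupp.single 0 1) (α v) +
        AddMonoidAlgebra.single (Finsupp.single 1 1) (β v)) ∧
      α (Sum.inl (c, 0)) = 1 ∧ β (Sum.inl (c, 0)) = 0 ∧
      α (Sum.inl (c, 1)) = 0 ∧ β (Sum.inl (c, 1)) = 1 ∧
      ∀ t, N.ob t = c → ψ (N.E t) = 0 := by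
  obtain ⟨φ, hφ⟩ := H.psi_phi
  choose α β hab using H.psi_ab
  set l : Var ι τ → PD D' 2 := fun v => AddMonoidAlgebra.single (Finsupp.single 0 1) (α v) +
    AddMonoidAlgebra.single (Finsupp.single 1 1) (β v) with hl
  have hT : ∀ v r, xs D v • H.psiT r = H.psiT (l v * r) := fun v r => H.psiT_xs (hab v) r
  have hcomm : ∀ v w, Commute (l v) (l w) := fun v w => by
    refine H.psiT_inj ?_
    have e : ∀ v w, H.psiT (l v * l w) = (xs D v * xs D w) • H.psiT 1 := fun v w => by
      rw [mul_smul, hT, hT, mul_one]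
    rw [e, e, (psi_central v _).eq]
  obtain ⟨ψ, hψ⟩ := exists_aeval_comm (K := K) l hcomm
  have hg : ∀ (g : MvPolynomial (Var ι τ) K) r, io K D _ g • H.psiT r = H.psiT (ψ g * r) := fun g => by
    induction g using MvPolynomial.induction_on with
    | C k =>
      intro r
      rw [psi_io_C, ← psi_d_smul, H.psiT_K, ← MvPolynomial.algebraMap_eq, AlgHom.commutes]
    | add g g' h h' =>
      intro r
      rw [map_add, add_smul, h, h', map_add, add_mul, map_add]
    | mul_X g v h =>
      intro r
      rw [map_mul, mul_smul, psi_io_X, hT, h, map_mul ψ, hψ, mul_assoc]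
  have h0 := H.psi_inj1 (a' := 1) (b' := 0) ((hab (Sum.inl (c, 0))).symm.trans (by simp))
  have h1 := H.psi_inj1 (a' := 0) (b' := 1) ((hab (Sum.inl (c, 1))).symm.trans (by simp))
  refine ⟨φ, α, β, ψ, fun v d => ?_, hψ, h0.1, h0.2, h1.1, h1.2, fun t ht => ?_⟩
  · refine H.psi_inj1 ?_
    have e1 : ∀ (w : Var ι τ) (a : D'), xs D w • op (a * φ d) • H.u0 =
        op (φ d) • xs D w • op a • H.u0 := fun w a => by
      rw [op_mul, mul_smul, smul_comm (xs D w) (op (φ d))]
    have e2 : ∀ (w : Var ι τ) (a : D'), xs D w • op (φ d * a) • H.u0 =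
        d • xs D w • op a • H.u0 := fun w a => by
      rw [op_mul, mul_smul, ← hφ, psi_d_xs, psi_d_op d _ _ ι τ]
    rw [e1, e1, e2, e2, ← smul_add, ← smul_add, ← hab, psi_d_xs, hφ, smul_comm (xs D v)]
  · refine H.psiT_inj ?_
    have := hg (N.E t) 1
    rw [H.E_zero t ht, mul_one] at this
    rw [← this, map_zero]

end Blocks

end Crest.Agent.R181
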