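import Crest.Agent.R181.GUniv
import Crest.Agent.R181.GInt
import Crest.Agent.R181.GPsi
import Crest.Agent.R181.GSubst

/-! # Iterating the skew field step along a net (prefix `iter_`) -/

set_option autoImplicit false

namespace Crest.Agent.R181

open MvPolynomial

theorem iter_agree {K σ R : Type*} [CommSemiring K] [Semiring R] [Algebra K R]
    (f g : MvPolynomial σ K →ₐ[K] R) {S : Set σ} (h : ∀ v ∈ S, f (X v) = g (X v)) {x : MvPolynomial σ K}
    (hx : x ∈ supported K S) : f x = g x :=
  (Algebra.adjoin_le (S := AlgHom.equalizer f g) (by rintro _ ⟨v, hv, rfl⟩; exact h v hv) : supported K S ≤ _) hx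

theorem iter_const {D D' M : Type*} [Semiring D] [Semiring D'] [AddCommMonoid M] (φ : D →+* D') {a : D'}
    (h : ∀ d, Commute a (φ d)) (x : AddMonoidAlgebra D M) :
    Commute (AddMonoidAlgebra.single 0 a) (AddMonoidAlgebra.mapRingHom M φ x) := by
  induction x using AddMonoidAlgebra.induction_linear with
  | zero => simp
  | add x y hx hy => rw [map_add]; exact hx.add_right hy
  | single m d =>
    rw [AddMonoidAlgebra.mapRingHom_single, Commute, SemiconjBy, AddMonoidAlgebra.single_mul_single,
      AddMonoidAlgebra.single_mul_single, (h d).eq, add_comm]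

theorem iter_smul {D M : Type*} [Semiring D] [AddMonoid M] (a : D) (x : AddMonoidAlgebra D M) :
    a • x = AddMonoidAlgebra.single 0 a * x := by
  induction x using AddMonoidAlgebra.induction_linear with
  | zero => simp
  | add x y hx hy => rw [smul_add, mul_add, hx, hy]
  | single m d => rw [AddMonoidAlgebra.smul_single, AddMonoidAlgebra.single_mul_single, zero_add, smul_eq_mul]

theorem iter_io {K D σ : Type*} [Field K] [DivisionRing D] [Algebra K D] (l : MvPolynomial σ K) (y : PS D σ) :
    Commute (io K D σ l) y := by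
  induction y using AddMonoidAlgebra.induction_linear with
  | zero => simp
  | add x y hx hy => exact hx.add_right hy
  | single m d =>
    induction l using AddMonoidAlgebra.induction_linear with
    | zero => simp
    | add x y hx hy => rw [map_add]; exact hx.add_left hy
    | single m' k =>
      rw [io, AddMonoidAlgebra.mapRingHom_single, Commute, SemiconjBy, AddMonoidAlgebra.single_mul_single,
        AddMonoidAlgebra.single_mul_single, Algebra.commutes, add_comm]

theorem iter_map_io {K D D' σ : Type*} [Field K] [DivisionRing D] [Algebra K D] [DivisionRing D'] [Algebra K D']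
    (φ : D →ₐ[K] D') (l : MvPolynomial σ K) : AddMonoidAlgebra.mapAlgHom _ φ (io K D σ l) = io K D' σ l := by
  ext m
  simp only [io, AddMonoidAlgebra.coeff_mapAlgHom, AddMonoidAlgebra.coeff_mapRingHom, AlgHom.commutes]

theorem iter_lin_map {D D' M : Type*} [Semiring D] [Semiring D'] [AddMonoid M] (φ : D →+* D') {S : Set M}
    {x : AddMonoidAlgebra D M} (hx : x ∈ AddMonoidAlgebra.supported D D S) :
    AddMonoidAlgebra.mapRingHom M φ x ∈ AddMonoidAlgebra.supported D' D' S := by
  rw [AddMonoidAlgebra.mem_supported'] at hx ⊢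
  intro m hm
  rw [AddMonoidAlgebra.coeff_mapRingHom, hx m hm, map_zero]

namespace Blocks

variable {K : Type} [Field K] {ι τ : Type} [Fintype ι] [DecidableEq ι] [Fintype τ] [DecidableEq τ]
  (N : Blocks K ι τ)

omit [Fintype ι] [DecidableEq ι] [Fintype τ] [DecidableEq τ] in
theorem iter_E (t : τ) : N.E t ∈ supported K {v | N.blk v = N.ob t} := by
  obtain ⟨c, g, -, e, hg⟩ := N.E_tri t
  rw [e]
  refine add_mem (mul_mem (Subalgebra.algebraMap_mem _ c) (pow_mem ?_ _)) (supported_mono (fun v hv => hv.1) hg)
  exact Algebra.subset_adjoin ⟨_, rfl, rfl⟩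

theorem iter_aux (hint : ∀ s, N.INT K s) (n : ℕ) (rk : ι → ℕ) (src : ι × Fin 2 → Option τ)
    (hsrc : ∀ p t, src p = some t → rk (N.ob t) < rk p.1)
    (l : ι × Fin 2 → MvPolynomial (Fin n) K) (hl : ∀ p, (l p).IsHomogeneous 1) (A : Finset ι) :
    ∃ (D : Type) (_ : DivisionRing D) (_ : Algebra K D)
      (Φ : MvPolynomial (Var ι τ) K →ₐ[K] PD D n), (∀ s, Disjoint s A → N.INT D s) ∧
      (∀ v, Φ (X v) ∈ supp D (deg n 1)) ∧ (∀ t, N.ob t ∈ A → Φ (N.E t) = 0) ∧
      ∀ p, p.1 ∈ A → Φ (X (Sum.inl p)) = (src p).elim (io K D _ (l p)) fun t => Φ (X (Sum.inr t)) := by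
  induction A using Finset.induction_on_max_value rk with
  | empty =>
    refine ⟨K, inferInstance, inferInstance, aeval 0, fun s _ => hint s, fun v => ?_, by simp, by simp⟩
    rw [aeval_X]
    exact zero_mem _
  | insert c A hc hmax ih =>
    obtain ⟨D, _, _, Φ, h1, h2, h3, h4⟩ := ih
    obtain ⟨D', _, _, U, _, _, _, _, _, _, ⟨H⟩⟩ := N.exists_univ D c (h1 {c} (by simpa using hc))
    obtain ⟨φ, α, β, ψ, g1, g2, a0, b0, a1, b1, g3⟩ := H.exists_psi
    let F : PD D n →ₐ[K] PD D' n := AddMonoidAlgebra.mapAlgHom _ φ
    let i : ι × Fin 2 → PD D n := fun p => (src p).elim (io K D _ (l p)) fun t => Φ (X (Sum.inr t))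
    have i1 : ∀ p v, Commute (i p) (Φ (X v)) := fun p v => by
      simp only [i]
      cases src p with
      | none => exact iter_io _ _
      | some t => exact (Commute.all _ _).map Φ
    have i2 : Commute (i (c, 0)) (i (c, 1)) := by
      simp only [i]
      cases src (c, 1) with
      | none => exact (iter_io _ _).symm
      | some t => exact i1 _ _
    have i3 : ∀ p, i p ∈ supp D (deg n 1) := fun p => by
      simp only [i]
      cases src p with
      | none =>
        refine iter_lin_map (algebraMap K D) (x := l p) fun m hm => ?_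
        exact (DFunLike.congr_fun Finsupp.degree_eq_weight_one m).trans (hl p (mem_support_iff.1 hm))
      | some t => exact h2 _
    have ca : ∀ v x, Commute (AddMonoidAlgebra.single 0 (α v)) (F x) := fun v =>
      iter_const φ.toRingHom fun d => (g1 v d).1
    have cb : ∀ v x, Commute (AddMonoidAlgebra.single 0 (β v)) (F x) := fun v =>
      iter_const φ.toRingHom fun d => (g1 v d).2
    obtain ⟨χ, k1, k2⟩ := exists_subst α β ψ g2 (F (i (c, 0))) (F (i (c, 1))) (i2.map F)
      (fun v => ⟨ca v _, ca v _⟩) fun v => ⟨cb v _, cb v _⟩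
    have cm : ∀ v v', Commute (χ (X v)) (F (Φ (X v'))) := fun v v' => by
      rw [k1, iter_smul, iter_smul]
      exact ((ca v _).mul_left ((i1 _ _).map F)).add_left ((cb v _).mul_left ((i1 _ _).map F))
    obtain ⟨Φ', e⟩ := exists_aeval_comm (K := K)
      (fun v => if N.blk v = c then χ (X v) else F (Φ (X v))) fun v v' => by
        split_ifs
        · exact (Commute.all _ _).map χ
        · exact cm _ _
        · exact (cm _ _).symm
        · exact ((Commute.all _ _).map Φ).map F
    have e2 : ∀ p : ι × Fin 2, rk p.1 ≤ rk c →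
        F (i p) = (src p).elim (io K D' _ (l p)) fun t => Φ' (X (Sum.inr t)) := fun p hp => by
      simp only [i]
      cases hs : src p with
      | none => exact iter_map_io φ _
      | some t =>
        have := hsrc p t hs
        rw [Option.elim_some, Option.elim_some, e, if_neg]
        intro h
        rw [show N.ob t = c from h] at this
        omega
    refine ⟨D', inferInstance, inferInstance, Φ', fun s hs => ?_, fun v => ?_, fun t ht => ?_, fun p hp => ?_⟩
    · rw [Finset.disjoint_insert_right] at hs
      exact H.int s hs.1 (h1 _ (Finset.disjoint_insert_left.2 ⟨hc, hs.2⟩))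
    · rw [e]
      split_ifs
      · rw [k1]
        exact add_mem (Submodule.smul_mem _ _ (iter_lin_map φ.toRingHom (i3 _)))
          (Submodule.smul_mem _ _ (iter_lin_map φ.toRingHom (i3 _)))
      · exact iter_lin_map φ.toRingHom (h2 v)
    · rcases Finset.mem_insert.1 ht with h | h
      · rw [iter_agree Φ' χ (fun v hv => by rw [e, if_pos (hv.trans h)]) (N.iter_E t)]
        exact k2 _ (g3 t h)
      · rw [iter_agree Φ' (F.comp Φ) (fun v hv => by
          rw [e, if_neg fun h' => hc (by rw [← h', hv]; exact h)]; rfl) (N.iter_E t), AlgHom.comp_apply, h3 t h,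
          map_zero]
    · obtain ⟨c', b⟩ := p
      rcases Finset.mem_insert.1 hp with h | h
      · obtain rfl : c' = c := h
        rw [← e2 _ le_rfl, e, if_pos (show N.blk (Sum.inl (c', b)) = c' from rfl), k1]
        fin_cases b
        · simp [a0, b0]
        · simp [a1, b1]
      · rw [← e2 _ (hmax _ h), e, if_neg fun h' => hc (by rw [← h']; exact h), h4 _ h]

/-- Induction over the set `A` of finished blocks (closed downwards for `rk`; add a block `c ∉ A` of
minimal rank).  Invariant: a division ring `D` with `INT D s` for all `s` disjoint from `A` and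
`Φ : K[σ] →ₐ D[x]` with linear `Φ (X v)` (zero outside `A`), `Φ (E t) = 0` for `ob t ∈ A`, inputs of the
blocks in `A` as prescribed.  Step: `exists_univ`, `Univ.int`, `Univ.exists_psi`, push `Φ` forward along
`φ`, `exists_subst` with `p, q` the two prescribed inputs of `c`, `exists_aeval_comm`; `E t` only involves
the variables of its block (`E_tri`). -/
theorem iter (hint : ∀ s, N.INT K s) (n : ℕ) (rk : ι → ℕ) (src : ι × Fin 2 → Option τ)
    (hsrc : ∀ p t, src p = some t → rk (N.ob t) < rk p.1)
    (l : ι × Fin 2 → MvPolynomial (Fin n) K) (hl : ∀ p, (l p).IsHomogeneous 1) :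
    ∃ (D : Type) (_ : DivisionRing D) (_ : Algebra K D)
      (Φ : MvPolynomial (Var ι τ) K →ₐ[K] PD D n),
      (∀ v, ∀ m ∈ (Φ (X v)).coeff.support, m.degree = 1) ∧ (∀ t, Φ (N.E t) = 0) ∧
      ∀ p, Φ (X (Sum.inl p)) = (src p).elim (io K D _ (l p)) fun t => Φ (X (Sum.inr t)) := by
  obtain ⟨D, _, _, Φ, -, h2, h3, h4⟩ := N.iter_aux hint n rk src hsrc l hl Finset.univ
  exact ⟨D, inferInstance, inferInstance, Φ, fun v m hm => h2 v hm, fun t => h3 t (Finset.mem_univ _),
    fun p => h4 p (Finset.mem_univ _)⟩

end Blocks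

end Crest.Agent.R181
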