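import Crest.Agent.R181.GNet

/-! # Existence of the leaf data (prefix `leaf_`) -/

set_option autoImplicit false

namespace Crest.Agent.R181

open MvPolynomial

theorem leaf_monomial {n : ℕ} (m : Fin n →₀ ℕ) :
    (monomial m (1 : ℂ) : MvPolynomial (Fin n) ℂ) ∈ Submodule.span ℂ
      ((fun l => l ^ m.degree) '' {l : MvPolynomial (Fin n) ℂ | l.IsHomogeneous 1}) := by
  classical
  refine (Subspace.forall_mem_dualAnnihilator_apply_eq_zero_iff _ _).1 fun φ hφ => ?_
  rw [Submodule.mem_dualAnnihilator] at hφ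
  obtain ⟨p, hp⟩ : ∃ p : MvPolynomial (Fin n) ℂ, p = ∑ k ∈ Finset.piAntidiag Finset.univ m.degree,
      monomial (Finsupp.equivFunOnFinite.symm k)
        ((Nat.multinomial Finset.univ k : ℂ) * φ (∏ i, X i ^ k i)) := ⟨_, rfl⟩
  have h0 : p = 0 := by
    refine MvPolynomial.funext fun c => ?_
    have h1 : (∑ i, c i • X i : MvPolynomial (Fin n) ℂ).IsHomogeneous 1 :=
      (homogeneousSubmodule (Fin n) ℂ 1).sum_mem fun i _ =>
        (homogeneousSubmodule (Fin n) ℂ 1).smul_mem _ (isHomogeneous_X ℂ i)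
    have h2 := hφ _ (Submodule.subset_span ⟨_, h1, rfl⟩)
    rw [map_zero, ← h2, hp, map_sum]
    beta_reduce
    rw [Finset.sum_pow_eq_sum_piAntidiag, map_sum]
    refine Finset.sum_congr rfl fun k _ => ?_
    rw [eval_monomial, Finsupp.prod_fintype _ _ (fun _ => pow_zero _)]
    simp only [Finsupp.equivFunOnFinite_symm_apply_apply, smul_pow, Finset.prod_smul]
    rw [← nsmul_eq_mul (α := MvPolynomial (Fin n) ℂ), map_nsmul, map_smul, nsmul_eq_mul, smul_eq_mul]
    ring
  have h3 := congrArg (coeff m) h0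
  rw [hp, coeff_sum, Finset.sum_eq_single (m : Fin n → ℕ), coeff_zero] at h3
  · rw [Finsupp.equivFunOnFinite_symm_coe, coeff_monomial, if_pos rfl] at h3
    have h4 : (Nat.multinomial Finset.univ m : ℂ) ≠ 0 := Nat.cast_ne_zero.2 (Nat.multinomial_pos _ _).ne'
    rw [monomial_eq, C_1, one_mul, Finsupp.prod_fintype _ _ (fun _ => pow_zero _)]
    exact (mul_eq_zero.1 h3).resolve_left h4
  · intro k _ hk
    rw [coeff_monomial, if_neg]
    rintro rfl
    exact hk rfl
  · intro h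
    exact absurd (Finset.mem_piAntidiag.2 ⟨(Finsupp.degree_eq_sum m).symm, fun i _ => Finset.mem_univ i⟩) h

theorem leaf_span {n : ℕ} (d : ℕ) : homogeneousSubmodule (Fin n) ℂ d ≤ Submodule.span ℂ
    ((fun l => l ^ d) '' {l : MvPolynomial (Fin n) ℂ | l.IsHomogeneous 1}) := by
  intro x hx
  rw [x.as_sum]
  refine Submodule.sum_mem _ fun m hm => ?_
  have h1 : m.degree = d := by
    rw [Finsupp.degree_eq_weight_one]
    exact hx (mem_support_iff.1 hm)
  have h2 := Submodule.smul_mem _ (coeff m x) (leaf_monomial m)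
  rwa [smul_monomial, smul_eq_mul, mul_one, h1] at h2

theorem leaf_fin {n : ℕ} (d : ℕ) : ∃ T : Finset (MvPolynomial (Fin n) ℂ), (∀ l ∈ T, l.IsHomogeneous 1) ∧
    homogeneousSubmodule (Fin n) ℂ d ≤
      Submodule.span ℂ ((fun l => l ^ d) '' (T : Set (MvPolynomial (Fin n) ℂ))) := by
  classical
  obtain ⟨S, hS⟩ := homogeneousSubmodule_fg (Fin n) ℂ d
  obtain ⟨T, hT, hST⟩ := Submodule.subset_span_finite_of_subset_span (R := ℂ) (t := S)
    (s := (fun l => l ^ d) '' {l : MvPolynomial (Fin n) ℂ | l.IsHomogeneous 1})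
    fun x hx => leaf_span d (hS ▸ Submodule.subset_span hx)
  obtain ⟨T', hT', rfl⟩ := Finset.subset_set_image_iff.1 hT
  refine ⟨T', fun l hl => hT' hl, ?_⟩
  rw [← hS, Submodule.span_le, ← Finset.coe_image]
  exact hST

/-- powers of finitely many linear forms span all forms of the given degrees (polarisation; then
pick a finite spanning subfamily in every degree) -/
theorem exists_pow_span {n : ℕ} (a : Fin n → ℕ) :
    ∃ F0 : Finset (MvPolynomial (Fin n) ℂ), F0.Nonempty ∧ (∀ l ∈ F0, l.IsHomogeneous 1) ∧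
      ∀ i, homogeneousSubmodule (Fin n) ℂ (a i) ≤
        Submodule.span ℂ ((fun l => l ^ a i) '' (F0 : Set (MvPolynomial (Fin n) ℂ))) := by
  classical
  choose T hT1 hT2 using fun i => leaf_fin (n := n) (a i)
  refine ⟨insert 0 (Finset.univ.biUnion T), Finset.insert_nonempty _ _, fun l hl => ?_, fun i => ?_⟩
  · rcases Finset.mem_insert.1 hl with rfl | hl
    · exact isHomogeneous_zero _ _ _
    · obtain ⟨i, _, hi⟩ := Finset.mem_biUnion.1 hl
      exact hT1 i l hi
  · refine (hT2 i).trans (Submodule.span_mono (Set.image_mono fun l hl => ?_))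
    exact Finset.mem_insert_of_mem (Finset.mem_biUnion.2 ⟨i, Finset.mem_univ i, hl⟩)

/-- `Λ = F0 × F0`; the admissible tuples of degree `a i` form a finite-dimensional space -/
theorem exists_leaf {n : ℕ} (a : Fin n → ℕ) (f : Fin n → MvPolynomial (Fin n) ℂ) :
    ∃ (ι : Type) (_ : Fintype ι) (_ : DecidableEq ι) (N : Net n ι) (κ : Type) (_ : Fintype κ),
      Nonempty (Leaf N a f κ) := by
  classical
  obtain ⟨F0, hne, hF1, hF2⟩ := exists_pow_span a
  have : Nonempty F0 := hne.to_subtype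
  obtain ⟨ι, iF, iD, N, e, he, hlv⟩ := exists_net n (F0 × F0)
  obtain ⟨lf, hlf⟩ : ∃ lf : ι × Fin 2 → MvPolynomial (Fin n) ℂ, ∀ p, lf p =
      Function.extend e (fun m => ![(m.1 : MvPolynomial (Fin n) ℂ), m.2]) 0 p.1 p.2 := ⟨_, fun _ => rfl⟩
  obtain ⟨Φ, hΦ⟩ : ∃ Φ : (ι → MvPolynomial (Fin 2) ℂ) →ₗ[ℂ] MvPolynomial (Fin n) ℂ, ∀ F,
      Φ F = ∑ c with N.lv c = n, aeval (fun b => lf (c, b)) (F c) :=
    ⟨∑ c with N.lv c = n, (aeval (fun b => lf (c, b))).toLinearMap ∘ₗ LinearMap.proj c, fun F => by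
      simp [LinearMap.sum_apply]⟩
  obtain ⟨A, hA⟩ : ∃ A : Fin n → Submodule ℂ (ι → MvPolynomial (Fin 2) ℂ), ∀ i, A i =
      (Submodule.pi Set.univ fun _ => homogeneousSubmodule (Fin 2) ℂ (a i)) ⊓
        ((Ideal.span (Set.range f)).restrictScalars ℂ).comap Φ := ⟨_, fun _ => rfl⟩
  have hmem : ∀ i F, F ∈ A i ↔ (∀ c, (F c).IsHomogeneous (a i)) ∧
      ∑ c with N.lv c = n, aeval (fun b => lf (c, b)) (F c) ∈ Ideal.span (Set.range f) := by
    intro i F
    rw [hA, Submodule.mem_inf, Submodule.mem_pi, Submodule.mem_comap, hΦ]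
    simp
  have hfg : ∀ i, (A i).FG := fun i => by
    rw [hA]
    exact (Submodule.fg_pi fun _ => homogeneousSubmodule_fg (Fin 2) ℂ (a i)).of_le inf_le_left
  choose k s hs using fun i => Submodule.fg_iff_exists_fin_generating_family.1 (hfg i)
  have hg : ∀ i (x : Σ i, Fin (k i)), (if x.1 = i then s x.1 x.2 else 0) ∈ A i := by
    rintro i ⟨i', x⟩
    split_ifs with h
    · subst h
      rw [← hs]
      exact Submodule.subset_span ⟨x, rfl⟩
    · exact Submodule.zero_mem _
  refine ⟨ι, iF, iD, N, Σ i, Fin (k i), inferInstance, ⟨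
    { lf := lf
      lf_hom := ?_
      lf_zero := ?_
      F0 := F0
      pairs := ?_
      pow_span := hF2
      g := fun i x => if x.1 = i then s x.1 x.2 else 0
      g_hom := fun i x => ((hmem i _).1 (hg i x)).1
      g_mem := fun i x => ((hmem i _).1 (hg i x)).2
      g_span := ?_ }⟩⟩
  · rintro ⟨c, b⟩
    rw [hlf]
    by_cases h : ∃ m, e m = c
    · obtain ⟨m, rfl⟩ := h
      rw [he.extend_apply]
      fin_cases b
      · exact hF1 _ m.1.2
      · exact hF1 _ m.2.2
    · rw [Function.extend_apply' _ _ _ h]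
      exact isHomogeneous_zero _ _ _
  · rintro ⟨c, b⟩ hc
    rw [hlf, Function.extend_apply']
    · rfl
    · rintro ⟨m, rfl⟩
      exact absurd (hlv m) hc.ne
  · intro l hl l' hl'
    refine ⟨e (⟨l, hl⟩, ⟨l', hl'⟩), hlv _, ?_, ?_⟩
    · rw [hlf, he.extend_apply]
      rfl
    · rw [hlf, he.extend_apply]
      rfl
  · intro i F h1 h2
    have h3 := (hmem i F).2 ⟨h1, h2⟩
    rw [← hs] at h3
    refine Submodule.span_mono ?_ h3
    rintro _ ⟨x, rfl⟩
    exact ⟨⟨i, x⟩, if_pos rfl⟩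

end Crest.Agent.R181
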