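import Crest.Agent.R181.GDefs

/-! # A homogeneous regular sequence of full length contains all monomials of large degree
(prefix `reg_`) -/

set_option autoImplicit false

namespace Crest.Agent.R181

open MvPolynomial

theorem reg_dim {R : Type*} [CommRing R] {rs : List R} (h : RingTheory.Sequence.IsWeaklyRegular R rs) (k : ℕ)
    (hk : k ≤ rs.length) : ringKrullDim (R ⧸ Ideal.ofList (rs.take k)) + k ≤ ringKrullDim R := by
  induction k with
  | zero => rw [Nat.cast_zero, add_zero]; exact ringKrullDim_quotient_le _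
  | succ k ih =>
    have hle : Ideal.ofList (rs.take k) ≤ Ideal.ofList (rs.take (k + 1)) :=
      Ideal.span_mono fun r hr => List.take_subset_take_left _ k.le_succ hr
    have h1 := (isSMulRegular_quotient_iff_mem_of_smul_mem _ _).1 (h.regular_mod_prev k hk)
    have h2 := ringKrullDim_succ_le_of_surjective (Ideal.Quotient.factor hle) (Ideal.Quotient.factor_surjective hle)
      (r := Ideal.Quotient.mk _ rs[k]) (mem_nonZeroDivisors_iff_left.2 fun x hx => by
        obtain ⟨x, rfl⟩ := Ideal.Quotient.mk_surjective x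
        rw [← map_mul, Ideal.Quotient.eq_zero_iff_mem] at hx
        rw [Ideal.Quotient.eq_zero_iff_mem]
        simpa using h1 x (by simpa using hx)) (by
        rw [Ideal.Quotient.factor_mk, Ideal.Quotient.eq_zero_iff_mem]
        refine Ideal.subset_span (List.mem_take_iff_getElem.2 ⟨k, by omega, rfl⟩))
    refine le_trans ?_ (ih (by omega))
    rw [Nat.cast_succ, add_comm (k : WithBot ℕ∞), ← add_assoc]
    gcongr

theorem reg_pow {n : ℕ} {I : Ideal (MvPolynomial (Fin n) ℂ)} [Module.Finite ℂ (MvPolynomial (Fin n) ℂ ⧸ I)]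
    (hI : ∀ g ∈ I, ∀ d, homogeneousComponent d g ∈ I) (i : Fin n) : ∃ k, X i ^ k ∈ I := by
  obtain ⟨p, hp, h0⟩ := IsIntegral.of_finite ℂ (Ideal.Quotient.mkₐ ℂ I (X i))
  rw [← Polynomial.aeval_def, Polynomial.aeval_algHom_apply, Ideal.Quotient.mkₐ_eq_mk,
    Ideal.Quotient.eq_zero_iff_mem] at h0
  refine ⟨p.natDegree, ?_⟩
  convert hI _ h0 p.natDegree
  rw [Polynomial.aeval_eq_sum_range, map_sum, Finset.sum_eq_single p.natDegree]
  · rw [hp.coeff_natDegree, one_smul, homogeneousComponent_of_mem (isHomogeneous_X_pow i _), if_pos rfl]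
  · intro k _ hk
    rw [map_smul, homogeneousComponent_of_mem (isHomogeneous_X_pow i _), if_neg hk.symm, smul_zero]
  · simp

attribute [local instance] MvPolynomial.gradedAlgebra in
theorem reg_hom {n : ℕ} {a : Fin n → ℕ} {f : Fin n → MvPolynomial (Fin n) ℂ} (hf : ∀ i, (f i).IsHomogeneous (a i)) :
    ∀ g ∈ Ideal.span (Set.range f), ∀ d, homogeneousComponent d g ∈ Ideal.span (Set.range f) := fun g hg d => by
  rw [← decomposition.decompose'_apply]
  exact Ideal.homogeneous_span (homogeneousSubmodule (Fin n) ℂ) (Set.range f)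
    (by rintro _ ⟨i, rfl⟩; exact ⟨a i, hf i⟩) d hg

/-- Hilbert functions: `H_{k+1}(e) = H_k(e) - H_k(e - a_k)` for `H_k` the Hilbert function of
`S/(f_1 … f_k)`, so `(1-t)^n HS_k = ∏_{l<k} (1 - t^(a l))` and `HS_n = ∏ (1 + t + … + t^(a l - 1))` is a
polynomial. -/
theorem exists_monomial_mem {n : ℕ} (a : Fin n → ℕ) (ha : ∀ i, 1 ≤ a i)
    (f : Fin n → MvPolynomial (Fin n) ℂ) (hf : ∀ i, (f i).IsHomogeneous (a i))
    (hreg : RingTheory.Sequence.IsRegular (MvPolynomial (Fin n) ℂ) (List.ofFn f)) :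
    ∃ e : ℕ, ∀ m : Fin n →₀ ℕ, e ≤ m.degree → monomial m (1 : ℂ) ∈ Ideal.span (Set.range f) := by
  have _ := ha
  have h1 := reg_dim hreg.toIsWeaklyRegular n (by simp)
  have e : Ideal.ofList ((List.ofFn f).take n) = Ideal.span (Set.range f) := by
    rw [List.take_of_length_le (by simp)]
    exact congrArg Ideal.span (Set.ext fun r => List.mem_ofFn)
  rw [e, MvPolynomial.ringKrullDim_of_isNoetherianRing, ringKrullDim_eq_zero_of_field, Nat.card_eq_fintype_card,
    Fintype.card_fin, ENat.WithBot.add_le_add_natCast_right_iff] at h1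
  have := (Module.finite_iff_krullDimLE_zero ℂ (MvPolynomial (Fin n) ℂ ⧸ Ideal.span (Set.range f))).2
    (Ring.krullDimLE_iff.2 h1)
  choose k hk using reg_pow (reg_hom hf)
  refine ⟨∑ i, k i + 1, fun m hm => ?_⟩
  obtain ⟨i, hi⟩ : ∃ i, k i ≤ m i := by
    by_contra hc
    simp only [not_exists, not_le] at hc
    have := Finset.sum_le_sum fun i (_ : i ∈ Finset.univ) => (hc i).le
    rw [Finsupp.degree_eq_sum] at hm
    omega
  refine Ideal.mem_of_dvd _ ?_ (hk i)
  rw [X_pow_eq_monomial]
  exact monomial_dvd_monomial.2 ⟨Or.inr (Finsupp.single_le_iff.2 hi), dvd_rfl⟩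

end Crest.Agent.R181
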