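import Crest.Agent.R181.GNetB

/-! # Telescoping the equations of one level (prefix `tel_`) -/

set_option autoImplicit false

namespace Crest.Agent.R181

open MvPolynomial

theorem tel_io_C (K D : Type*) [Field K] [DivisionRing D] [Algebra K D] (σ : Type*) (k : K) :
    io K D σ (C k) = algebraMap K (PS D σ) k := by
  rw [AddMonoidAlgebra.coe_algebraMap, Function.comp_apply]
  exact AddMonoidAlgebra.mapRingHom_single _ _ _

/-- the combinatorial part -/
theorem tel_comb {n : ℕ} {ι : Type} [Fintype ι] [DecidableEq ι] (N : Net n ι) {M : Type*} [AddCommGroup M]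
    (w : Out n N.lv → M) (B : ι → M) (i : Fin n)
    (h : ∀ c, i.val ≤ N.lv c → ∑ t' : Out n N.lv with t'.1.1 = c ∧ i ≤ t'.1.2, w t' =
      if N.lv c < n then ∑ e : Fin 2, (N.src (c, e)).elim 0 w else B c) :
    ∑ j with i ≤ j, w (N.ro j) = ∑ c with N.lv c = n, B c := by
  classical
  have h1 : ∑ t' : Out n N.lv with i ≤ t'.1.2, w t' =
      ∑ c with i.val ≤ N.lv c, ∑ t' : Out n N.lv with t'.1.1 = c ∧ i ≤ t'.1.2, w t' := by
    rw [← Finset.sum_fiberwise_of_maps_to (t := Finset.univ.filter fun c => i.val ≤ N.lv c)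
      (g := fun t' : Out n N.lv => t'.1.1)]
    · refine Finset.sum_congr rfl fun c _ => ?_
      rw [Finset.filter_filter]
      exact Finset.sum_congr (Finset.filter_congr fun t' _ => and_comm) fun _ _ => rfl
    · intro t' ht'
      simp only [Finset.mem_filter, Finset.mem_univ, true_and] at ht' ⊢
      exact le_trans ht' t'.2
  have h2 : ∑ c with i.val ≤ N.lv c, (if N.lv c < n then ∑ e : Fin 2, (N.src (c, e)).elim 0 w else B c) =
      ∑ p : ι × Fin 2 with i.val ≤ N.lv p.1 ∧ N.lv p.1 < n, (N.src p).elim 0 w + ∑ c with N.lv c = n, B c := by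
    rw [Finset.sum_ite, Finset.filter_filter, Finset.filter_filter]
    congr 1
    · rw [Finset.sum_filter, Finset.sum_filter, Fintype.sum_prod_type]
      refine Finset.sum_congr rfl fun c _ => ?_
      split_ifs <;> simp
    · refine Finset.sum_congr (Finset.filter_congr fun c _ => ?_) fun _ _ => rfl
      have := N.lv_le c
      have := i.2
      omega
  have h3 : ∑ p : ι × Fin 2 with i.val ≤ N.lv p.1 ∧ N.lv p.1 < n, (N.src p).elim 0 w =
      ∑ t' : Out n N.lv with i ≤ t'.1.2 ∧ t'.1.1 ≠ N.root t'.1.2, w t' := by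
    have e : ∀ p : ι × Fin 2, (N.src p).elim 0 w = ∑ t' : Out n N.lv, if N.src p = some t' then w t' else 0 := by
      intro p
      cases N.src p with
      | none => simp
      | some t => simp
    simp only [e]
    rw [Finset.sum_comm, Finset.sum_filter (s := Finset.univ) (fun t' : Out n N.lv => i ≤ t'.1.2 ∧ t'.1.1 ≠ N.root t'.1.2)]
    refine Finset.sum_congr rfl fun t' _ => ?_
    split_ifs with ht
    · obtain ⟨p0, hp0⟩ := N.cons t' ht.2
      rw [Finset.sum_eq_single_of_mem p0, if_pos hp0]
      · simp only [Finset.mem_filter, Finset.mem_univ, true_and]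
        rw [← N.src_lv p0 t' hp0]
        exact ⟨ht.1, t'.1.2.2⟩
      · intro p _ hp
        exact if_neg fun hp' => hp (N.src_inj p p0 t' hp' hp0)
    · refine Finset.sum_eq_zero fun p hp => if_neg fun hp' => ?_
      simp only [Finset.mem_filter, Finset.mem_univ, true_and] at hp
      rw [← N.src_lv p t' hp'] at hp
      have hr : t'.1.1 = N.root t'.1.2 := by
        by_contra hne
        exact ht ⟨hp.1, hne⟩
      refine N.root_not p t'.1.2 (hp'.trans (congrArg some (Subtype.ext (Prod.ext hr rfl))))
  have h4 : ∑ t' : Out n N.lv with i ≤ t'.1.2 ∧ ¬ t'.1.1 ≠ N.root t'.1.2, w t' = ∑ j with i ≤ j, w (N.ro j) := by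
    symm
    refine Finset.sum_bij (fun j _ => N.ro j) ?_ ?_ ?_ fun _ _ => rfl
    · intro j hj
      simp only [Finset.mem_filter, Finset.mem_univ, true_and] at hj ⊢
      exact ⟨hj, fun hne => hne rfl⟩
    · intro j _ j' _ hjj
      exact congrArg (fun t : Out n N.lv => t.1.2) hjj
    · intro t' ht'
      simp only [Finset.mem_filter, Finset.mem_univ, true_and, not_not] at ht'
      refine ⟨t'.1.2, ?_, Subtype.ext (Prod.ext ht'.2.symm rfl)⟩
      simp only [Finset.mem_filter, Finset.mem_univ, true_and]
      exact ht'.1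
  have h5 := Finset.sum_filter_add_sum_filter_not (Finset.univ.filter fun t' : Out n N.lv => i ≤ t'.1.2)
    (fun t' => t'.1.1 ≠ N.root t'.1.2) w
  rw [Finset.filter_filter, Finset.filter_filter, h4, ← h3, h1,
    Finset.sum_congr rfl fun c hc => h c (Finset.mem_filter.1 hc).2, h2] at h5
  exact add_left_cancel h5

namespace Leaf

variable {n : ℕ} {ι : Type} [Fintype ι] [DecidableEq ι] {N : Net n ι} {a : Fin n → ℕ}
  {f : Fin n → MvPolynomial (Fin n) ℂ} {κ : Type} [Fintype κ] (L : Leaf N a f κ)

/-- Sum `Φ (E (c,i)) = 0` over all `c` with `i ≤ lv c` using `lin_m`: an output `t'` of level `≥ i` that is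
not a root is the input `p` of exactly one step (of level `t'.1.2 ≥ i`) and cancels; inputs with
`src p = none` of inner steps are `0` (`lf_zero`); for leaves `src = none` (`src_lv`). -/
theorem telescope (ha1 : ∀ i, 1 ≤ a i) {D : Type} [DivisionRing D] [Algebra (KB (Par N κ)) D]
    (Φ : MvPolynomial (Var ι (Out n N.lv)) (KB (Par N κ)) →ₐ[KB (Par N κ)] PD D n)
    (hE : ∀ t, Φ (lin (L.m t)) = 0)
    (hin : ∀ p, Φ (X (Sum.inl p)) = (N.src p).elim
      (io (KB (Par N κ)) D _ (map (algebraMap ℂ (KB (Par N κ))) (L.lf p))) fun t => Φ (X (Sum.inr t)))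
    (i : Fin n) :
    ∑ j with i ≤ j, algebraMap (KB (Par N κ)) D (bb (Sum.inl (Sum.inr (N.ro j), i))) •
      Φ (X (Sum.inr (N.ro j))) ^ a i = io (KB (Par N κ)) D _ (L.F i) := by
  have hC : ∀ (k : KB (Par N κ)) (x : MvPolynomial (Var ι (Out n N.lv)) (KB (Par N κ))),
      Φ (C k * x) = k • Φ x := fun k x => by rw [← smul_eq_C_mul, map_smul]
  have hleaf : ∀ c, N.lv c = n → ∀ g : MvPolynomial (Fin 2) ℂ,
      Φ (map (algebraMap ℂ (KB (Par N κ))) (rename (fun e => Sum.inl (c, e)) g)) =
        io (KB (Par N κ)) D _ (map (algebraMap ℂ (KB (Par N κ))) (aeval (fun b => L.lf (c, b)) g)) := by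
    intro c hc g
    have hnone : ∀ e, N.src (c, e) = none := by
      intro e
      cases hs : N.src (c, e) with
      | none => rfl
      | some t =>
        have h1 := N.src_lv _ _ hs
        have h2 := t.1.2.2
        simp only at h1
        omega
    induction g using MvPolynomial.induction_on with
    | C r =>
      rw [rename_C, map_C, aeval_C, algebraMap_eq, map_C, tel_io_C]
      exact Φ.commutes _
    | add p q hp hq => simp only [map_add, hp, hq]
    | mul_X p e hp =>
      simp only [map_mul, hp, rename_X, map_X, aeval_X]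
      rw [hin, hnone]
      rfl
  have key := tel_comb N (fun t' => bb (Sum.inl (Sum.inr t', i) : Par N κ) • Φ (X (Sum.inr t')) ^ a i)
    (fun c => ∑ k, bb (Sum.inr (i, k) : Par N κ) • Φ (map (algebraMap ℂ (KB (Par N κ)))
      (rename (fun e => Sum.inl (c, e)) (L.g i k c)))) i (by
    intro c hc
    have h0 := hE ⟨(c, i), hc⟩
    rw [L.lin_m, map_sub, sub_eq_zero, map_sum] at h0
    simp only [hC, map_pow] at h0
    rw [h0]
    split_ifs with hlt
    · rw [map_sum]
      refine Finset.sum_congr rfl fun e _ => ?_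
      rw [hC, map_pow, hin, Net.pn]
      cases N.src (c, e) with
      | none =>
        have := ha1 i
        simp only [Option.elim_none]
        rw [L.lf_zero (c, e) hlt, map_zero, map_zero, zero_pow (by omega), smul_zero]
      | some t => rfl
    · rw [map_sum]
      exact Finset.sum_congr rfl fun k _ => hC _ _)
  simp only [algebraMap_smul]
  rw [key, Finset.sum_comm, F, map_sum]
  refine Finset.sum_congr rfl fun k _ => ?_
  rw [map_mul, tel_io_C, ← Algebra.smul_def, G, map_sum, map_sum, Finset.smul_sum]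
  exact Finset.sum_congr rfl fun c hc => by rw [hleaf c (Finset.mem_filter.1 hc).2]

end Leaf

end Crest.Agent.R181
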