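import Crest.Agent.R181.I0a

/-!
# R181/I0c: locally nilpotent derivations and the ideal `A~` (helper60)
-/

set_option autoImplicit false

namespace Crest.Agent.R181.I0

open MvPolynomial Module

/-- a derivation -/
structure Der (R : Type) [CommRing R] where
  D : R →+ R
  mul : ∀ x y, D (x * y) = x * D y + y * D x

namespace Der

variable {R S : Type} [CommRing R] [CommRing S] (d : Der R)

theorem one : d.D 1 = 0 := by
  have := d.mul 1 1
  rw [one_mul, one_mul] at this
  exact left_eq_add.1 this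

theorem nat (n : ℕ) : d.D n = 0 := by
  induction n with
  | zero => simp
  | succ n ih => rw [Nat.cast_succ, map_add, ih, d.one, add_zero]

theorem cmul {h h' : R} (hh : d.D h = 0) (hh' : d.D h' = 0) : d.D (h * h') = 0 := by
  rw [d.mul, hh, hh', mul_zero, mul_zero, add_zero]

theorem pow {h : R} (hh : d.D h = 0) (n : ℕ) : d.D (h ^ n) = 0 := by
  induction n with
  | zero => rw [pow_zero, d.one]
  | succ n ih => rw [pow_succ, d.cmul ih hh]

theorem it_const {h : R} (hh : d.D h = 0) (n : ℕ) (x : R) : d.D^[n] (h * x) = h * d.D^[n] x := by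
  induction n generalizing x with
  | zero => rfl
  | succ n ih => rw [Function.iterate_succ_apply, Function.iterate_succ_apply, d.mul, hh, mul_zero, add_zero, ih]

theorem it_lin {E : R} (hE : d.D (d.D E) = 0) (n : ℕ) (x : R) :
    d.D^[n + 1] (E * x) = E * d.D^[n + 1] x + ((n + 1 : ℕ) : R) * d.D E * d.D^[n] x := by
  induction n generalizing x with
  | zero => simp [d.mul, mul_comm]
  | succ n ih =>
    rw [Function.iterate_succ_apply, d.mul, iterate_map_add, ih, mul_comm x, d.it_const hE,
      ← Function.iterate_succ_apply, ← Function.iterate_succ_apply]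
    push_cast
    ring

theorem it_zero {x : R} {n m : ℕ} (h : d.D^[n] x = 0) (hm : n ≤ m) : d.D^[m] x = 0 := by
  obtain ⟨k, rfl⟩ := Nat.exists_eq_add_of_le' hm
  rw [Function.iterate_add_apply, h, iterate_map_zero]

/-- locally nilpotent elements -/
def Nil (x : R) : Prop := ∃ n, d.D^[n] x = 0

theorem Nil.of_const {x : R} (h : d.D x = 0) : d.Nil x := ⟨1, h⟩

theorem Nil.add {x y : R} (hx : d.Nil x) (hy : d.Nil y) : d.Nil (x + y) := by
  obtain ⟨n, hn⟩ := hx
  obtain ⟨m, hm⟩ := hy
  exact ⟨max n m, by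
    rw [iterate_map_add, d.it_zero hn (le_max_left _ _), d.it_zero hm (le_max_right _ _), add_zero]⟩

theorem Nil.mul {x u : R} (hx : d.Nil x) (hu : d.D (d.D u) = 0) : d.Nil (x * u) := by
  obtain ⟨n, hn⟩ := hx
  exact ⟨n + 1, by rw [mul_comm, d.it_lin hu, hn, d.it_zero hn (Nat.le_succ n), mul_zero, mul_zero, add_zero]⟩

/-- the largest stable ideal inside the preimage of `A` -/
def tl (φ : R →+* S) (A : Ideal S) : Ideal R where
  carrier := {x | ∀ n, φ (d.D^[n] x) ∈ A}
  zero_mem' n := by rw [iterate_map_zero, map_zero]; exact A.zero_mem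
  add_mem' hx hy n := by rw [iterate_map_add, map_add]; exact A.add_mem (hx n) (hy n)
  smul_mem' r x hx n := by
    rw [smul_eq_mul]
    induction n generalizing r x with
    | zero => rw [Function.iterate_zero_apply, map_mul]; exact A.mul_mem_left _ (hx 0)
    | succ n ih =>
      rw [Function.iterate_succ_apply, d.mul, iterate_map_add, map_add, mul_comm x]
      exact A.add_mem (ih r (d.D x) fun k => hx (k + 1)) (ih _ x hx)

theorem mem_tl {φ : R →+* S} {A : Ideal S} {x : R} : x ∈ d.tl φ A ↔ ∀ n, φ (d.D^[n] x) ∈ A := Iff.rfl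

theorem mem_tl_const {φ : R →+* S} {A : Ideal S} {x : R} (h : d.D x = 0) (hx : φ x ∈ A) : x ∈ d.tl φ A := by
  intro n
  cases n with
  | zero => exact hx
  | succ n => rw [Function.iterate_succ_apply, h, iterate_map_zero, map_zero]; exact A.zero_mem

theorem tl_a {φ : R →+* S} {A : Ideal S} (hs : ∀ (n : ℕ) y, ((n + 1 : ℕ) : S) * y ∈ A → y ∈ A) {E g : R}
    (hE : d.D (d.D E) = 0) (hEA : φ E ∈ A) (hg : E * g ∈ d.tl φ A) : d.D E * g ∈ d.tl φ A := by
  intro n
  have h := hg (n + 1)
  rw [d.it_lin hE, map_add, map_mul, A.add_mem_iff_right (A.mul_mem_right _ hEA), mul_assoc, map_mul,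
    map_natCast] at h
  rw [d.it_const hE]
  exact hs n _ h

theorem tl_b {E : R} (hE : d.D (d.D E) = 0) (N : ℕ) (x : R) (hx : d.D^[N + 1] x = 0) :
    ∃ (m : ℕ) (y c : R), d.D y = 0 ∧ ((m + 1 : ℕ) : R) * (d.D E ^ N * x) = y + c * E := by
  induction N generalizing x with
  | zero => exact ⟨0, x, 0, hx, by simp⟩
  | succ N ih =>
    obtain ⟨m, y, c, h1, h2⟩ := ih (((N + 1 : ℕ) : R) * d.D E * x - E * d.D x) (by
      rw [iterate_map_sub, d.it_const (d.cmul (d.nat _) hE), d.it_lin hE, ← Function.iterate_succ_apply, hx,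
        ← Function.iterate_succ_apply]
      simp)
    refine ⟨m * N + m + N, y, c + ((m + 1 : ℕ) : R) * d.D E ^ N * d.D x, h1, ?_⟩
    push_cast at h2 ⊢
    linear_combination h2

theorem ar {a : Ideal R} (ha : ∀ x ∈ a, d.D x ∈ a) (hs : ∀ (n : ℕ) y, ((n + 1 : ℕ) : R) * y ∈ a → y ∈ a) {E g : R}
    (hE : d.D (d.D E) = 0) (hg : E * g ∈ a) (hn : d.Nil g) : ∃ N, d.D E ^ N * g ∈ a := by
  have h1 : ∀ n, d.D^[n] (E * g) ∈ a := fun n => by
    induction n with
    | zero => exact hg
    | succ n ih => rw [Function.iterate_succ_apply']; exact ha _ ih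
  have key : ∀ k n, d.D^[n + k] g = 0 → d.D E ^ k * d.D^[n] g ∈ a := by
    intro k
    induction k with
    | zero => intro n h; rw [add_zero] at h; rw [h, mul_zero]; exact a.zero_mem
    | succ k ih =>
      intro n h
      have h2 := ih (n + 1) (by rwa [add_right_comm])
      have h3 := a.mul_mem_left (d.D E ^ k) (h1 (n + 1))
      rw [d.it_lin hE] at h3
      refine hs n _ ?_
      convert a.sub_mem h3 (a.mul_mem_left E h2) using 1
      ring
  obtain ⟨N, hN⟩ := hn
  exact ⟨N, key N 0 (by rwa [zero_add])⟩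

end Der

section Loc

variable {σ P K : Type} [CommRing P] [IsDomain P] [Field K] [Algebra P K] [IsFractionRing P K]

attribute [local instance] algebraMvPolynomial

theorem loc_surj (y : MvPolynomial σ K) :
    ∃ (x : MvPolynomial σ P) (a : K), a ≠ 0 ∧ map (algebraMap P K) x = C a * y := by
  obtain ⟨⟨x, ⟨_, p, hp, rfl⟩⟩, h⟩ := IsLocalization.surj ((nonZeroDivisors P).map (C (σ := σ))) y
  refine ⟨x, algebraMap P K p, IsFractionRing.to_map_ne_zero_of_mem_nonZeroDivisors hp, ?_⟩
  simp only [algebraMap_def, map_C] at h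
  rw [← h, mul_comm]

theorem loc_mem {a : Ideal (MvPolynomial σ P)} {x : MvPolynomial σ P}
    (h : map (algebraMap P K) x ∈ a.map (map (algebraMap P K))) :
    ∃ p : P, algebraMap P K p ≠ 0 ∧ C p * x ∈ a := by
  obtain ⟨_, ⟨p, hp, rfl⟩, h⟩ := (IsLocalization.algebraMap_mem_map_algebraMap_iff
    ((nonZeroDivisors P).map (C (σ := σ))) (MvPolynomial σ K) a x).1 h
  exact ⟨p, IsFractionRing.to_map_ne_zero_of_mem_nonZeroDivisors hp, h⟩

theorem unit_mem {J : Ideal (MvPolynomial σ K)} {a : K} (ha : a ≠ 0) {y : MvPolynomial σ K} (h : C a * y ∈ J) :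
    y ∈ J := (Ideal.unit_mul_mem_iff_mem J ((IsUnit.mk0 a ha).map C)).1 h

theorem nat_mem [CharZero K] (J : Ideal (MvPolynomial σ K)) (n : ℕ) (y : MvPolynomial σ K)
    (h : ((n + 1 : ℕ) : MvPolynomial σ K) * y ∈ J) : y ∈ J :=
  unit_mem (a := ((n + 1 : ℕ) : K)) (Nat.cast_ne_zero.2 n.succ_ne_zero) (by rwa [map_natCast])

theorem hom_map {G : Type} [AddCommGroup G] {w : σ → G} {R S : Type} [CommRing R] [CommRing S] (f : R →+* S)
    {x : MvPolynomial σ R} {j : G} (h : IsWeightedHomogeneous w x j) : IsWeightedHomogeneous w (map f x) j :=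
  fun d hd => h fun e => hd (by rw [coeff_map, e, map_zero])

variable {G : Type} [AddCommGroup G] {w : σ → G}

theorem tilde_der [CharZero K] (d : Der (MvPolynomial σ P)) (hn : ∀ x, d.Nil x) {γ : G}
    (hγ : ∀ j x, IsWeightedHomogeneous w x j → IsWeightedHomogeneous w (d.D x) (j + γ))
    {E : MvPolynomial σ P} (hE : d.D (d.D E) = 0) {A : Ideal (MvPolynomial σ K)} (hA : Gr w A)
    (hEA : map (algebraMap P K) E ∈ A) : ∃ A' : Ideal (MvPolynomial σ K), Gr w A' ∧ A' ≤ A ∧
      (∀ x, d.D x = 0 → map (algebraMap P K) x ∈ A → map (algebraMap P K) x ∈ A') ∧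
      (∀ g, g * map (algebraMap P K) E ∈ A' → map (algebraMap P K) (d.D E) * g ∈ A') ∧
      ∀ g ∈ A, ∃ N, map (algebraMap P K) (d.D E) ^ N * g ∈ A' ⊔ Ideal.span {map (algebraMap P K) E} := by
  have hit : ∀ n : ℕ, ∀ j x, IsWeightedHomogeneous w x j → IsWeightedHomogeneous w (d.D^[n] x) (j + n • γ) := by
    intro n
    induction n with
    | zero => intro j x hx; simpa using hx
    | succ n ih =>
      intro j x hx
      rw [Function.iterate_succ_apply', succ_nsmul, ← add_assoc]
      exact hγ _ _ (ih j x hx)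
  have hcomp : ∀ x ∈ d.tl (map (algebraMap P K)) A, ∀ j,
      weightedHomogeneousComponent w j x ∈ d.tl (map (algebraMap P K)) A := by
    intro x hx j n
    have := comp_map w w ((map (algebraMap P K) : MvPolynomial σ P →+* MvPolynomial σ K).toAddMonoidHom.comp
      ⟨⟨d.D^[n], iterate_map_zero _ _⟩, iterate_map_add _ _⟩) (n • γ) (fun j x hx => hom_map _ (hit n j x hx)) j x
    exact this ▸ hA _ (hx n) _
  have hφ : ∀ (x : MvPolynomial σ P) j, weightedHomogeneousComponent w j (map (algebraMap P K) x) =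
      map (algebraMap P K) (weightedHomogeneousComponent w j x) := fun x j => by
    have := comp_map w w (map (algebraMap P K) : MvPolynomial σ P →+* MvPolynomial σ K).toAddMonoidHom 0
      (fun j x hx => by rw [add_zero]; exact hom_map _ hx) j x
    rwa [add_zero] at this
  refine ⟨(d.tl (map (algebraMap P K)) A).map (map (algebraMap P K)), fun y hy j => ?_,
    Ideal.map_le_iff_le_comap.2 fun x hx => hx 0, fun x h1 h2 => Ideal.mem_map_of_mem _ (d.mem_tl_const h1 h2),
    fun g hg => ?_, fun g hg => ?_⟩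
  · obtain ⟨x, a, ha, e⟩ := loc_surj (P := P) y
    obtain ⟨p, hp, h⟩ := loc_mem (e ▸ Ideal.mul_mem_left _ _ hy)
    have := Ideal.mem_map_of_mem (map (algebraMap P K)) (hcomp _ h j)
    rw [← hφ, map_mul, map_C, e, weightedHomogeneousComponent_C_mul, weightedHomogeneousComponent_C_mul] at this
    exact unit_mem ha (unit_mem hp this)
  · obtain ⟨x, a, ha, e⟩ := loc_surj (P := P) g
    obtain ⟨p, hp, h⟩ := loc_mem (K := K) (a := d.tl (map (algebraMap P K)) A) (x := x * E) (by
      rw [map_mul, e, mul_assoc]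
      exact Ideal.mul_mem_left _ _ hg)
    have h2 := d.tl_a (nat_mem A) (g := C p * x) hE hEA (by convert h using 1; ring)
    have := Ideal.mem_map_of_mem (map (algebraMap P K)) h2
    rw [map_mul, map_mul, map_C, e] at this
    refine unit_mem ha (unit_mem hp ?_)
    convert this using 1
    ring
  · obtain ⟨x, a, ha, e⟩ := loc_surj (P := P) g
    obtain ⟨N, hN⟩ := hn x
    obtain ⟨m, y, c, h1, h2⟩ := d.tl_b hE N x (d.it_zero hN (Nat.le_succ N))
    have h3 := congrArg (map (algebraMap P K)) h2
    simp only [map_mul, map_add, map_pow, map_natCast, e] at h3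
    have h4 : map (algebraMap P K) y ∈ A := by
      rw [← sub_eq_iff_eq_add.2 h3]
      exact A.sub_mem (A.mul_mem_left _ (A.mul_mem_left _ (A.mul_mem_left _ hg))) (A.mul_mem_left _ hEA)
    refine ⟨N, unit_mem ha (nat_mem _ m _ ?_)⟩
    rw [mul_left_comm (C a), h3]
    exact Submodule.add_mem_sup (Ideal.mem_map_of_mem _ (d.mem_tl_const h1 h4))
      (Ideal.mem_span_singleton'.2 ⟨_, rfl⟩)

theorem ar_der [CharZero K] (d : Der (MvPolynomial σ P)) (hn : ∀ x, d.Nil x)
    {E : MvPolynomial σ P} (hE : d.D (d.D E) = 0) {s : Set (MvPolynomial σ P)} (hs : ∀ x ∈ s, d.D x = 0)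
    {g : MvPolynomial σ K} (hg : g * map (algebraMap P K) E ∈ (Ideal.span s).map (map (algebraMap P K))) :
    ∃ N, map (algebraMap P K) (d.D E) ^ N * g ∈ (Ideal.span s).map (map (algebraMap P K)) := by
  have h0 : ∀ x ∈ Ideal.span s, d.D x ∈ Ideal.span s := by
    intro x hx
    induction hx using Submodule.span_induction with
    | mem x hx => rw [hs x hx]; exact zero_mem _
    | zero => rw [map_zero]; exact zero_mem _
    | add x y _ _ hx hy => rw [map_add]; exact add_mem hx hy
    | smul a x hx' hx =>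
      rw [smul_eq_mul, d.mul]
      exact add_mem (Ideal.mul_mem_left _ _ hx) (Ideal.mul_mem_right _ _ hx')
  obtain ⟨x, a, ha, e⟩ := loc_surj (P := P) g
  obtain ⟨N, hN⟩ := d.ar (a := ((Ideal.span s).map (map (algebraMap P K))).comap (map (algebraMap P K)))
    (fun y hy => by
      obtain ⟨p, hp, h⟩ := loc_mem (K := K) hy
      have h1 := Ideal.mem_map_of_mem (map (algebraMap P K)) (h0 _ h)
      rw [d.mul, map_add, map_mul, map_mul, map_C,
        Ideal.add_mem_iff_left _ (Ideal.mul_mem_right _ _ (Ideal.mem_comap.1 hy))] at h1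
      exact unit_mem hp h1)
    (fun n y hy => nat_mem _ n _ (by simpa using hy)) (g := x) hE
    (by rw [Ideal.mem_comap, map_mul, e, mul_comm, mul_assoc]; exact Ideal.mul_mem_left _ _ hg) (hn x)
  rw [Ideal.mem_comap, map_mul, map_pow, e, mul_left_comm] at hN
  exact ⟨N, unit_mem ha hN⟩

end Loc

section Ex

variable {σ B F : Type} [CommRing F]

theorem exists_der (c : B → MvPolynomial σ F) : ∃ d : Der (MvPolynomial σ (MvPolynomial B F)),
    (∀ a : MvPolynomial σ F, d.D (map C a) = 0) ∧ ∀ β, d.D (C (X β)) = map C (c β) := by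
  let e := commAlgEquiv F B σ
  let D := mkDerivation (MvPolynomial σ F) fun β => (C (c β) : MvPolynomial B (MvPolynomial σ F))
  refine ⟨⟨AddMonoidHom.mk' (fun x => e (D (e.symm x))) fun x y => by simp only [map_add], fun x y => ?_⟩,
    fun a => ?_, fun β => ?_⟩
  · simp only [AddMonoidHom.mk'_apply, map_mul, Derivation.leibniz, smul_eq_mul, map_add, AlgEquiv.apply_symm_apply]
  · have : e.symm (map C a) = C a := by rw [AlgEquiv.symm_apply_eq, commAlgEquiv_C]
    simp only [AddMonoidHom.mk'_apply, this, derivation_C, map_zero]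
  · have : e.symm (C (X β)) = X β := by rw [AlgEquiv.symm_apply_eq, commAlgEquiv_X]
    simp only [AddMonoidHom.mk'_apply, this, D, mkDerivation_X]
    exact commAlgEquiv_C _

variable {c : B → MvPolynomial σ F} {d : Der (MvPolynomial σ (MvPolynomial B F))}

theorem der_nil (h1 : ∀ a : MvPolynomial σ F, d.D (map C a) = 0) (h2 : ∀ β, d.D (C (X β)) = map C (c β))
    (x : MvPolynomial σ (MvPolynomial B F)) : d.Nil x := by
  induction x using MvPolynomial.induction_on with
  | C p =>
    induction p using MvPolynomial.induction_on with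
    | C a => exact Der.Nil.of_const d (by simpa using h1 (C a))
    | add p q hp hq => rw [map_add]; exact hp.add d hq
    | mul_X p β hp => rw [map_mul]; exact hp.mul d (by rw [h2, h1])
  | add p q hp hq => exact hp.add d hq
  | mul_X p v hp =>
    have : d.D (X v) = 0 := by simpa using h1 (X v)
    exact hp.mul d (by rw [this, map_zero])

theorem der_hom {G : Type} [AddCommGroup G] {w : σ → G} {γ : G} (hc : ∀ β, IsWeightedHomogeneous w (c β) γ)
    (h1 : ∀ a : MvPolynomial σ F, d.D (map C a) = 0) (h2 : ∀ β, d.D (C (X β)) = map C (c β))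
    (j : G) (x : MvPolynomial σ (MvPolynomial B F)) (hx : IsWeightedHomogeneous w x j) :
    IsWeightedHomogeneous w (d.D x) (j + γ) := by
  have k : ∀ p : MvPolynomial B F, IsWeightedHomogeneous w (d.D (C p)) γ := by
    intro p
    induction p using MvPolynomial.induction_on with
    | C a =>
      have : d.D (C (C a)) = 0 := by simpa using h1 (C a)
      rw [this]
      exact isWeightedHomogeneous_zero _ _ _
    | add p q hp hq => rw [map_add, map_add]; exact hp.add hq
    | mul_X p β hp =>
      rw [map_mul, d.mul, h2]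
      exact ((hom_map _ (hc β)).C_mul _).add (hp.C_mul _)
  induction hx using IsWeightedHomogeneous.induction_on with
  | zero => rw [map_zero]; exact isWeightedHomogeneous_zero _ _ _
  | add p q _ _ hp hq => rw [map_add]; exact hp.add hq
  | monomial s r hr =>
    have e : (monomial s r : MvPolynomial σ (MvPolynomial B F)) = C r * map C (monomial s 1) := by
      simp [C_mul_monomial]
    rw [e, d.mul, h1, mul_zero, zero_add]
    exact (hom_map _ (isWeightedHomogeneous_monomial w s 1 hr)).mul (k r)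

end Ex

end Crest.Agent.R181.I0
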