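import Crest.Agent.R181.I0b
import Crest.Agent.R181.I0c

/-!
# R181/I0d: integrality over the generic parameter field, for ideals (helper60)
-/

set_option autoImplicit false

namespace Crest.Agent.R181.I0

open MvPolynomial Module

theorem det_hom {G σ R ρ : Type} [AddCommGroup G] [CommRing R] [Fintype ρ] [DecidableEq ρ] {w : σ → G}
    (M : Matrix ρ ρ (MvPolynomial σ R)) (dg : ρ → G) (h : ∀ r r', IsWeightedHomogeneous w (M r r') (dg r)) :
    IsWeightedHomogeneous w M.det (∑ r, dg r) := by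
  rw [Matrix.det_apply']
  refine IsWeightedHomogeneous.sum _ _ _ fun π _ => ?_
  rw [← Equiv.sum_comp π dg, ← map_intCast (C : R →+* MvPolynomial σ R)]
  exact (IsWeightedHomogeneous.prod _ _ _ fun i _ => h (π i) i).C_mul _

theorem exists_minor {Ω ρ B : Type} [Field Ω] [Fintype ρ] [DecidableEq ρ] [Fintype B] (M : ρ → B → Ω)
    (h : ∀ c : ρ → Ω, (∀ β, ∑ r, c r * M r β = 0) → c = 0) :
    ∃ ν : ρ → B, (Matrix.of fun r r' => M r (ν r')).det ≠ 0 := by
  classical
  have h1 : LinearIndependent Ω (Matrix.of M).row := Fintype.linearIndependent_iff.2 fun c hc r =>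
    congrFun (h c fun β => by simpa using congrFun hc β) r
  have h2 : Submodule.span Ω (Set.range (Matrix.of M).col) = ⊤ := by
    apply Submodule.eq_top_of_finrank_eq
    rw [← Matrix.rank_eq_finrank_span_cols, h1.rank_matrix, Module.finrank_fintype_fun_eq_card]
  obtain ⟨κ, a, ha, hs, hl⟩ := exists_linearIndependent' Ω (Matrix.of M).col
  have := Finite.of_injective a ha
  have := Fintype.ofFinite κ
  have h3 : Fintype.card ρ = Fintype.card κ := by
    rw [← finrank_span_eq_card hl, hs, h2, finrank_top, Module.finrank_fintype_fun_eq_card]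
  let e := Fintype.equivOfCardEq h3
  refine ⟨a ∘ e, ?_⟩
  have h4 : LinearIndependent Ω (Matrix.of fun r r' => M r ((a ∘ e) r')).col := hl.comp e e.injective
  exact ((Matrix.isUnit_iff_isUnit_det _).1 (Matrix.linearIndependent_cols_iff_isUnit.1 h4)).ne_zero

/-- eventually vanishing functions -/
def Ev0 {ι κ : Type} (e : κ → ι) : AddSubgroup ((ι → ℤ) → ℤ) where
  carrier := {f | ∃ J : ℤ, ∀ j, (∀ k, J ≤ j (e k)) → f j = 0}
  zero_mem' := ⟨0, fun _ _ => rfl⟩
  add_mem' := by
    rintro f g ⟨J, hf⟩ ⟨J', hg⟩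
    refine ⟨max J J', fun j hj => ?_⟩
    rw [Pi.add_apply, hf j fun k => (le_max_left _ _).trans (hj k), hg j fun k => (le_max_right _ _).trans (hj k),
      add_zero]
  neg_mem' := by
    rintro f ⟨J, hf⟩
    exact ⟨J, fun j hj => by rw [Pi.neg_apply, hf j hj, neg_zero]⟩

theorem St_Ev0 {ι κ : Type} [Finite κ] (e : κ → ι) : St (Ev0 e) := by
  rintro c f ⟨J, hf⟩
  obtain ⟨M, hM⟩ := (Set.finite_range fun k => c (e k)).bddAbove
  refine ⟨J + M, fun j hj => hf _ fun k => ?_⟩
  have h1 := hM ⟨k, rfl⟩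
  have h2 := hj k
  rw [Pi.sub_apply]
  linarith

theorem exists_of_mem_Cl {G : Type} [AddCommGroup G] {f g : G → ℤ} (h : f ∈ Cl g) :
    ∃ n : G →₀ ℤ, ∀ j, f j = n.sum fun s a => a * g (j - s) := by
  induction h using AddSubgroup.closure_induction with
  | mem _ h =>
    obtain ⟨c, rfl⟩ := h
    exact ⟨Finsupp.single c 1, fun j => by simp [sh_apply]⟩
  | zero => exact ⟨0, fun j => by simp⟩
  | add f f' _ _ h h' =>
    obtain ⟨n, hn⟩ := h
    obtain ⟨n', hn'⟩ := h'
    exact ⟨n + n', fun j => by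
      rw [Finsupp.sum_add_index' (by simp) (by simp [add_mul]), Pi.add_apply, hn, hn']⟩
  | neg f _ h =>
    obtain ⟨n, hn⟩ := h
    exact ⟨-n, fun j => by rw [Finsupp.sum_neg_index (by simp), Pi.neg_apply, hn]; simp [Finsupp.sum]⟩

theorem exists_of_mem_sup {ι κ : Type} {e : κ → ι} {f g : (ι → ℤ) → ℤ} (h : f ∈ Cl g ⊔ Ev0 e) :
    ∃ (n : (ι → ℤ) →₀ ℤ) (J : ℤ), ∀ j, (∀ k, J ≤ j (e k)) → f j = n.sum fun s a => a * g (j - s) := by
  obtain ⟨a, ha, b, ⟨J, hb⟩, rfl⟩ := AddSubgroup.mem_sup.1 h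
  obtain ⟨n, hn⟩ := exists_of_mem_Cl ha
  exact ⟨n, J, fun j hj => by rw [Pi.add_apply, hb j hj, add_zero, hn]⟩

variable {σ ι : Type} [DecidableEq ι] (blk : σ → ι)

/-- the multidegree of a variable -/
def wt (v : σ) : ι → ℤ := Pi.single (blk v) 1

/-- total degree -/
def tot (ι : Type) [Fintype ι] : (ι → ℤ) →+ ℤ where
  toFun j := ∑ k, j k
  map_zero' := by simp
  map_add' _ _ := Finset.sum_add_distrib

theorem tot_wt [Fintype ι] (v : σ) : tot ι (wt blk v) = 1 := by simp [tot, wt]

theorem fin_wt [Fintype ι] [Finite σ] (K : Type) [Field K] (j : ι → ℤ) :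
    FiniteDimensional K (weightedHomogeneousSubmodule K (wt blk) j) := by
  have : FiniteDimensional K (weightedHomogeneousSubmodule K (fun _ : σ => (1 : ℕ)) (tot ι j).toNat) :=
    Module.Finite.iff_fg.2 (weightedHomogeneousSubmodule_fg K _ (fun _ => one_ne_zero) _)
  refine Submodule.finiteDimensional_of_le (S₂ := weightedHomogeneousSubmodule K (fun _ : σ => (1 : ℕ)) (tot ι j).toNat)
    fun x hx d hd => ?_
  rw [← hx hd, Finsupp.weight_apply, Finsupp.weight_apply, Finsupp.sum, Finsupp.sum, map_sum]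
  simp only [map_nsmul, tot_wt]
  simp only [nsmul_eq_mul, mul_one, smul_eq_mul]
  rw [← Nat.cast_sum, Int.toNat_natCast]

theorem ev0_of_rad [Finite σ] {κ : Type} [Fintype κ] {ε : κ → ι} (hε : Function.Injective ε) {K : Type} [Field K]
    {A : Ideal (MvPolynomial σ K)} (h : ∀ v : κ → σ, (∀ k, blk (v k) = ε k) → ∏ k, X (v k) ∈ A.radical) :
    HF (wt blk) A ∈ Ev0 ε := by
  classical
  have := Fintype.ofFinite σ
  obtain ⟨N, hN⟩ : ∃ N : ℕ, ∀ v : κ → σ, (∀ k, blk (v k) = ε k) → (∏ k, X (v k)) ^ N ∈ A := by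
    choose! N hN using h
    exact ⟨Finset.univ.sup N, fun v hv => A.pow_mem_of_pow_mem (hN v hv) (Finset.le_sup (Finset.mem_univ v))⟩
  refine ⟨Fintype.card σ * N + 1, fun j hj => HF_eq_zero fun x hx => ?_⟩
  induction hx using IsWeightedHomogeneous.induction_on with
  | zero => exact A.zero_mem
  | add p q _ _ hp hq => exact A.add_mem hp hq
  | monomial d a hd =>
    have h1 : ∀ k, ∃ v, blk v = ε k ∧ N ≤ d v := by
      intro k
      by_contra hn
      push Not at hn
      have h2 := hj k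
      rw [← hd, Finsupp.weight_apply, Finsupp.sum_fintype _ _ (by simp), Finset.sum_apply] at h2
      have h3 : ∑ v, (d v • wt blk v) (ε k) ≤ ∑ _v : σ, (N : ℤ) := Finset.sum_le_sum fun v _ => by
        by_cases e : blk v = ε k
        · have := (hn v e).le
          simpa [wt, e] using this
        · simp [wt, Ne.symm e]
      simp only [Finset.sum_const, Finset.card_univ, nsmul_eq_mul] at h3
      simp only [nsmul_eq_mul] at h2
      linarith
    choose v hv hv' using h1
    have h2 : ∑ k, Finsupp.single (v k) N ≤ d := fun u => by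
      rw [Finsupp.finsetSum_apply]
      by_cases e : ∃ k, v k = u
      · obtain ⟨k, rfl⟩ := e
        rw [Finset.sum_eq_single k (fun k' _ hk => Finsupp.single_eq_of_ne fun e' => hk (hε (by
          rw [← hv, ← hv, e']))) (by simp), Finsupp.single_eq_same]
        exact hv' k
      · rw [Finset.sum_eq_zero fun k _ => Finsupp.single_eq_of_ne fun e' => e ⟨k, e'.symm⟩]
        exact Nat.zero_le _
    have h3 : (monomial d a : MvPolynomial σ K) =
        monomial (d - ∑ k, Finsupp.single (v k) N) a * (∏ k, X (v k)) ^ N := by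
      rw [← Finset.prod_pow]
      simp only [X_pow_eq_monomial]
      rw [← monomial_sum_one, monomial_mul, tsub_add_cancel_of_le h2, mul_one]
    rw [h3]
    exact A.mul_mem_left _ (hN v hv)

variable {B ρ F : Type} [Fintype B] [Fintype ρ] [Field F] (K : Type) [Field K] [Algebra (MvPolynomial B F) K]

/-- the equation `∑ b_β m_β` over the field `K` of rational functions in the parameters -/
noncomputable def eqn (m : B → MvPolynomial σ F) : MvPolynomial σ K :=
  ∑ β, C (algebraMap (MvPolynomial B F) K (X β)) * map ((algebraMap (MvPolynomial B F) K).comp C) (m β)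

/-- at generic parameters the equations are independent at every relevant point -/
def Good {κ : Type} (ε : κ → ι) (m : ρ → B → MvPolynomial σ F) : Prop :=
  ∀ (Ω : Type) [Field Ω] [IsAlgClosed Ω] [Algebra F Ω] (b : B → Ω) (z : σ → Ω), AlgebraicIndependent F b →
    (∀ k, ∃ v, blk v = ε k ∧ z v ≠ 0) → (∀ r, ∑ β, b β * aeval z (m r β) = 0) →
    ∀ c : ρ → Ω, (∀ β, ∑ r, c r * aeval z (m r β) = 0) → c = 0

variable {blk} [IsFractionRing (MvPolynomial B F) K]

omit [DecidableEq ι] in
theorem base_of_good [DecidableEq ρ] {κ : Type} [Fintype κ] {ε : κ → ι} {m : ρ → B → MvPolynomial σ F}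
    (hg : Good blk ε m)
    {A : Ideal (MvPolynomial σ K)} (hE : ∀ r, eqn K (m r) ∈ A)
    (hh : ∀ ν : ρ → B, map ((algebraMap (MvPolynomial B F) K).comp C) (Matrix.of fun r r' => m r (ν r')).det ∈
      A.radical) (v : κ → σ) (hv : ∀ k, blk (v k) = ε k) : ∏ k, X (v k) ∈ A.radical := by
  rw [Ideal.radical_eq_sInf, Ideal.mem_sInf]
  rintro p ⟨hAp, hp⟩
  by_contra hn
  let Ω := AlgebraicClosure (FractionRing (MvPolynomial σ K ⧸ p))
  let θ : MvPolynomial σ K →+* Ω := (algebraMap (FractionRing (MvPolynomial σ K ⧸ p)) Ω).comp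
    ((algebraMap (MvPolynomial σ K ⧸ p) (FractionRing (MvPolynomial σ K ⧸ p))).comp (Ideal.Quotient.mk p))
  have hθ : ∀ x, θ x = 0 ↔ x ∈ p := fun x => by
    simp only [θ, RingHom.comp_apply, map_eq_zero, FaithfulSMul.algebraMap_eq_zero_iff, Ideal.Quotient.eq_zero_iff_mem]
  letI : Algebra F Ω := ((θ.comp C).comp ((algebraMap (MvPolynomial B F) K).comp C)).toAlgebra
  have h1 : ∀ a : MvPolynomial σ F, aeval (fun u => θ (X u)) a =
      θ (map ((algebraMap (MvPolynomial B F) K).comp C) a) := fun a => by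
    have : ((aeval fun u => θ (X u) : MvPolynomial σ F →ₐ[F] Ω) : MvPolynomial σ F →+* Ω) =
        θ.comp (map ((algebraMap (MvPolynomial B F) K).comp C)) :=
      ringHom_ext (fun a => by simp [RingHom.algebraMap_toAlgebra]) fun u => by simp
    exact DFunLike.congr_fun this a
  have h2 : AlgebraicIndependent F fun β => θ (C (algebraMap (MvPolynomial B F) K (X β))) := by
    have : ((aeval fun β => θ (C (algebraMap (MvPolynomial B F) K (X β))) : MvPolynomial B F →ₐ[F] Ω) :
        MvPolynomial B F →+* Ω) = (θ.comp C).comp (algebraMap (MvPolynomial B F) K) :=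
      ringHom_ext (fun a => by simp [RingHom.algebraMap_toAlgebra]) fun u => by simp
    have h3 : Function.Injective ((θ.comp C).comp (algebraMap (MvPolynomial B F) K)) :=
      (θ.comp C).injective.comp (IsFractionRing.injective _ _)
    rw [← this] at h3
    exact h3
  obtain ⟨ν, hν⟩ := exists_minor (fun r β => aeval (fun u => θ (X u)) (m r β))
    (hg Ω _ (fun u => θ (X u)) h2 (fun k => ⟨v k, hv k, fun e => hn
      (Ideal.mem_of_dvd p (Finset.dvd_prod_of_mem _ (Finset.mem_univ k)) ((hθ _).1 e))⟩) fun r => by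
      have := (hθ _).2 (hAp (hE r))
      simpa only [eqn, map_sum, map_mul, h1] using this)
  have h4 := (hθ _).2 ((hp.radical_le_iff.2 hAp) (hh ν))
  rw [← h1, AlgHom.map_det] at h4
  exact hν h4

theorem int_mem [CharZero K] [Fintype ι] [Finite σ] {κ : Type} [Fintype κ] {ε : κ → ι} (hε : Function.Injective ε)
    {m : ρ → B → MvPolynomial σ F} {dg : ρ → ι → ℤ}
    (hm : ∀ r β, IsWeightedHomogeneous (wt blk) (m r β) (dg r)) (hg : Good blk ε m) (T₀ : Set σ)
    {A : Ideal (MvPolynomial σ K)} (hA : Gr (wt blk) A) (hT : ∀ v ∈ T₀, X v ∈ A) (hE : ∀ r, eqn K (m r) ∈ A) :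
    HF (wt blk) A ∈ Cl (HF (wt blk) (Ideal.span (X '' T₀ ∪ Set.range fun r => eqn K (m r)))) ⊔ Ev0 ε := by
  classical
  let E0 : ρ → MvPolynomial σ (MvPolynomial B F) := fun r => ∑ β, C (X β) * map C (m r β)
  have e1 : ∀ r, map (algebraMap (MvPolynomial B F) K) (E0 r) = eqn K (m r) := fun r => by
    simp only [E0, eqn, map_sum, map_mul, map_C, map_map]
  have hd : ∀ (ν : ρ → B) (s : ρ), ∃ (d : Der (MvPolynomial σ (MvPolynomial B F))) (γ : ι → ℤ), (∀ x, d.Nil x) ∧
      (∀ j x, IsWeightedHomogeneous (wt blk) x j → IsWeightedHomogeneous (wt blk) (d.D x) (j + γ)) ∧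
      (∀ a : MvPolynomial σ F, d.D (map C a) = 0) ∧ (∀ r, r ≠ s → d.D (E0 r) = 0) ∧
      d.D (E0 s) = map C (Matrix.of fun r r' => m r (ν r')).det := by
    intro ν s
    let M : Matrix ρ ρ (MvPolynomial σ F) := Matrix.of fun r r' => m r (ν r')
    obtain ⟨d, h1, h2⟩ := exists_der fun β => ∑ r', if ν r' = β then M.adjugate r' s else 0
    have h3 : ∀ r, d.D (E0 r) = map C ((M * M.adjugate) r s) := fun r => by
      simp only [E0, map_sum, d.mul, h1, h2, mul_zero, zero_add, ← map_mul, Finset.mul_sum]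
      rw [Finset.sum_comm, Matrix.mul_apply, map_sum]
      refine Finset.sum_congr rfl fun r' _ => ?_
      rw [Finset.sum_eq_single (ν r') (fun β _ hβ => by simp [Ne.symm hβ]) (by simp)]
      simp [M]
    refine ⟨d, ∑ r, Function.update dg s 0 r, der_nil h1 h2, der_hom (fun β => ?_) h1 h2, h1, fun r hr => ?_, ?_⟩
    · refine IsWeightedHomogeneous.sum _ _ _ fun r' _ => ?_
      split_ifs
      · rw [Matrix.adjugate_apply]
        refine det_hom _ _ fun r r'' => ?_
        by_cases e : r = s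
        · rw [e, Matrix.updateRow_self, Function.update_self, Pi.single_apply]
          split_ifs
          · exact isWeightedHomogeneous_one _ _
          · exact isWeightedHomogeneous_zero _ _ _
        · rw [Matrix.updateRow_ne e, Function.update_of_ne e]
          exact hm _ _
      · exact isWeightedHomogeneous_zero _ _ _
    · rw [h3, Matrix.mul_adjugate, Matrix.smul_apply, Matrix.one_apply_ne hr, smul_zero, map_zero]
    · rw [h3, Matrix.mul_adjugate, Matrix.smul_apply, Matrix.one_apply_eq, smul_eq_mul, mul_one]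
  rw [← Set.image_univ]
  refine main_abs (fin_wt blk K) (tot ι) (fun v => by rw [tot_wt]; exact one_pos) T₀ (fun r => eqn K (m r)) dg
    (fun r => IsWeightedHomogeneous.sum _ _ _ fun β _ => (hom_map _ (hm r β)).C_mul _)
    (fun ν : ρ → B => map ((algebraMap (MvPolynomial B F) K).comp C) (Matrix.of fun r r' => m r (ν r')).det)
    (St_Ev0 ε) (fun A _ h1 h2 => ev0_of_rad blk hε (base_of_good K hg h1 h2)) (fun ν s A hA hs => ?_)
    (fun ν s T hs g hg => ?_) hA hT hE
  · obtain ⟨d, γ, d1, d2, d3, d4, d5⟩ := hd ν s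
    obtain ⟨A', a1, a2, a3, a4, a5⟩ := tilde_der (K := K) d d1 d2 (E := E0 s) (by rw [d5, d3]) hA (by rwa [e1])
    rw [e1, d5, map_map] at a4 a5
    refine ⟨A', a1, a2, fun v h => ?_, fun r hr h => ?_, fun ν' h => ?_, a4, a5⟩
    · simpa using a3 (X v) (by simpa using d3 (X v)) (by simpa using h)
    · rw [← e1] at h ⊢
      exact a3 _ (d4 r hr) h
    · obtain ⟨n, hn⟩ := h
      refine ⟨n, ?_⟩
      rw [← map_pow, ← map_map] at hn ⊢
      exact a3 _ (d3 _) hn
  · obtain ⟨d, γ, d1, -, d3, d4, d5⟩ := hd ν s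
    have e2 : Ideal.span (X '' T₀ ∪ (fun r => eqn K (m r)) '' T) =
        (Ideal.span (X '' T₀ ∪ E0 '' T)).map (map (algebraMap (MvPolynomial B F) K)) := by
      rw [Ideal.map_span, Set.image_union, Set.image_image, Set.image_image]
      simp only [e1, map_X]
    rw [e2] at hg ⊢
    have := ar_der (K := K) d d1 (E := E0 s) (by rw [d5, d3]) (s := X '' T₀ ∪ E0 '' T)
      (by
        rintro _ (⟨v, -, rfl⟩ | ⟨r, hr, rfl⟩)
        · simpa using d3 (X v)
        · exact d4 r fun e => hs (e ▸ hr)) (g := g) (by rwa [e1])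
    rwa [d5, map_map] at this

end Crest.Agent.R181.I0
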