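import Crest.Agent.R181.I0a

/-!
# R181/I0e: from ideals to finitely generated graded modules (helper60)
-/

set_option autoImplicit false

namespace Crest.Agent.R181.I0

open MvPolynomial Module

variable {G : Type} [AddCommGroup G] {K σ : Type} [Field K] {w : σ → G}
variable {V : Type} [AddCommGroup V] [Module K V] [Module (MvPolynomial σ K) V]
  [IsScalarTower K (MvPolynomial σ K) V]

/-- a grading on a module -/
structure GrMod (w : σ → G) (K : Type) [Field K] (V : Type) [AddCommGroup V] [Module K V]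
    [Module (MvPolynomial σ K) V] where
  pc : G → Submodule K V
  π : G → V →+ V
  π_mem : ∀ j v, π j v ∈ pc j
  π_self : ∀ j, ∀ v ∈ pc j, π j v = v
  smul_mem : ∀ (x : MvPolynomial σ K) i d, IsWeightedHomogeneous w x i → ∀ v ∈ pc d, x • v ∈ pc (i + d)
  π_smul : ∀ (x : MvPolynomial σ K) j d, ∀ v ∈ pc d, π j (x • v) = weightedHomogeneousComponent w (j - d) x • v
  mem_of : ∀ (W : Submodule (MvPolynomial σ K) V) v, (∀ j, π j v ∈ W) → v ∈ W
  fin : ∀ j, FiniteDimensional K (pc j)

namespace GrMod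

variable (Γ : GrMod w K V)

/-- graded submodules -/
def Gr (W : Submodule (MvPolynomial σ K) V) : Prop := ∀ v ∈ W, ∀ j, Γ.π j v ∈ W

/-- Hilbert function of the quotient -/
noncomputable def HF (W : Submodule (MvPolynomial σ K) V) (j : G) : ℤ :=
  (finrank K (Γ.pc j) : ℤ) - finrank K (Γ.pc j ⊓ W.restrictScalars K : Submodule K V)

variable {Γ}

omit [IsScalarTower K (MvPolynomial σ K) V] in
theorem Gr.sup_span {W : Submodule (MvPolynomial σ K) V} (hW : Γ.Gr W) {g : V} {d : G} (hg : g ∈ Γ.pc d) :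
    Γ.Gr (W ⊔ Submodule.span _ {g}) := by
  intro x hx j
  obtain ⟨a, ha, b, hb, rfl⟩ := Submodule.mem_sup.1 hx
  obtain ⟨c, rfl⟩ := Submodule.mem_span_singleton.1 hb
  rw [map_add, Γ.π_smul _ _ _ _ hg]
  exact Submodule.add_mem_sup (hW a ha j) (Submodule.mem_span_singleton.2 ⟨_, rfl⟩)

omit [IsScalarTower K (MvPolynomial σ K) V] in
theorem Gr.colon {W : Submodule (MvPolynomial σ K) V} (hW : Γ.Gr W) {g : V} {d : G} (hg : g ∈ Γ.pc d) :
    I0.Gr w (W.colon {g}) := by
  intro x hx j
  rw [Submodule.mem_colon_singleton] at hx ⊢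
  have := hW _ hx (j + d)
  rwa [Γ.π_smul _ _ _ _ hg, add_sub_cancel_right] at this

theorem HF_add (hfin : ∀ j, FiniteDimensional K (weightedHomogeneousSubmodule K w j))
    {W : Submodule (MvPolynomial σ K) V} (hW : Γ.Gr W) {g : V} {d : G} (hg : g ∈ Γ.pc d) :
    Γ.HF W = Γ.HF (W ⊔ Submodule.span _ {g}) + sh d (I0.HF w (W.colon {g})) := by
  funext j
  have := Γ.fin j
  have := hfin (j - d)
  let f : MvPolynomial σ K →ₗ[K] V := (LinearMap.toSpanSingleton (MvPolynomial σ K) V g).restrictScalars K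
  have hf : ∀ x, f x = x • g := fun _ => rfl
  have h := rank_sup f (weightedHomogeneousSubmodule K w (j - d)) (Γ.pc j ⊓ W.restrictScalars K)
  have hm : ∀ x ∈ weightedHomogeneousSubmodule K w (j - d), x • g ∈ Γ.pc j := fun x hx => by
    have := Γ.smul_mem x _ _ hx g hg
    rwa [sub_add_cancel] at this
  have e1 : (Γ.pc j ⊓ W.restrictScalars K) ⊔ (weightedHomogeneousSubmodule K w (j - d)).map f =
      Γ.pc j ⊓ (W ⊔ Submodule.span _ {g}).restrictScalars K := by
    refine le_antisymm (sup_le (inf_le_inf_left _ fun x hx => Submodule.mem_sup_left hx) ?_) ?_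
    · rintro _ ⟨x, hx, rfl⟩
      exact ⟨hm x hx, Submodule.mem_sup_right (Submodule.mem_span_singleton.2 ⟨x, rfl⟩)⟩
    · rintro x ⟨hx, hx'⟩
      obtain ⟨a, ha, b, hb, e⟩ := Submodule.mem_sup.1 hx'
      obtain ⟨c, rfl⟩ := Submodule.mem_span_singleton.1 hb
      rw [← Γ.π_self j x hx, ← e, map_add, Γ.π_smul _ _ _ _ hg]
      exact Submodule.add_mem_sup ⟨Γ.π_mem _ _, hW a ha j⟩ ⟨_, weightedHomogeneousComponent_mem _ _ _, rfl⟩
  have e2 : weightedHomogeneousSubmodule K w (j - d) ⊓ (Γ.pc j ⊓ W.restrictScalars K).comap f =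
      weightedHomogeneousSubmodule K w (j - d) ⊓ (W.colon {g}).restrictScalars K := by
    ext x
    constructor
    · rintro ⟨hx, -, hx'⟩
      exact ⟨hx, Submodule.mem_colon_singleton.2 hx'⟩
    · rintro ⟨hx, hx'⟩
      exact ⟨hx, hm x hx, Submodule.mem_colon_singleton.1 hx'⟩
  rw [e1, e2] at h
  simp only [Pi.add_apply, sh_apply, HF, I0.HF]
  omega

/-- filtration by cyclic modules -/
theorem filt [IsNoetherian (MvPolynomial σ K) V]
    (hfin : ∀ j, FiniteDimensional K (weightedHomogeneousSubmodule K w j))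
    {L : AddSubgroup (G → ℤ)} (hL : St L) {W W' : Submodule (MvPolynomial σ K) V} (hW : Γ.Gr W) (hW' : Γ.Gr W')
    (hle : W ≤ W')
    (h : ∀ A : Ideal (MvPolynomial σ K), I0.Gr w A → (∀ x, (∀ v ∈ W', x • v ∈ W) → x ∈ A) → I0.HF w A ∈ L) :
    Γ.HF W - Γ.HF W' ∈ L := by
  have key : ∀ C : Submodule (MvPolynomial σ K) V, Γ.Gr C → W ≤ C → C ≤ W' → Γ.HF C - Γ.HF W' ∈ L := by
    intro C
    induction C using IsNoetherian.induction with
    | hgt C ih =>
      intro hC h1 h2
      by_cases e : W' ≤ C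
      · rw [le_antisymm h2 e, sub_self]
        exact L.zero_mem
      · obtain ⟨x, hx, hxC⟩ := Set.not_subset.1 e
        obtain ⟨j, hj⟩ : ∃ j, Γ.π j x ∉ C := by
          by_contra hn
          push Not at hn
          exact hxC (Γ.mem_of C x hn)
        have hg := Γ.π_mem j x
        have hgA := hW' x hx j
        rw [HF_add hfin hC hg, add_sub_right_comm]
        refine L.add_mem (ih _ ?_ (hC.sup_span hg) (h1.trans le_sup_left)
          (sup_le h2 ((Submodule.span_singleton_le_iff_mem _ _).2 hgA))) (hL _ _ (h _ (hC.colon hg) fun y hy =>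
            Submodule.mem_colon_singleton.2 (h1 (hy _ hgA))))
        exact lt_of_le_of_ne le_sup_left fun e =>
          hj (e ▸ Submodule.mem_sup_right (Submodule.mem_span_singleton_self _))
  exact key W hW le_rfl hle

theorem HF_mem [IsNoetherian (MvPolynomial σ K) V]
    (hfin : ∀ j, FiniteDimensional K (weightedHomogeneousSubmodule K w j))
    {L : AddSubgroup (G → ℤ)} (hL : St L) {W : Submodule (MvPolynomial σ K) V} (hW : Γ.Gr W)
    (h : ∀ A : Ideal (MvPolynomial σ K), I0.Gr w A → (∀ x, (∀ v, x • v ∈ W) → x ∈ A) → I0.HF w A ∈ L) :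
    Γ.HF W ∈ L := by
  have h1 := filt hfin hL hW (W' := ⊤) (fun _ _ _ => trivial) le_top fun A hA h' =>
    h A hA fun x hx => h' x fun v _ => hx v
  have h2 : Γ.HF ⊤ = 0 := by
    funext j
    rw [HF, Submodule.restrictScalars_top, inf_top_eq, sub_self, Pi.zero_apply]
  rwa [h2, sub_zero] at h1

end GrMod

end Crest.Agent.R181.I0
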