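import Crest.Agent.R181.GBox
import Crest.Agent.R181.I0d
import Crest.Agent.R181.I0e

/-! # Integrality over the field of parameters (sub-lead helper60; auxiliary files `R181/I0*.lean`) -/

set_option autoImplicit false

namespace Crest.Agent.R181

open MvPolynomial

/-- the grading of a free module -/
noncomputable def zero_gr {G K σ P : Type} [AddCommGroup G] [Field K] [Fintype P] (w : σ → G)
    (hfin : ∀ j, FiniteDimensional K (weightedHomogeneousSubmodule K w j)) (sh : P → G) :
    I0.GrMod w K (P → MvPolynomial σ K) where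
  pc j := Submodule.pi Set.univ fun k => weightedHomogeneousSubmodule K w (j - sh k)
  π j := AddMonoidHom.mk' (fun x k => weightedHomogeneousComponent w (j - sh k) (x k)) fun x y => by
    funext k
    simp
  π_mem j v k _ := weightedHomogeneousComponent_mem _ _ _
  π_self j v hv := funext fun k => weightedHomogeneousComponent_eq_self (hv k trivial)
  smul_mem x i d hx v hv k _ := by
    have := IsWeightedHomogeneous.mul hx (hv k trivial)
    rw [← add_sub_assoc] at this
    exact this
  π_smul x j d v hv := funext fun k => by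
    have := I0.comp_mul w (hv k trivial) (j - sh k) x
    rwa [sub_sub_sub_cancel_right] at this
  mem_of W v h := by
    classical
    let T : Finset G := Finset.univ.biUnion fun k => (v k).support.image fun d => Finsupp.weight w d + sh k
    have e : v = ∑ j ∈ T, fun k => weightedHomogeneousComponent w (j - sh k) (v k) := by
      funext k
      ext d
      rw [Finset.sum_apply, coeff_sum]
      simp only [coeff_weightedHomogeneousComponent]
      rw [Finset.sum_eq_single (Finsupp.weight w d + sh k) (fun j _ hj => if_neg fun e => hj (by rw [e, sub_add_cancel]))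
        fun hn => ?_, add_sub_cancel_right, if_pos rfl]
      rw [add_sub_cancel_right, if_pos rfl]
      by_contra h0
      exact hn (Finset.mem_biUnion.2 ⟨k, Finset.mem_univ k, Finset.mem_image.2 ⟨d, mem_support_iff.2 h0, rfl⟩⟩)
    rw [e]
    exact W.sum_mem fun j _ => h j
  fin j := Module.Finite.iff_fg.2 (Submodule.fg_pi fun k => Module.Finite.iff_fg.1 (hfin _))

theorem zero_wt_le {σ ι : Type} [DecidableEq ι] (blk : σ → ι) (d : σ →₀ ℕ) (v : σ) :
    (d v : ℤ) ≤ Finsupp.weight (I0.wt blk) d (blk v) := by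
  by_cases h : v ∈ d.support
  · rw [Finsupp.weight_apply, Finsupp.sum, Finset.sum_apply]
    refine le_trans ?_ (Finset.single_le_sum (f := fun u => (d u • I0.wt blk u) (blk v)) (fun u _ => ?_) h)
    · simp [I0.wt]
    · simp only [I0.wt, Pi.smul_apply, Pi.single_apply]
      split_ifs <;> simp
  · rw [Finsupp.notMem_support_iff.1 h, Finsupp.weight_apply, Finsupp.sum, Finset.sum_apply]
    refine Finset.sum_nonneg fun u _ => ?_
    simp only [I0.wt, Pi.smul_apply, Pi.single_apply]
    split_ifs <;> simp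

theorem zero_wt_zero {σ ι : Type} [DecidableEq ι] (blk : σ → ι) (d : σ →₀ ℕ) (c : ι)
    (h : ∀ v, blk v = c → d v = 0) : Finsupp.weight (I0.wt blk) d c = 0 := by
  rw [Finsupp.weight_apply, Finsupp.sum, Finset.sum_apply]
  refine Finset.sum_eq_zero fun u _ => ?_
  by_cases e : blk u = c
  · rw [h u e, zero_smul, Pi.zero_apply]
  · simp [I0.wt, Ne.symm e]

theorem zero_blk {σ ι : Type} [DecidableEq ι] {blk : σ → ι} {c : ι} {a : ℤ} {d : σ →₀ ℕ}
    (h : Finsupp.weight (I0.wt blk) d = Pi.single c a) {v : σ} (hv : v ∈ d.support) : blk v = c := by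
  by_contra e
  have := zero_wt_le blk d v
  rw [h, Pi.single_eq_of_ne e] at this
  exact Finsupp.mem_support_iff.1 hv (by omega)

theorem zero_good {ι τ B : Type} [DecidableEq ι] [Fintype τ] [Fintype B] {ob : τ → ι} {a : τ → ℕ}
    (ha : ∀ t, 1 ≤ a t) {m : τ → B → MvPolynomial (Var ι τ) ℂ}
    (hm : ∀ t β, (m t β).IsWeightedHomogeneous (I0.wt (blkOf ob)) (Pi.single (ob t) (a t : ℤ)))
    (hgood : Good ob m) (s : Finset ι) :
    I0.Good (blkOf ob) (Subtype.val : s → ι) fun t : {t // ob t ∈ s} => m t.1 := by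
  intro Ω _ _ _ b z hb hz he c hc
  let z' : Var ι τ → Ω := fun v => if blkOf ob v ∈ s then z v else 0
  have h1 : ∀ t β, ob t ∈ s → aeval z' (m t β) = aeval z (m t β) := fun t β ht => by
    rw [aeval_def, aeval_def, eval₂_eq, eval₂_eq]
    refine Finset.sum_congr rfl fun d hd => ?_
    congr 1
    refine Finset.prod_congr rfl fun v hv => ?_
    simp only [z']
    rw [zero_blk (hm t β (mem_support_iff.1 hd)) hv, if_pos ht]
  have h2 : ∀ t β, ob t ∉ s → aeval z' (m t β) = 0 := fun t β ht => by
    rw [aeval_def, eval₂_eq]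
    refine Finset.sum_eq_zero fun d hd => ?_
    have h3 := hm t β (mem_support_iff.1 hd)
    obtain ⟨v, hv⟩ : d.support.Nonempty := by
      rw [Finsupp.support_nonempty_iff]
      rintro rfl
      have := congrFun h3 (ob t)
      have := ha t
      simp at *
      omega
    rw [Finset.prod_eq_zero hv, mul_zero]
    simp only [z']
    rw [zero_blk h3 hv, if_neg ht, zero_pow (Finsupp.mem_support_iff.1 hv)]
  funext t
  have := hgood Ω b hb z' (fun t => if h : ob t ∈ s then c ⟨t, h⟩ else 0) (fun t => ?_) (fun β => ?_) t.1 ?_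
  · simpa [t.2] using this
  · by_cases ht : ob t ∈ s
    · simp only [h1 t _ ht]
      exact he ⟨t, ht⟩
    · simp [h2 t _ ht]
  · rw [← hc β, ← Fintype.sum_subtype_add_sum_subtype fun t => ob t ∈ s,
      Finset.sum_eq_zero (s := (Finset.univ : Finset {t // ¬ ob t ∈ s})) fun t _ => by rw [h2 _ _ t.2, mul_zero],
      add_zero]
    exact Finset.sum_congr rfl fun t _ => by rw [dif_pos t.2, h1 _ _ t.2]
  · obtain ⟨v, hv, hv'⟩ := hz ⟨ob t.1, t.2⟩
    exact ⟨v, hv, by simp only [z']; rwa [hv, if_pos t.2]⟩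

theorem zero_io {K σ : Type} [Field K] (x : MvPolynomial σ K) : io K K σ x = x := by
  have : io K K σ = RingHom.id _ := by
    rw [io, Algebra.algebraMap_self]
    exact AddMonoidAlgebra.mapRingHom_id
  rw [this]
  rfl

theorem zero_lin {B σ : Type} [Fintype B] (m : B → MvPolynomial σ ℂ) : lin m = I0.eqn (KB B) m := by
  rw [lin, I0.eqn, IsScalarTower.algebraMap_eq ℂ (MvPolynomial B ℂ) (KB B)]
  rfl

theorem int_zero {ι τ B : Type} [Fintype ι] [DecidableEq ι] [Fintype τ] [DecidableEq τ] [Fintype B]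
    (N : Blocks (KB B) ι τ) (m : τ → B → MvPolynomial (Var ι τ) ℂ)
    (hE : ∀ t, N.E t = lin (m t))
    (hm : ∀ t β, (m t β).IsWeightedHomogeneous N.wt (Pi.single (N.ob t) (N.a t : ℤ)))
    (hgood : Good N.ob m) (s : Finset ι) : N.INT (KB B) s := by
  intro P _ sh W hsh hW hEW
  have : CharZero (KB B) := charZero_of_injective_algebraMap (algebraMap ℂ (KB B)).injective
  have hfin := I0.fin_wt N.blk (KB B)
  let Γ := zero_gr (I0.wt N.blk) hfin sh
  have p1 : ∀ j, N.pc1 (KB B) j = weightedHomogeneousSubmodule (KB B) (I0.wt N.blk) j := fun j =>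
    (weightedHomogeneousSubmodule_eq_finsupp_supported _ _ _).symm
  have p2 : ∀ j, N.piece (KB B) sh j = Γ.pc j := fun j => by
    simp only [Blocks.piece, Γ, zero_gr, weightedHomogeneousSubmodule_eq_finsupp_supported, eq_sub_iff_add_eq']
    rfl
  have p3 : ∀ j x, N.cmp (KB B) sh j x = Γ.π j x := fun j x => by
    funext k
    refine MvPolynomial.ext _ _ fun d => ?_
    change _ = coeff d (weightedHomogeneousComponent _ (j - sh k) (x k))
    rw [coeff_weightedHomogeneousComponent]
    simp only [eq_sub_iff_add_eq']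
    rfl
  let T : Set (Var ι τ) := {v | N.blk v ∉ s}
  let W2 : Submodule (MvPolynomial (Var ι τ) (KB B)) (P → MvPolynomial (Var ι τ) (KB B)) :=
    Submodule.pi Set.univ fun _ => Ideal.span (X '' T)
  have hT : I0.Gr (I0.wt N.blk) (Ideal.span (X '' T) : Ideal (MvPolynomial (Var ι τ) (KB B))) :=
    I0.Gr_span (by rintro _ ⟨v, -, rfl⟩; exact ⟨_, isWeightedHomogeneous_X _ _ v⟩)
  have hW' : Γ.Gr W := fun x hx j => p3 j x ▸ hW x hx j
  have hWW : Γ.Gr (W ⊔ W2) := fun x hx j => by
    obtain ⟨a, ha, b, hb, rfl⟩ := Submodule.mem_sup.1 hx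
    rw [map_add]
    exact Submodule.add_mem_sup (hW' a ha j) fun k _ => hT _ (hb k trivial) _
  have e0 : (Ideal.span (X '' T ∪ Set.range fun t : {t // N.ob t ∈ s} => I0.eqn (KB B) (m t.1)) :
      Ideal (MvPolynomial (Var ι τ) (KB B))) = N.idS (KB B) s := by
    rw [Blocks.idS, Set.union_comm]
    congr 2
    ext x
    simp only [zero_io, hE, zero_lin, Set.mem_range, Set.mem_image, Set.mem_ofPred_eq, Subtype.exists, exists_prop]
  have key := I0.GrMod.HF_mem hfin
    ((I0.St_Cl (I0.HF (I0.wt N.blk) (N.idS (KB B) s))).sup (I0.St_Ev0 (Subtype.val : s → ι))) hWW fun A hA h => by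
      rw [← e0]
      refine I0.int_mem (blk := N.blk) (m := fun t : {t // N.ob t ∈ s} => m t.1)
        (dg := fun t => Pi.single (N.ob t.1) (N.a t.1 : ℤ)) (KB B) Subtype.val_injective (fun t β => hm t.1 β)
        (zero_good N.a_pos hm hgood s) T hA
        (fun v hv => h _ fun x => Submodule.mem_sup_right fun k _ =>
          Ideal.mul_mem_right _ _ (Ideal.subset_span ⟨v, hv, rfl⟩)) fun t => h _ fun x => Submodule.mem_sup_left ?_
      have := hEW t.1 t.2 x
      rwa [zero_io, hE, zero_lin] at this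
  obtain ⟨n, J, hn⟩ := I0.exists_of_mem_sup key
  obtain ⟨J', hJ'⟩ := N.ncard_box s
  obtain ⟨M, hM⟩ := ((n.support ×ˢ s).finite_toSet.image fun p => p.1 p.2).bddAbove
  have hb : ∀ j, I0.HF (I0.wt N.blk) (N.idS (KB B) s) j = ({d | d ∈ N.boxS s ∧ N.dg d = j}.ncard : ℕ) := fun j => by
    have := N.finrank_box (KB B) s j
    rw [p1] at this
    rw [I0.HF, this]
    push_cast
    exact add_sub_cancel_left _ _
  refine ⟨n.filter fun r => ∀ c, c ∉ s → r c = 0, max J (J' + M), fun j h1 h2 => ?_⟩
  have e3 : Γ.pc j ⊓ W.restrictScalars (KB B) = Γ.pc j ⊓ (W ⊔ W2).restrictScalars (KB B) := by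
    refine le_antisymm (inf_le_inf_left _ fun x hx => Submodule.mem_sup_left hx) ?_
    rintro x ⟨hx, hx'⟩
    refine ⟨hx, ?_⟩
    obtain ⟨a, ha, b, hb, e⟩ := Submodule.mem_sup.1 hx'
    have h0 : Γ.π j b = 0 := funext fun k => by
      have h3 := hT _ (hb k trivial) (j - sh k)
      change weightedHomogeneousComponent _ (j - sh k) (b k) = 0
      refine support_eq_empty.1 (Finset.eq_empty_of_forall_notMem fun d hd => ?_)
      obtain ⟨v, hv, hv'⟩ := mem_ideal_span_X_image.1 h3 d hd
      have h4 := zero_wt_le N.blk d v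
      rw [weightedHomogeneousComponent_isWeightedHomogeneous _ _ (mem_support_iff.1 hd), Pi.sub_apply, h2 _ hv,
        hsh k _ hv] at h4
      omega
    rw [← Γ.π_self j x hx, ← e, map_add, h0, add_zero]
    exact hW' a ha j
  have e1 : N.hq (KB B) sh W j = Γ.HF (W ⊔ W2) j := by
    rw [Blocks.hq, I0.GrMod.HF, p2, ← e3]
  rw [e1, hn j fun k => (le_max_left _ _).trans (h1 k.1 k.2), Finsupp.sum_filter_index, Finsupp.sum,
    Finsupp.support_filter, Finset.sum_filter]
  refine Finset.sum_congr rfl fun r hr => ?_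
  rw [hb]
  split_ifs with h
  · rw [hJ' (j - r) (fun c hc => ?_) fun c hc => by rw [Pi.sub_apply, h2 c hc, h c hc, sub_zero]]
    have h3 : r c ≤ M := hM ⟨(r, c), by simp [Finsupp.mem_support_iff.1 hr, hc], rfl⟩
    have h4 := (le_max_right _ _).trans (h1 c hc)
    rw [Pi.sub_apply]
    linarith
  · push Not at h
    obtain ⟨c, hc, hc'⟩ := h
    have : {d | d ∈ N.boxS s ∧ N.dg d = j - r} = ∅ := by
      refine Set.eq_empty_of_forall_notMem fun d hd => hc' ?_
      have h3 := zero_wt_zero N.blk d c fun v hv => hd.1.2 v (hv ▸ hc)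
      have h4 := congrFun hd.2 c
      rw [Pi.sub_apply, h2 c hc] at h4
      have h5 : N.dg d c = 0 := h3
      omega
    rw [this, Set.ncard_empty, Nat.cast_zero, mul_zero]

end Crest.Agent.R181
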