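import Crest.Agent.R181.GIter
import Crest.Agent.R181.GZero
import Crest.Agent.R181.GGood
import Crest.Agent.R181.GLeaf
import Crest.Agent.R181.GReg
import Crest.Agent.R181.GTel
import Crest.Agent.R181.GFin
import Crest.Agent.R181.EF

/-! # Assembly of row 181 -/

set_option autoImplicit false

namespace Crest.Agent.R181

open MvPolynomial

theorem main_concl {n : ℕ} (a : Fin n → ℕ) (ha : Monotone a) (ha2 : ∀ i, 2 ≤ a i)
    (I : Ideal (MvPolynomial (Fin n) ℂ))
    (hI : ∀ g ∈ I, ∀ d : ℕ, MvPolynomial.homogeneousComponent d g ∈ I)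
    (f : Fin n → MvPolynomial (Fin n) ℂ) (hf : ∀ i, (f i).IsHomogeneous (a i))
    (hfI : ∀ i, f i ∈ I)
    (hreg : RingTheory.Sequence.IsRegular (MvPolynomial (Fin n) ℂ) (List.ofFn f)) :
    Concl a I := by
  have ha1 : ∀ i, 1 ≤ a i := fun i => le_trans (by norm_num) (ha2 i)
  obtain ⟨ι, _, _, N, κ, _, ⟨L⟩⟩ := exists_leaf a f
  have hN := exists_monomial_mem a ha1 f hf hreg
  have hint := int_zero (L.blocks ha1) L.m (fun _ => rfl) (fun t β => L.m_whom t β)
    (L.good ha ha1 hf hN)
  obtain ⟨D, _, _, Φ, hlin, hE, hin⟩ := (L.blocks ha1).iter hint n N.rk N.src N.src_rk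
    (fun p => map (algebraMap ℂ (KB (Par N κ))) (L.lf p)) (fun p => (L.lf_hom p).map _)
  letI : Algebra ℂ D := Algebra.compHom D (algebraMap ℂ (KB (Par N κ)))
  have htel := L.telescope ha1 Φ hE hin
  have hio : ∀ g : MvPolynomial (Fin n) ℂ,
      io (KB (Par N κ)) D _ (map (algebraMap ℂ (KB (Par N κ))) g) = iota D n g := by
    intro g
    ext m
    simp only [io, iota, AddMonoidAlgebra.coeff_mapRingHom]
    change algebraMap _ D (coeff m (map _ g)) = algebraMap ℂ D (coeff m g)
    rw [coeff_map]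
    rfl
  refine result_of_skew a ha ha2 I hI (fun j => Φ (X (Sum.inr (N.ro j)))) (fun j => hlin _)
    (fun i j => (Commute.all _ _).map Φ) ?_
    (fun i j => algebraMap (KB (Par N κ)) D (bb (Sum.inl (Sum.inr (N.ro j), i)))) ?_ ?_
  · obtain ⟨e, he⟩ := L.monomial_mem_F hf hN
    refine ⟨e, fun m hm => ?_⟩
    have h1 : ∀ g ∈ Ideal.span (Set.range L.F), io (KB (Par N κ)) D _ g ∈
        Ideal.span (Set.range fun j => Φ (X (Sum.inr (N.ro j)))) := by
      intro g hg
      induction hg using Submodule.span_induction with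
      | mem x hx =>
        obtain ⟨i, rfl⟩ := hx
        rw [← htel i]
        refine Submodule.sum_mem _ fun j _ => ?_
        obtain ⟨k, hk⟩ : ∃ k, a i = k + 1 := ⟨a i - 1, by have := ha1 i; omega⟩
        rw [hk, pow_succ, ← smul_mul_assoc]
        exact Ideal.mul_mem_left _ _ (Ideal.subset_span ⟨j, rfl⟩)
      | zero => simp
      | add x y _ _ hx hy => rw [map_add]; exact add_mem hx hy
      | smul c x _ hx => rw [smul_eq_mul, map_mul]; exact Ideal.mul_mem_left _ _ hx
    have h2 := h1 _ (he m hm)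
    have h3 : io (KB (Par N κ)) D _ (monomial m (1 : KB (Par N κ))) =
        AddMonoidAlgebra.single m (1 : D) := by
      rw [io, ← map_one (algebraMap (KB (Par N κ)) D), ← AddMonoidAlgebra.mapRingHom_single]
      rfl
    rwa [h3] at h2
  · intro i
    exact (map_ne_zero _).2 (Leaf.bb_ne_zero _)
  · intro i
    rw [htel i, Leaf.F, map_sum]
    refine Submodule.sum_mem _ fun k _ => ?_
    rw [map_mul, hio]
    refine Ideal.mul_mem_left _ _ (Ideal.subset_span ⟨_, ?_, rfl⟩)
    exact (Ideal.span_le.2 (by rintro _ ⟨j, rfl⟩; exact hfI j)) (L.g_mem i k)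

end Crest.Agent.R181
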