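import Crest.Agent.R181.GDefs

/-! # Existence of the net (prefix `net_`) -/

set_option autoImplicit false

namespace Crest.Agent.R181

open MvPolynomial

/-- number of steps of level `≥ j` -/
def net_T (n M j : ℕ) : ℕ := M * 2 ^ (n - j)

theorem net_T_succ {n : ℕ} (M : ℕ) {j : ℕ} (h : j < n) : net_T n M j = 2 * net_T n M (j + 1) := by
  unfold net_T
  have : n - j = (n - (j + 1)) + 1 := by omega
  rw [this, pow_succ]
  ring

theorem net_T_pos (n : ℕ) {M : ℕ} (hM : 0 < M) (j : ℕ) : 0 < net_T n M j := by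
  unfold net_T
  positivity

theorem net_T_anti (n M : ℕ) {i j : ℕ} (h : i ≤ j) : net_T n M j ≤ net_T n M i := by
  unfold net_T
  exact Nat.mul_le_mul_left _ (Nat.pow_le_pow_right (by norm_num) (by omega))

/-- the level of a step -/
def net_lv (n M : ℕ) (x : Fin (net_T n M 0)) : ℕ := Nat.findGreatest (fun j => x.val < net_T n M j) n

theorem net_lv_le (n M : ℕ) (x : Fin (net_T n M 0)) : net_lv n M x ≤ n := Nat.findGreatest_le n

theorem net_lt_T (n M : ℕ) (x : Fin (net_T n M 0)) : x.val < net_T n M (net_lv n M x) :=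
  Nat.findGreatest_spec (P := fun j => x.val < net_T n M j) (Nat.zero_le n) x.2

theorem net_le_lv {n M : ℕ} {x : Fin (net_T n M 0)} {j : ℕ} (hj : j ≤ n) :
    j ≤ net_lv n M x ↔ x.val < net_T n M j :=
  ⟨fun h => (net_lt_T n M x).trans_le (net_T_anti n M h),
    fun h => Nat.le_findGreatest (P := fun j => x.val < net_T n M j) hj h⟩

theorem net_lv_eq {n M : ℕ} {x : Fin (net_T n M 0)} {j : ℕ} (hj : j < n) (h1 : x.val < net_T n M j)
    (h2 : net_T n M (j + 1) ≤ x.val) : net_lv n M x = j := by
  have h3 := (net_le_lv (x := x) hj.le).2 h1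
  have h4 : ¬ j + 1 ≤ net_lv n M x := fun h =>
    absurd ((net_le_lv (x := x) (j := j + 1) hj).1 h) (by omega)
  omega

/-- the output `t` is plugged into the input `p` -/
def net_R (n M : ℕ) (p : Fin (net_T n M 0) × Fin 2) (t : Out n (net_lv n M)) : Prop :=
  t.1.2.val = net_lv n M p.1 ∧
    ((p.2 = 0 ∧ t.1.1.val + net_T n M (t.1.2.val + 1) = p.1.val) ∨
      (p.2 = 1 ∧ t.1.1.val + 1 = p.1.val ∧ net_T n M (t.1.2.val + 1) ≤ t.1.1.val))

theorem net_R_unique {n M : ℕ} {p : Fin (net_T n M 0) × Fin 2} {t t' : Out n (net_lv n M)}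
    (h : net_R n M p t) (h' : net_R n M p t') : t = t' := by
  have e2 : t.1.2 = t'.1.2 := Fin.ext (h.1.trans h'.1.symm)
  refine Subtype.ext (Prod.ext (Fin.ext ?_) e2)
  obtain ⟨-, h | h⟩ := h <;> obtain ⟨-, h' | h'⟩ := h'
  · rw [e2] at h; omega
  · exact absurd (h.1.symm.trans h'.1) (by decide)
  · exact absurd (h.1.symm.trans h'.1) (by decide)
  · omega

open Classical in
/-- the wiring -/
noncomputable def net_src (n M : ℕ) (p : Fin (net_T n M 0) × Fin 2) : Option (Out n (net_lv n M)) :=
  if h : ∃ t, net_R n M p t then some h.choose else none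

theorem net_src_iff {n M : ℕ} {p : Fin (net_T n M 0) × Fin 2} {t : Out n (net_lv n M)} :
    net_src n M p = some t ↔ net_R n M p t := by
  unfold net_src
  split_ifs with h
  · rw [Option.some.injEq]
    exact ⟨fun e => e ▸ h.choose_spec, fun ht => net_R_unique h.choose_spec ht⟩
  · exact ⟨fun e => absurd e (by simp), fun ht => absurd ⟨t, ht⟩ h⟩

/-- the net with `M` leaves -/
noncomputable def net_net (n M : ℕ) (hM : 0 < M) : Net n (Fin (net_T n M 0)) where
  lv := net_lv n M
  lv_le := net_lv_le n M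
  rk := fun x => x.val
  src := net_src n M
  src_lv := fun _ _ h => (net_src_iff.1 h).1
  src_rk := fun p t h => by
    have := net_T_pos n hM (t.1.2.val + 1)
    obtain ⟨-, h | h⟩ := net_src_iff.1 h <;> omega
  src_inj := fun p p' t h h' => by
    obtain ⟨h1, h⟩ := net_src_iff.1 h
    obtain ⟨h1', h'⟩ := net_src_iff.1 h'
    have a1 := net_lt_T n M p.1
    have a2 := net_lt_T n M p'.1
    rw [← h1] at a1
    rw [← h1'] at a2
    have a3 := net_T_succ M t.1.2.2
    rcases h with h | h <;> rcases h' with h' | h'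
    · exact Prod.ext (Fin.ext (by omega)) (h.1.trans h'.1.symm)
    · omega
    · omega
    · exact Prod.ext (Fin.ext (by omega)) (h.1.trans h'.1.symm)
  root := fun j => ⟨net_T n M j - 1, by
    have := net_T_pos n hM j
    have := net_T_anti n M (Nat.zero_le j.val)
    omega⟩
  root_lv := fun j => (net_le_lv j.2.le).2 (by
    have := net_T_pos n hM j
    simp only
    omega)
  root_not := fun p j h => by
    obtain ⟨h1, h⟩ := net_src_iff.1 h
    have a1 := net_lt_T n M p.1
    rw [← h1] at a1
    have a2 := net_T_pos n hM (j.val + 1)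
    have a3 := net_T_pos n hM j.val
    simp only at h a1
    omega
  cons := fun t ht => by
    have a1 : t.1.1.val < net_T n M t.1.2.val := (net_le_lv t.1.2.2.le).1 t.2
    have a2 : t.1.1.val ≠ net_T n M t.1.2.val - 1 := fun e => ht (Fin.ext e)
    have a3 := net_T_succ M t.1.2.2
    have a4 := net_T_anti n M (Nat.zero_le t.1.2.val)
    by_cases hc : t.1.1.val < net_T n M (t.1.2.val + 1)
    · refine ⟨(⟨t.1.1.val + net_T n M (t.1.2.val + 1), by omega⟩, 0), net_src_iff.2 ⟨?_, Or.inl ⟨rfl, rfl⟩⟩⟩
      exact (net_lv_eq t.1.2.2 (by simp only; omega) (by simp only; omega)).symm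
    · refine ⟨(⟨t.1.1.val + 1, by omega⟩, 1), net_src_iff.2 ⟨?_, Or.inr ⟨rfl, rfl, by omega⟩⟩⟩
      exact (net_lv_eq t.1.2.2 (by simp only; omega) (by simp only; omega)).symm

/-- Induction on the levels from the top, or directly: `ι = Λ × (Fin n → Bool)` (`lv` = lowest set bit, `n` if
none); the step `c` of level `j` consumes the level-`j` output of `c` with bit `j` cleared (input `0`) and
the level-`j` output of the previous step of level `j` in a fixed enumeration (input `1`, nothing for the
first one); the root of level `j` is the last step of level `j`. -/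
theorem exists_net (n : ℕ) (Λ : Type) [Fintype Λ] [Nonempty Λ] :
    ∃ (ι : Type) (_ : Fintype ι) (_ : DecidableEq ι) (N : Net n ι) (e : Λ → ι),
      Function.Injective e ∧ ∀ m, N.lv (e m) = n := by
  have hM : 0 < Fintype.card Λ := Fintype.card_pos
  have hn : net_T n (Fintype.card Λ) n = Fintype.card Λ := by simp [net_T]
  have h0 := net_T_anti n (Fintype.card Λ) (Nat.zero_le n)
  refine ⟨Fin (net_T n (Fintype.card Λ) 0), inferInstance, inferInstance, net_net n _ hM,
    fun m => ⟨(Fintype.equivFin Λ m).val, by have := (Fintype.equivFin Λ m).2; omega⟩, ?_, ?_⟩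
  · intro m m' h
    exact (Fintype.equivFin Λ).injective (Fin.ext (Fin.mk.inj_iff.1 h))
  · intro m
    refine le_antisymm (net_lv_le _ _ _) ((net_le_lv le_rfl).2 ?_)
    rw [hn]
    exact (Fintype.equivFin Λ m).2

end Crest.Agent.R181
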