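import Crest.Agent.R181.GDefs

/-! # The equations of the net (prefix `netb_`) -/

set_option autoImplicit false

namespace Crest.Agent.R181

open MvPolynomial

theorem netb_fiber {α W R : Type*} [Fintype α] [Fintype W] [DecidableEq W] [CommRing R] (p : α → Prop)
    [DecidablePred p] (φ : α → W) (q : W → α → Prop) [∀ w, DecidablePred (q w)]
    (h : ∀ w u, q w u ↔ p u ∧ φ u = w) (b : W → R) (x : α → R) :
    ∑ w, b w * ∑ u with q w u, x u = ∑ u with p u, b (φ u) * x u := by
  simp only [Finset.sum_filter, Finset.mul_sum, mul_ite, mul_zero, h]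
  rw [Finset.sum_comm]
  refine Finset.sum_congr rfl fun u _ => ?_
  by_cases hu : p u <;> simp [hu]

theorem netb_aeval_X {K σ : Type*} [Field K] [Algebra ℂ K] (p : MvPolynomial σ ℂ) :
    aeval (fun v => (X v : MvPolynomial σ K)) p = map (algebraMap ℂ K) p := by
  induction p using MvPolynomial.induction_on with
  | C c => simp [MvPolynomial.algebraMap_apply]
  | add p q hp hq => simp [hp, hq]
  | mul_X p v hp => simp [hp]

theorem netb_mem {K σ τ : Type*} [Field K] [Algebra ℂ K] (S : Subalgebra K (MvPolynomial σ K)) (φ : τ → σ)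
    (h : ∀ e, X (φ e) ∈ S) (p : MvPolynomial τ ℂ) : map (algebraMap ℂ K) (rename φ p) ∈ S := by
  induction p using MvPolynomial.induction_on with
  | C c =>
    rw [rename_C, map_C]
    exact S.algebraMap_mem _
  | add p q hp hq =>
    rw [map_add, map_add]
    exact S.add_mem hp hq
  | mul_X p v hp =>
    rw [map_mul, map_mul, rename_X, map_X]
    exact S.mul_mem hp (h v)

theorem netb_whom {σ τ M : Type*} [AddCommMonoid M] (w : σ → M) (φ : τ → σ) (w0 : M) (h : ∀ e, w (φ e) = w0)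
    {p : MvPolynomial τ ℂ} {d : ℕ} (hp : p.IsHomogeneous d) :
    (rename φ p).IsWeightedHomogeneous w (d • w0) := by
  intro m hm
  obtain ⟨u, rfl, hu⟩ := coeff_rename_ne_zero φ p m hm
  rw [← hp hu, Finsupp.weight_apply, Finsupp.weight_apply,
    Finsupp.sum_mapDomain_index (h := fun i c => c • w i) (fun _ => zero_smul _ _) (fun _ _ _ => add_smul _ _ _)]
  simp only [h, Finsupp.sum, Pi.one_apply, smul_eq_mul, mul_one, Finset.sum_smul]

theorem netb_whom_X {σ M : Type*} [AddCommMonoid M] (w : σ → M) (v : σ) (d : ℕ) :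
    (X v ^ d : MvPolynomial σ ℂ).IsWeightedHomogeneous w (d • w v) := by
  rw [X_pow_eq_monomial]
  exact isWeightedHomogeneous_monomial _ _ _ (by rw [Finsupp.weight_single])

namespace Leaf

variable {n : ℕ} {ι : Type} [Fintype ι] [DecidableEq ι] {N : Net n ι} {a : Fin n → ℕ}
  {f : Fin n → MvPolynomial (Fin n) ℂ} {κ : Type} [Fintype κ] (L : Leaf N a f κ)

/-- explicit form of the equations, after any substitution `z` of the variables and `b` of the
parameters in a commutative `ℂ`-algebra -/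
theorem sum_m {R : Type*} [CommRing R] [Algebra ℂ R] (b : Par N κ → R)
    (z : Var ι (Out n N.lv) → R) (t : Out n N.lv) :
    ∑ β, b β * aeval z (L.m t β) =
      (∑ t' : Out n N.lv with t'.1.1 = t.1.1 ∧ t.1.2 ≤ t'.1.2,
          b (Sum.inl (Sum.inr t', t.1.2)) * z (Sum.inr t') ^ a t.1.2) -
        if N.lv t.1.1 < n then
          ∑ e : Fin 2, b (Sum.inl (N.pn (t.1.1, e), t.1.2)) * z (Sum.inl (t.1.1, e)) ^ a t.1.2
        else ∑ k, b (Sum.inr (t.1.2, k)) * aeval (fun e => z (Sum.inl (t.1.1, e))) (L.g t.1.2 k t.1.1) := by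
  rw [Fintype.sum_sum_type, Fintype.sum_prod_type, Fintype.sum_prod_type]
  simp only [m, apply_ite (aeval z), map_zero, mul_ite, mul_zero, Finset.sum_ite_eq', Finset.mem_univ, if_true,
    map_sub, map_sum, map_pow, aeval_X, mul_sub, Finset.sum_sub_distrib]
  rw [netb_fiber (fun t' : Out n N.lv => t'.1.1 = t.1.1 ∧ t.1.2 ≤ t'.1.2) Sum.inr _ (fun _ _ => and_assoc.symm)
      (fun w => b (Sum.inl (w, t.1.2))),
    netb_fiber (fun _ : Fin 2 => N.lv t.1.1 < n) (fun e => N.pn (t.1.1, e)) _ (fun _ _ => Iff.rfl)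
      (fun w => b (Sum.inl (w, t.1.2)))]
  by_cases h : N.lv t.1.1 < n
  · simp [h, h.ne]
  · have h' : N.lv t.1.1 = n := le_antisymm (N.lv_le _) (not_lt.1 h)
    rw [Finset.sum_comm]
    simp [h', aeval_rename, Function.comp_def, sub_eq_add_neg]

/-- the same for the generic equation -/
theorem lin_m (t : Out n N.lv) :
    lin (L.m t) =
      (∑ t' : Out n N.lv with t'.1.1 = t.1.1 ∧ t.1.2 ≤ t'.1.2,
          C (bb (Sum.inl (Sum.inr t', t.1.2))) * X (Sum.inr t') ^ a t.1.2) -
        if N.lv t.1.1 < n then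
          ∑ e : Fin 2, C (bb (Sum.inl (N.pn (t.1.1, e), t.1.2))) * X (Sum.inl (t.1.1, e)) ^ a t.1.2
        else ∑ k, C (bb (Sum.inr (t.1.2, k))) * map (algebraMap ℂ (KB (Par N κ)))
          (rename (fun e => Sum.inl (t.1.1, e)) (L.g t.1.2 k t.1.1)) := by
  have h := L.sum_m (R := MvPolynomial (Var ι (Out n N.lv)) (KB (Par N κ))) (fun β => C (bb β)) (fun v => X v) t
  simp only [lin, ← netb_aeval_X, aeval_rename, Function.comp_def]
  exact h

theorem bb_ne_zero {B : Type} (β : B) : bb β ≠ 0 := by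
  intro h
  exact X_ne_zero β (IsFractionRing.injective (MvPolynomial B ℂ) (KB B) (h.trans (map_zero _).symm))

theorem m_whom (t : Out n N.lv) (β : Par N κ) :
    (L.m t β).IsWeightedHomogeneous
      (fun v => (Pi.single (blkOf (fun t : Out n N.lv => t.1.1) v) 1 : ι → ℤ))
      (Pi.single t.1.1 (a t.1.2 : ℤ)) := by
  have e : (Pi.single t.1.1 (a t.1.2 : ℤ) : ι → ℤ) = a t.1.2 • (Pi.single t.1.1 1 : ι → ℤ) := by
    rw [← Pi.single_smul, nsmul_eq_mul, mul_one]
  rw [e, ← mem_weightedHomogeneousSubmodule]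
  rcases β with ⟨w, i⟩ | ⟨i, k⟩
  · simp only [m]
    split_ifs
    · refine Submodule.sub_mem _ (Submodule.sum_mem _ fun t' ht' => ?_) (Submodule.sum_mem _ fun e _ => ?_)
      · rw [← (Finset.mem_filter.1 ht').2.1]
        exact netb_whom_X
          (fun v => (Pi.single (blkOf (fun t : Out n N.lv => t.1.1) v) 1 : ι → ℤ)) (Sum.inr t') _
      · exact netb_whom_X
          (fun v => (Pi.single (blkOf (fun t : Out n N.lv => t.1.1) v) 1 : ι → ℤ)) (Sum.inl (t.1.1, e)) _
    · exact Submodule.zero_mem _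
  · simp only [m]
    split_ifs with h
    · obtain ⟨rfl, -⟩ := h
      exact Submodule.neg_mem _ (netb_whom
        (fun v => (Pi.single (blkOf (fun t : Out n N.lv => t.1.1) v) 1 : ι → ℤ))
        (fun b => Sum.inl (t.1.1, b)) (Pi.single t.1.1 1) (fun _ => rfl) (L.g_hom _ k _))
    · exact Submodule.zero_mem _

theorem lin_m_hom (t : Out n N.lv) : (lin (L.m t)).IsHomogeneous (a t.1.2) := by
  rw [lin_m]
  refine (IsHomogeneous.sum _ _ _ fun t' _ => (isHomogeneous_X_pow _ _).C_mul _).sub ?_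
  split_ifs
  · exact IsHomogeneous.sum _ _ _ fun e _ => (isHomogeneous_X_pow _ _).C_mul _
  · exact IsHomogeneous.sum _ _ _ fun k _ => ((L.g_hom _ k _).rename_isHomogeneous.map _).C_mul _

theorem lin_m_tri (t : Out n N.lv) :
    ∃ (c : KB (Par N κ)) (g : MvPolynomial (Var ι (Out n N.lv)) (KB (Par N κ))), c ≠ 0 ∧
      lin (L.m t) = C c * X (Sum.inr t) ^ a t.1.2 + g ∧
      g ∈ supported (KB (Par N κ)) {v | blkOf (fun t : Out n N.lv => t.1.1) v = t.1.1 ∧
        ∀ t' : Out n N.lv, v = Sum.inr t' → n - t'.1.2.val < n - t.1.2.val} := by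
  have ht : t ∈ Finset.univ.filter fun t' : Out n N.lv => t'.1.1 = t.1.1 ∧ t.1.2 ≤ t'.1.2 :=
    Finset.mem_filter.2 ⟨Finset.mem_univ _, rfl, le_rfl⟩
  refine ⟨_, _, bb_ne_zero _, by rw [lin_m, ← Finset.add_sum_erase _ _ ht, add_sub_assoc], ?_⟩
  have hin : ∀ e : Fin 2, (X (Sum.inl (t.1.1, e)) : MvPolynomial (Var ι (Out n N.lv)) (KB (Par N κ))) ∈
      supported (KB (Par N κ)) {v | blkOf (fun t : Out n N.lv => t.1.1) v = t.1.1 ∧
        ∀ t' : Out n N.lv, v = Sum.inr t' → n - t'.1.2.val < n - t.1.2.val} :=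
    fun e => X_mem_supported.2 ⟨rfl, fun _ h => nomatch h⟩
  refine Subalgebra.sub_mem _ (Subalgebra.sum_mem _ fun t' ht' => ?_) ?_
  · obtain ⟨h1, h2⟩ := Finset.mem_erase.1 ht'
    obtain ⟨h3, h4⟩ := (Finset.mem_filter.1 h2).2
    refine Subalgebra.mul_mem _ (Subalgebra.algebraMap_mem _ _) (Subalgebra.pow_mem _ (X_mem_supported.2 ?_) _)
    refine ⟨h3, fun t'' h5 => ?_⟩
    obtain rfl : t' = t'' := Sum.inr_injective h5
    have h6 : t.1.2 ≠ t'.1.2 := fun h => h1 (Subtype.ext (Prod.ext h3 h.symm))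
    have h7 : t.1.2.val < t'.1.2.val := Fin.lt_def.1 (lt_of_le_of_ne h4 h6)
    have h8 := t'.1.2.isLt
    omega
  · split_ifs
    · exact Subalgebra.sum_mem _ fun e _ =>
        Subalgebra.mul_mem _ (Subalgebra.algebraMap_mem _ _) (Subalgebra.pow_mem _ (hin e) _)
    · exact Subalgebra.sum_mem _ fun k _ =>
        Subalgebra.mul_mem _ (Subalgebra.algebraMap_mem _ _) (netb_mem _ _ hin _)

/-- the blocks of the net -/
noncomputable def blocks (ha : ∀ i, 1 ≤ a i) : Blocks (KB (Par N κ)) ι (Out n N.lv) where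
  ob t := t.1.1
  a t := a t.1.2
  a_pos t := ha _
  E t := lin (L.m t)
  E_hom := L.lin_m_hom
  rk t := n - t.1.2.val
  E_tri := L.lin_m_tri

end Leaf

end Crest.Agent.R181
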