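import Crest.Agent.R181.A7
import Crest.Agent.R181.A8
import Crest.Agent.R181.A9

/-! # Part (A): the skew field step (sub-lead helper95; auxiliary files `R181/A*.lean`) -/

set_option autoImplicit false

namespace Crest.Agent.R181

open MvPolynomial

namespace Blocks

variable {K : Type} [Field K] {ι τ : Type} [Fintype ι] [DecidableEq ι] [Fintype τ] [DecidableEq τ]
  (N : Blocks K ι τ) (D : Type) [DivisionRing D] [Algebra K D]

/-- the curve `c` over `D` -/
noncomputable def cur (c : ι) (hint : N.INT D {c}) : Cur (N.grd D c) where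
  J := N.idS D {c}
  hJ := N.idS_prc D c
  hJr := N.idS_mul_right D c
  δ := N.dd c
  e := N.ee c
  hδ := N.dd_pos c
  u := xs D (Sum.inl (c, 0))
  u' := xs D (Sum.inl (c, 1))
  hu := by
    have := N.prc_xs D c (Sum.inl (c, 0))
    rwa [if_pos (by rfl)] at this
  hu' := by
    have := N.prc_xs D c (Sum.inl (c, 1))
    rwa [if_pos (by rfl)] at this
  cu := xs_comm D _
  cu' := xs_comm D _
  noeth := isNoetherianRing_PS D _
  int := N.grd_int1 D c hint
  hO := N.grd_h_O D c
  r1 := N.reg_one D c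
  r2 := N.reg_two D c
  ind y hy j r h := N.reg_ind D c y hy j r (by simpa only [cD_mul] using h)

theorem exists_univ (c : ι) (hint : N.INT D {c}) :
    ∃ (D' : Type) (_ : DivisionRing D') (_ : Algebra K D') (U : Type) (_ : AddCommGroup U)
      (_ : Module D U) (_ : Module (PS D (Var ι τ)) U) (_ : IsScalarTower D (PS D (Var ι τ)) U)
      (_ : Module D'ᵐᵒᵖ U) (_ : SMulCommClass (PS D (Var ι τ)) D'ᵐᵒᵖ U),
      Nonempty (N.Univ D c D' U) := by
  classical
  obtain ⟨U, _, _, f, h⟩ := Rho.exists_hull (N.cur D c hint).atom_O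
  have hK : ∀ k y, y * (N.grd D c).cD (algebraMap K D k) = (N.grd D c).cD (algebraMap K D k) * y := fun k y =>
    (AddMonoidAlgebra.single_commute (fun _ => add_comm _ _) (fun d => Algebra.commutes k d) y).symm.eq
  let mD : Module D U := Module.compHom U ((N.grd D c).ℓ.comp (N.grd D c).cD)
  let mP : Module (PS D (Var ι τ)) U := Module.compHom U (N.grd D c).ℓ
  let mO := Cur.modOp h
  let aK := Cur.alg h hK
  have eD : ∀ (d : D) (y : U), d • y = (N.grd D c).ℓ ((N.grd D c).cD d) • y := fun _ _ => rfl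
  have eP : ∀ (p : PS D (Var ι τ)) (y : U), p • y = (N.grd D c).ℓ p • y := fun _ _ => rfl
  have eO : ∀ (d : Cur.Dv h) (y : U), MulOpposite.op d • y = (MulOpposite.unop d : Module.End (N.grd D c).Γ U) y :=
    fun _ _ => rfl
  have hT : IsScalarTower D (PS D (Var ι τ)) U := ⟨fun d p y => by
    rw [eP, eD, eP, ← N.cD_mul D c, map_mul, mul_smul]⟩
  have hS : SMulCommClass (PS D (Var ι τ)) (Cur.Dv h)ᵐᵒᵖ U := ⟨fun p d y =>
    (map_smul (MulOpposite.unop (MulOpposite.unop d) : Module.End (N.grd D c).Γ U) ((N.grd D c).ℓ p) y).symm⟩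
  let π : ℤ → U →ₗ[D] U := fun i =>
    { toFun := fun y => (N.grd D c).π i • y
      map_add' := smul_add _
      map_smul' := fun d y => by
        have h1 := Grd.π_ℓ ((N.grd D c).cD_hom d) i
        rw [add_zero] at h1
        rw [RingHom.id_apply, eD, eD, ← mul_smul, h1, mul_smul] }
  have eπ : ∀ i y, π i y = (N.grd D c).π i • y := fun _ _ => rfl
  refine ⟨Cur.Dv h, inferInstance, aK, U, inferInstance, mD, mP, hT, mO, hS, ⟨{
    π := π
    π_π := fun i j y => ?_
    π_fin := fun y => (Cur.disc h y).imp fun s hs => hs.symm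
    π_xs := fun v hv j y => ?_
    π_op := fun j d y => (map_smul (MulOpposite.unop d : Module.End (N.grd D c).Γ U) _ y).symm
    xs_zero := fun v hv y => Cur.kill h _ (Ideal.subset_span (Or.inr ⟨v, by simpa using hv, rfl⟩)) y
    E_zero := fun t ht y => Cur.kill h _ (Ideal.subset_span (Or.inl ⟨t, by simpa using ht, rfl⟩)) y
    K_op := fun k y => rfl
    u0 := f ((N.cur D c hint).cl 0 1)
    u0_ne := Cur.u0_ne h
    π_u0 := Cur.π_u0
    zero_surj := fun y hy => (Cur.zero_surj h y hy).elim fun φ hφ => ⟨MulOpposite.op φ, hφ⟩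
    one_surj := fun y hy => (Cur.one_surj h y hy).elim fun φ hφ => hφ.elim fun ψ hψ =>
      ⟨MulOpposite.op φ, MulOpposite.op ψ, hψ⟩
    indep := fun j r hr i hi =>
      congrArg MulOpposite.op (Cur.indep h j (fun i => MulOpposite.unop (r i)) hr i hi)
    theta_one := fun S => ?_
    sandwich := fun Q _ _ Z h1 h2 h3 θ hθ =>
      Cur.sandwichP h eD eP π eπ Q Z h1 h2 Finset.univ (fun r _ => h3 r) θ hθ
    sandwich' := fun Q _ _ Z h1 h2 t h3 θ hθ => Cur.sandwichP h eD eP π eπ Q Z h1 h2 t h3 θ hθ }⟩⟩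
  · rw [eπ, eπ]
    split_ifs with hij
    · rw [hij, Grd.π_smul_π]
    · exact Grd.π_smul_ne (Grd.π_smul_π j y) hij
  · have h1 := N.prc_xs D c v
    rw [if_pos hv] at h1
    rw [eπ, eπ, eP, eP, ← mul_smul, Grd.π_ℓ (g := (N.grd D c).toGrd) h1, mul_smul]
  · obtain ⟨Y, h1, h2, h3, h4, h5⟩ := Cur.thetaP h eD eP π eπ
      (S.image fun d => MulOpposite.op d • f ((N.cur D c hint).cl 0 1))
    exact ⟨Y, h1, h2, h3, fun d hd => h4 _ (Finset.mem_image_of_mem _ hd), h5⟩

end Blocks

end Crest.Agent.R181
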