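import Mathlib

/-!
# R181/I0a: Hilbert functions of graded ideals, shift-stable groups of functions, Hilbert–Serre (helper60)
-/

set_option autoImplicit false

namespace Crest.Agent.R181.I0

open MvPolynomial Module

section Fn

variable {G : Type} [AddCommGroup G]

/-- shift -/
def sh (d : G) : (G → ℤ) →+ (G → ℤ) where
  toFun f j := f (j - d)
  map_zero' := rfl
  map_add' _ _ := rfl

theorem sh_apply (d : G) (f : G → ℤ) (j : G) : sh d f j = f (j - d) := rfl

theorem sh_sh (c d : G) (f : G → ℤ) : sh c (sh d f) = sh (c + d) f := by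
  funext j
  simp only [sh_apply, sub_sub]

theorem sh_zero (f : G → ℤ) : sh (0 : G) f = f := by
  funext j
  simp only [sh_apply, sub_zero]

/-- difference operator -/
def dl (d : G) : (G → ℤ) →+ (G → ℤ) := AddMonoidHom.id _ - sh d

theorem dl_apply (d : G) (f : G → ℤ) : dl d f = f - sh d f := rfl

/-- iterated difference operator -/
def DL : List G → (G → ℤ) →+ (G → ℤ)
  | [] => AddMonoidHom.id _
  | d :: l => (DL l).comp (dl d)

theorem DL_nil (f : G → ℤ) : DL [] f = f := rfl

theorem DL_cons (d : G) (l : List G) (f : G → ℤ) : DL (d :: l) f = DL l (dl d f) := rfl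

theorem DL_sh (l : List G) (c : G) (f : G → ℤ) : DL l (sh c f) = sh c (DL l f) := by
  induction l generalizing f with
  | nil => rfl
  | cons d l ih => rw [DL_cons, DL_cons, ← ih, dl_apply, dl_apply, map_sub (sh c), sh_sh, sh_sh, add_comm]

/-- shift-stable subgroups -/
def St (L : AddSubgroup (G → ℤ)) : Prop := ∀ c, ∀ f ∈ L, sh c f ∈ L

theorem St.comap {L : AddSubgroup (G → ℤ)} (h : St L) (l : List G) : St (L.comap (DL l)) := by
  intro c f hf
  rw [AddSubgroup.mem_comap, DL_sh]
  exact h c _ hf

theorem St.dl {L : AddSubgroup (G → ℤ)} (h : St L) (d : G) {f : G → ℤ} (hf : f ∈ L) : dl d f ∈ L :=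
  L.sub_mem hf (h d f hf)

/-- the group generated by the shifts of `f` -/
def Cl (f : G → ℤ) : AddSubgroup (G → ℤ) := AddSubgroup.closure (Set.range fun c => sh c f)

theorem Cl_le {L : AddSubgroup (G → ℤ)} (h : St L) {f : G → ℤ} (hf : f ∈ L) : Cl f ≤ L :=
  (AddSubgroup.closure_le L).2 (by rintro _ ⟨c, rfl⟩; exact h c f hf)

theorem self_mem_Cl (f : G → ℤ) : f ∈ Cl f := AddSubgroup.subset_closure ⟨0, sh_zero f⟩

theorem St_Cl (f : G → ℤ) : St (Cl f) := by
  intro c g hg
  have : Cl f ≤ (Cl f).comap (sh c) := (AddSubgroup.closure_le _).2 (by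
    rintro _ ⟨d, rfl⟩
    exact AddSubgroup.subset_closure ⟨c + d, (sh_sh c d f).symm⟩)
  exact this hg

theorem Cl_DL (l : List G) (f : G → ℤ) : Cl (DL l f) ≤ (Cl f).map (DL l) :=
  (AddSubgroup.closure_le _).2 (by
    rintro _ ⟨c, rfl⟩
    exact ⟨sh c f, St_Cl f c f (self_mem_Cl f), DL_sh l c f⟩)

/-- functions with support bounded below -/
def BB (lam : G →+ ℤ) : AddSubgroup (G → ℤ) where
  carrier := {f | ∃ c : ℤ, ∀ j, lam j < c → f j = 0}
  zero_mem' := ⟨0, fun _ _ => rfl⟩
  add_mem' := by
    rintro f g ⟨c, hc⟩ ⟨d, hd⟩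
    refine ⟨min c d, fun j hj => ?_⟩
    rw [Pi.add_apply, hc j (hj.trans_le (min_le_left _ _)), hd j (hj.trans_le (min_le_right _ _)), add_zero]
  neg_mem' := by
    rintro f ⟨c, hc⟩
    exact ⟨c, fun j hj => by rw [Pi.neg_apply, hc j hj, neg_zero]⟩

theorem St_BB (lam : G →+ ℤ) : St (BB lam) := by
  rintro c f ⟨d, hd⟩
  exact ⟨d + lam c, fun j hj => hd _ (by rw [map_sub]; linarith)⟩

theorem dl_inj (lam : G →+ ℤ) {d : G} (hd : 0 < lam d) {f : G → ℤ} (hf : f ∈ BB lam) (h : dl d f = 0) : f = 0 := by
  obtain ⟨c, hc⟩ := hf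
  have key : ∀ n : ℕ, ∀ j, lam j < c + n → f j = 0 := by
    intro n
    induction n with
    | zero => simpa using hc
    | succ n ih =>
      intro j hj
      have h1 : f j - f (j - d) = 0 := congrFun h j
      rw [ih (j - d) (by rw [map_sub]; push_cast at hj; linarith)] at h1
      simpa using h1
  funext j
  exact key (lam j - c + 1).toNat j (by have := Int.self_le_toNat (lam j - c + 1); linarith)

theorem DL_inj (lam : G →+ ℤ) (l : List G) (hl : ∀ d ∈ l, 0 < lam d) {f : G → ℤ} (hf : f ∈ BB lam)
    (h : DL l f = 0) : f = 0 := by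
  induction l generalizing f with
  | nil => exact h
  | cons d l ih =>
    exact dl_inj lam (hl d (List.mem_cons_self ..)) hf
      (ih (fun e he => hl e (List.mem_cons_of_mem _ he)) ((St_BB lam).dl d hf) h)

end Fn

section Lin

variable {K V W : Type} [Field K] [AddCommGroup V] [Module K V] [AddCommGroup W] [Module K W]

theorem rank_null (f : V →ₗ[K] W) (P : Submodule K V) [FiniteDimensional K P] :
    finrank K (P.map f) + finrank K (P ⊓ LinearMap.ker f : Submodule K V) = finrank K P := by
  rw [← LinearMap.finrank_range_add_finrank_ker (f.domRestrict P), LinearMap.range_domRestrict,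
    LinearMap.ker_domRestrict]
  congr 1
  rw [← Submodule.finrank_map_subtype_eq P, Submodule.map_comap_subtype]

theorem rank_sup (f : V →ₗ[K] W) (P : Submodule K V) (U : Submodule K W) [FiniteDimensional K P]
    [FiniteDimensional K U] :
    finrank K (U ⊔ P.map f : Submodule K W) + finrank K (P ⊓ U.comap f : Submodule K V) =
      finrank K U + finrank K P := by
  have h1 := rank_null (U.mkQ.comp f) P
  have h2 := rank_null U.mkQ (U ⊔ P.map f)
  rw [LinearMap.ker_comp, Submodule.ker_mkQ, Submodule.map_comp] at h1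
  rw [Submodule.ker_mkQ, Submodule.map_sup, Submodule.mkQ_map_self, bot_sup_eq, inf_eq_right.2 le_sup_left] at h2
  omega

end Lin

section Gr

variable {G : Type} [AddCommGroup G] {K σ : Type} [Field K] (w : σ → G)

theorem comp_map {K K' σ' : Type} [CommSemiring K] [CommSemiring K'] (w' : σ' → G)
    (T : MvPolynomial σ K →+ MvPolynomial σ' K') (δ : G)
    (hT : ∀ j x, IsWeightedHomogeneous w x j → IsWeightedHomogeneous w' (T x) (j + δ)) (j : G)
    (x : MvPolynomial σ K) :
    weightedHomogeneousComponent w' (j + δ) (T x) = T (weightedHomogeneousComponent w j x) := by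
  induction x using MvPolynomial.induction_on' with
  | monomial d a =>
    have h1 := isWeightedHomogeneous_monomial w d a rfl
    by_cases h : j = Finsupp.weight w d
    · rw [h, h1.weightedHomogeneousComponent_same, (hT _ _ h1).weightedHomogeneousComponent_same]
    · rw [h1.weightedHomogeneousComponent_ne j h, map_zero,
        (hT _ _ h1).weightedHomogeneousComponent_ne _ fun e => h (add_right_cancel e)]
  | add p q hp hq => simp only [map_add, hp, hq]

theorem comp_mul {g : MvPolynomial σ K} {d : G} (hg : IsWeightedHomogeneous w g d) (j : G) (x : MvPolynomial σ K) :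
    weightedHomogeneousComponent w j (x * g) = weightedHomogeneousComponent w (j - d) x * g := by
  have := comp_map w w (AddMonoidHom.mulRight g) d (fun j x hx => hx.mul hg) (j - d) x
  rwa [sub_add_cancel] at this

/-- graded ideals -/
def Gr (A : Ideal (MvPolynomial σ K)) : Prop := ∀ x ∈ A, ∀ j, weightedHomogeneousComponent w j x ∈ A

/-- Hilbert function of the quotient -/
noncomputable def HF (A : Ideal (MvPolynomial σ K)) (j : G) : ℤ :=
  (finrank K (weightedHomogeneousSubmodule K w j) : ℤ) -
    finrank K (weightedHomogeneousSubmodule K w j ⊓ A.restrictScalars K : Submodule K (MvPolynomial σ K))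

variable {w}

theorem mem_of_comp {A : Ideal (MvPolynomial σ K)} {x : MvPolynomial σ K}
    (h : ∀ j, weightedHomogeneousComponent w j x ∈ A) : x ∈ A := by
  rw [← sum_weightedHomogeneousComponent w x, finsum_eq_sum _ (weightedHomogeneousComponent_finsupp x)]
  exact A.sum_mem fun j _ => h j

theorem Gr.sup_span {A : Ideal (MvPolynomial σ K)} (hA : Gr w A) {g : MvPolynomial σ K} {d : G}
    (hg : IsWeightedHomogeneous w g d) : Gr w (A ⊔ Ideal.span {g}) := by
  intro x hx j
  obtain ⟨a, ha, b, hb, rfl⟩ := Submodule.mem_sup.1 hx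
  obtain ⟨c, rfl⟩ := Ideal.mem_span_singleton'.1 hb
  rw [map_add, comp_mul w hg]
  exact Submodule.add_mem_sup (hA a ha j) (Ideal.mem_span_singleton'.2 ⟨_, rfl⟩)

theorem Gr.colon {A : Ideal (MvPolynomial σ K)} (hA : Gr w A) {g : MvPolynomial σ K} {d : G}
    (hg : IsWeightedHomogeneous w g d) : Gr w (A.colon {g}) := by
  intro x hx j
  rw [Submodule.mem_colon_singleton, smul_eq_mul] at hx ⊢
  have := hA _ hx (j + d)
  rwa [comp_mul w hg, add_sub_cancel_right] at this

theorem Gr_span {s : Set (MvPolynomial σ K)} (hs : ∀ g ∈ s, ∃ d, IsWeightedHomogeneous w g d) :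
    Gr w (Ideal.span s) := by
  have key : ∀ x ∈ Ideal.span s, ∀ c j, weightedHomogeneousComponent w j (c * x) ∈ Ideal.span s := by
    intro x hx
    induction hx using Submodule.span_induction with
    | mem g hg =>
      intro c j
      obtain ⟨d, hd⟩ := hs g hg
      rw [comp_mul w hd]
      exact Ideal.mul_mem_left _ _ (Ideal.subset_span hg)
    | zero => intro c j; simp
    | add x y _ _ hx hy =>
      intro c j
      rw [mul_add, map_add]
      exact add_mem (hx c j) (hy c j)
    | smul a x _ hx =>
      intro c j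
      rw [smul_eq_mul, ← mul_assoc]
      exact hx _ j
  intro x hx j
  simpa using key x hx 1 j

theorem le_colon (A : Ideal (MvPolynomial σ K)) (g : MvPolynomial σ K) : A ≤ A.colon {g} := fun x hx => by
  rw [Submodule.mem_colon_singleton, smul_eq_mul]
  exact A.mul_mem_right _ hx

theorem HF_add (hfin : ∀ j, FiniteDimensional K (weightedHomogeneousSubmodule K w j))
    {A : Ideal (MvPolynomial σ K)} (hA : Gr w A) {g : MvPolynomial σ K} {d : G}
    (hg : IsWeightedHomogeneous w g d) : HF w A = HF w (A ⊔ Ideal.span {g}) + sh d (HF w (A.colon {g})) := by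
  funext j
  have := hfin j
  have := hfin (j - d)
  have h := rank_sup (LinearMap.mulRight K g) (weightedHomogeneousSubmodule K w (j - d))
    (weightedHomogeneousSubmodule K w j ⊓ A.restrictScalars K)
  have e1 : (weightedHomogeneousSubmodule K w j ⊓ A.restrictScalars K) ⊔
      (weightedHomogeneousSubmodule K w (j - d)).map (LinearMap.mulRight K g) =
      weightedHomogeneousSubmodule K w j ⊓ (A ⊔ Ideal.span {g}).restrictScalars K := by
    refine le_antisymm (sup_le (inf_le_inf_left _ fun x hx => Submodule.mem_sup_left hx) ?_) ?_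
    · rintro _ ⟨x, hx, rfl⟩
      refine ⟨?_, Submodule.mem_sup_right (Ideal.mem_span_singleton'.2 ⟨x, rfl⟩)⟩
      have := IsWeightedHomogeneous.mul hx hg
      rwa [sub_add_cancel] at this
    · rintro x ⟨hx, hx'⟩
      obtain ⟨a, ha, b, hb, e⟩ := Submodule.mem_sup.1 hx'
      obtain ⟨c, rfl⟩ := Ideal.mem_span_singleton'.1 hb
      rw [← weightedHomogeneousComponent_eq_self hx, ← e, map_add, comp_mul w hg]
      exact Submodule.add_mem_sup ⟨weightedHomogeneousComponent_mem _ _ _, hA a ha j⟩
        ⟨_, weightedHomogeneousComponent_mem _ _ _, rfl⟩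
  have e2 : weightedHomogeneousSubmodule K w (j - d) ⊓
      (weightedHomogeneousSubmodule K w j ⊓ A.restrictScalars K).comap (LinearMap.mulRight K g) =
      weightedHomogeneousSubmodule K w (j - d) ⊓ (A.colon {g}).restrictScalars K := by
    ext x
    constructor
    · rintro ⟨hx, -, hx'⟩
      exact ⟨hx, Submodule.mem_colon_singleton.2 hx'⟩
    · rintro ⟨hx, hx'⟩
      refine ⟨hx, ?_, Submodule.mem_colon_singleton.1 hx'⟩
      have := IsWeightedHomogeneous.mul hx hg
      rwa [sub_add_cancel] at this
  rw [e1, e2] at h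
  simp only [Pi.add_apply, sh_apply, HF]
  omega

/-- filtration by cyclic modules -/
theorem filt [Finite σ] (hfin : ∀ j, FiniteDimensional K (weightedHomogeneousSubmodule K w j))
    {L : AddSubgroup (G → ℤ)} (hL : St L) {A A' : Ideal (MvPolynomial σ K)} (hA : Gr w A) (hA' : Gr w A')
    (hle : A ≤ A') (h : ∀ C g, Gr w (C.colon {g}) → A ≤ C → g ∈ A' → HF w (C.colon {g}) ∈ L) :
    HF w A - HF w A' ∈ L := by
  have key : ∀ C : Ideal (MvPolynomial σ K), Gr w C → A ≤ C → C ≤ A' → HF w C - HF w A' ∈ L := by
    intro C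
    induction C using IsNoetherian.induction with
    | hgt C ih =>
      intro hC h1 h2
      by_cases e : A' ≤ C
      · rw [le_antisymm h2 e, sub_self]
        exact L.zero_mem
      · obtain ⟨x, hx, hxC⟩ := Set.not_subset.1 e
        obtain ⟨j, hj⟩ : ∃ j, weightedHomogeneousComponent w j x ∉ C := by
          by_contra hn
          push Not at hn
          exact hxC (mem_of_comp hn)
        have hg := weightedHomogeneousComponent_isWeightedHomogeneous (w := w) j x
        have hgA := hA' x hx j
        rw [HF_add hfin hC hg, add_sub_right_comm]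
        refine L.add_mem (ih _ ?_ (hC.sup_span hg) (h1.trans le_sup_left)
          (sup_le h2 ((Ideal.span_singleton_le_iff_mem _).2 hgA))) (hL _ _ (h C _ (hC.colon hg) h1 hgA))
        exact lt_of_le_of_ne le_sup_left fun e => hj (e ▸ Submodule.mem_sup_right (Ideal.mem_span_singleton_self _))
  exact key A hA le_rfl hle

theorem dl_HF (hfin : ∀ j, FiniteDimensional K (weightedHomogeneousSubmodule K w j))
    {A : Ideal (MvPolynomial σ K)} (hA : Gr w A) {g : MvPolynomial σ K} {d : G}
    (hg : IsWeightedHomogeneous w g d) :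
    dl d (HF w A) = HF w (A ⊔ Ideal.span {g}) - sh d (HF w A - HF w (A.colon {g})) := by
  rw [dl_apply, map_sub]
  nth_rewrite 1 [HF_add hfin hA hg]
  abel

/-- kernel and cokernel of the multiplication by `u` -/
theorem kerco [Finite σ] (hfin : ∀ j, FiniteDimensional K (weightedHomogeneousSubmodule K w j))
    {L : AddSubgroup (G → ℤ)} (hL : St L) {A : Ideal (MvPolynomial σ K)} (hA : Gr w A) {u : MvPolynomial σ K} {d : G}
    (hu : IsWeightedHomogeneous w u d) (h : ∀ C, Gr w C → A ≤ C → u ∈ C → HF w C ∈ L) : dl d (HF w A) ∈ L := by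
  rw [dl_HF hfin hA hu]
  refine L.sub_mem (h _ (hA.sup_span hu) le_sup_left (Submodule.mem_sup_right (Ideal.mem_span_singleton_self _)))
    (hL _ _ (filt hfin hL hA (hA.colon hu) (le_colon A u) fun C g hg h1 h2 => h _ hg (h1.trans (le_colon C g)) ?_))
  rw [Submodule.mem_colon_singleton, smul_eq_mul] at h2 ⊢
  rw [mul_comm]
  exact h1 h2

theorem HF_eq_zero {A : Ideal (MvPolynomial σ K)} {j : G} (h : ∀ x, IsWeightedHomogeneous w x j → x ∈ A) :
    HF w A j = 0 := by
  rw [HF, inf_eq_left.2 fun x hx => h x hx, sub_self]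

theorem HF_BB (lam : G →+ ℤ) (hw : ∀ v, 0 < lam (w v)) (A : Ideal (MvPolynomial σ K)) : HF w A ∈ BB lam := by
  refine ⟨0, fun j hj => HF_eq_zero fun x hx => ?_⟩
  rw [hx.eq_zero_of_no_monomials fun d hd => ?_]
  · exact A.zero_mem
  · rw [← hd, Finsupp.weight_apply, Finsupp.sum, map_sum] at hj
    refine absurd hj (not_lt.2 (Finset.sum_nonneg fun v _ => ?_))
    rw [map_nsmul]
    exact nsmul_nonneg (hw v).le _

theorem eq_of_X_mem {A : Ideal (MvPolynomial σ K)} (h : ∀ v, X v ∈ A) :
    A = ⊤ ∨ A = Ideal.span (X '' Set.univ) := by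
  by_cases hA : A = ⊤
  · exact Or.inl hA
  refine Or.inr (le_antisymm (fun x hx => ?_) (Ideal.span_le.2 (by rintro _ ⟨v, -, rfl⟩; exact h v)))
  have hle : Ideal.span (X '' Set.univ) ≤ A := Ideal.span_le.2 (by rintro _ ⟨v, -, rfl⟩; exact h v)
  have h1 : ∀ y : MvPolynomial σ K, y - C (coeff 0 y) ∈ Ideal.span (X '' (Set.univ : Set σ)) := fun y => by
    classical
    rw [mem_ideal_span_X_image]
    intro m hm
    by_contra hn
    push Not at hn
    have : m = 0 := Finsupp.ext fun i => hn i (Set.mem_univ i)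
    subst this
    simp at hm
  by_cases h0 : coeff 0 x = 0
  · simpa [h0] using h1 x
  · exfalso
    refine hA (A.eq_top_of_isUnit_mem (x := C (coeff 0 x)) ?_ ((IsUnit.mk0 _ h0).map C))
    simpa using A.sub_mem hx (hle (h1 x))

/-- Hilbert–Serre -/
theorem hilbert_serre [Finite σ] (hfin : ∀ j, FiniteDimensional K (weightedHomogeneousSubmodule K w j))
    (lam : G →+ ℤ) (hw : ∀ v, 0 < lam (w v)) (T : Set σ) {A : Ideal (MvPolynomial σ K)} (hA : Gr w A)
    (hT : ∀ v ∈ T, X v ∈ A) : HF w A ∈ Cl (HF w (Ideal.span (X '' T) : Ideal (MvPolynomial σ K))) := by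
  classical
  have := Fintype.ofFinite σ
  have k1 : ∀ l : List σ, ∀ A : Ideal (MvPolynomial σ K), Gr w A → (∀ v, v ∉ l → X v ∈ A) →
      DL (l.map w) (HF w A) ∈ Cl (HF w (Ideal.span (X '' Set.univ) : Ideal (MvPolynomial σ K))) := by
    intro l
    induction l with
    | nil =>
      intro A _ h
      rcases eq_of_X_mem fun v => h v (by simp) with e | e
      · have : HF w A = 0 := funext fun j => HF_eq_zero fun x _ => by rw [e]; trivial
        rw [this, map_zero]
        exact zero_mem _
      · rw [e]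
        exact self_mem_Cl _
    | cons v l ih =>
      intro A hA h
      refine kerco hfin ((St_Cl _).comap (l.map w)) hA (isWeightedHomogeneous_X K w v) fun C hC h1 h2 =>
        ih C hC fun v' hv' => ?_
      by_cases e : v' = v
      · rwa [e]
      · exact h1 (h v' (by simp [e, hv']))
  have k2 : ∀ l : List σ, l.Nodup → DL (l.map w) (HF w (Ideal.span (X '' {v | v ∉ l}) : Ideal (MvPolynomial σ K))) =
      HF w (Ideal.span (X '' Set.univ) : Ideal (MvPolynomial σ K)) := by
    intro l
    induction l with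
    | nil => intro _; simp [DL_nil]
    | cons v l ih =>
      intro hl
      rw [List.nodup_cons] at hl
      have hg : Gr w (Ideal.span (X '' {v' | v' ∉ v :: l}) : Ideal (MvPolynomial σ K)) :=
        Gr_span (by rintro _ ⟨v', -, rfl⟩; exact ⟨_, isWeightedHomogeneous_X K w v'⟩)
      have e1 : (Ideal.span (X '' {v' | v' ∉ v :: l}) : Ideal (MvPolynomial σ K)).colon {X v} =
          Ideal.span (X '' {v' | v' ∉ v :: l}) := by
        refine le_antisymm (fun x hx => ?_) (le_colon _ _)
        rw [Submodule.mem_colon_singleton, smul_eq_mul, mem_ideal_span_X_image] at hx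
        rw [mem_ideal_span_X_image]
        intro m hm
        obtain ⟨i, hi, hi'⟩ := hx (m + Finsupp.single v 1) (by
          rw [MvPolynomial.mem_support_iff, coeff_mul_X]; exact MvPolynomial.mem_support_iff.1 hm)
        refine ⟨i, hi, ?_⟩
        have : i ≠ v := fun e => hi (by simp [e])
        simpa [Finsupp.single_apply, this.symm] using hi'
      have e2 : (Ideal.span (X '' {v' | v' ∉ v :: l}) : Ideal (MvPolynomial σ K)) ⊔ Ideal.span {X v} =
          Ideal.span (X '' {v' | v' ∉ l}) := by
        rw [← Ideal.span_union, ← Set.image_singleton, ← Set.image_union]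
        congr 2
        ext v'
        by_cases e : v' = v
        · simp [e, hl.1]
        · simp [e]
      rw [List.map_cons, DL_cons, dl_HF hfin hg (isWeightedHomogeneous_X K w v), e1, e2, sub_self, map_zero, sub_zero,
        ih hl.2]
  have e : {v : σ | v ∉ (Finset.univ.filter (· ∉ T)).toList} = T := by ext v; simp
  have h1 := k1 (Finset.univ.filter (· ∉ T)).toList A hA fun v hv => hT v (by simpa using hv)
  have h2 := k2 (Finset.univ.filter (· ∉ T)).toList (Finset.nodup_toList _)
  rw [e] at h2
  rw [← h2] at h1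
  obtain ⟨g, hg, hg'⟩ := Cl_DL _ _ h1
  have hb : g - HF w A ∈ BB lam := sub_mem (Cl_le (St_BB lam) (HF_BB lam hw _) hg) (HF_BB lam hw A)
  have := DL_inj lam _ (fun d hd => by
    obtain ⟨v, -, rfl⟩ := List.mem_map.1 hd
    exact hw v) hb (by rw [map_sub, hg', sub_self])
  rw [← sub_eq_zero.1 this]
  exact hg

end Gr

end Crest.Agent.R181.I0
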