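import Crest.Agent.R181.I0a

/-!
# R181/I0b: the double induction (on the minors and on the equations) (helper60)
-/

set_option autoImplicit false

namespace Crest.Agent.R181.I0

open MvPolynomial Module

variable {G : Type} [AddCommGroup G] {K σ : Type} [Field K] {w : σ → G}

theorem St.sup {L L' : AddSubgroup (G → ℤ)} (h : St L) (h' : St L') : St (L ⊔ L') := by
  intro c f hf
  obtain ⟨a, ha, b, hb, rfl⟩ := AddSubgroup.mem_sup.1 hf
  rw [map_add]
  exact AddSubgroup.add_mem_sup (h c a ha) (h' c b hb)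

theorem main_abs [Finite σ] (hfin : ∀ j, FiniteDimensional K (weightedHomogeneousSubmodule K w j))
    (lam : G →+ ℤ) (hw : ∀ v, 0 < lam (w v)) {ρ κ : Type} [Finite ρ] [Finite κ] (T₀ : Set σ)
    (E : ρ → MvPolynomial σ K) (dg : ρ → G) (hE : ∀ r, IsWeightedHomogeneous w (E r) (dg r))
    (h : κ → MvPolynomial σ K) {Z : AddSubgroup (G → ℤ)} (hZ : St Z)
    (base : ∀ A, Gr w A → (∀ r, E r ∈ A) → (∀ ν, h ν ∈ A.radical) → HF w A ∈ Z)
    (tilde : ∀ ν r (A : Ideal (MvPolynomial σ K)), Gr w A → E r ∈ A → ∃ A' : Ideal (MvPolynomial σ K),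
      Gr w A' ∧ A' ≤ A ∧ (∀ v, X v ∈ A → X v ∈ A') ∧ (∀ r', r' ≠ r → E r' ∈ A → E r' ∈ A') ∧ (∀ ν', h ν' ∈ A.radical → h ν' ∈ A'.radical) ∧
      (∀ g, g * E r ∈ A' → h ν * g ∈ A') ∧ ∀ g ∈ A, ∃ N, h ν ^ N * g ∈ A' ⊔ Ideal.span {E r})
    (ar : ∀ ν r (T : Set ρ), r ∉ T → ∀ g, g * E r ∈ Ideal.span (X '' T₀ ∪ E '' T) →
      ∃ N, h ν ^ N * g ∈ Ideal.span (X '' T₀ ∪ E '' T))
    {A : Ideal (MvPolynomial σ K)} (hA : Gr w A) (hTA : ∀ v ∈ T₀, X v ∈ A) (hEA : ∀ r, E r ∈ A) :
    HF w A ∈ Cl (HF w (Ideal.span (X '' T₀ ∪ E '' Set.univ))) ⊔ Z := by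
  classical
  have := Fintype.ofFinite ρ
  have := Fintype.ofFinite κ
  have q0 : ∀ (l : List ρ) (A : Ideal (MvPolynomial σ K)), Gr w A → (∀ r, r ∉ l → E r ∈ A) →
      (∀ ν, h ν ∈ A.radical) → DL (l.map dg) (HF w A) ∈ Z := by
    intro l
    induction l with
    | nil => exact fun A hA h1 h2 => base A hA (fun r => h1 r (by simp)) h2
    | cons r l ih =>
      intro A hA h1 h2
      refine kerco hfin (hZ.comap (l.map dg)) hA (hE r) fun C hC c1 c2 =>
        ih C hC (fun r' hr' => ?_) fun ν => Ideal.radical_mono c1 (h2 ν)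
      by_cases e : r' = r
      · rwa [e]
      · exact c1 (h1 r' (by simp [e, hr']))
  have q1 : ∀ l : List ρ, l.Nodup →
      DL (l.map dg) (HF w (Ideal.span (X '' T₀ ∪ E '' {r | r ∉ l}))) - HF w (Ideal.span (X '' T₀ ∪ E '' Set.univ)) ∈ Z := by
    intro l
    induction l with
    | nil => intro _; simp [DL_nil]
    | cons r l ih =>
      intro hl
      rw [List.nodup_cons] at hl
      have hg : Gr w (Ideal.span (X '' T₀ ∪ E '' {r' | r' ∉ r :: l})) :=
        Gr_span (by
          rintro _ (⟨v, -, rfl⟩ | ⟨r', -, rfl⟩)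
          · exact ⟨_, isWeightedHomogeneous_X K w v⟩
          · exact ⟨_, hE r'⟩)
      have e2 : Ideal.span (X '' T₀ ∪ E '' {r' | r' ∉ r :: l}) ⊔ Ideal.span {E r} = Ideal.span (X '' T₀ ∪ E '' {r' | r' ∉ l}) := by
        rw [← Ideal.span_union, Set.union_assoc, ← Set.image_singleton, ← Set.image_union]
        congr 3
        ext r'
        by_cases e : r' = r
        · simp [e, hl.1]
        · simp [e]
      rw [List.map_cons, DL_cons, dl_HF hfin hg (hE r), e2, map_sub, sub_right_comm]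
      refine Z.sub_mem (ih hl.2) (hZ.comap (l.map dg) _ _ (filt hfin (hZ.comap (l.map dg)) hg (hg.colon (hE r))
        (le_colon _ _) fun C g c0 c1 c2 => q0 l _ c0 (fun r' hr' => ?_) fun ν => ?_))
      · by_cases e : r' = r
        · rw [Submodule.mem_colon_singleton, smul_eq_mul] at c2 ⊢
          rw [e, mul_comm]
          exact c1 c2
        · exact le_colon _ _ (c1 (Ideal.subset_span (Or.inr ⟨r', by simp [e, hr'], rfl⟩)))
      · rw [Submodule.mem_colon_singleton, smul_eq_mul] at c2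
        obtain ⟨N, hN⟩ := ar ν r _ (by simp) g c2
        exact ⟨N, Submodule.mem_colon_singleton.2 (c1 hN)⟩
  have hL : St (Cl (HF w (Ideal.span (X '' T₀ ∪ E '' Set.univ))) ⊔ Z) := (St_Cl _).sup hZ
  have hZL : Z ≤ Cl (HF w (Ideal.span (X '' T₀ ∪ E '' Set.univ))) ⊔ Z := le_sup_right
  have q2 : ∀ A : Ideal (MvPolynomial σ K), Gr w A → (∀ v ∈ T₀, X v ∈ A) →
      DL (Finset.univ.toList.map dg) (HF w A) ∈ Cl (HF w (Ideal.span (X '' T₀ ∪ E '' Set.univ))) ⊔ Z := by
    intro A hA hT
    refine Cl_le (hL.comap (Finset.univ.toList.map dg)) ?_ (hilbert_serre hfin lam hw T₀ hA hT)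
    have h2 := q1 Finset.univ.toList (Finset.nodup_toList _)
    have e : {r : ρ | r ∉ (Finset.univ : Finset ρ).toList} = ∅ := by ext v; simp
    rw [e, Set.image_empty, Set.union_empty] at h2
    have := AddSubgroup.add_mem_sup (self_mem_Cl (HF w (Ideal.span (X '' T₀ ∪ E '' Set.univ)))) h2
    rwa [add_sub_cancel] at this
  generalize Cl (HF w (Ideal.span (X '' T₀ ∪ E '' Set.univ))) ⊔ Z = L at hL hZL q2 ⊢
  have q3 : ∀ (N : List κ) (l₁ l : List ρ), l₁.reverse ++ l = Finset.univ.toList →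
      ∀ A : Ideal (MvPolynomial σ K), Gr w A → (∀ v ∈ T₀, X v ∈ A) → (∀ r, r ∉ l → E r ∈ A) →
        (∀ ν, ν ∉ N → h ν ∈ A.radical) → DL (l.map dg) (HF w A) ∈ L := by
    intro N
    induction N with
    | nil => exact fun _ l _ A hA _ h1 h2 => hZL (q0 l A hA h1 fun ν => h2 ν (by simp))
    | cons ν N ihN =>
      intro l₁
      induction l₁ with
      | nil =>
        intro l hl A hA hT _ _
        rw [List.reverse_nil, List.nil_append] at hl
        rw [hl]
        exact q2 A hA hT
      | cons r l₁ ih =>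
        intro l hl A hA hT h1 h2
        have hl' : l₁.reverse ++ r :: l = Finset.univ.toList := by simpa using hl
        have hr : r ∉ l := by
          have := Finset.nodup_toList (Finset.univ : Finset ρ)
          rw [← hl'] at this
          exact (List.nodup_cons.1 this.of_append_right).1
        obtain ⟨A', a1, a2, a0, a3, a4, a5, a6⟩ := tilde ν r A hA (h1 r hr)
        have b1 : ∀ r', r' ∉ r :: l → E r' ∈ A' := fun r' hr' =>
          a3 r' (fun e => hr' (by simp [e])) (h1 r' fun e => hr' (by simp [e]))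
        have b2 : ∀ ν', ν' ∉ ν :: N → h ν' ∈ A'.radical := fun ν' hν' => a4 ν' (h2 ν' hν')
        have c0 : dl (dg r) (HF w A') ∈ L.comap (DL (l.map dg)) := ih (r :: l) hl' A' a1 (fun v hv => a0 v (hT v hv)) b1 b2
        have key : ∀ C : Ideal (MvPolynomial σ K), Gr w C → A' ≤ C → E r ∈ C → h ν ∈ C.radical →
            HF w C ∈ L.comap (DL (l.map dg)) := fun C c1 c2 c3 c4 =>
          ihN (r :: l₁) l hl C c1 (fun v hv => c2 (a0 v (hT v hv))) (fun r' hr' => by
            by_cases e : r' = r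
            · rwa [e]
            · exact c2 (b1 r' (by simp [e, hr']))) fun ν' hν' => by
            by_cases e : ν' = ν
            · rwa [e]
            · exact Ideal.radical_mono c2 (b2 ν' (by simp [e, hν']))
        have hL' := hL.comap (l.map dg)
        have c1 : HF w A' - HF w (A'.colon {E r}) ∈ L.comap (DL (l.map dg)) := by
          refine filt hfin hL' a1 (a1.colon (hE r)) (le_colon _ _) fun C g d0 d1 d2 => ?_
          rw [Submodule.mem_colon_singleton, smul_eq_mul] at d2
          refine key _ d0 (d1.trans (le_colon _ _)) ?_ (Ideal.le_radical ?_)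
          · rw [Submodule.mem_colon_singleton, smul_eq_mul, mul_comm]
            exact d1 d2
          · exact Submodule.mem_colon_singleton.2 (d1 (a5 g d2))
        have c2 : HF w (A' ⊔ Ideal.span {E r}) - HF w A ∈ L.comap (DL (l.map dg)) := by
          refine filt hfin hL' (a1.sup_span (hE r)) hA
            (sup_le a2 ((Ideal.span_singleton_le_iff_mem _).2 (h1 r hr))) fun C g d0 d1 d2 => ?_
          obtain ⟨n, hn⟩ := a6 g d2
          exact key _ d0 ((le_sup_left.trans d1).trans (le_colon _ _))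
            (le_colon _ _ (d1 (Submodule.mem_sup_right (Ideal.mem_span_singleton_self _))))
            ⟨n, Submodule.mem_colon_singleton.2 (d1 hn)⟩
        rw [dl_HF hfin a1 (hE r)] at c0
        have := sub_mem (add_mem c0 (hL' (dg r) _ c1)) c2
        rwa [sub_add_cancel, sub_sub_cancel] at this
  exact q3 Finset.univ.toList Finset.univ.toList.reverse [] (by simp) A hA hTA (fun r _ => hEA r)
    fun ν hν => absurd (by simp) hν

end Crest.Agent.R181.I0
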