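import Crest.Agent.R181.KDefs

/-! # Basic facts on `supp`, `hc`, `ch`, `cc` (task K1) -/

set_option autoImplicit false

namespace Crest.Agent.R181

open Finset

variable {D : Type*} {n : ℕ}

theorem mem_supp [Semiring D] {X : Set (Mon n)} {g : PD D n} :
    g ∈ supp D X ↔ ∀ m, g.coeff m ≠ 0 → m ∈ X := by
  unfold supp
  rw [AddMonoidAlgebra.mem_supported]
  simp [Set.subset_def]

theorem supp_mono [Semiring D] {X Y : Set (Mon n)} (h : X ⊆ Y) : supp D X ≤ supp D Y := by
  exact fun g hg => mem_supp.2 fun m hm => h (mem_supp.1 hg m hm)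

theorem supp_inf [Semiring D] (X Y : Set (Mon n)) : supp D X ⊓ supp D Y = supp D (X ∩ Y) := by
  ext g
  simp only [Submodule.mem_inf, mem_supp, Set.mem_inter_iff]
  exact ⟨fun h m hm => ⟨h.1 m hm, h.2 m hm⟩, fun h => ⟨fun m hm => (h m hm).1, fun m hm => (h m hm).2⟩⟩

theorem supp_sup [Semiring D] (X Y : Set (Mon n)) : supp D X ⊔ supp D Y = supp D (X ∪ Y) := by
  unfold supp
  rw [AddMonoidAlgebra.supported_eq_span_single, AddMonoidAlgebra.supported_eq_span_single,
    AddMonoidAlgebra.supported_eq_span_single, ← Submodule.span_union, Set.image_union]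

theorem supp_univ [Semiring D] : supp D (Set.univ : Set (Mon n)) = ⊤ := by
  exact eq_top_iff.2 fun g _ => mem_supp.2 fun m _ => Set.mem_univ m

theorem single_mem_supp [Semiring D] {X : Set (Mon n)} {m : Mon n} (hm : m ∈ X) (c : D) :
    AddMonoidAlgebra.single m c ∈ supp D X := by
  refine mem_supp.2 fun m' h => ?_
  rw [AddMonoidAlgebra.coeff_single] at h
  rwa [(Finsupp.single_apply_ne_zero.1 h).1]

theorem supp_eq_span [Semiring D] (X : Set (Mon n)) :
    supp D X = Submodule.span D ((fun m => AddMonoidAlgebra.single m (1 : D)) '' X) := by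
  exact AddMonoidAlgebra.supported_eq_span_single D X

theorem deg_finite (n e : ℕ) : (deg n e).Finite := by
  exact Finsupp.finite_of_degree_eq e

theorem finite_supp [Ring D] {X : Set (Mon n)} (hX : X.Finite) : Module.Finite D (supp D X) := by
  rw [supp_eq_span]
  exact Module.Finite.span_of_finite D (hX.image _)

theorem finrank_supp [DivisionRing D] {X : Set (Mon n)} (hX : X.Finite) :
    Module.finrank D (supp D X) = X.ncard := by
  have := hX.fintype
  have e := AddMonoidAlgebra.supportedEquivFinsupp (R := D) (S := D) X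
  unfold supp
  rw [e.finrank_eq, Module.finrank_finsupp_self, ← Nat.card_eq_fintype_card, Nat.card_coe_set_eq]

instance finite_supp_deg [DivisionRing D] (e : ℕ) : Module.Finite D (supp D (deg n e)) := by
  exact finite_supp (deg_finite n e)

instance finite_inf_deg [DivisionRing D] (N : Submodule D (PD D n)) (e : ℕ) :
    Module.Finite D ↥(N ⊓ supp D (deg n e)) := by
  exact Module.Finite.of_injective (Submodule.inclusion (inf_le_right : N ⊓ supp D (deg n e) ≤ _))
    (Submodule.inclusion_injective _)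

/-- a product of submodules as a product of modules -/
def kbasic_piEquiv {R ι M : Type*} [Semiring R] [AddCommMonoid M] [Module R M] (q : ι → Submodule R M) :
    Submodule.pi Set.univ q ≃ₗ[R] ∀ i, q i where
  toFun f i := ⟨f.1 i, f.2 i (Set.mem_univ i)⟩
  invFun f := ⟨fun i => f i, fun i _ => (f i).2⟩
  left_inv _ := rfl
  right_inv _ := rfl
  map_add' _ _ := rfl
  map_smul' _ _ := rfl

instance finite_ch [DivisionRing D] (N : Submodule D (PD D n)) (p j : ℕ) :
    Module.Finite D (ch N p j) := by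
  have : ∀ U : Finset (Fin n), Module.Finite D
      ↥(if U.card = p ∧ p ≤ j then N ⊓ supp D (deg n (j - p)) else ⊥ : Submodule D (PD D n)) := fun U => by
    by_cases h : U.card = p ∧ p ≤ j
    · rw [if_pos h]
      infer_instance
    · rw [if_neg h]
      infer_instance
  exact Module.Finite.equiv (kbasic_piEquiv _).symm

theorem hf_supp [DivisionRing D] (X : Set (Mon n)) (e : ℕ) : hf (supp D X) e = cnt X e := by
  unfold hf cnt
  rw [supp_inf, finrank_supp ((deg_finite n e).inter_of_right X)]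

theorem mem_ch [Semiring D] {N : Submodule D (PD D n)} {p j : ℕ} {f : KF D n} :
    f ∈ ch N p j ↔ ∀ U : Finset (Fin n),
      (U.card = p ∧ p ≤ j → f U ∈ N ∧ f U ∈ supp D (deg n (j - p))) ∧
      (¬ (U.card = p ∧ p ≤ j) → f U = 0) := by
  unfold ch
  rw [Submodule.mem_pi]
  refine forall_congr' fun U => ?_
  by_cases h : U.card = p ∧ p ≤ j
  · simp only [Set.mem_univ, forall_const, if_pos h, Submodule.mem_inf]
    exact ⟨fun h1 => ⟨fun _ => h1, fun h2 => absurd h h2⟩, fun h1 => h1.1 h⟩
  · simp only [Set.mem_univ, forall_const, if_neg h, Submodule.mem_bot]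
    exact ⟨fun h1 => ⟨fun h2 => absurd h2 h, fun _ => h1⟩, fun h1 => h1.2 h⟩

theorem ch_mono [Semiring D] {N N' : Submodule D (PD D n)} (h : N ≤ N') (p j : ℕ) :
    ch N p j ≤ ch N' p j := by
  intro f hf
  rw [mem_ch] at hf ⊢
  exact fun U => ⟨fun hU => ⟨h ((hf U).1 hU).1, ((hf U).1 hU).2⟩, (hf U).2⟩

theorem cc_eq [DivisionRing D] (N : Submodule D (PD D n)) (p j : ℕ) :
    cc N p j = if p ≤ j then n.choose p * hf N (j - p) else 0 := by
  have : ∀ U : Finset (Fin n), Module.Finite D
      ↥(if U.card = p ∧ p ≤ j then N ⊓ supp D (deg n (j - p)) else ⊥ : Submodule D (PD D n)) := fun U => by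
    by_cases h : U.card = p ∧ p ≤ j
    · rw [if_pos h]
      infer_instance
    · rw [if_neg h]
      infer_instance
  unfold cc ch
  rw [(kbasic_piEquiv _).finrank_eq, Module.finrank_pi_fintype]
  have h1 : ∀ U : Finset (Fin n), Module.finrank D
      ↥(if U.card = p ∧ p ≤ j then N ⊓ supp D (deg n (j - p)) else ⊥ : Submodule D (PD D n)) =
      if U.card = p ∧ p ≤ j then hf N (j - p) else 0 := fun U => by
    by_cases h : U.card = p ∧ p ≤ j
    · rw [if_pos h, if_pos h]
      rfl
    · rw [if_neg h, if_neg h]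
      exact finrank_bot _ _
  simp only [h1]
  by_cases hp : p ≤ j
  · simp only [hp, and_true, if_true]
    rw [← Finset.sum_filter, Finset.sum_const, smul_eq_mul]
    congr 1
    rw [Finset.univ_filter_card_eq, Finset.card_powersetCard, Finset.card_univ, Fintype.card_fin]
  · simp [hp]

theorem mul_mem_deg [Semiring D] {g h : PD D n} {a b : ℕ} (hg : g ∈ supp D (deg n a))
    (hh : h ∈ supp D (deg n b)) : g * h ∈ supp D (deg n (a + b)) := by
  refine mem_supp.2 fun m hm => ?_
  obtain ⟨x, hx, y, hy, rfl⟩ := Finset.mem_add.1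
    (AddMonoidAlgebra.support_coeff_mul_subset g h (Finsupp.mem_support_iff.2 hm))
  have h1 : x.degree = a := mem_supp.1 hg x (Finsupp.mem_support_iff.1 hx)
  have h2 : y.degree = b := mem_supp.1 hh y (Finsupp.mem_support_iff.1 hy)
  show (x + y).degree = a + b
  rw [map_add, h1, h2]

theorem isLin_xv [Semiring D] : IsLin (xv D n) := by
  intro t
  have h : Finsupp.single t 1 ∈ deg n 1 := Finsupp.degree_single t 1
  exact single_mem_supp h 1

theorem commute_xv [Semiring D] (g : PD D n) (t : Fin n) : Commute g (xv D n t) := by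
  exact (AddMonoidAlgebra.single_commute (fun m' => AddCommute.all _ _) (fun r => Commute.one_left r) g).symm

theorem coeff_mul_xv [Semiring D] (g : PD D n) (t : Fin n) (m : Mon n) :
    (g * xv D n t).coeff (m + Finsupp.single t 1) = g.coeff m := by
  unfold xv
  rw [AddMonoidAlgebra.coeff_mul_single_add, mul_one]

theorem coeff_mul_xv_ne [Semiring D] {g : PD D n} {t : Fin n} {m : Mon n}
    (h : (g * xv D n t).coeff m ≠ 0) : ∃ m', m = m' + Finsupp.single t 1 ∧ g.coeff m' ≠ 0 := by
  by_cases h1 : ∃ m', m' + Finsupp.single t 1 = m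
  · obtain ⟨m', rfl⟩ := h1
    exact ⟨m', rfl, by rwa [coeff_mul_xv] at h⟩
  · exact absurd (AddMonoidAlgebra.coeff_mul_single_of_forall_add_ne 1 g fun d hd => h1 ⟨d, hd⟩) h

theorem xv_pow [Semiring D] (t : Fin n) (k : ℕ) :
    xv D n t ^ k = AddMonoidAlgebra.single (Finsupp.single t k) 1 := by
  unfold xv
  rw [AddMonoidAlgebra.single_pow, one_pow, Finsupp.smul_single, smul_eq_mul, mul_one]

theorem mem_deg_one {m : Mon n} : m ∈ deg n 1 ↔ ∃ t, m = Finsupp.single t 1 := by
  have h : m ∈ deg n 1 ↔ m ∈ Set.range (fun a : Fin n => Finsupp.single a 1) := by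
    rw [Finsupp.range_single_one]
    rfl
  rw [h]
  exact ⟨fun ⟨t, ht⟩ => ⟨t, ht.symm⟩, fun ⟨t, ht⟩ => ⟨t, ht.symm⟩⟩

theorem mem_deg_zero {m : Mon n} : m ∈ deg n 0 ↔ m = 0 := by
  exact Finsupp.degree_eq_zero_iff m

theorem linearIndependent_xv [Ring D] : LinearIndependent D (xv D n) := by
  exact (AddMonoidAlgebra.basis (Mon n) D).linearIndependent.comp (fun t : Fin n => Finsupp.single t 1)
    (Finsupp.single_left_injective one_ne_zero)

theorem span_xv [Ring D] : Submodule.span D (Set.range (xv D n)) = supp D (deg n 1) := by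
  rw [supp_eq_span]
  congr 1
  ext g
  constructor
  · rintro ⟨t, rfl⟩
    exact ⟨_, mem_deg_one.2 ⟨t, rfl⟩, rfl⟩
  · rintro ⟨m, hm, rfl⟩
    obtain ⟨t, rfl⟩ := mem_deg_one.1 hm
    exact ⟨t, rfl⟩

theorem finrank_deg_one [DivisionRing D] : Module.finrank D (supp D (deg n 1)) = n := by
  rw [← span_xv, finrank_span_eq_card linearIndependent_xv, Fintype.card_fin]

theorem supp_mul_xv [Semiring D] {J : Set (Mon n)} (hJ : IsUpperSet J) {g : PD D n}
    (hg : g ∈ supp D J) (t : Fin n) : g * xv D n t ∈ supp D J := by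
  refine mem_supp.2 fun m hm => ?_
  obtain ⟨m', rfl, h⟩ := coeff_mul_xv_ne hm
  exact hJ le_self_add (mem_supp.1 hg m' h)

theorem coeff_hc [Semiring D] (e : ℕ) (g : PD D n) (m : Mon n) :
    (hc D e g).coeff m = if m.degree = e then g.coeff m else 0 := by
  unfold hc
  rw [AddMonoidAlgebra.coeff_ofCoeff, Finsupp.filter_apply]

theorem hc_mem [Semiring D] (e : ℕ) (g : PD D n) : hc D e g ∈ supp D (deg n e) := by
  refine mem_supp.2 fun m hm => ?_
  rw [coeff_hc] at hm
  by_contra h
  exact hm (if_neg h)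

theorem hc_of_mem [Semiring D] {e : ℕ} {g : PD D n} (hg : g ∈ supp D (deg n e)) (e' : ℕ) :
    hc D e' g = if e' = e then g else 0 := by
  refine AddMonoidAlgebra.ext (Finsupp.ext fun m => ?_)
  rw [coeff_hc]
  by_cases h0 : g.coeff m = 0
  · split_ifs <;> simp [h0]
  · have h1 : m.degree = e := mem_supp.1 hg m h0
    rw [h1]
    by_cases h : e' = e
    · rw [if_pos h, if_pos h.symm]
    · rw [if_neg h, if_neg (Ne.symm h)]
      rfl

theorem hc_add [Semiring D] (e : ℕ) (g h : PD D n) : hc D e (g + h) = hc D e g + hc D e h := by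
  refine AddMonoidAlgebra.ext (Finsupp.ext fun m => ?_)
  simp only [AddMonoidAlgebra.coeff_add, Finsupp.add_apply, coeff_hc]
  split_ifs <;> simp

theorem hc_smul [Semiring D] (e : ℕ) (c : D) (g : PD D n) : hc D e (c • g) = c • hc D e g := by
  refine AddMonoidAlgebra.ext (Finsupp.ext fun m => ?_)
  simp only [AddMonoidAlgebra.coeff_smul, Finsupp.smul_apply, coeff_hc]
  split_ifs <;> simp

theorem hc_zero [Semiring D] (e : ℕ) : hc D e (0 : PD D n) = 0 := by
  refine AddMonoidAlgebra.ext (Finsupp.ext fun m => ?_)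
  simp [coeff_hc]

theorem exists_sum_hc [Semiring D] (g : PD D n) : ∃ N, g = ∑ e ∈ range N, hc D e g := by
  refine ⟨g.coeff.support.sup (fun m => m.degree) + 1, AddMonoidAlgebra.ext (Finsupp.ext fun m => ?_)⟩
  rw [AddMonoidAlgebra.coeff_sum, Finsupp.finsetSum_apply]
  simp only [coeff_hc]
  rw [Finset.sum_ite_eq]
  split_ifs with h
  · rfl
  · by_contra h0
    exact h (Finset.mem_range.2 (Nat.lt_succ_of_le
      (Finset.le_sup (f := fun m : Mon n => m.degree) (Finsupp.mem_support_iff.2 h0))))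

theorem gr_supp [Semiring D] (X : Set (Mon n)) : Gr (supp D X) := by
  refine fun g hg e => mem_supp.2 fun m hm => mem_supp.1 hg m fun h0 => hm ?_
  rw [coeff_hc, h0, ite_self]

theorem hc_eq_homogeneousComponent (e : ℕ) (g : MvPolynomial (Fin n) ℂ) :
    hc ℂ e g = MvPolynomial.homogeneousComponent e g := by
  refine AddMonoidAlgebra.ext (Finsupp.ext fun m => ?_)
  rw [coeff_hc]
  exact (MvPolynomial.coeff_homogeneousComponent e g m).symm

theorem supp_deg_eq (e : ℕ) :
    supp ℂ (deg n e) = MvPolynomial.homogeneousSubmodule (Fin n) ℂ e := by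
  exact (MvPolynomial.homogeneousSubmodule_eq_finsupp_supported (Fin n) ℂ e).symm

theorem xv_eq_X (t : Fin n) : xv ℂ n t = MvPolynomial.X t := by
  rfl

theorem degreePiece_eq (I : Ideal (MvPolynomial (Fin n) ℂ)) (e : ℕ) :
    Crest.AlgebraR.LPP.degreePiece I e = I.restrictScalars ℂ ⊓ supp ℂ (deg n e) := by
  rw [supp_deg_eq, inf_comm]
  rfl

theorem monI_eq {J : Set (Mon n)} (hJ : IsUpperSet J) :
    (monI J).restrictScalars ℂ = supp ℂ J := by
  ext g
  rw [Submodule.restrictScalars_mem, monI, MvPolynomial.mem_ideal_span_monomial_image, mem_supp]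
  constructor
  · intro h m hm
    obtain ⟨s, hs, hle⟩ := h m (Finsupp.mem_support_iff.2 hm)
    exact hJ hle hs
  · intro h m hm
    exact ⟨m, h m (Finsupp.mem_support_iff.1 hm), le_rfl⟩

theorem monI_homog {J : Set (Mon n)} (hJ : IsUpperSet J) :
    ∀ g ∈ monI J, ∀ d : ℕ, MvPolynomial.homogeneousComponent d g ∈ monI J := by
  intro g hg d
  have h : g ∈ supp ℂ J := by
    rw [← monI_eq hJ]
    exact hg
  have h2 := gr_supp J g h d
  rw [hc_eq_homogeneousComponent, ← monI_eq hJ] at h2
  exact h2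

end Crest.Agent.R181
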