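import Crest.Agent.R181.KKos

/-! # From `gradedBetti` to the numbers `ee` (task K4)

Write `N = I.restrictScalars ℂ`, `π : KF ℂ n → (Finset (Fin n) → S ⧸ I)` for composition with the quotient map.
`π ∘ kos x = koszulD I ∘ π`, `π` maps `ch ⊤ p j` onto `strandChains I p j` with kernel `ch N p j`.
So `dim strandChains p j + cc N p j = cc ⊤ p j`, and the rank `r (p+1)` of `koszulD` on
`strandChains (p+1) j` satisfies `r (p+1) + cc N p j = ee x N p j` (`π` restricted to
`d (ch ⊤ (p+1) j) ⊔ ch N p j ≤ ch ⊤ p j` has kernel `ch N p j`). Boundaries are cycles (`kos_kos`), so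
`β p + r (p+1) = dim Z p = dim strandChains p j - r p` with `r 0 = 0`. -/

set_option autoImplicit false

namespace Crest.Agent.R181

open Finset

variable {n : ℕ}

section abstract

variable {K V W : Type*} [Field K] [AddCommGroup V] [Module K V] [AddCommGroup W] [Module K W]

private theorem rank_add (π : V →ₗ[K] W) (X : Submodule K V) [Module.Finite K X] :
    Module.finrank K (X.map π) + Module.finrank K ↥(LinearMap.ker π ⊓ X) = Module.finrank K X := by
  have h := LinearMap.finrank_range_add_finrank_ker (π.domRestrict X)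
  rw [LinearMap.range_domRestrict, LinearMap.ker_domRestrict] at h
  rw [← h]
  congr 1
  have e : Submodule.comap X.subtype (LinearMap.ker π) =
      Submodule.comap X.subtype (LinearMap.ker π ⊓ X) := by
    ext x; simp
  rw [e]
  exact (Submodule.comapSubtypeEquivOfLe (inf_le_right : LinearMap.ker π ⊓ X ≤ X)).finrank_eq.symm

private theorem quot_add (Z B : Submodule K W) [Module.Finite K Z] (h : B ≤ Z) :
    Module.finrank K (↥Z ⧸ Submodule.comap Z.subtype B) + Module.finrank K B =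
      Module.finrank K Z := by
  rw [← (Submodule.comapSubtypeEquivOfLe h).finrank_eq]
  exact Submodule.finrank_quotient_add_finrank _

private theorem rank_step (π : V →ₗ[K] W) (d : V →ₗ[K] V) (δ : W →ₗ[K] W)
    (hπ : ∀ v, π (d v) = δ (π v)) (A' A B : Submodule K V) [Module.Finite K A]
    (hA : A'.map d ≤ A) (hB : LinearMap.ker π ⊓ A = B) :
    Module.finrank K ((A'.map π).map δ) + Module.finrank K B =
      Module.finrank K ↥(A'.map d ⊔ B) := by
  have hBA : B ≤ A := hB ▸ inf_le_right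
  have hBk : B ≤ LinearMap.ker π := hB ▸ inf_le_left
  have hle : A'.map d ⊔ B ≤ A := sup_le hA hBA
  have : Module.Finite K ↥(A'.map d ⊔ B) := Submodule.finiteDimensional_of_le hle
  have h := rank_add π (A'.map d ⊔ B)
  have e1 : (A'.map d ⊔ B).map π = (A'.map π).map δ := by
    rw [Submodule.map_sup, ← Submodule.map_comp, ← Submodule.map_comp]
    have e0 : B.map π = ⊥ := by
      rw [eq_bot_iff, Submodule.map_le_iff_le_comap]
      simpa using hBk
    have e2 : π ∘ₗ d = δ ∘ₗ π := LinearMap.ext hπ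
    rw [e0, sup_bot_eq, e2]
  have e2 : LinearMap.ker π ⊓ (A'.map d ⊔ B) = B := by
    apply le_antisymm
    · rw [← hB]
      exact inf_le_inf_left _ (hB ▸ hle)
    · exact le_inf hBk le_sup_right
  rw [e1, e2] at h
  exact h

end abstract

/-- composition with the quotient map -/
private noncomputable def piQ (I : Ideal (MvPolynomial (Fin n) ℂ)) :
    KF ℂ n →ₗ[ℂ] (Finset (Fin n) → MvPolynomial (Fin n) ℂ ⧸ I) :=
  LinearMap.pi fun U => (Ideal.Quotient.mkₐ ℂ I).toLinearMap ∘ₗ LinearMap.proj U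

private theorem piQ_apply (I : Ideal (MvPolynomial (Fin n) ℂ)) (f : KF ℂ n) (U : Finset (Fin n)) :
    piQ I f U = Ideal.Quotient.mk I (f U) := rfl

private theorem piQ_kos (I : Ideal (MvPolynomial (Fin n) ℂ)) (f : KF ℂ n) :
    piQ I (kos (xv ℂ n) f) = Crest.AlgebraR.LPP.koszulD I (piQ I f) := by
  funext U
  rw [piQ_apply, kos_apply, map_sum]
  simp only [Crest.AlgebraR.LPP.koszulD, LinearMap.pi_apply, LinearMap.sum_apply,
    LinearMap.smul_apply, LinearMap.comp_apply, LinearMap.proj_apply, LinearMap.mulLeft_apply,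
    piQ_apply]
  refine Finset.sum_congr rfl fun t _ => ?_
  rw [map_zsmul, map_mul, xv_eq_X, mul_comm, ← Int.cast_smul_eq_zsmul ℂ]
  push_cast
  rfl

private theorem map_piQ (I : Ideal (MvPolynomial (Fin n) ℂ)) (p j : ℕ) :
    (ch (⊤ : Submodule ℂ (PD ℂ n)) p j).map (piQ I) = Crest.AlgebraR.LPP.strandChains I p j := by
  ext g
  simp only [Crest.AlgebraR.LPP.strandChains, Submodule.mem_iInf, Submodule.mem_comap,
    LinearMap.proj_apply, Submodule.mem_map]
  constructor
  · rintro ⟨f, hf, rfl⟩ T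
    rw [mem_ch] at hf
    by_cases hT : T.card = p ∧ p ≤ j
    · rw [if_pos hT]
      refine ⟨f T, ?_, rfl⟩
      have := ((hf T).1 hT).2
      rwa [supp_deg_eq] at this
    · rw [if_neg hT, piQ_apply, (hf T).2 hT, map_zero]
      exact Submodule.zero_mem _
  · intro hg
    have hex : ∀ T : Finset (Fin n), ∃ u : PD ℂ n,
        ((T.card = p ∧ p ≤ j → u ∈ (⊤ : Submodule ℂ (PD ℂ n)) ∧ u ∈ supp ℂ (deg n (j - p))) ∧
          (¬ (T.card = p ∧ p ≤ j) → u = 0)) ∧ Ideal.Quotient.mk I u = g T := by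
      intro T
      have h := hg T
      by_cases hT : T.card = p ∧ p ≤ j
      · rw [if_pos hT] at h
        obtain ⟨u, hu, e⟩ := h
        refine ⟨u, ⟨fun _ => ⟨trivial, ?_⟩, fun h' => (h' hT).elim⟩, e⟩
        rw [supp_deg_eq]; exact hu
      · rw [if_neg hT, Submodule.mem_bot] at h
        exact ⟨0, ⟨fun h' => (hT h').elim, fun _ => rfl⟩, by rw [h, map_zero]⟩
    choose f hf hfg using hex
    exact ⟨f, mem_ch.2 hf, funext hfg⟩

private theorem ker_piQ (I : Ideal (MvPolynomial (Fin n) ℂ)) (p j : ℕ) :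
    LinearMap.ker (piQ I) ⊓ ch (⊤ : Submodule ℂ (PD ℂ n)) p j = ch (I.restrictScalars ℂ) p j := by
  ext f
  rw [Submodule.mem_inf, LinearMap.mem_ker, mem_ch, mem_ch]
  constructor
  · rintro ⟨h0, hf⟩ U
    refine ⟨fun hU => ⟨?_, ((hf U).1 hU).2⟩, (hf U).2⟩
    have := congrFun h0 U
    rw [piQ_apply] at this
    exact Ideal.Quotient.eq_zero_iff_mem.1 this
  · intro hf
    refine ⟨funext fun U => ?_, fun U => ⟨fun hU => ⟨trivial, ((hf U).1 hU).2⟩, (hf U).2⟩⟩
    rw [piQ_apply]
    by_cases hU : U.card = p ∧ p ≤ j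
    · exact Ideal.Quotient.eq_zero_iff_mem.2 ((hf U).1 hU).1
    · rw [(hf U).2 hU, map_zero]; rfl

private theorem map_kos_le (p j : ℕ) :
    (ch (⊤ : Submodule ℂ (PD ℂ n)) (p + 1) j).map (kos (xv ℂ n)) ≤ ch ⊤ p j := by
  rintro _ ⟨f, hf, rfl⟩
  exact kos_mem_ch isLin_xv (fun _ _ _ => Submodule.mem_top) hf

/-- rank of the differential on the chains of `S ⧸ I` -/
private noncomputable def rk (I : Ideal (MvPolynomial (Fin n) ℂ)) (p j : ℕ) : ℕ :=
  Module.finrank ℂ
    ((Crest.AlgebraR.LPP.strandChains I p j).map (Crest.AlgebraR.LPP.koszulD I))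

private theorem rk_succ (I : Ideal (MvPolynomial (Fin n) ℂ)) (p j : ℕ) :
    rk I (p + 1) j + cc (I.restrictScalars ℂ) p j = ee (xv ℂ n) (I.restrictScalars ℂ) p j := by
  have h := rank_step (piQ I) (kos (xv ℂ n)) (Crest.AlgebraR.LPP.koszulD I) (piQ_kos I)
    (ch ⊤ (p + 1) j) (ch ⊤ p j) (ch (I.restrictScalars ℂ) p j) (map_kos_le p j) (ker_piQ I p j)
  rw [map_piQ] at h
  exact h

private theorem rk_zero (I : Ideal (MvPolynomial (Fin n) ℂ)) (j : ℕ) : rk I 0 j = 0 := by
  have h : (Crest.AlgebraR.LPP.strandChains I 0 j).map (Crest.AlgebraR.LPP.koszulD I) = ⊥ := by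
    rw [eq_bot_iff, ← map_piQ]
    rintro _ ⟨_, ⟨f, hf, rfl⟩, rfl⟩
    rw [← piQ_kos, kos_ch_zero _ hf, map_zero]
    exact Submodule.zero_mem _
  rw [rk, h, finrank_bot]

private theorem betti_add (I : Ideal (MvPolynomial (Fin n) ℂ)) (p j : ℕ) :
    Crest.AlgebraR.LPP.gradedBetti I p j + rk I (p + 1) j + rk I p j +
      cc (I.restrictScalars ℂ) p j = cc (⊤ : Submodule ℂ (PD ℂ n)) p j := by
  have : Module.Finite ℂ (Crest.AlgebraR.LPP.strandChains I p j) := by
    rw [← map_piQ]; infer_instance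
  have : Module.Finite ℂ ↥(LinearMap.ker (Crest.AlgebraR.LPP.koszulD I) ⊓
      Crest.AlgebraR.LPP.strandChains I p j) := Submodule.finiteDimensional_of_le inf_le_right
  have hB : (Crest.AlgebraR.LPP.strandChains I (p + 1) j).map (Crest.AlgebraR.LPP.koszulD I) ≤
      LinearMap.ker (Crest.AlgebraR.LPP.koszulD I) ⊓ Crest.AlgebraR.LPP.strandChains I p j := by
    rw [← map_piQ, ← map_piQ]
    rintro _ ⟨_, ⟨f, hf, rfl⟩, rfl⟩
    refine ⟨?_, ⟨kos (xv ℂ n) f, map_kos_le p j ⟨f, hf, rfl⟩, piQ_kos I f⟩⟩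
    change Crest.AlgebraR.LPP.koszulD I (Crest.AlgebraR.LPP.koszulD I (piQ I f)) = 0
    rw [← piQ_kos, ← piQ_kos, kos_kos (fun i k => commute_xv _ k), map_zero]
  have h1 := quot_add _ _ hB
  have h2 := rank_add (Crest.AlgebraR.LPP.koszulD I) (Crest.AlgebraR.LPP.strandChains I p j)
  have h3 := rank_add (piQ I) (ch (⊤ : Submodule ℂ (PD ℂ n)) p j)
  rw [map_piQ, ker_piQ] at h3
  unfold Crest.AlgebraR.LPP.gradedBetti rk cc
  omega

theorem betti_zero (I : Ideal (MvPolynomial (Fin n) ℂ)) (j : ℕ) :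
    Crest.AlgebraR.LPP.gradedBetti I 0 j + ee (xv ℂ n) (I.restrictScalars ℂ) 0 j =
      cc (⊤ : Submodule ℂ (PD ℂ n)) 0 j := by
  have h1 := betti_add I 0 j
  have h2 := rk_succ I 0 j
  have h3 := rk_zero I j
  omega

theorem betti_succ (I : Ideal (MvPolynomial (Fin n) ℂ)) (p j : ℕ) :
    Crest.AlgebraR.LPP.gradedBetti I (p + 1) j + ee (xv ℂ n) (I.restrictScalars ℂ) p j +
        ee (xv ℂ n) (I.restrictScalars ℂ) (p + 1) j =
      cc (⊤ : Submodule ℂ (PD ℂ n)) (p + 1) j + cc (I.restrictScalars ℂ) p j := by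
  have h1 := betti_add I (p + 1) j
  have h2 := rk_succ I p j
  have h3 := rk_succ I (p + 1) j
  omega

theorem betti_le {I J : Ideal (MvPolynomial (Fin n) ℂ)}
    (hh : ∀ e, hf (J.restrictScalars ℂ) e = hf (I.restrictScalars ℂ) e)
    (he : ∀ p j, ee (xv ℂ n) (J.restrictScalars ℂ) p j ≤ ee (xv ℂ n) (I.restrictScalars ℂ) p j)
    (p j : ℕ) : Crest.AlgebraR.LPP.gradedBetti I p j ≤ Crest.AlgebraR.LPP.gradedBetti J p j := by
  cases p with
  | zero =>
    have h1 := betti_zero I j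
    have h2 := betti_zero J j
    have h3 := he 0 j
    omega
  | succ p =>
    have h1 := betti_succ I p j
    have h2 := betti_succ J p j
    have h3 := he p j
    have h4 := he (p + 1) j
    have h5 : cc (J.restrictScalars ℂ) p j = cc (I.restrictScalars ℂ) p j := by
      rw [cc_eq, cc_eq, hh]
    omega

end Crest.Agent.R181
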