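import Mathlib
import Crest.Prelude.Def_LexPlusPowers

/-!
# Row 181, parts (D), (E), (F): definitions (helper33)

`PD D n` is the polynomial ring over a (possibly non-commutative) ring `D` in `n` central variables.
All modules are LEFT `D`-modules; linear forms `y t` act by RIGHT multiplication.
Graded Betti numbers are compared through the numbers
`ee y N p j = dim (d K_{p+1,j}(PD) + K_{p,j}(N))` (no quotients, no long exact sequences).
-/

set_option autoImplicit false

namespace Crest.Agent.R181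

/-- exponent vectors -/
abbrev Mon (n : ℕ) := Fin n →₀ ℕ

/-- polynomials over `D` in `n` central variables -/
abbrev PD (D : Type*) [Semiring D] (n : ℕ) := AddMonoidAlgebra D (Mon n)

/-- functions on sets of variables (all Koszul chains live here) -/
abbrev KF (D : Type*) [Semiring D] (n : ℕ) := Finset (Fin n) → PD D n

/-- extension of coefficients -/
noncomputable def iota (D : Type*) [DivisionRing D] [Algebra ℂ D] (n : ℕ) :
    MvPolynomial (Fin n) ℂ →+* PD D n :=
  AddMonoidAlgebra.mapRingHom (Mon n) (algebraMap ℂ D)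

/-- the variables -/
noncomputable def xv (D : Type*) [Semiring D] (n : ℕ) (t : Fin n) : PD D n :=
  AddMonoidAlgebra.single (Finsupp.single t 1) 1

/-- polynomials supported on a set of monomials -/
noncomputable def supp (D : Type*) [Semiring D] {n : ℕ} (X : Set (Mon n)) : Submodule D (PD D n) :=
  AddMonoidAlgebra.supported D D X

/-- monomials of degree `e` -/
def deg (n e : ℕ) : Set (Mon n) := {m | m.degree = e}

/-- number of monomials of degree `e` in `X` -/
noncomputable def cnt {n : ℕ} (X : Set (Mon n)) (e : ℕ) : ℕ := (X ∩ deg n e).ncard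

/-- homogeneous component of degree `e` -/
noncomputable def hc (D : Type*) [Semiring D] {n : ℕ} (e : ℕ) (g : PD D n) : PD D n :=
  AddMonoidAlgebra.ofCoeff (g.coeff.filter (fun m => m.degree = e))

/-- graded subspaces -/
def Gr {D : Type*} [Semiring D] {n : ℕ} (N : Submodule D (PD D n)) : Prop :=
  ∀ g ∈ N, ∀ e, hc D e g ∈ N

/-- Hilbert function of a subspace -/
noncomputable def hf {D : Type*} [Semiring D] {n : ℕ} (N : Submodule D (PD D n)) (e : ℕ) : ℕ :=
  Module.finrank D ↥(N ⊓ supp D (deg n e))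

/-- a family of linear forms -/
def IsLin {D : Type*} [Semiring D] {n : ℕ} (y : Fin n → PD D n) : Prop :=
  ∀ i, y i ∈ supp D (deg n 1)

/-- Koszul differential for right multiplication by the `y t` -/
noncomputable def kos {D : Type*} [Ring D] {n : ℕ} (y : Fin n → PD D n) : KF D n →ₗ[D] KF D n :=
  LinearMap.pi fun U : Finset (Fin n) =>
    ∑ t ∈ Uᶜ, ((-1 : ℤ) ^ (U.filter (· < t)).card) •
      (LinearMap.mulRight D (y t) ∘ₗ LinearMap.proj (insert t U))

/-- chains of bidegree `(p, j)` with values in `N` -/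
noncomputable def ch {D : Type*} [Semiring D] {n : ℕ} (N : Submodule D (PD D n)) (p j : ℕ) :
    Submodule D (KF D n) :=
  Submodule.pi Set.univ fun U : Finset (Fin n) =>
    if U.card = p ∧ p ≤ j then N ⊓ supp D (deg n (j - p)) else ⊥

/-- dimension of the chains -/
noncomputable def cc {D : Type*} [Semiring D] {n : ℕ} (N : Submodule D (PD D n)) (p j : ℕ) : ℕ :=
  Module.finrank D ↥(ch N p j)

/-- `dim (d K_{p+1,j}(M) + K_{p,j}(N))` -/
noncomputable def g2 {D : Type*} [Ring D] {n : ℕ} (y : Fin n → PD D n)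
    (M N : Submodule D (PD D n)) (p j : ℕ) : ℕ :=
  Module.finrank D ↥((ch M (p + 1) j).map (kos y) ⊔ ch N p j)

/-- `dim (d K_{p+1,j}(PD) + K_{p,j}(N))` -/
noncomputable def ee {D : Type*} [Ring D] {n : ℕ} (y : Fin n → PD D n)
    (N : Submodule D (PD D n)) (p j : ℕ) : ℕ :=
  g2 y ⊤ N p j

/-- `ee` of the complex monomial subspace spanned by `J` -/
noncomputable def em {n : ℕ} (J : Set (Mon n)) (p j : ℕ) : ℕ :=
  ee (xv ℂ n) (supp ℂ J) p j

/-- base change of a complex subspace -/
noncomputable def bc (D : Type*) [DivisionRing D] [Algebra ℂ D] {n : ℕ}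
    (N : Submodule ℂ (PD ℂ n)) : Submodule D (PD D n) :=
  Submodule.span D (iota D n '' (N : Set (PD ℂ n)))

/-- ordered monomial in the `y` -/
noncomputable def ymon {D : Type*} [Semiring D] {n : ℕ} (y : Fin n → PD D n) (m : Mon n) : PD D n :=
  (List.ofFn fun i => y i ^ m i).prod

/-- substitution `x^m ↦ y^m`, left `D`-linear -/
noncomputable def theta {D : Type*} [Semiring D] {n : ℕ} (y : Fin n → PD D n) :
    PD D n →ₗ[D] PD D n :=
  Finsupp.linearCombination D (ymon y) ∘ₗ (AddMonoidAlgebra.coeffLinearEquiv D).toLinearMap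

/-- `m` is the lexicographically largest monomial of `g` -/
def IsLead {D : Type*} [Semiring D] {n : ℕ} (g : PD D n) (m : Mon n) : Prop :=
  g.coeff m ≠ 0 ∧ ∀ m', g.coeff m' ≠ 0 → toLex m' ≤ toLex m

/-- leading monomials of a subspace -/
def inSet {D : Type*} [Semiring D] {n : ℕ} (N : Submodule D (PD D n)) : Set (Mon n) :=
  {m | ∃ g ∈ N, IsLead g m}

/-- the monomial ideal of a set of exponents -/
noncomputable def monI {n : ℕ} (J : Set (Mon n)) : Ideal (MvPolynomial (Fin n) ℂ) :=
  Ideal.span ((fun m => MvPolynomial.monomial m (1 : ℂ)) '' J)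

/-- monomials outside the pure-powers ideal -/
def box {n : ℕ} (a : Fin n → ℕ) : Set (Mon n) := {m | ∀ i, m i < a i}

/-- `J` contains all monomials of the pure-powers ideal -/
def HasP {n : ℕ} (a : Fin n → ℕ) (J : Set (Mon n)) : Prop := ∀ m, m ∉ box a → m ∈ J

/-- inside the box, `L` is a lex segment in every degree -/
def IsLPP {n : ℕ} (a : Fin n → ℕ) (L : Set (Mon n)) : Prop :=
  ∀ m ∈ L, m ∈ box a → ∀ m' : Mon n, m'.degree = m.degree → toLex m ≤ toLex m' → m' ∈ L

/-- append a last exponent -/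
noncomputable def sn {n : ℕ} (m : Mon n) (i : ℕ) : Mon (n + 1) :=
  Finsupp.equivFunOnFinite.symm (Fin.snoc (α := fun _ => ℕ) m i)

/-- drop the last exponent -/
noncomputable def ini {n : ℕ} (m : Mon (n + 1)) : Mon n :=
  Finsupp.equivFunOnFinite.symm fun i => m i.castSucc

/-- the slice of `J` with last exponent `i` -/
def slice {n : ℕ} (J : Set (Mon (n + 1))) (i : ℕ) : Set (Mon n) := {m | sn m i ∈ J}

/-- stability with respect to the last variable `z`: `m z^(i+1) ∈ J`, `i+1 < a` give `m x_k z^i ∈ J` -/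
def ZSt {n : ℕ} (a : ℕ) (J : Set (Mon (n + 1))) : Prop :=
  ∀ i, i + 1 < a → ∀ m ∈ slice J (i + 1), ∀ k : Fin n, m + Finsupp.single k 1 ∈ slice J i

/-- number of monomials of degree `e` in `X` with last exponent at most `s` -/
noncomputable def cntLe {n : ℕ} (X : Set (Mon (n + 1))) (e s : ℕ) : ℕ :=
  cnt (X ∩ {m | m (Fin.last n) ≤ s}) e

/-- the conclusion of S0271 -/
def Concl {n : ℕ} (a : Fin n → ℕ) (I : Ideal (MvPolynomial (Fin n) ℂ)) : Prop :=
  ∃ U : ℕ → Set (Fin n →₀ ℕ), (∀ d, Crest.AlgebraR.LPP.IsLexSegment n d (U d)) ∧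
    (∀ d, Module.finrank ℂ (Crest.AlgebraR.LPP.lppPiece a (U d) d) =
      Module.finrank ℂ (Crest.AlgebraR.LPP.degreePiece I d)) ∧
    ∃ J : Ideal (MvPolynomial (Fin n) ℂ),
      (∀ g ∈ J, ∀ d : ℕ, MvPolynomial.homogeneousComponent d g ∈ J) ∧
      (∀ d, Crest.AlgebraR.LPP.degreePiece J d = Crest.AlgebraR.LPP.lppPiece a (U d) d) ∧
      ∀ p j : ℕ, Crest.AlgebraR.LPP.gradedBetti I p j ≤ Crest.AlgebraR.LPP.gradedBetti J p j

end Crest.Agent.R181
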