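import Crest.Agent.R181.KBasic

/-! # Basic facts on the Koszul differential `kos` and the numbers `g2`, `ee` (task K2) -/

set_option autoImplicit false

namespace Crest.Agent.R181

open Finset

variable {D : Type*} {n : ℕ}

theorem kos_apply [Ring D] (y : Fin n → PD D n) (f : KF D n) (U : Finset (Fin n)) :
    kos y f U = ∑ t ∈ Uᶜ, ((-1 : ℤ) ^ (U.filter (· < t)).card) • (f (insert t U) * y t) := by
  simp [kos, LinearMap.sum_apply]

theorem sum_erase_antisymm {ι M : Type*} [LinearOrder ι] [AddCommGroup M] (A : Finset ι)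
    (G : ι → ι → M) (h : ∀ s ∈ A, ∀ t ∈ A, s < t → G t s + G s t = 0) :
    ∑ t ∈ A, ∑ s ∈ A.erase t, G t s = 0 := by
  rw [Finset.sum_sigma']
  refine Finset.sum_involution (fun x _ => ⟨x.2, x.1⟩) ?_ ?_ ?_ ?_
  · rintro ⟨t, s⟩ hx
    simp only [Finset.mem_sigma, Finset.mem_erase] at hx
    rcases lt_or_gt_of_ne hx.2.1 with hlt | hlt
    · exact h s hx.2.2 t hx.1 hlt
    · rw [add_comm]; exact h t hx.1 s hx.2.2 hlt
  · rintro ⟨t, s⟩ hx _ he
    simp only [Finset.mem_sigma, Finset.mem_erase] at hx
    exact hx.2.1 (congrArg Sigma.fst he)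
  · rintro ⟨t, s⟩ hx
    simp only [Finset.mem_sigma, Finset.mem_erase] at hx ⊢
    exact ⟨hx.2.2, Ne.symm hx.2.1, hx.1⟩
  · rintro ⟨t, s⟩ _
    rfl

/-- `d ∘ d = 0`: the terms `(s, t)` and `(t, s)` cancel (`Finset.sum_involution` on the
off-diagonal pairs, or split into `s < t` and `t < s`). -/
theorem kos_kos [Ring D] {y : Fin n → PD D n} (hcomm : ∀ i j, Commute (y i) (y j)) (f : KF D n) :
    kos y (kos y f) = 0 := by
  funext U
  rw [kos_apply]
  simp only [kos_apply, Finset.sum_mul, Finset.smul_sum, Finset.compl_insert, smul_mul_assoc,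
    smul_smul, Pi.zero_apply]
  refine sum_erase_antisymm _ _ fun s hs t ht hst => ?_
  have hsU : s ∉ U := Finset.mem_compl.1 hs
  have h1 : (insert t U).filter (· < s) = U.filter (· < s) := by
    rw [Finset.filter_insert, if_neg (not_lt.2 hst.le)]
  have h2 : ((insert s U).filter (· < t)).card = (U.filter (· < t)).card + 1 := by
    rw [Finset.filter_insert, if_pos hst, Finset.card_insert_of_notMem]
    exact fun h => hsU (Finset.mem_filter.1 h).1
  rw [h1, h2, Finset.insert_comm t s U, mul_assoc, mul_assoc, (hcomm t s).eq, ← add_smul]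
  have : (-1 : ℤ) ^ (U.filter (· < t)).card * (-1) ^ (U.filter (· < s)).card +
      (-1) ^ (U.filter (· < s)).card * (-1) ^ ((U.filter (· < t)).card + 1) = 0 := by ring
  rw [this, zero_smul]

theorem kos_mem_ch [Ring D] {y : Fin n → PD D n} (hy : IsLin y) {M N : Submodule D (PD D n)}
    (hMN : ∀ g ∈ M, ∀ t, g * y t ∈ N) {p j : ℕ} {f : KF D n} (hf : f ∈ ch M (p + 1) j) :
    kos y f ∈ ch N p j := by
  rw [mem_ch] at hf ⊢
  intro U
  rw [kos_apply]
  refine ⟨fun hU => ?_, fun hU => ?_⟩
  · have key : ∀ t ∈ Uᶜ, f (insert t U) * y t ∈ N ⊓ supp D (deg n (j - p)) := by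
      intro t ht
      have hc : (insert t U).card = p + 1 := by
        rw [Finset.card_insert_of_notMem (Finset.mem_compl.1 ht), hU.1]
      by_cases hj : p + 1 ≤ j
      · obtain ⟨h1, h2⟩ := (hf (insert t U)).1 ⟨hc, hj⟩
        refine ⟨hMN _ h1 t, ?_⟩
        have := mul_mem_deg h2 (hy t)
        rwa [show j - (p + 1) + 1 = j - p by omega] at this
      · rw [(hf (insert t U)).2 (fun h => hj h.2), zero_mul]
        exact Submodule.zero_mem _
    exact Submodule.sum_mem (N ⊓ supp D (deg n (j - p))) fun t ht => zsmul_mem (key t ht) _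
  · refine Finset.sum_eq_zero fun t ht => ?_
    have hc : (insert t U).card = U.card + 1 :=
      Finset.card_insert_of_notMem (Finset.mem_compl.1 ht)
    rw [(hf (insert t U)).2 (fun h => hU ⟨by omega, by omega⟩), zero_mul, smul_zero]

theorem kos_ch_zero [Ring D] (y : Fin n → PD D n) {M : Submodule D (PD D n)} {j : ℕ} {f : KF D n}
    (hf : f ∈ ch M 0 j) : kos y f = 0 := by
  rw [mem_ch] at hf
  funext U
  rw [kos_apply]
  refine Finset.sum_eq_zero fun t ht => ?_
  have hc : (insert t U).card = U.card + 1 :=
    Finset.card_insert_of_notMem (Finset.mem_compl.1 ht)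
  rw [(hf (insert t U)).2 (fun h => by omega), zero_mul, smul_zero]

instance finite_g2 [DivisionRing D] (y : Fin n → PD D n) (M N : Submodule D (PD D n)) (p j : ℕ) :
    Module.Finite D ↥((ch M (p + 1) j).map (kos y) ⊔ ch N p j) := by
  haveI : Module.Finite D ↥((ch M (p + 1) j).map (kos y)) := Module.Finite.map _ _
  infer_instance

theorem g2_mono [DivisionRing D] (y : Fin n → PD D n) {M M' N N' : Submodule D (PD D n)}
    (hM : M ≤ M') (hN : N ≤ N') (p j : ℕ) : g2 y M N p j ≤ g2 y M' N' p j := by
  exact Submodule.finrank_mono (sup_le_sup (Submodule.map_mono (ch_mono hM _ _)) (ch_mono hN _ _))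

theorem cc_le_g2 [DivisionRing D] (y : Fin n → PD D n) (M N : Submodule D (PD D n)) (p j : ℕ) :
    cc N p j ≤ g2 y M N p j := by
  exact Submodule.finrank_mono le_sup_right

theorem g2_eq_cc [DivisionRing D] {y : Fin n → PD D n} (hy : IsLin y) {M N : Submodule D (PD D n)}
    (hMN : ∀ g ∈ M, ∀ t, g * y t ∈ N) (p j : ℕ) : g2 y M N p j = cc N p j := by
  have : (ch M (p + 1) j).map (kos y) ≤ ch N p j := by
    rintro _ ⟨f, hf, rfl⟩
    exact kos_mem_ch hy hMN hf
  unfold g2 cc
  rw [sup_eq_right.2 this]

theorem ee_mono [DivisionRing D] (y : Fin n → PD D n) {N N' : Submodule D (PD D n)}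
    (hN : N ≤ N') (p j : ℕ) : ee y N p j ≤ ee y N' p j := by
  exact g2_mono y le_rfl hN p j

/-- `dim (X + B) + dim A ≤ dim (X + A) + dim B` for `A ≤ B`
(`Submodule.finrank_sup_add_finrank_inf_eq` for `X + A` and `B`). -/
theorem ee_submod [DivisionRing D] (y : Fin n → PD D n) {N N' : Submodule D (PD D n)}
    (hN : N ≤ N') (p j : ℕ) : ee y N' p j + cc N p j ≤ ee y N p j + cc N' p j := by
  have h1 := Submodule.finrank_sup_add_finrank_inf_eq
    ((ch (⊤ : Submodule D (PD D n)) (p + 1) j).map (kos y) ⊔ ch N p j) (ch N' p j)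
  rw [sup_assoc, sup_eq_right.2 (ch_mono hN p j)] at h1
  have h2 : Module.finrank D (ch N p j) ≤ Module.finrank D
      ↥(((ch (⊤ : Submodule D (PD D n)) (p + 1) j).map (kos y) ⊔ ch N p j) ⊓ ch N' p j) := by
    haveI : Module.Finite D
        ↥(((ch (⊤ : Submodule D (PD D n)) (p + 1) j).map (kos y) ⊔ ch N p j) ⊓ ch N' p j) :=
      Submodule.finiteDimensional_of_le inf_le_right
    exact Submodule.finrank_mono (le_inf le_sup_right (ch_mono hN p j))
  unfold ee g2 cc
  omega

/-- homological degree zero: for `j ≥ 1` the boundaries are all forms of degree `j`. -/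
theorem ee_zero [DivisionRing D] (N : Submodule D (PD D n)) (j : ℕ) :
    ee (xv D n) N 0 j = if j = 0 then hf N 0 else hf (⊤ : Submodule D (PD D n)) j := by
  classical
  split_ifs with hj
  · subst hj
    have h0 : (ch (⊤ : Submodule D (PD D n)) (0 + 1) 0).map (kos (xv D n)) = ⊥ := by
      rw [eq_bot_iff]
      rintro _ ⟨f, hf, rfl⟩
      have : f = 0 := funext fun U => (mem_ch.1 hf U).2 (fun h => by omega)
      rw [this, map_zero]
      exact Submodule.zero_mem _
    have h1 := cc_eq N 0 0
    unfold ee g2
    rw [h0, bot_sup_eq]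
    simpa [cc] using h1
  · have h0 : (ch (⊤ : Submodule D (PD D n)) (0 + 1) j).map (kos (xv D n)) ⊔ ch N 0 j =
        ch (⊤ : Submodule D (PD D n)) 0 j := by
      refine le_antisymm (sup_le ?_ (ch_mono le_top _ _)) (le_sup_of_le_left ?_)
      · rintro _ ⟨f, hf, rfl⟩
        exact kos_mem_ch isLin_xv (fun _ _ _ => Submodule.mem_top) hf
      · intro f hf
        have key : supp D (deg n j) ≤
            ((ch (⊤ : Submodule D (PD D n)) (0 + 1) j).map (kos (xv D n))).comap
              (LinearMap.single D (fun _ : Finset (Fin n) => PD D n) ∅) := by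
          rw [supp_eq_span, Submodule.span_le]
          rintro _ ⟨m, hm, rfl⟩
          have hm' : m.degree = j := hm
          have hm0 : m ≠ 0 := by
            rintro rfl
            exact hj (by simpa using hm'.symm)
          obtain ⟨t, ht⟩ : ∃ t, m t ≠ 0 := by
            by_contra hc
            push Not at hc
            exact hm0 (Finsupp.ext hc)
          obtain ⟨m', rfl⟩ : ∃ m', m = m' + Finsupp.single t 1 := by
            refine ⟨m - Finsupp.single t 1, (tsub_add_cancel_of_le ?_).symm⟩
            rw [Finsupp.single_le_iff]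
            omega
          have hd : m'.degree = j - (0 + 1) := by
            rw [map_add, Finsupp.degree_single] at hm'
            omega
          have hmem : (Pi.single {t} (AddMonoidAlgebra.single m' (1 : D)) : KF D n) ∈
              ch (⊤ : Submodule D (PD D n)) (0 + 1) j := by
            rw [mem_ch]
            intro U
            refine ⟨fun _ => ⟨Submodule.mem_top, ?_⟩, fun hU => ?_⟩
            · by_cases hUt : U = {t}
              · subst hUt
                rw [Pi.single_eq_same]
                exact single_mem_supp hd _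
              · rw [Pi.single_eq_of_ne hUt]
                exact Submodule.zero_mem _
            · refine Pi.single_eq_of_ne ?_ _
              rintro rfl
              exact hU ⟨by simp, by omega⟩
          refine ⟨_, hmem, ?_⟩
          have hk := kos_mem_ch (N := ⊤) isLin_xv (fun _ _ _ => Submodule.mem_top) hmem
          funext U
          by_cases hU : U = ∅
          · subst hU
            rw [kos_apply, Finset.sum_eq_single t]
            · simp [xv, AddMonoidAlgebra.single_mul_single]
            · intro s _ hs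
              rw [Pi.single_eq_of_ne, zero_mul, smul_zero]
              simpa using hs
            · simp
          · rw [(mem_ch.1 hk U).2 (fun h => hU (Finset.card_eq_zero.1 h.1))]
            simp [Pi.single_eq_of_ne hU]
        have h1 := key ((mem_ch.1 hf ∅).1 ⟨rfl, Nat.zero_le _⟩).2
        rw [Submodule.mem_comap] at h1
        convert h1 using 1
        funext U
        by_cases hU : U = ∅
        · subst hU; simp
        · rw [(mem_ch.1 hf U).2 (fun h => hU (Finset.card_eq_zero.1 h.1))]
          simp [Pi.single_eq_of_ne hU]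
    have h1 := cc_eq (⊤ : Submodule D (PD D n)) 0 j
    unfold ee g2
    rw [h0]
    simpa [cc] using h1

end Crest.Agent.R181
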